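import Vale.Agent.Lib.P309.Defs

/-!
# P309, module GAUSS: elementary Gaussian facts
-/

namespace Vale.Agent.P309

open MeasureTheory ProbabilityTheory
open scoped ENNReal RealInnerProductSpace

theorem phi_pos {r : ℝ} (hr : 0 < r) (x : ℝ) : 0 < phi r x := by
  unfold phi
  positivity

theorem phi_le {r : ℝ} (hr : 0 < r) (x : ℝ) : phi r x ≤ (Real.sqrt (2 * Real.pi) * r)⁻¹ := by
  unfold phi
  have h1 : Real.exp (-(x ^ 2) / (2 * r ^ 2)) ≤ 1 := by
    apply Real.exp_le_one_iff.2
    have : 0 ≤ x ^ 2 / (2 * r ^ 2) := by positivity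
    rw [neg_div]
    linarith
  have h2 : 0 ≤ (Real.sqrt (2 * Real.pi) * r)⁻¹ := by positivity
  calc (Real.sqrt (2 * Real.pi) * r)⁻¹ * Real.exp (-(x ^ 2) / (2 * r ^ 2))
      ≤ (Real.sqrt (2 * Real.pi) * r)⁻¹ * 1 := by gcongr
    _ = _ := mul_one _

theorem measurable_phi (r : ℝ) : Measurable (phi r) := by
  unfold phi
  fun_prop

theorem lintegral_pi_prod {n : ℕ} {X : Type} [MeasurableSpace X] (μ : Fin n → Measure X)
    [∀ i, SigmaFinite (μ i)] (f : Fin n → X → ℝ≥0∞) (hf : ∀ i, Measurable (f i)) :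
    ∫⁻ x, ∏ i, f i (x i) ∂(Measure.pi μ) = ∏ i, ∫⁻ x, f i x ∂(μ i) := by
  induction n with
  | zero => simp
  | succ n n_ih =>
      have hm : Measurable fun x : (Fin n → X) => ∏ i : Fin n, f (Fin.succ i) (x i) := by
        fun_prop
      calc
        _ = ∫⁻ x : X × (Fin n → X),
            f 0 x.1 * ∏ i : Fin n, f (Fin.succ i) (x.2 i)
            ∂((μ 0).prod (Measure.pi (fun i ↦ μ i.succ))) := by
          rw [← ((measurePreserving_piFinSuccAbove μ 0).symm).lintegral_comp_emb
            (MeasurableEquiv.measurableEmbedding _)]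
          simp_rw [MeasurableEquiv.piFinSuccAbove_symm_apply, Fin.insertNthEquiv,
            Fin.prod_univ_succ, Fin.insertNth_zero, Equiv.coe_fn_mk, Fin.cons_succ,
            Fin.zero_succAbove, cast_eq, Fin.cons_zero]
        _ = (∫⁻ x, f 0 x ∂μ 0)
            * ∏ i : Fin n, ∫⁻ (x : X), f (Fin.succ i) x ∂(μ i.succ) := by
          rw [← n_ih _ _ (fun i => hf i.succ),
            ← lintegral_prod_mul (hf 0).aemeasurable hm.aemeasurable]
        _ = ∏ i, ∫⁻ x, f i x ∂(μ i) := by rw [Fin.prod_univ_succ]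

/-- `N(c, r^2)` -/
theorem map_affine {r : ℝ} (hr : 0 < r) (c : ℝ) :
    (gaussianReal 0 1).map (fun g => c + r * g) =
      volume.withDensity (fun y => ENNReal.ofReal (phi r (y - c))) := by
  have h1 : (fun g : ℝ => c + r * g) = (fun y => c + y) ∘ (fun g => r * g) := rfl
  rw [h1, ← Measure.map_map (by fun_prop) (by fun_prop), gaussianReal_map_const_mul,
    gaussianReal_map_const_add, gaussianReal_of_var_ne_zero]
  · congr 1
    funext y
    rw [gaussianPDF_def, gaussianPDFReal_def]
    simp only [mul_zero, zero_add, mul_one, NNReal.coe_mk]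
    unfold phi
    congr 2
    rw [Real.sqrt_mul' _ (sq_nonneg r), Real.sqrt_sq hr.le]
  · intro h
    have := congrArg NNReal.toReal h
    simp at this
    exact hr.ne' this

/-- `φ_r(y-c) dy` is the law of `c + r g`. -/
theorem lintegral_phi {r : ℝ} (hr : 0 < r) (c : ℝ) {F : ℝ → ℝ≥0∞} (hF : Measurable F) :
    ∫⁻ y, ENNReal.ofReal (phi r (y - c)) * F y = ∫⁻ g, F (c + r * g) ∂(gaussianReal 0 1) := by
  have hphi := measurable_phi r
  have h := lintegral_map (μ := gaussianReal 0 1) hF
    (show Measurable (fun g : ℝ => c + r * g) by fun_prop)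
  rw [← h, map_affine hr, lintegral_withDensity_eq_lintegral_mul _ (by fun_prop) hF]
  rfl

theorem measurable_winK {d n : ℕ} (r : ℝ) :
    Measurable (Function.uncurry (winK (d := d) (n := n) r)) := by
  have hphi := measurable_phi r
  unfold winK Function.uncurry
  fun_prop

/-- volume version for vectors -/
theorem lintegral_phi_pi {n : ℕ} {r : ℝ} (hr : 0 < r) (c : Fin n → ℝ) {F : (Fin n → ℝ) → ℝ≥0∞}
    (hF : Measurable F) :
    ∫⁻ y, (∏ i, ENNReal.ofReal (phi r (y i - c i))) * F y =
      ∫⁻ g, F (fun i => c i + r * g i) ∂(gs n) := by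
  have hphi := measurable_phi r
  have hmap : (gs n).map (fun g i => c i + r * g i) =
      (volume : Measure (Fin n → ℝ)).withDensity
        (fun y => ∏ i, ENNReal.ofReal (phi r (y i - c i))) := by
    unfold gs
    have hp : ∀ i : Fin n, IsProbabilityMeasure
        ((gaussianReal 0 1).map (fun g => c i + r * g)) := fun i =>
      Measure.isProbabilityMeasure_map (by fun_prop)
    rw [Measure.pi_map_pi (μ := fun _ : Fin n => gaussianReal 0 1)
      (f := fun (i : Fin n) g => c i + r * g) (fun i => by fun_prop)]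
    refine (Measure.pi_eq fun s hs => ?_)
    rw [withDensity_apply _ (MeasurableSet.univ_pi hs), ← lintegral_indicator
      (MeasurableSet.univ_pi hs)]
    have h2 : ∀ y : Fin n → ℝ, (Set.univ.pi s).indicator
        (fun y : Fin n → ℝ => ∏ i, ENNReal.ofReal (phi r (y i - c i))) y =
        ∏ i, (s i).indicator (fun z => ENNReal.ofReal (phi r (z - c i))) (y i) := by
      intro y
      by_cases hy : y ∈ Set.univ.pi s
      · rw [Set.indicator_of_mem hy]
        apply Finset.prod_congr rfl
        intro i _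
        rw [Set.indicator_of_mem (hy i (Set.mem_univ i))]
      · rw [Set.indicator_of_notMem hy]
        simp only [Set.mem_pi, Set.mem_univ, true_implies, not_forall] at hy
        obtain ⟨i, hi⟩ := hy
        symm
        apply Finset.prod_eq_zero (Finset.mem_univ i)
        rw [Set.indicator_of_notMem hi]
    simp_rw [h2]
    rw [volume_pi, lintegral_pi_prod (fun _ => volume)
      (fun i => (s i).indicator (fun z => ENNReal.ofReal (phi r (z - c i))))
      (fun i => Measurable.indicator (by fun_prop) (hs i))]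
    apply Finset.prod_congr rfl
    intro i _
    rw [map_affine hr, withDensity_apply _ (hs i), lintegral_indicator (hs i)]
  have h := lintegral_map (μ := gs n) hF
    (show Measurable (fun (g : Fin n → ℝ) i => c i + r * g i) by fun_prop)
  rw [← h, hmap, lintegral_withDensity_eq_lintegral_mul _ (by fun_prop) hF]
  rfl

instance rows_prob {d n : ℕ} : IsProbabilityMeasure (rows d n) := by
  unfold rows
  infer_instance

instance gs_prob {n : ℕ} : IsProbabilityMeasure (gs n) := by
  unfold gs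
  infer_instance

instance xiM_prob {d B k : ℕ} : IsProbabilityMeasure (xiM d B k) := by
  unfold xiM
  infer_instance

instance unif_prob {d : ℕ} : IsProbabilityMeasure (unif d) := by
  unfold unif
  exact Measure.isProbabilityMeasure_map (by fun_prop)

/-- A window with density `winK r s` is `(X, X s + r g)`. -/
theorem lintegral_winK {d n : ℕ} {r : ℝ} (hr : 0 < r) (s : E d) {F : Win d n → ℝ≥0∞}
    (hF : Measurable F) :
    ∫⁻ u, winK r s u * F u ∂(winM d n) =
      ∫⁻ X, ∫⁻ g, F (X, fun i => ⟪X i, s⟫ + r * g i) ∂(gs n) ∂(rows d n) := by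
  have hphi := measurable_phi r
  have hw : Measurable (fun u : Win d n => winK r s u) := by
    unfold winK
    fun_prop
  have hm : ∀ X : Fin n → E d, Measurable fun y : Fin n → ℝ => F (X, y) := fun X =>
    hF.comp measurable_prodMk_left
  unfold winM
  rw [lintegral_prod (fun u : Win d n => winK r s u * F u) (hw.mul hF).aemeasurable]
  refine lintegral_congr fun X => ?_
  exact lintegral_phi_pi hr (fun i => ⟪X i, s⟫) (hm X)

section

variable {H : Type} [NormedAddCommGroup H] [InnerProductSpace ℝ H] [FiniteDimensional ℝ H]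
  [MeasurableSpace H] [BorelSpace H]

/-- Resampling the component along a unit vector. -/
theorem resample (u : H) (hu : ‖u‖ = 1) :
    ((stdGaussian H).prod (gaussianReal 0 1)).map (fun p => p.1 + (p.2 - ⟪p.1, u⟫) • u) =
      stdGaussian H := by
  have hmeas : Measurable (fun p : H × ℝ => p.1 + (p.2 - ⟪p.1, u⟫) • u) := by fun_prop
  have : IsProbabilityMeasure
      (((stdGaussian H).prod (gaussianReal 0 1)).map
        (fun p : H × ℝ => p.1 + (p.2 - ⟪p.1, u⟫) • u)) :=
    Measure.isProbabilityMeasure_map hmeas.aemeasurable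
  apply Measure.ext_of_charFun
  ext t
  rw [charFun_stdGaussian, charFun_apply, integral_map hmeas.aemeasurable
    (Measurable.aestronglyMeasurable (by fun_prop))]
  have h1 : ∀ p : H × ℝ, Complex.exp (⟪p.1 + (p.2 - ⟪p.1, u⟫) • u, t⟫ * Complex.I) =
      Complex.exp (⟪p.1, t - ⟪u, t⟫ • u⟫ * Complex.I) *
        Complex.exp (⟪u, t⟫ * p.2 * Complex.I) := by
    intro p
    rw [← Complex.exp_add]
    congr 1
    rw [← add_mul]
    congr 1
    norm_cast
    rw [inner_add_left, real_inner_smul_left, inner_sub_right, real_inner_smul_right]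
    ring
  simp_rw [h1]
  rw [integral_prod_mul (μ := stdGaussian H) (ν := gaussianReal 0 1)
    (fun x : H => Complex.exp (⟪x, t - ⟪u, t⟫ • u⟫ * Complex.I))
    (fun y : ℝ => Complex.exp (⟪u, t⟫ * y * Complex.I)), ← charFun_apply, ← charFun_apply_real,
    charFun_stdGaussian, charFun_gaussianReal, ← Complex.exp_add]
  congr 1
  have h2 : ‖t - ⟪u, t⟫ • u‖ ^ 2 = ‖t‖ ^ 2 - ⟪u, t⟫ ^ 2 := by
    rw [norm_sub_sq_real, real_inner_smul_right, norm_smul, hu, real_inner_comm]
    simp
    ring
  have h3 : ((‖t - ⟪u, t⟫ • u‖ : ℝ) : ℂ) ^ 2 = (‖t‖ : ℂ) ^ 2 - (⟪u, t⟫ : ℂ) ^ 2 := by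
    exact_mod_cast h2
  rw [h3]
  simp
  ring

/-- The vector of components along orthonormal vectors is standard normal. -/
theorem map_orthonormal {m : ℕ} (e : Fin m → H) (he : Orthonormal ℝ e) :
    (stdGaussian H).map (fun ξ i => ⟪e i, ξ⟫) = Measure.pi (fun _ : Fin m => gaussianReal 0 1) := by
  have hmeas : Measurable (fun ξ : H => WithLp.toLp 2 (fun i => ⟪e i, ξ⟫ : Fin m → ℝ)) := by
    fun_prop
  have h0 : (stdGaussian H).map (fun ξ : H => WithLp.toLp 2 (fun i => ⟪e i, ξ⟫ : Fin m → ℝ)) =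
      stdGaussian (EuclideanSpace ℝ (Fin m)) := by
    have : IsProbabilityMeasure ((stdGaussian H).map
        (fun ξ : H => WithLp.toLp 2 (fun i => ⟪e i, ξ⟫ : Fin m → ℝ))) :=
      Measure.isProbabilityMeasure_map hmeas.aemeasurable
    apply Measure.ext_of_charFun
    ext t
    rw [charFun_stdGaussian, charFun_apply, integral_map hmeas.aemeasurable
      (Measurable.aestronglyMeasurable (by fun_prop))]
    have h1 : ∀ ξ : H, ⟪WithLp.toLp 2 (fun i => ⟪e i, ξ⟫ : Fin m → ℝ), t⟫ =
        ⟪ξ, ∑ i, t i • e i⟫ := by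
      intro ξ
      rw [inner_sum, EuclideanSpace.inner_eq_star_dotProduct]
      simp only [dotProduct, real_inner_smul_right]
      apply Finset.sum_congr rfl
      intro i _
      rw [real_inner_comm]
      simp
    simp_rw [h1]
    rw [← charFun_apply, charFun_stdGaussian]
    have h2 : ‖∑ i, t i • e i‖ ^ 2 = ‖t‖ ^ 2 := by
      rw [EuclideanSpace.real_norm_sq_eq, ← real_inner_self_eq_norm_sq, he.inner_sum]
      apply Finset.sum_congr rfl
      intro i _
      simp
      ring
    have h3 : ((‖∑ i, t i • e i‖ : ℝ) : ℂ) ^ 2 = (‖t‖ : ℂ) ^ 2 := by exact_mod_cast h2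
    rw [h3]
  have h4 := map_pi_eq_stdGaussian (ι := Fin m)
  rw [← h0] at h4
  have h5 := congrArg (fun μ => μ.map (fun x : EuclideanSpace ℝ (Fin m) => (fun i => x i))) h4
  simp only at h5
  rw [Measure.map_map (by fun_prop) (by fun_prop), Measure.map_map (by fun_prop) hmeas] at h5
  have h6 : ((fun (x : EuclideanSpace ℝ (Fin m)) i => x i) ∘ WithLp.toLp 2) = id := by
    ext x i
    simp
  rw [h6, Measure.map_id] at h5
  rw [h5]
  rfl

/-- Components along orthonormal vectors are independent standard normal. -/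
theorem lintegral_orthonormal {m : ℕ} (e : Fin m → H) (he : Orthonormal ℝ e)
    (h : Fin m → ℝ → ℝ≥0∞) (hh : ∀ i, Measurable (h i)) :
    ∫⁻ ξ, ∏ i, h i ⟪e i, ξ⟫ ∂(stdGaussian H) = ∏ i, ∫⁻ x, h i x ∂(gaussianReal 0 1) := by
  have h1 := lintegral_pi_prod (fun _ : Fin m => gaussianReal 0 1) h hh
  rw [← map_orthonormal e he, lintegral_map (by fun_prop) (by fun_prop)] at h1
  exact h1

theorem lintegral_exp_quarter :
    ∫⁻ x, ENNReal.ofReal (Real.exp (x ^ 2 / 4)) ∂(gaussianReal 0 1) ≤ 2 := by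
  rw [gaussianReal_of_var_ne_zero _ one_ne_zero, lintegral_withDensity_eq_lintegral_mul _
    (measurable_gaussianPDF _ _) (by fun_prop)]
  have h1 : ∀ x : ℝ, (gaussianPDF 0 1 * fun x => ENNReal.ofReal (Real.exp (x ^ 2 / 4))) x =
      ENNReal.ofReal ((Real.sqrt (2 * Real.pi))⁻¹ * Real.exp (-(1 / 4) * x ^ 2)) := by
    intro x
    rw [Pi.mul_apply, gaussianPDF_def, ← ENNReal.ofReal_mul (gaussianPDFReal_nonneg _ _ _),
      gaussianPDFReal_def]
    congr 1
    simp only [NNReal.coe_one, mul_one, sub_zero]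
    rw [mul_assoc, ← Real.exp_add]
    congr 2
    ring
  simp_rw [h1]
  rw [← ofReal_integral_eq_lintegral_ofReal]
  · rw [integral_const_mul, integral_gaussian]
    rw [show (2 : ℝ≥0∞) = ENNReal.ofReal 2 by simp]
    apply ENNReal.ofReal_le_ofReal
    rw [← Real.sqrt_inv, ← Real.sqrt_mul' _ (by positivity)]
    apply Real.sqrt_le_iff.2
    constructor
    · norm_num
    · have := Real.pi_pos
      field_simp
      norm_num
  · exact (integrable_exp_neg_mul_sq (by norm_num)).const_mul _
  · exact Filter.Eventually.of_forall fun x => by positivity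

theorem lintegral_exp_norm :
    ∫⁻ x, ENNReal.ofReal (Real.exp (‖x‖ ^ 2 / 4)) ∂(stdGaussian H) ≤
      2 ^ (Module.finrank ℝ H) := by
  have b := stdOrthonormalBasis ℝ H
  have h1 := lintegral_orthonormal (fun i => b i) b.orthonormal
    (fun _ x => ENNReal.ofReal (Real.exp (x ^ 2 / 4))) (fun _ => by fun_prop)
  have h2 : ∀ ξ : H, ENNReal.ofReal (Real.exp (‖ξ‖ ^ 2 / 4)) =
      ∏ i, ENNReal.ofReal (Real.exp (⟪b i, ξ⟫ ^ 2 / 4)) := by
    intro ξ
    rw [← ENNReal.ofReal_prod_of_nonneg (fun i _ => (Real.exp_pos _).le), ← Real.exp_sum,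
      ← Finset.sum_div]
    rw [b.sum_sq_inner_right]
  simp_rw [h2]
  rw [h1]
  calc _ ≤ ∏ i : Fin (Module.finrank ℝ H), (2 : ℝ≥0∞) :=
        Finset.prod_le_prod' fun i _ => lintegral_exp_quarter
    _ = _ := by simp

end

/-- Linear combinations of independent standard normal rows. -/
theorem rows_comb {d n : ℕ} (u : Fin n → ℝ) :
    (rows d n).map (fun X => ∑ i, u i • X i) =
      (stdGaussian (E d)).map (fun x => Real.sqrt (∑ i, u i ^ 2) • x) := by
  have hm1 : Measurable (fun X : Fin n → E d => ∑ i, u i • X i) := by fun_prop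
  have hm2 : Measurable (fun x : E d => Real.sqrt (∑ i, u i ^ 2) • x) := by fun_prop
  have : IsProbabilityMeasure ((rows d n).map (fun X : Fin n → E d => ∑ i, u i • X i)) :=
    Measure.isProbabilityMeasure_map hm1.aemeasurable
  have : IsProbabilityMeasure
      ((stdGaussian (E d)).map (fun x : E d => Real.sqrt (∑ i, u i ^ 2) • x)) :=
    Measure.isProbabilityMeasure_map hm2.aemeasurable
  apply Measure.ext_of_charFun
  ext t
  rw [charFun_map_smul, charFun_stdGaussian, charFun_apply, integral_map hm1.aemeasurable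
    (Measurable.aestronglyMeasurable (by fun_prop))]
  have h1 : ∀ X : Fin n → E d, Complex.exp (⟪∑ i, u i • X i, t⟫ * Complex.I) =
      ∏ i, Complex.exp (⟪X i, u i • t⟫ * Complex.I) := by
    intro X
    rw [← Complex.exp_sum, sum_inner, ← Finset.sum_mul]
    congr 2
    push_cast
    apply Finset.sum_congr rfl
    intro i _
    rw [real_inner_smul_left, real_inner_smul_right]
  simp_rw [h1]
  unfold rows
  rw [integral_fintype_prod_eq_prod
    (f := fun (i : Fin n) (x : E d) => Complex.exp (⟪x, u i • t⟫ * Complex.I))]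
  simp_rw [← charFun_apply, charFun_stdGaussian]
  rw [← Complex.exp_sum]
  congr 1
  simp_rw [norm_smul]
  push_cast
  rw [← Finset.sum_div, Finset.sum_neg_distrib]
  congr 2
  have h2 : ∑ i, (‖u i‖ * ‖t‖) ^ 2 = (‖Real.sqrt (∑ i, u i ^ 2)‖ * ‖t‖) ^ 2 := by
    rw [mul_pow, Real.norm_eq_abs, sq_abs, Real.sq_sqrt (Finset.sum_nonneg fun i _ => sq_nonneg _),
      Finset.sum_mul]
    apply Finset.sum_congr rfl
    intro i _
    rw [mul_pow, Real.norm_eq_abs, sq_abs]
  exact_mod_cast h2

theorem mom_aux : ∫⁻ x : ℝ, (Set.Ioc (0 : ℝ) 1).indicator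
    (fun x => ENNReal.ofReal (x ^ (-(1 / 2) : ℝ))) x = 2 := by
  rw [lintegral_indicator measurableSet_Ioc]
  have hi : IntervalIntegrable (fun x : ℝ => x ^ (-(1 / 2) : ℝ)) volume 0 1 :=
    intervalIntegral.intervalIntegrable_rpow' (by norm_num)
  rw [← ofReal_integral_eq_lintegral_ofReal]
  · rw [← intervalIntegral.integral_of_le zero_le_one, integral_rpow (Or.inl (by norm_num))]
    norm_num
  · exact (intervalIntegrable_iff_integrableOn_Ioc_of_le zero_le_one).1 hi
  · rw [Filter.EventuallyLE, ae_restrict_iff' measurableSet_Ioc]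
    refine Filter.Eventually.of_forall fun x hx => ?_
    exact Real.rpow_nonneg hx.1.le _

theorem mom_neg_half : ∫⁻ x, ENNReal.ofReal (|x| ^ (-(1 / 2) : ℝ)) ∂(gaussianReal 0 1) ≤ 3 := by
  have hpm := measurable_gaussianPDF 0 1
  set A : ℝ → ℝ≥0∞ := (Set.Ioc (0 : ℝ) 1).indicator
    (fun x => ENNReal.ofReal (x ^ (-(1 / 2) : ℝ))) with hA
  have hAm : Measurable A := Measurable.indicator (by fun_prop) measurableSet_Ioc
  set c : ℝ≥0∞ := ENNReal.ofReal (1 / 2) with hc
  have hpdf : ∀ x : ℝ, gaussianPDF 0 1 x ≤ c := by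
    intro x
    rw [gaussianPDF_def, gaussianPDFReal_def]
    apply ENNReal.ofReal_le_ofReal
    simp only [NNReal.coe_one, mul_one, sub_zero]
    have h1 : Real.exp (-x ^ 2 / 2) ≤ 1 := by
      apply Real.exp_le_one_iff.2
      have : 0 ≤ x ^ 2 := sq_nonneg x
      linarith
    have h2 : (Real.sqrt (2 * Real.pi))⁻¹ ≤ 1 / 2 := by
      rw [one_div]
      apply inv_anti₀ (by norm_num)
      apply Real.le_sqrt_of_sq_le
      have := Real.pi_gt_three
      linarith
    calc (Real.sqrt (2 * Real.pi))⁻¹ * Real.exp (-x ^ 2 / 2) ≤ (1 / 2) * 1 := by gcongr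
      _ = 1 / 2 := by norm_num
  have hpt : ∀ x : ℝ, gaussianPDF 0 1 x * ENNReal.ofReal (|x| ^ (-(1 / 2) : ℝ)) ≤
      gaussianPDF 0 1 x + c * (A x + A (-x)) := by
    intro x
    rcases lt_trichotomy x 0 with hx | hx | hx
    · by_cases h1 : -x ≤ 1
      · have hAx : A (-x) = ENNReal.ofReal (|x| ^ (-(1 / 2) : ℝ)) := by
          rw [hA, Set.indicator_of_mem (show -x ∈ Set.Ioc (0 : ℝ) 1 from ⟨by linarith, h1⟩),
            abs_of_neg hx]
        calc gaussianPDF 0 1 x * ENNReal.ofReal (|x| ^ (-(1 / 2) : ℝ))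
            ≤ c * A (-x) := by rw [hAx]; gcongr; exact hpdf x
          _ ≤ c * (A x + A (-x)) := by gcongr; exact le_add_self
          _ ≤ _ := le_add_self
      · have h2 : ENNReal.ofReal (|x| ^ (-(1 / 2) : ℝ)) ≤ 1 := by
          rw [ENNReal.ofReal_le_one]
          apply Real.rpow_le_one_of_one_le_of_nonpos _ (by norm_num)
          rw [abs_of_neg hx]
          linarith
        calc gaussianPDF 0 1 x * ENNReal.ofReal (|x| ^ (-(1 / 2) : ℝ))
            ≤ gaussianPDF 0 1 x * 1 := by gcongr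
          _ = gaussianPDF 0 1 x := mul_one _
          _ ≤ _ := le_self_add
    · subst hx
      rw [abs_zero, Real.zero_rpow (by norm_num)]
      simp
    · by_cases h1 : x ≤ 1
      · have hAx : A x = ENNReal.ofReal (|x| ^ (-(1 / 2) : ℝ)) := by
          rw [hA, Set.indicator_of_mem (show x ∈ Set.Ioc (0 : ℝ) 1 from ⟨hx, h1⟩),
            abs_of_pos hx]
        calc gaussianPDF 0 1 x * ENNReal.ofReal (|x| ^ (-(1 / 2) : ℝ))
            ≤ c * A x := by rw [hAx]; gcongr; exact hpdf x
          _ ≤ c * (A x + A (-x)) := by gcongr; exact le_self_add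
          _ ≤ _ := le_add_self
      · have h2 : ENNReal.ofReal (|x| ^ (-(1 / 2) : ℝ)) ≤ 1 := by
          rw [ENNReal.ofReal_le_one]
          apply Real.rpow_le_one_of_one_le_of_nonpos _ (by norm_num)
          rw [abs_of_pos hx]
          linarith
        calc gaussianPDF 0 1 x * ENNReal.ofReal (|x| ^ (-(1 / 2) : ℝ))
            ≤ gaussianPDF 0 1 x * 1 := by gcongr
          _ = gaussianPDF 0 1 x := mul_one _
          _ ≤ _ := le_self_add
  have hneg : ∫⁻ x, A (-x) = 2 := by
    have h1 := (Measure.measurePreserving_neg (volume : Measure ℝ)).lintegral_comp hAm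
    rw [h1, hA, mom_aux]
  rw [gaussianReal_of_var_ne_zero _ one_ne_zero, lintegral_withDensity_eq_lintegral_mul _
    hpm (by fun_prop)]
  calc ∫⁻ x, (gaussianPDF 0 1 * fun x => ENNReal.ofReal (|x| ^ (-(1 / 2) : ℝ))) x
      ≤ ∫⁻ x, (gaussianPDF 0 1 x + c * (A x + A (-x))) := lintegral_mono hpt
    _ = (∫⁻ x, gaussianPDF 0 1 x) + c * ((∫⁻ x, A x) + ∫⁻ x, A (-x)) := by
        rw [lintegral_add_left hpm, lintegral_const_mul _ (by fun_prop),
          lintegral_add_left hAm]
    _ = 1 + c * (2 + 2) := by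
        rw [lintegral_gaussianPDF_eq_one _ one_ne_zero, hneg, hA, mom_aux]
    _ ≤ 3 := by
        rw [hc, show (2 + 2 : ℝ≥0∞) = ENNReal.ofReal 4 by norm_num,
          ← ENNReal.ofReal_mul (by norm_num), show (1 : ℝ≥0∞) = ENNReal.ofReal 1 by simp,
          ← ENNReal.ofReal_add (by norm_num) (by norm_num),
          show (3 : ℝ≥0∞) = ENNReal.ofReal 3 by simp]
        apply ENNReal.ofReal_le_ofReal
        norm_num

/-- almost every point of `unif d` has norm one -/
theorem unif_norm {d : ℕ} (hd : 1 ≤ d) : ∀ᵐ s ∂(unif d), ‖s‖ = 1 := by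
  unfold unif
  rw [ae_map_iff (by fun_prop) (measurableSet_eq_fun (by fun_prop) (by fun_prop))]
  have h0 : (stdGaussian (E d)) {0} = 0 := by
    have i0 : Fin d := ⟨0, hd⟩
    have : NullSingletonClass (stdGaussian (E d)) := by
      apply IsGaussian.nullSingletonClass
      intro x hx
      have h1 := variance_dual_stdGaussian
        (InnerProductSpace.toDual ℝ (E d) (EuclideanSpace.single i0 (1 : ℝ)))
      rw [hx] at h1
      simp at h1
    exact measure_singleton _
  have h1 : ∀ᵐ x ∂(stdGaussian (E d)), x ≠ 0 := by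
    rw [ae_iff]
    simpa using h0
  filter_upwards [h1] with x hx
  rw [norm_smul, norm_inv, norm_norm, inv_mul_cancel₀ (norm_ne_zero_iff.2 hx)]

/-- The concrete setup: prior `ρ`, windows of `n` samples with label noise `r`. -/
noncomputable def conc {d : ℕ} (n : ℕ) (r : ℝ) (hr : 0 < r) (ρ : Measure (E d))
    (hρ : IsProbabilityMeasure ρ) : Setup (E d) (Win d n) where
  ρ := ρ
  ν := winM d n
  K := winK r
  hρ := hρ
  hν := by
    unfold winM
    infer_instance
  hK := measurable_winK r
  hK0 := by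
    intro s u
    unfold winK
    exact Finset.prod_ne_zero_iff.2 fun i _ => (ENNReal.ofReal_pos.2 (phi_pos hr _)).ne'
  hKt := by
    intro s u
    unfold winK
    exact ENNReal.prod_ne_top fun i _ => ENNReal.ofReal_ne_top
  hq := by
    intro u
    have h1 : ∀ s : E d, winK r s u ≤
        ∏ _i : Fin n, ENNReal.ofReal ((Real.sqrt (2 * Real.pi) * r)⁻¹) := fun s =>
      Finset.prod_le_prod' fun i _ => ENNReal.ofReal_le_ofReal (phi_le hr _)
    have h2 : ∫⁻ s, winK r s u ∂ρ ≤
        ∏ _i : Fin n, ENNReal.ofReal ((Real.sqrt (2 * Real.pi) * r)⁻¹) := by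
      calc ∫⁻ s, winK r s u ∂ρ ≤ ∫⁻ _s,
            (∏ _i : Fin n, ENNReal.ofReal ((Real.sqrt (2 * Real.pi) * r)⁻¹)) ∂ρ :=
            lintegral_mono h1
        _ = _ := by rw [lintegral_const, measure_univ, mul_one]
    exact (h2.trans_lt (ENNReal.prod_lt_top fun i _ => ENNReal.ofReal_lt_top)).ne
  hK1 := by
    intro s
    have h1 := lintegral_winK (n := n) hr s (F := fun _ => 1) measurable_const
    simp only [mul_one, lintegral_const, measure_univ] at h1
    exact h1

end Vale.Agent.P309
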