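import Vale.Agent.Lib.P309.APB

/-!
# P309, module AP: a priori bounds on the distances under the replica law

`replica` with `V = Unit`, `X = Unit`, `W = S`, `Pm = 1`, `R_0 = 1`,
`R_j = (π/C^d) (td r (bef j) σ (W))^{-8n}` (needs `U1` with `F = span (σ l, l < j)`),
`κ = (kap r univ)^n` (`lintegral_prod_winK`), `lg_kap`, plus `n` copies of `ref(Y)/q(u)` with
`ref = ∏ φ_2(Y_i)` (`rep_obs`).  See section 8 of the paper proof (notes/P309/proof.md).
-/

namespace Vale.Agent.P309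

open MeasureTheory ProbabilityTheory
open scoped ENNReal RealInnerProductSpace

/-- from `Q` and `log` to a linear bound -/
theorem ap_log_le {N x : ℝ} (hN : 0 < N) (hx : 0 < x) : N * Real.log (x / N) ≤ x := by
  have h1 := Real.log_le_sub_one_of_pos (div_pos hx hN)
  have h2 : N * Real.log (x / N) ≤ N * (x / N - 1) := mul_le_mul_of_nonneg_left h1 hN.le
  have h3 : N * (x / N - 1) = x - N := by field_simp
  linarith

/-- two-point concavity of the logarithm -/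
theorem ap_log_two {a b x y : ℝ} (ha : 0 < a) (hb : 0 < b) (hx : 0 < x) (hy : 0 < y) :
    a * Real.log (x / a) + b * Real.log (y / b) ≤ (a + b) * Real.log ((x + y) / (a + b)) := by
  have hab : 0 < a + b := by linarith
  have hxy : 0 < x + y := by linarith
  have e : ∀ t c : ℝ, 0 < t → 0 < c → Real.log (t / c) - Real.log ((x + y) / (a + b)) ≤
      t * (a + b) / (c * (x + y)) - 1 := by
    intro t c ht hc
    rw [← Real.log_div (by positivity) (by positivity)]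
    refine (Real.log_le_sub_one_of_pos (by positivity)).trans (le_of_eq ?_)
    field_simp
  have h1 := mul_le_mul_of_nonneg_left (e x a hx ha) ha.le
  have h2 := mul_le_mul_of_nonneg_left (e y b hy hb) hb.le
  have h3 : a * (x * (a + b) / (a * (x + y)) - 1) + b * (y * (a + b) / (b * (x + y)) - 1) = 0 := by
    field_simp
    ring
  nlinarith

/-- arithmetic of `AP1` -/
theorem ap_arith1 {N a b l0 l2 L Q Y z lq s : ℝ} (hN : 2 ≤ N) (ha : 0 ≤ a) (hb : 0 ≤ b)
    (hl2 : 0 ≤ l2) (hQ : 0 ≤ Q) (hY : 0 ≤ Y) (hz : 0 ≤ z) (hs : s ≤ Q)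
    (hmain : N * (-a - b) - 7 * N * L + N ^ 2 * l0 + N * lq ≤ s)
    (hzl : -(N * (l2 + l0)) - Y / 8 - lq ≤ z) :
    -L ≤ a + b + N * l2 + Q + Y + z := by
  have hN0 : 0 < N := by linarith
  have h4 : N * (-(N * (l2 + l0)) - Y / 8 - lq) ≤ N * z := mul_le_mul_of_nonneg_left hzl hN0.le
  have h5 : 7 * N * (-L) ≤ Q + N * (a + b + N * l2 + Y / 8 + z) := by
    have e : 7 * N * (-L) = (N * (-a - b) - 7 * N * L + N ^ 2 * l0 + N * lq) +
        N * (-(N * (l2 + l0)) - Y / 8 - lq) + N * (a + b + N * l2 + Y / 8) := by ring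
    rw [e]
    have e2 : N * (a + b + N * l2 + Y / 8 + z) = N * z + N * (a + b + N * l2 + Y / 8) := by ring
    rw [e2]
    linarith
  have h6 : 7 * N * (a + b + N * l2 + Q + Y + z) - (Q + N * (a + b + N * l2 + Y / 8 + z)) =
      6 * N * (a + b + N * l2 + z) + (7 * N - 1) * Q + (7 - 1 / 8) * (N * Y) := by ring
  have h7 : 0 ≤ 6 * N * (a + b + N * l2 + z) + (7 * N - 1) * Q + (7 - 1 / 8) * (N * Y) := by
    have : 0 ≤ 7 * N - 1 := by linarith
    positivity
  have h8 : 7 * N * (-L) ≤ 7 * N * (a + b + N * l2 + Q + Y + z) := by linarith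
  exact le_of_mul_le_mul_left h8 (by positivity)

/-- arithmetic of `AP2` -/
theorem ap_arith2 {N a b l2 l3 lt L' Y s : ℝ} (hN : 2 ≤ N) (ha : 0 ≤ a) (hb : 0 ≤ b)
    (hl2 : 0 ≤ l2) (hl3 : 0 ≤ l3) (hlt : lt ≤ l3) (hY : 0 ≤ Y) (hL' : L' ≤ (N - 1) * l3)
    (h4 : N * (-a - b) - 7 * N * (lt + L') - N ^ 2 * l2 - N * Y / 8 ≤ (2 * N + 2) * s) :
    2 * (l3 - lt) ≤ s + (4 * N * l3 + N * l2 + b) + a + Y / 16 := by
  have hN0 : 0 < N := by linarith
  have e : (2 * N + 2) * (s + (4 * N * l3 + N * l2 + b) + a + Y / 16) -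
      (2 * N + 2) * (2 * (l3 - lt)) =
      ((2 * N + 2) * s - (N * (-a - b) - 7 * N * (lt + L') - N ^ 2 * l2 - N * Y / 8)) +
      7 * N * ((N - 1) * l3 - L') + ((N ^ 2 + 8 * N) * l3 + (N ^ 2 + 2 * N) * l2 +
      (N + 2) * (a + b) + Y / 8 + (3 * N - 4) * (l3 - lt)) := by ring
  have p1 : 0 ≤ 7 * N * ((N - 1) * l3 - L') := by
    have : 0 ≤ (N - 1) * l3 - L' := by linarith
    positivity
  have p2 : 0 ≤ (N ^ 2 + 8 * N) * l3 + (N ^ 2 + 2 * N) * l2 +
      (N + 2) * (a + b) + Y / 8 + (3 * N - 4) * (l3 - lt) := by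
    have : 0 ≤ 3 * N - 4 := by linarith
    have : 0 ≤ l3 - lt := by linarith
    positivity
  have h : (2 * N + 2) * (2 * (l3 - lt)) ≤
      (2 * N + 2) * (s + (4 * N * l3 + N * l2 + b) + a + Y / 16) := by linarith
  exact le_of_mul_le_mul_left h (by positivity)

/-- the pointwise bound behind `AP1` -/
theorem ap_point1 {C : ℝ} (hC : 1 ≤ C) {d n : ℕ} (hn : 2 ≤ n) {r : ℝ} (hr : 0 < r) (hr1 : r ≤ 1)
    {ρ : Measure (E d)} (hρ : IsProbabilityMeasure ρ) {p0 : ℝ} (hp0 : 0 < p0) (hp01 : p0 ≤ 1)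
    (σ : Fin (n + 1) → E d) (u : Win d n) (Q : ℝ≥0∞) (hQt : Q ≠ ∞) (hQ0 : Q ≠ 0)
    (hnorm : ∀ l, ‖σ l‖ = 1)
    (hmain : n * (Real.log p0 - d * Real.log C) -
            7 * n * ∑ j ∈ Finset.univ.erase (0 : Fin (n + 1)), Real.log (td r (bef j) σ (σ j)) +
          n ^ 2 * Real.log (Real.sqrt (2 * Real.pi)) + n * lg ((conc n r hr ρ hρ).q u) ≤
          (n + 2) * Real.log (Q.toReal / (n + 2))) :
    ∑ j ∈ Finset.univ.erase (0 : Fin (n + 1)), ENNReal.ofReal (Real.log (3 / td r (bef j) σ (σ j)))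
      ≤ ENNReal.ofReal (n * Real.log 3 + (-Real.log p0 + d * Real.log C + n * Real.log 2)) + Q +
        ENNReal.ofReal (∑ i, u.2 i ^ 2) + zap (conc n r hr ρ hρ).q u := by
  obtain ⟨hz0, hzt, hzl⟩ := zap_facts r hr ρ hρ u
  have hnR : (2 : ℝ) ≤ n := by exact_mod_cast hn
  have hlC := Real.log_nonneg hC
  have hlp : Real.log p0 ≤ 0 := Real.log_nonpos hp0.le hp01
  have hl2 : 0 ≤ Real.log 2 := Real.log_nonneg (by norm_num)
  have hl3 : 0 ≤ Real.log 3 := Real.log_nonneg (by norm_num)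
  have hQpos : 0 < Q.toReal := ENNReal.toReal_pos hQ0 hQt
  have hzpos : 0 < (zap (conc n r hr ρ hρ).q u).toReal := ENNReal.toReal_pos hz0 hzt
  have hlog : ∀ j ∈ Finset.univ.erase (0 : Fin (n + 1)),
      0 ≤ Real.log (3 / td r (bef j) σ (σ j)) := by
    intro j hj
    apply Real.log_nonneg
    rw [le_div_iff₀ (ap_td_pos hr _ _ _), one_mul]
    exact td_le_three hr hr1 _ (ap_bef_nonempty (Finset.mem_erase.1 hj).1) _ _ hnorm (hnorm j)
  rw [← ENNReal.ofReal_sum_of_nonneg hlog]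
  have hsum : ∑ j ∈ Finset.univ.erase (0 : Fin (n + 1)),
      Real.log (3 / td r (bef j) σ (σ j)) = n * Real.log 3 -
      ∑ j ∈ Finset.univ.erase (0 : Fin (n + 1)), Real.log (td r (bef j) σ (σ j)) := by
    have : ∀ j ∈ Finset.univ.erase (0 : Fin (n + 1)),
        Real.log (3 / td r (bef j) σ (σ j)) =
        Real.log 3 - Real.log (td r (bef j) σ (σ j)) := fun j _ =>
      Real.log_div (by norm_num) (ap_td_pos hr _ _ _).ne'
    rw [Finset.sum_congr rfl this, Finset.sum_sub_distrib]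
    simp
  rw [hsum]
  have hYn : 0 ≤ ∑ i, u.2 i ^ 2 := Finset.sum_nonneg (fun i _ => sq_nonneg _)
  have h1 := ap_log_le (show (0 : ℝ) < n + 2 by positivity) hQpos
  have h2 : lg (zap (conc n r hr ρ hρ).q u) ≤ (zap (conc n r hr ρ hρ).q u).toReal := by
    unfold lg
    have := Real.log_le_sub_one_of_pos hzpos
    linarith
  rw [hzl] at h2
  have h3 := ap_arith1 (a := -Real.log p0) (b := d * Real.log C)
    (l0 := Real.log (Real.sqrt (2 * Real.pi))) (l2 := Real.log 2) hnR (by linarith)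
    (by positivity) hl2 hQpos.le hYn hzpos.le h1 (by
      rw [neg_neg]
      exact hmain) h2
  calc _ ≤ ENNReal.ofReal ((n * Real.log 3 + (-Real.log p0 + d * Real.log C + n * Real.log 2)) +
        Q.toReal + (∑ i, u.2 i ^ 2) + (zap (conc n r hr ρ hρ).q u).toReal) := by
          apply ENNReal.ofReal_le_ofReal
          linarith
    _ = _ := by
      have hA : 0 ≤ n * Real.log 3 + (-Real.log p0 + d * Real.log C + n * Real.log 2) := by
        have : 0 ≤ -Real.log p0 := by linarith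
        positivity
      rw [ENNReal.ofReal_add (add_nonneg (add_nonneg hA hQpos.le) hYn) hzpos.le,
        ENNReal.ofReal_add (add_nonneg hA hQpos.le) hYn,
        ENNReal.ofReal_add hA hQpos.le, ENNReal.ofReal_toReal hQt, ENNReal.ofReal_toReal hzt]

/-- Logarithmic a priori bound: expectation of `∑_j log(3/td_j)`. -/
theorem AP1 : ∃ C : ℝ, 1 ≤ C ∧ ∀ (d n : ℕ), 2 ≤ n → 128 * n ≤ d → ∀ (r : ℝ) (hr : 0 < r), r ≤ 1 →
    ∀ (ρ : Measure (E d)) (hρ : IsProbabilityMeasure ρ) (p0 : ℝ), 0 < p0 → p0 ≤ 1 →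
    ρ ≤ (ENNReal.ofReal p0)⁻¹ • unif d →
      ∫⁻ p, ∑ j ∈ Finset.univ.erase (0 : Fin (n + 1)),
        ENNReal.ofReal (Real.log (3 / td r (bef j) p.1 (p.1 j))) ∂((conc n r hr ρ hρ).rep n) ≤
        ENNReal.ofReal (C * (Real.log (1 / p0) + d)) := by
  obtain ⟨C, hC, hU⟩ := U1
  refine ⟨Real.log C + 1, by linarith [Real.log_nonneg hC], ?_⟩
  intro d n hn hnd r hr hr1 ρ hρ p0 hp0 hp01 hρ0
  have hd : 1 ≤ d := by omega
  obtain ⟨Q, hQm, hQi, hQae⟩ := AP0 hC (by omega : 1 ≤ n) (fun β hβ F hF =>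
    hU d n β (by omega) hnd hβ F hF) r hr ρ hρ p0 hp0 hρ0
  have hpt : ∀ᵐ p ∂((conc n r hr ρ hρ).rep n), ∑ j ∈ Finset.univ.erase (0 : Fin (n + 1)),
        ENNReal.ofReal (Real.log (3 / td r (bef j) p.1 (p.1 j))) ≤
        ENNReal.ofReal (n * Real.log 3 + (-Real.log p0 + d * Real.log C + n * Real.log 2)) + Q p +
        ENNReal.ofReal (∑ i, p.2.2 i ^ 2) + zap (conc n r hr ρ hρ).q p.2 := by
    filter_upwards [hQae, rep_norm hd r hr ρ hρ hρ0] with p hp hnorm
    exact ap_point1 hC hn hr hr1 hρ hp0 hp01 p.1 p.2 (Q p) hp.1 hp.2.1 hnorm hp.2.2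
  have hm1 : Measurable (fun p : (Fin (n + 1) → E d) × Win d n =>
      ENNReal.ofReal (∑ i, p.2.2 i ^ 2)) := by fun_prop
  have hm2 : Measurable (fun p : (Fin (n + 1) → E d) × Win d n =>
      zap (conc n r hr ρ hρ).q p.2) := (measurable_zap r hr ρ hρ).comp measurable_snd
  have hnR : (2 : ℝ) ≤ n := by exact_mod_cast hn
  have hdR : 128 * (n : ℝ) ≤ d := by exact_mod_cast hnd
  have hlC := Real.log_nonneg hC
  have hlp : 0 ≤ -Real.log p0 := by
    have : Real.log p0 ≤ 0 := Real.log_nonpos hp0.le hp01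
    linarith
  have hl3 : Real.log 3 ≤ 2 := by
    have := Real.log_le_sub_one_of_pos (show (0 : ℝ) < 3 by norm_num)
    linarith
  have hl2 : Real.log 2 ≤ 1 := by
    have := Real.log_le_sub_one_of_pos (show (0 : ℝ) < 2 by norm_num)
    linarith
  have hl2' : 0 ≤ Real.log 2 := Real.log_nonneg (by norm_num)
  have hl3' : 0 ≤ Real.log 3 := Real.log_nonneg (by norm_num)
  refine (lintegral_mono_ae hpt).trans ?_
  rw [lintegral_add_right _ hm2, lintegral_add_right _ hm1, lintegral_add_right _ hQm,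
    lintegral_const, measure_univ, mul_one, lintegral_zap r hr ρ hρ]
  obtain ⟨A0, hA0⟩ : ∃ A0 : ℝ, A0 = n * Real.log 3 + (-Real.log p0 + d * Real.log C +
    n * Real.log 2) := ⟨_, rfl⟩
  have hA0n : 0 ≤ A0 := by rw [hA0]; positivity
  rw [← hA0]
  have e1 : ((n : ℝ≥0∞) + 2) = ENNReal.ofReal (n + 2) := by
    rw [ENNReal.ofReal_add (by positivity) (by norm_num), ENNReal.ofReal_natCast]
    norm_num
  calc _ ≤ ENNReal.ofReal A0 + (n + 2) + ENNReal.ofReal (64 * n) + 1 :=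
        add_le_add (add_le_add (add_le_add le_rfl hQi) (rep_sq hd r hr hr1 ρ hρ hρ0)) le_rfl
    _ = ENNReal.ofReal (A0 + (n + 2) + 64 * n + 1) := by
        rw [e1, ← ENNReal.ofReal_add hA0n (by positivity),
          ← ENNReal.ofReal_add (by positivity) (by positivity), ← ENNReal.ofReal_one,
          ← ENNReal.ofReal_add (by positivity) (by norm_num)]
    _ ≤ _ := by
        apply ENNReal.ofReal_le_ofReal
        rw [hA0, one_div, Real.log_inv]
        have q1 : n * Real.log 3 ≤ n * 2 := mul_le_mul_of_nonneg_left hl3 (by linarith)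
        have q2 : n * Real.log 2 ≤ n * 1 := mul_le_mul_of_nonneg_left hl2 (by linarith)
        have q3 : 0 ≤ Real.log C * (-Real.log p0) := by positivity
        nlinarith

/-- the pointwise bound behind `AP2` -/
theorem ap_point2 {n : ℕ} (hn : 2 ≤ n) {d : ℕ} {C p0 t L' Qr z Y lq : ℝ} (hC : 1 ≤ C)
    (hp0 : 0 < p0) (hp01 : p0 ≤ 1) (ht : 0 < t) (ht3 : t ≤ 3) (hQ : 0 < Qr) (hz : 0 < z)
    (hY : 0 ≤ Y) (hL' : L' ≤ (n - 1) * Real.log 3)
    (hmain : n * (Real.log p0 - d * Real.log C) - 7 * n * (Real.log t + L') +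
      n ^ 2 * Real.log (Real.sqrt (2 * Real.pi)) + n * lq ≤ (n + 2) * Real.log (Qr / (n + 2)))
    (hzl : Real.log z = -(n * (Real.log 2 + Real.log (Real.sqrt (2 * Real.pi)))) - Y / 8 - lq) :
    2 * (Real.log 3 - Real.log t) ≤ Real.log (Qr + n * z) + (4 * n * Real.log 3 +
      n * Real.log 2 + d * Real.log C) + -Real.log p0 + Y / 16 := by
  have hnR : (2 : ℝ) ≤ n := by exact_mod_cast hn
  have hlC := Real.log_nonneg hC
  have hlp : Real.log p0 ≤ 0 := Real.log_nonpos hp0.le hp01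
  have hl2 : 0 ≤ Real.log 2 := Real.log_nonneg (by norm_num)
  have hl3 : 0 ≤ Real.log 3 := Real.log_nonneg (by norm_num)
  have hlt : Real.log t ≤ Real.log 3 := Real.log_le_log ht ht3
  have hS0 : 0 < Qr + n * z := by positivity
  have h1 : (n + 2) * Real.log (Qr / (n + 2)) + n * Real.log ((n * z) / n) ≤
      ((n + 2) + n) * Real.log ((Qr + n * z) / ((n + 2) + n)) :=
    ap_log_two (by positivity) (by positivity) hQ (by positivity)
  have h2 : (n : ℝ) * z / n = z := by field_simp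
  rw [h2] at h1
  have h3 : Real.log ((Qr + n * z) / ((n + 2) + n)) ≤ Real.log (Qr + n * z) := by
    apply Real.log_le_log (by positivity)
    rw [div_le_iff₀ (by positivity)]
    nlinarith
  apply ap_arith2 hnR (by linarith) (by positivity) hl2 hl3 hlt hY hL'
  have h5 : ((n + 2) + n) * Real.log ((Qr + n * z) / ((n + 2) + n)) ≤
      (2 * n + 2) * Real.log (Qr + n * z) := by
    have h6 : ((n : ℝ) + 2) + n = 2 * n + 2 := by ring
    rw [h6] at h3 ⊢
    exact mul_le_mul_of_nonneg_left h3 (by positivity)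
  have h7 : (n : ℝ) * Real.log z =
      -(n ^ 2 * Real.log 2) - n ^ 2 * Real.log (Real.sqrt (2 * Real.pi)) - n * Y / 8 - n * lq := by
    rw [hzl]; ring
  rw [neg_neg]
  linarith

theorem ap_point3 {S G t Y p0 : ℝ} (hS0 : 0 < S) (ht : 0 < t) (hp0 : 0 < p0)
    (h7 : 2 * (Real.log 3 - Real.log t) ≤ Real.log S + G + -Real.log p0 + Y / 16) :
    t⁻¹ ≤ S * (Real.exp G / p0) + Real.exp (Y / 16) := by
  have h8 : (3 / t) ^ 2 ≤ S * (Real.exp G / p0) * Real.exp (Y / 16) := by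
    have e1 : Real.log ((3 / t) ^ 2) = 2 * (Real.log 3 - Real.log t) := by
      rw [Real.log_pow, Real.log_div (by norm_num) ht.ne']
      norm_num
    have e2 : Real.log (S * (Real.exp G / p0) * Real.exp (Y / 16)) =
        Real.log S + G + -Real.log p0 + Y / 16 := by
      rw [Real.log_mul (by positivity) (Real.exp_pos _).ne', Real.log_mul hS0.ne' (by positivity),
        Real.log_div (Real.exp_pos _).ne' hp0.ne', Real.log_exp, Real.log_exp]
      ring
    rw [← Real.log_le_log_iff (by positivity) (by positivity), e1, e2]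
    exact h7
  obtain ⟨a, ha⟩ : ∃ a, a = S * (Real.exp G / p0) := ⟨_, rfl⟩
  obtain ⟨b, hb⟩ : ∃ b, b = Real.exp (Y / 16) := ⟨_, rfl⟩
  have ha0 : 0 < a := by rw [ha]; positivity
  have hb0 : 0 < b := by rw [hb]; exact Real.exp_pos _
  rw [← ha, ← hb] at h8 ⊢
  have h9 : t⁻¹ ^ 2 ≤ a * b := by
    refine le_trans ?_ h8
    have h11 : (3 / t) ^ 2 = 9 * t⁻¹ ^ 2 := by
      rw [div_eq_mul_inv, mul_pow]; norm_num
    rw [h11]
    nlinarith [sq_nonneg t⁻¹]
  have h10 : a * b ≤ (a + b) ^ 2 := by nlinarith [mul_pos ha0 hb0]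
  exact (abs_le_of_sq_le_sq' (h9.trans h10) (by positivity)).2

theorem ap_last_ne {n : ℕ} (hn : 2 ≤ n) : (Fin.last n) ≠ 0 := by
  intro h
  have := congrArg Fin.val h
  simp at this
  omega

theorem ap_bef_last {n : ℕ} : bef (Fin.last n) = Finset.univ.erase (Fin.last n) := by
  ext k
  rw [ap_mem_bef, Finset.mem_erase]
  simp [Fin.lt_last_iff_ne_last]

theorem ap_erase_ne {n : ℕ} (hn : 2 ≤ n) (k : Fin (n + 1)) : (Finset.univ.erase k).Nonempty := by
  by_cases hk : k = 0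
  · exact ⟨Fin.last n, Finset.mem_erase.2 ⟨by rw [hk]; exact ap_last_ne hn, Finset.mem_univ _⟩⟩
  · exact ⟨0, Finset.mem_erase.2 ⟨fun h => hk h.symm, Finset.mem_univ _⟩⟩

theorem ap_td_swap {d n : ℕ} (hn : 2 ≤ n) (r : ℝ) (l : Fin (n + 1)) (σ : Fin (n + 1) → E d) :
    td r (bef (Fin.last n)) (fun k => σ (Equiv.swap l (Fin.last n) k))
      (σ (Equiv.swap l (Fin.last n) (Fin.last n))) = td r (Finset.univ.erase l) σ (σ l) := by
  rw [ap_bef_last, Equiv.swap_apply_right]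
  apply td_relabel r (Equiv.swap l (Fin.last n)) (Finset.univ.erase (Fin.last n))
    (Finset.univ.erase l) (ap_erase_ne hn _) (ap_erase_ne hn _)
  intro k
  simp only [Finset.mem_erase, Finset.mem_univ, and_true, ne_eq]
  rw [not_iff_not]
  constructor
  · intro h; rw [h, Equiv.swap_apply_right]
  · intro h
    have := congrArg (Equiv.swap l (Fin.last n)) h
    rw [Equiv.swap_apply_self, Equiv.swap_apply_left] at this
    exact this

theorem ap_meas0 {d k : ℕ} {U : Type} [MeasurableSpace U] (j : Fin k) :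
    Measurable (fun p : (Fin k → E d) × U => (p.1, p.1 j)) :=
  measurable_fst.prodMk ((measurable_pi_apply j).comp measurable_fst)

theorem ap_meas {d k : ℕ} {U : Type} [MeasurableSpace U] (r : ℝ) (A : Finset (Fin k)) (j : Fin k) :
    Measurable (fun p : (Fin k → E d) × U => ENNReal.ofReal ((td r A p.1 (p.1 j))⁻¹)) := by
  have h1 := (measurable_td (d := d) r A).comp (ap_meas0 (d := d) (U := U) j)
  exact h1.inv.ennreal_ofReal

/-- reduction of `AP2` to the last index -/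
theorem ap_red {d n : ℕ} (hn : 2 ≤ n) (r : ℝ) (hr : 0 < r) (ρ : Measure (E d))
    (hρ : IsProbabilityMeasure ρ) (l : Fin (n + 1)) :
    ∫⁻ p, ENNReal.ofReal ((td r (Finset.univ.erase l) p.1 (p.1 l))⁻¹)
        ∂((conc n r hr ρ hρ).rep n) =
      ∫⁻ p, ENNReal.ofReal ((td r (bef (Fin.last n)) p.1 (p.1 (Fin.last n)))⁻¹)
        ∂((conc n r hr ρ hρ).rep n) := by
  rw [← (conc n r hr ρ hρ).rep_perm n (Equiv.swap l (Fin.last n))
    (ap_meas r (bef (Fin.last n)) (Fin.last n))]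
  apply lintegral_congr
  intro p
  simp only
  rw [ap_td_swap hn r l p.1]

theorem ap_sum_le {d n : ℕ} (hn : 2 ≤ n) {r : ℝ} (hr : 0 < r) (hr1 : r ≤ 1)
    (σ : Fin (n + 1) → E d) (hnorm : ∀ l, ‖σ l‖ = 1) :
    ∑ j ∈ (Finset.univ.erase (0 : Fin (n + 1))).erase (Fin.last n),
        Real.log (td r (bef j) σ (σ j)) ≤ (n - 1) * Real.log 3 := by
  have hmem : Fin.last n ∈ Finset.univ.erase (0 : Fin (n + 1)) :=
    Finset.mem_erase.2 ⟨ap_last_ne hn, Finset.mem_univ _⟩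
  have h1 : ∀ j ∈ (Finset.univ.erase (0 : Fin (n + 1))).erase (Fin.last n),
      Real.log (td r (bef j) σ (σ j)) ≤ Real.log 3 := by
    intro j hj
    have hj0 : j ≠ 0 := (Finset.mem_erase.1 (Finset.mem_erase.1 hj).2).1
    exact Real.log_le_log (ap_td_pos hr _ _ _)
      (td_le_three hr hr1 _ (ap_bef_nonempty hj0) _ _ hnorm (hnorm j))
  refine (Finset.sum_le_card_nsmul _ _ _ h1).trans (le_of_eq ?_)
  rw [Finset.card_erase_of_mem hmem, Finset.card_erase_of_mem (Finset.mem_univ _),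
    Finset.card_univ, Fintype.card_fin, nsmul_eq_mul]
  have : ((n + 1 - 1 - 1 : ℕ) : ℝ) = (n : ℝ) - 1 := by
    rw [Nat.add_sub_cancel, Nat.cast_sub (by omega)]
    norm_num
  rw [this]

theorem ap_point4 {C : ℝ} (hC : 1 ≤ C) {d n : ℕ} (hn : 2 ≤ n) {r : ℝ} (hr : 0 < r) (hr1 : r ≤ 1)
    {ρ : Measure (E d)} (hρ : IsProbabilityMeasure ρ) {p0 : ℝ} (hp0 : 0 < p0) (hp01 : p0 ≤ 1)
    (σ : Fin (n + 1) → E d) (u : Win d n) (Q : ℝ≥0∞) (hQt : Q ≠ ∞) (hQ0 : Q ≠ 0)
    (hnorm : ∀ l, ‖σ l‖ = 1)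
    (hmain : n * (Real.log p0 - d * Real.log C) -
            7 * n * ∑ j ∈ Finset.univ.erase (0 : Fin (n + 1)), Real.log (td r (bef j) σ (σ j)) +
          n ^ 2 * Real.log (Real.sqrt (2 * Real.pi)) + n * lg ((conc n r hr ρ hρ).q u) ≤
          (n + 2) * Real.log (Q.toReal / (n + 2))) :
    ENNReal.ofReal ((td r (bef (Fin.last n)) σ (σ (Fin.last n)))⁻¹) ≤
      (Q + n * zap (conc n r hr ρ hρ).q u) * ENNReal.ofReal
        (Real.exp (4 * n * Real.log 3 + n * Real.log 2 + d * Real.log C) / p0) +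
          ENNReal.ofReal (Real.exp ((∑ i, u.2 i ^ 2) / 16)) := by
  obtain ⟨hz0, hzt, hzl⟩ := zap_facts r hr ρ hρ u
  have hQpos : 0 < Q.toReal := ENNReal.toReal_pos hQ0 hQt
  have hzpos : 0 < (zap (conc n r hr ρ hρ).q u).toReal := ENNReal.toReal_pos hz0 hzt
  have hmem : Fin.last n ∈ Finset.univ.erase (0 : Fin (n + 1)) :=
    Finset.mem_erase.2 ⟨ap_last_ne hn, Finset.mem_univ _⟩
  rw [← Finset.add_sum_erase (Finset.univ.erase (0 : Fin (n + 1)))
    (fun j => Real.log (td r (bef j) σ (σ j))) hmem] at hmain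
  have ht := ap_td_pos hr (bef (Fin.last n)) σ (σ (Fin.last n))
  have h1 := ap_point2 hn hC hp0 hp01 ht
    (td_le_three hr hr1 _ (ap_bef_nonempty (ap_last_ne hn)) _ _ hnorm (hnorm _)) hQpos hzpos
    (Finset.sum_nonneg (fun i _ => sq_nonneg (u.2 i))) (ap_sum_le hn hr hr1 σ hnorm) hmain
    (by unfold lg at hzl; exact hzl)
  have h2 := ap_point3 (by positivity) ht hp0 h1
  refine (ENNReal.ofReal_le_ofReal h2).trans (le_of_eq ?_)
  rw [ENNReal.ofReal_add (by positivity) (Real.exp_pos _).le,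
    ENNReal.ofReal_mul (by positivity), ENNReal.ofReal_add hQpos.le (by positivity),
    ENNReal.ofReal_mul (by positivity), ENNReal.ofReal_toReal hQt,
    ENNReal.ofReal_toReal hzt, ENNReal.ofReal_natCast]

/-- Crude a priori bound on the inverse distances (`D` depends on `d, n` only). -/
theorem AP2 : ∀ (d n : ℕ), 2 ≤ n → 128 * n ≤ d → ∃ D : ℝ, 0 ≤ D ∧ ∀ (r : ℝ) (hr : 0 < r), r ≤ 1 →
    ∀ (ρ : Measure (E d)) (hρ : IsProbabilityMeasure ρ) (p0 : ℝ), 0 < p0 → p0 ≤ 1 →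
    ρ ≤ (ENNReal.ofReal p0)⁻¹ • unif d → ∀ l : Fin (n + 1),
      ∫⁻ p, ENNReal.ofReal ((td r (Finset.univ.erase l) p.1 (p.1 l))⁻¹)
        ∂((conc n r hr ρ hρ).rep n) ≤ ENNReal.ofReal (D / p0) := by
  intro d n hn hnd
  obtain ⟨C, hC, hU⟩ := U1
  refine ⟨(2 * n + 2) * Real.exp (4 * n * Real.log 3 + n * Real.log 2 + d * Real.log C) + 4 ^ n,
    by positivity, ?_⟩
  intro r hr hr1 ρ hρ p0 hp0 hp01 hρ0 l
  have hd : 1 ≤ d := by omega
  obtain ⟨Q, hQm, hQi, hQae⟩ := AP0 hC (by omega : 1 ≤ n) (fun β hβ F hF =>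
    hU d n β (by omega) hnd hβ F hF) r hr ρ hρ p0 hp0 hρ0
  rw [ap_red hn r hr ρ hρ l]
  have hpt : ∀ᵐ p ∂((conc n r hr ρ hρ).rep n),
      ENNReal.ofReal ((td r (bef (Fin.last n)) p.1 (p.1 (Fin.last n)))⁻¹) ≤
        (Q p + n * zap (conc n r hr ρ hρ).q p.2) * ENNReal.ofReal
        (Real.exp (4 * n * Real.log 3 + n * Real.log 2 + d * Real.log C) / p0) +
          ENNReal.ofReal (Real.exp ((∑ i, p.2.2 i ^ 2) / 16)) := by
    filter_upwards [hQae, rep_norm hd r hr ρ hρ hρ0] with p hp hnorm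
    exact ap_point4 hC hn hr hr1 hρ hp0 hp01 p.1 p.2 (Q p) hp.1 hp.2.1 hnorm hp.2.2
  refine (lintegral_mono_ae hpt).trans ?_
  obtain ⟨D0, hD0⟩ : ∃ D0 : ℝ, D0 = Real.exp (4 * n * Real.log 3 + n * Real.log 2 +
    d * Real.log C) := ⟨_, rfl⟩
  have hD0p : 0 < D0 := by rw [hD0]; exact Real.exp_pos _
  rw [← hD0]
  have hm1 : Measurable (fun p : (Fin (n + 1) → E d) × Win d n =>
      ENNReal.ofReal (Real.exp ((∑ i, p.2.2 i ^ 2) / 16))) := by fun_prop
  have hm2 : Measurable (fun p : (Fin (n + 1) → E d) × Win d n =>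
      zap (conc n r hr ρ hρ).q p.2) := (measurable_zap r hr ρ hρ).comp measurable_snd
  rw [lintegral_add_right _ hm1, lintegral_mul_const' _ _ ENNReal.ofReal_ne_top,
    lintegral_add_left hQm, lintegral_const_mul _ hm2, lintegral_zap r hr ρ hρ, mul_one]
  have e1 : ((n : ℝ≥0∞) + 2) + n = ENNReal.ofReal (2 * n + 2) := by
    have : (2 * (n : ℝ) + 2) = ((2 * n + 2 : ℕ) : ℝ) := by push_cast; ring
    rw [this, ENNReal.ofReal_natCast]
    push_cast
    ring
  have e2 : (4 : ℝ≥0∞) ^ n = ENNReal.ofReal (4 ^ n) := by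
    rw [ENNReal.ofReal_pow (by norm_num)]
    norm_num
  calc _ ≤ ((n + 2) + n) * ENNReal.ofReal (D0 / p0) + 4 ^ n :=
        add_le_add (mul_le_mul_left (add_le_add hQi le_rfl) _) (rep_exp hd r hr hr1 ρ hρ hρ0)
    _ = ENNReal.ofReal ((2 * n + 2) * (D0 / p0) + 4 ^ n) := by
        rw [e1, e2, ← ENNReal.ofReal_mul (by positivity),
          ← ENNReal.ofReal_add (by positivity) (by positivity)]
    _ ≤ _ := by
        apply ENNReal.ofReal_le_ofReal
        have h4 : (4 : ℝ) ^ n ≤ 4 ^ n / p0 := by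
          rw [le_div_iff₀ hp0]
          have : (0 : ℝ) < 4 ^ n := by positivity
          nlinarith
        rw [add_div, mul_div_assoc]
        linarith

end Vale.Agent.P309
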