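import Vale.Agent.Lib.P309.Gauss

/-!
# P309, module LEMMAK, part A: the regularised distances `Vd`, `td`
-/

namespace Vale.Agent.P309

open MeasureTheory ProbabilityTheory
open scoped ENNReal RealInnerProductSpace

variable {ι : Type} [Fintype ι] [DecidableEq ι] {d : ℕ}

/-- The quadratic functional whose infimum is `Vd`. -/
noncomputable def Jq (ρ : ι → ℝ) (s : ι → E d) (x : E d) (α : ι → ℝ) : ℝ :=
  ‖x - ∑ l, α l • s l‖ ^ 2 + ∑ l, (ρ l * α l) ^ 2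

omit [DecidableEq ι] in
theorem Jq_nonneg (ρ : ι → ℝ) (s : ι → E d) (x : E d) (α : ι → ℝ) : 0 ≤ Jq ρ s x α := by
  unfold Jq; positivity

omit [DecidableEq ι] in
theorem Vd_eq_Jq (ρ : ι → ℝ) (A : Finset ι) (s : ι → E d) (x : E d) :
    Vd ρ A s x = ⨅ α : Coef A, Jq ρ s x (α : ι → ℝ) := rfl

omit [DecidableEq ι] in
theorem Jq_bdd (ρ : ι → ℝ) (A : Finset ι) (s : ι → E d) (x : E d) :
    BddBelow (Set.range (fun α : Coef A => Jq ρ s x (α : ι → ℝ))) :=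
  ⟨0, by rintro _ ⟨α, rfl⟩; exact Jq_nonneg ρ s x _⟩

omit [DecidableEq ι] in
theorem Vd_nonneg (ρ : ι → ℝ) (A : Finset ι) (s : ι → E d) (x : E d) : 0 ≤ Vd ρ A s x :=
  Real.iInf_nonneg fun α => Jq_nonneg ρ s x (α : ι → ℝ)

omit [DecidableEq ι] in
/-- Upper bound by any admissible coefficient vector. -/
theorem Vd_le (ρ : ι → ℝ) (A : Finset ι) (s : ι → E d) (x : E d) {α : ι → ℝ} (hα : α ∈ Coef A) :
    Vd ρ A s x ≤ ‖x - ∑ l, α l • s l‖ ^ 2 + ∑ l, (ρ l * α l) ^ 2 :=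
  ciInf_le (Jq_bdd ρ A s x) (⟨α, hα⟩ : Coef A)

theorem single_mem_Coef {A : Finset ι} {l0 : ι} (h : l0 ∈ A) :
    (Pi.single l0 (1 : ℝ) : ι → ℝ) ∈ Coef A := by
  refine ⟨fun l hl => ?_, ?_⟩
  · rw [Pi.single_apply, if_neg]
    rintro rfl; exact hl h
  · simp

theorem Coef_nonempty {A : Finset ι} (hA : A.Nonempty) : (Coef A).Nonempty := by
  obtain ⟨l0, h⟩ := hA
  exact ⟨_, single_mem_Coef h⟩

omit [DecidableEq ι] in
theorem continuous_Jq (ρ : ι → ℝ) (s : ι → E d) (x : E d) : Continuous (Jq ρ s x) := by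
  unfold Jq; fun_prop

omit [DecidableEq ι] in
theorem isClosed_Coef (A : Finset ι) : IsClosed (Coef A) := by
  have h1 : Coef A = (⋂ l ∈ {l | l ∉ A}, {α : ι → ℝ | α l = 0}) ∩ {α : ι → ℝ | ∑ l, α l = 1} := by
    ext α; simp [Coef]
  rw [h1]
  refine IsClosed.inter (isClosed_biInter fun l _ => ?_) ?_
  · exact isClosed_eq (continuous_apply l) continuous_const
  · exact isClosed_eq (by fun_prop) continuous_const

omit [DecidableEq ι] in
theorem Jq_add (ρ : ι → ℝ) (s : ι → E d) (x : E d) (α β : ι → ℝ) (t : ℝ) :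
    Jq ρ s x (α + t • β) = Jq ρ s x α + 2 * t * ((∑ l, ρ l ^ 2 * α l * β l) -
      ⟪x - ∑ l, α l • s l, ∑ l, β l • s l⟫) + t ^ 2 * (‖∑ l, β l • s l‖ ^ 2 +
        ∑ l, (ρ l * β l) ^ 2) := by
  unfold Jq
  have h1 : x - ∑ l, (α + t • β) l • s l = (x - ∑ l, α l • s l) - t • ∑ l, β l • s l := by
    simp only [Pi.add_apply, Pi.smul_apply, smul_eq_mul, add_smul, mul_smul,
      Finset.sum_add_distrib, ← Finset.smul_sum]
    abel
  rw [h1, norm_sub_sq_real, inner_smul_right, norm_smul, mul_pow, Real.norm_eq_abs, sq_abs]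
  have h2 : ∑ l, (ρ l * (α + t • β) l) ^ 2 = ∑ l, (ρ l * α l) ^ 2 +
      2 * t * ∑ l, ρ l ^ 2 * α l * β l + t ^ 2 * ∑ l, (ρ l * β l) ^ 2 := by
    rw [Finset.mul_sum, Finset.mul_sum, ← Finset.sum_add_distrib, ← Finset.sum_add_distrib]
    refine Finset.sum_congr rfl fun l _ => ?_
    simp only [Pi.add_apply, Pi.smul_apply, smul_eq_mul]
    ring
  rw [h2]; ring

theorem lin_zero_of_quad {g q : ℝ} (hq : 0 ≤ q) (h : ∀ t : ℝ, 0 ≤ 2 * t * g + t ^ 2 * q) :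
    g = 0 := by
  have h1 := h (-g / (q + 1))
  have hq1 : 0 < q + 1 := by linarith
  have h2 : 2 * (-g / (q + 1)) * g + (-g / (q + 1)) ^ 2 * q = -(g ^ 2 * (q + 2)) / (q + 1) ^ 2 := by
    field_simp; ring
  rw [h2] at h1
  have h3 : 0 ≤ -(g ^ 2 * (q + 2)) := by
    have := mul_nonneg h1 (sq_nonneg (q + 1))
    rwa [div_mul_cancel₀ _ (by positivity)] at this
  have h4 : g ^ 2 * (q + 2) ≤ 0 := by linarith
  have h5 : g ^ 2 ≤ 0 := by
    by_contra h6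
    push Not at h6
    have : 0 < g ^ 2 * (q + 2) := by positivity
    linarith
  nlinarith [sq_nonneg g]

theorem Jq_exists_min (ρ : ι → ℝ) (A : Finset ι) (hA : A.Nonempty) (hρ : ∀ l, 0 < ρ l)
    (s : ι → E d) (x : E d) : ∃ α ∈ Coef A, ∀ β ∈ Coef A, Jq ρ s x α ≤ Jq ρ s x β := by
  obtain ⟨α0, h0⟩ := Coef_nonempty hA
  set K : Set (ι → ℝ) := Coef A ∩ {α | Jq ρ s x α ≤ Jq ρ s x α0} with hK
  have hcl : IsClosed K := (isClosed_Coef A).inter
    (isClosed_le (continuous_Jq ρ s x) continuous_const)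
  set M : ℝ := Jq ρ s x α0 with hM
  have hM0 : 0 ≤ M := Jq_nonneg _ _ _ _
  have hbd : K ⊆ Set.pi Set.univ (fun l => Set.Icc (-(Real.sqrt M / ρ l)) (Real.sqrt M / ρ l)) := by
    intro α hα l _
    have h1 : Jq ρ s x α ≤ M := hα.2
    have h2 : (ρ l * α l) ^ 2 ≤ M := by
      have h3 : (ρ l * α l) ^ 2 ≤ ∑ l, (ρ l * α l) ^ 2 :=
        Finset.single_le_sum (f := fun l => (ρ l * α l) ^ 2) (fun i _ => sq_nonneg _)
          (Finset.mem_univ l)
      have h4 : ∑ l, (ρ l * α l) ^ 2 ≤ Jq ρ s x α := by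
        unfold Jq; nlinarith [sq_nonneg (‖x - ∑ l, α l • s l‖)]
      linarith
    have h5 : |ρ l * α l| ≤ Real.sqrt M := Real.abs_le_sqrt h2
    rw [abs_mul, abs_of_pos (hρ l)] at h5
    have h6 : |α l| ≤ Real.sqrt M / ρ l := by
      rw [le_div_iff₀ (hρ l)]; linarith
    exact Set.mem_Icc.2 (abs_le.1 h6)
  have hco : IsCompact K :=
    (isCompact_univ_pi fun l => isCompact_Icc).of_isClosed_subset hcl hbd
  have hne : K.Nonempty := ⟨α0, h0, le_refl (Jq ρ s x α0)⟩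
  obtain ⟨α, hα, hmin⟩ := hco.exists_isMinOn hne (continuous_Jq ρ s x).continuousOn
  refine ⟨α, hα.1, fun β hβ => ?_⟩
  by_cases h : Jq ρ s x β ≤ M
  · exact hmin ⟨hβ, h⟩
  · push Not at h
    exact le_trans hα.2 h.le

/-- Existence of a minimiser, with Lagrange multiplier `y`. -/
theorem foot (ρ : ι → ℝ) (A : Finset ι) (hA : A.Nonempty) (hρ : ∀ l, 0 < ρ l) (s : ι → E d)
    (x : E d) : ∃ α ∈ Coef A, ∃ y : ℝ,
      (∀ l ∈ A, ⟪x - ∑ l', α l' • s l', s l⟫ + y = ρ l ^ 2 * α l) ∧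
      Vd ρ A s x = ‖x - ∑ l, α l • s l‖ ^ 2 + ∑ l, (ρ l * α l) ^ 2 := by
  obtain ⟨α, hα, hmin⟩ := Jq_exists_min ρ A hA hρ s x
  obtain ⟨l0, hl0⟩ := hA
  refine ⟨α, hα, ρ l0 ^ 2 * α l0 - ⟪x - ∑ l', α l' • s l', s l0⟫, fun l hl => ?_, ?_⟩
  · set β : ι → ℝ := Pi.single l 1 - Pi.single l0 1 with hβ
    have hmem : ∀ t : ℝ, α + t • β ∈ Coef A := by
      intro t
      have h1 := single_mem_Coef hl
      have h2 := single_mem_Coef hl0
      refine ⟨fun i hi => ?_, ?_⟩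
      · simp only [hβ, Pi.add_apply, Pi.smul_apply, Pi.sub_apply, hα.1 i hi, h1.1 i hi, h2.1 i hi,
          sub_zero, smul_zero, add_zero]
      · simp only [hβ, Pi.add_apply, Pi.smul_apply, Pi.sub_apply, Finset.sum_add_distrib,
          ← Finset.smul_sum, Finset.sum_sub_distrib, hα.2, h1.2, h2.2, sub_self, smul_zero,
          add_zero]
    have hs1 : ∀ (c : ι → ℝ), ∑ i, c i * β i = c l - c l0 := by
      intro c
      simp only [hβ, Pi.sub_apply, mul_sub, Finset.sum_sub_distrib, Pi.single_apply, mul_ite,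
        mul_one, mul_zero, Finset.sum_ite_eq', Finset.mem_univ, if_true]
    have hs2 : ∑ i, β i • s i = s l - s l0 := by
      simp only [hβ, Pi.sub_apply, sub_smul, Finset.sum_sub_distrib, Pi.single_apply, ite_smul,
        one_smul, zero_smul, Finset.sum_ite_eq', Finset.mem_univ, if_true]
    have hg := lin_zero_of_quad (g := (∑ i, ρ i ^ 2 * α i * β i) -
      ⟪x - ∑ i, α i • s i, ∑ i, β i • s i⟫)
      (q := ‖∑ i, β i • s i‖ ^ 2 + ∑ i, (ρ i * β i) ^ 2) (by positivity) (fun t => by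
        have h1 := hmin _ (hmem t)
        rw [Jq_add] at h1
        linarith)
    rw [hs1 (fun i => ρ i ^ 2 * α i), hs2, inner_sub_right] at hg
    linarith
  · rw [Vd_eq_Jq]
    have : Nonempty (Coef A) := ⟨⟨α, hα⟩⟩
    refine le_antisymm (ciInf_le (Jq_bdd ρ A s x) (⟨α, hα⟩ : Coef A)) ?_
    exact le_ciInf fun β => hmin _ β.2

omit [DecidableEq ι] in
theorem Vd_mono {ρ ρ' : ι → ℝ} (h0 : ∀ l, 0 ≤ ρ l) (h : ∀ l, ρ l ≤ ρ' l) (A : Finset ι)
    (s : ι → E d) (x : E d) : Vd ρ A s x ≤ Vd ρ' A s x := by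
  refine ciInf_mono (Jq_bdd ρ A s x) fun α => ?_
  have : ∑ l, (ρ l * (α : ι → ℝ) l) ^ 2 ≤ ∑ l, (ρ' l * (α : ι → ℝ) l) ^ 2 := by
    refine Finset.sum_le_sum fun l _ => ?_
    rw [mul_pow, mul_pow]
    exact mul_le_mul_of_nonneg_right (pow_le_pow_left₀ (h0 l) (h l) 2) (sq_nonneg _)
  linarith

omit [DecidableEq ι] in
theorem measurable_Vd (ρ : ι → ℝ) (A : Finset ι) :
    Measurable (fun p : (ι → E d) × E d => Vd ρ A p.1 p.2) := by
  apply UpperSemicontinuous.measurable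
  apply upperSemicontinuous_ciInf
  · exact fun p => Jq_bdd ρ A p.1 p.2
  · intro α
    apply Continuous.upperSemicontinuous
    fun_prop

omit [DecidableEq ι] in
theorem Vd_congr (ρ : ι → ℝ) (A : Finset ι) {s s' : ι → E d} (h : ∀ l ∈ A, s l = s' l) (x : E d) :
    Vd ρ A s x = Vd ρ A s' x := by
  unfold Vd
  congr 1
  funext α
  have : ∑ l, (α : ι → ℝ) l • s l = ∑ l, (α : ι → ℝ) l • s' l := by
    refine Finset.sum_congr rfl fun l _ => ?_
    by_cases hl : l ∈ A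
    · rw [h l hl]
    · rw [α.2.1 l hl, zero_smul, zero_smul]
  rw [this]

omit [DecidableEq ι] in
theorem le_td {ρ : ℝ} (hρ : 0 < ρ) (A : Finset ι) (s : ι → E d) (x : E d) : ρ ≤ td ρ A s x := by
  unfold td
  apply Real.le_sqrt_of_sq_le
  have := Vd_nonneg (fun _ => ρ) A s x
  linarith

/-- `t ≥` distance to any subspace containing the points. -/
theorem infDist_le_td {ρ : ℝ} (hρ : 0 < ρ) (A : Finset ι) (hA : A.Nonempty) (s : ι → E d) (x : E d)
    (F : Submodule ℝ (E d)) (hF : ∀ l ∈ A, s l ∈ F) :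
    Metric.infDist x (F : Set (E d)) ≤ td ρ A s x := by
  unfold td
  apply Real.le_sqrt_of_sq_le
  have h1 : Metric.infDist x (F : Set (E d)) ^ 2 ≤ Vd (fun _ => ρ) A s x := by
    have : Nonempty (Coef A) := (Coef_nonempty hA).to_subtype
    refine le_ciInf fun α => ?_
    have hmem : ∑ l, (α : ι → ℝ) l • s l ∈ F := by
      refine Submodule.sum_mem _ fun l _ => ?_
      by_cases hl : l ∈ A
      · exact Submodule.smul_mem _ _ (hF l hl)
      · rw [α.2.1 l hl, zero_smul]; exact Submodule.zero_mem _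
    have h2 : Metric.infDist x (F : Set (E d)) ≤ ‖x - ∑ l, (α : ι → ℝ) l • s l‖ := by
      rw [← dist_eq_norm]
      exact Metric.infDist_le_dist_of_mem hmem
    have h3 : Metric.infDist x (F : Set (E d)) ^ 2 ≤ ‖x - ∑ l, (α : ι → ℝ) l • s l‖ ^ 2 :=
      pow_le_pow_left₀ Metric.infDist_nonneg h2 2
    have h4 : 0 ≤ ∑ l, (ρ * (α : ι → ℝ) l) ^ 2 := by positivity
    linarith
  nlinarith [sq_nonneg ρ]

/-- On the unit sphere all distances are at most `3`. -/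
theorem td_le_three {ρ : ℝ} (hρ : 0 < ρ) (hρ1 : ρ ≤ 1) (A : Finset ι) (hA : A.Nonempty)
    (s : ι → E d) (x : E d) (hs : ∀ l, ‖s l‖ = 1) (hx : ‖x‖ = 1) : td ρ A s x ≤ 3 := by
  obtain ⟨l0, hl0⟩ := hA
  have h1 := Vd_le (fun _ => ρ) A s x (single_mem_Coef hl0)
  have h2 : ∑ l, (Pi.single l0 (1 : ℝ) : ι → ℝ) l • s l = s l0 := by
    simp only [Pi.single_apply, ite_smul, one_smul, zero_smul, Finset.sum_ite_eq',
      Finset.mem_univ, if_true]
  have h3 : ∑ l, (ρ * (Pi.single l0 (1 : ℝ) : ι → ℝ) l) ^ 2 = ρ ^ 2 := by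
    have : ∀ l, (ρ * (Pi.single l0 (1 : ℝ) : ι → ℝ) l) ^ 2 = if l = l0 then ρ ^ 2 else 0 := by
      intro l
      rw [Pi.single_apply]
      split_ifs <;> ring
    simp only [this, Finset.sum_ite_eq', Finset.mem_univ, if_true]
  rw [h2, h3] at h1
  have h4 : ‖x - s l0‖ ≤ 2 := by
    calc ‖x - s l0‖ ≤ ‖x‖ + ‖s l0‖ := norm_sub_le _ _
      _ = 2 := by rw [hx, hs]; norm_num
  have h5 : ‖x - s l0‖ ^ 2 ≤ 4 := by nlinarith [norm_nonneg (x - s l0)]
  unfold td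
  rw [Real.sqrt_le_left (by norm_num)]
  nlinarith

omit [DecidableEq ι] in
theorem td_mono {ρ ρ' : ℝ} (h0 : 0 ≤ ρ) (h : ρ ≤ ρ') (A : Finset ι)
    (s : ι → E d) (x : E d) : td ρ A s x ≤ td ρ' A s x := by
  unfold td
  apply Real.sqrt_le_sqrt
  have h1 := Vd_mono (ρ := fun _ => ρ) (ρ' := fun _ => ρ') (fun _ => h0) (fun _ => h) A s x
  have h2 : ρ ^ 2 ≤ ρ' ^ 2 := pow_le_pow_left₀ h0 h 2
  linarith

omit [DecidableEq ι] in
theorem measurable_td (ρ : ℝ) (A : Finset ι) :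
    Measurable (fun p : (ι → E d) × E d => td ρ A p.1 p.2) := by
  unfold td
  exact ((measurable_Vd (fun _ => ρ) A).add_const _).sqrt

end Vale.Agent.P309
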