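import Vale.Agent.Lib.P309.Gauss
import Vale.Agent.Lib.P309.LemmaKA

/-!
# P309, module LEMMAK: the Gaussian integrals `kap`
-/

namespace Vale.Agent.P309

open MeasureTheory ProbabilityTheory
open scoped ENNReal RealInnerProductSpace

variable {ι : Type} [Fintype ι] [DecidableEq ι] {d : ℕ}

/-! ### Cameron-Martin -/

theorem lk_cm_one (a : ℝ) {H : ℝ → ℝ≥0∞} (hH : Measurable H) :
    ∫⁻ z, H (z + a) * ENNReal.ofReal (Real.exp (-(a * z) - a ^ 2 / 2)) ∂(gaussianReal 0 1) =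
      ∫⁻ z, H z ∂(gaussianReal 0 1) := by
  have h1 : ∀ {F : ℝ → ℝ≥0∞}, Measurable F → ∫⁻ g, F g ∂(gaussianReal 0 1) =
      ∫⁻ y, ENNReal.ofReal (phi 1 y) * F y := by
    intro F hF
    have := lintegral_phi (r := 1) one_pos 0 hF
    simpa using this.symm
  rw [h1 (by fun_prop), h1 hH]
  have h2 := lintegral_add_right_eq_self (μ := (volume : Measure ℝ))
    (fun y => ENNReal.ofReal (phi 1 y) * H y) a
  rw [← h2]
  refine lintegral_congr fun y => ?_
  rw [mul_comm (H (y + a)), ← mul_assoc, ← ENNReal.ofReal_mul (phi_pos one_pos y).le]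
  congr 2
  unfold phi
  rw [mul_assoc, ← Real.exp_add]
  congr 2
  ring

theorem lk_cm (e : E d) {F : E d → ℝ≥0∞} (hF : Measurable F) :
    ∫⁻ x, F (x + e) * ENNReal.ofReal (Real.exp (-⟪x, e⟫ - ‖e‖ ^ 2 / 2)) ∂(stdGaussian (E d)) =
      ∫⁻ x, F x ∂(stdGaussian (E d)) := by
  rcases eq_or_ne e 0 with rfl | he
  · simp
  set u : E d := ‖e‖⁻¹ • e with hu
  have hne : ‖e‖ ≠ 0 := norm_ne_zero_iff.2 he
  have hu1 : ‖u‖ = 1 := by
    rw [hu, norm_smul, norm_inv, norm_norm, inv_mul_cancel₀ hne]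
  have heu : e = ‖e‖ • u := by
    rw [hu, smul_smul, mul_inv_cancel₀ hne, one_smul]
  have hres := resample u hu1
  have hmap : Measurable (fun p : E d × ℝ => p.1 + (p.2 - ⟪p.1, u⟫) • u) := by fun_prop
  have hi : ∀ G : E d → ℝ≥0∞, Measurable G → ∫⁻ x, G x ∂(stdGaussian (E d)) =
      ∫⁻ x, ∫⁻ z, G (x + (z - ⟪x, u⟫) • u) ∂(gaussianReal 0 1) ∂(stdGaussian (E d)) := by
    intro G hG
    conv_lhs => rw [← hres]
    rw [lintegral_map hG hmap]
    exact lintegral_prod _ (hG.comp hmap).aemeasurable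
  rw [hi _ (by fun_prop), hi F hF]
  refine lintegral_congr fun x => ?_
  rw [← lk_cm_one ‖e‖ (H := fun z => F (x + (z - ⟪x, u⟫) • u)) (by fun_prop)]
  refine lintegral_congr fun z => ?_
  have h1 : x + (z - ⟪x, u⟫) • u + e = x + (z + ‖e‖ - ⟪x, u⟫) • u := by
    conv_lhs => rw [heu]
    rw [add_assoc, ← add_smul]
    congr 2
    ring
  have h2 : ⟪x + (z - ⟪x, u⟫) • u, e⟫ = ‖e‖ * z := by
    have h3 : ⟪x + (z - ⟪x, u⟫) • u, u⟫ = z := by
      rw [inner_add_left, real_inner_smul_left, real_inner_self_eq_norm_sq, hu1]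
      ring
    conv_lhs => rw [heu]
    rw [real_inner_smul_right, h3]
  rw [h1, h2]

/-! ### the measure behind `kap` -/

/-- density -/
noncomputable def kd (ρ : ι → ℝ) (A : Finset ι) (s : ι → E d) (z : E d × ℝ) : ℝ≥0∞ :=
  ∏ l ∈ A, ENNReal.ofReal (phi (ρ l) (z.2 - ⟪z.1, s l⟫))

theorem measurable_kd (ρ : ι → ℝ) (A : Finset ι) (s : ι → E d) : Measurable (kd ρ A s) := by
  unfold kd
  refine Finset.measurable_prod _ fun l _ => ENNReal.measurable_ofReal.comp ?_
  exact (measurable_phi (ρ l)).comp (by fun_prop)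

/-- the measure behind `kap` -/
noncomputable def kM (ρ : ι → ℝ) (A : Finset ι) (s : ι → E d) : Measure (E d × ℝ) :=
  ((stdGaussian (E d)).prod volume).withDensity (kd ρ A s)

instance (ρ : ι → ℝ) (A : Finset ι) (s : ι → E d) : SFinite (kM ρ A s) := by
  unfold kM
  infer_instance

theorem lintegral_kM (ρ : ι → ℝ) (A : Finset ι) (s : ι → E d) {F : E d × ℝ → ℝ≥0∞}
    (hF : Measurable F) : ∫⁻ z, F z ∂(kM ρ A s) =
      ∫⁻ x, ∫⁻ y, kd ρ A s (x, y) * F (x, y) ∂volume ∂(stdGaussian (E d)) := by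
  unfold kM
  rw [lintegral_withDensity_eq_lintegral_mul _ (measurable_kd ρ A s) hF,
    lintegral_prod _ ((measurable_kd ρ A s).mul hF).aemeasurable]
  rfl

theorem kap_eq (ρ : ι → ℝ) (A : Finset ι) (s : ι → E d) :
    kap ρ A s = ∫⁻ _z, 1 ∂(kM ρ A s) := by
  rw [lintegral_kM ρ A s measurable_const]
  unfold kap kd
  simp

theorem kap_insert_eq (ρ : ι → ℝ) (A : Finset ι) (a : ι) (ha : a ∉ A) (s : ι → E d) :
    kap ρ (insert a A) s =
      ∫⁻ z, ENNReal.ofReal (phi (ρ a) (z.2 - ⟪z.1, s a⟫)) ∂(kM ρ A s) := by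
  have hm : Measurable (fun z : E d × ℝ => ENNReal.ofReal (phi (ρ a) (z.2 - ⟪z.1, s a⟫))) :=
    ENNReal.measurable_ofReal.comp ((measurable_phi (ρ a)).comp (by fun_prop))
  rw [lintegral_kM ρ A s hm]
  unfold kap kd
  refine lintegral_congr fun x => lintegral_congr fun y => ?_
  rw [Finset.prod_insert ha, mul_comm]

theorem kap_singleton (ρ : ι → ℝ) (hρ : ∀ l, 0 < ρ l) (a : ι) (s : ι → E d) :
    kap ρ {a} s = 1 := by
  unfold kap
  have h1 : ∀ x : E d, ∫⁻ y, ∏ l ∈ {a}, ENNReal.ofReal (phi (ρ l) (y - ⟪x, s l⟫)) = 1 := by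
    intro x
    simp only [Finset.prod_singleton]
    have := lintegral_phi (hρ a) ⟪x, s a⟫ (F := fun _ => 1) measurable_const
    simpa using this
  simp only [h1]
  simp

theorem lk_phi_shift {ρ : ℝ} (hρ : 0 < ρ) (b t α : ℝ) :
    phi ρ (b - t * (ρ ^ 2 * α)) =
      phi ρ b * Real.exp (t * (α * b) - t ^ 2 * (ρ * α) ^ 2 / 2) := by
  unfold phi
  rw [mul_assoc, ← Real.exp_add]
  congr 2
  field_simp
  ring

theorem lk_kd_shift (ρ : ι → ℝ) (hρ : ∀ l, 0 < ρ l) (A : Finset ι) (s : ι → E d) (x₀ : E d)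
    {α : ι → ℝ} (hα : α ∈ Coef A) (y₀ : ℝ)
    (hy : ∀ l ∈ A, ⟪x₀ - ∑ l', α l' • s l', s l⟫ + y₀ = ρ l ^ 2 * α l) (t : ℝ)
    (x : E d) (y : ℝ) :
    kd ρ A s (x + t • (x₀ - ∑ l', α l' • s l'), y - t * y₀) =
      kd ρ A s (x, y) * ENNReal.ofReal (Real.exp (t * (y - ⟪x, ∑ l', α l' • s l'⟫) -
        t ^ 2 * (∑ l, (ρ l * α l) ^ 2) / 2)) := by
  unfold kd
  have h1 : ∀ l ∈ A, ENNReal.ofReal (phi (ρ l) (y - t * y₀ -
      ⟪x + t • (x₀ - ∑ l', α l' • s l'), s l⟫)) =
      ENNReal.ofReal (phi (ρ l) (y - ⟪x, s l⟫)) *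
        ENNReal.ofReal (Real.exp (t * (α l * (y - ⟪x, s l⟫)) - t ^ 2 * (ρ l * α l) ^ 2 / 2)) := by
    intro l hl
    rw [← ENNReal.ofReal_mul (phi_pos (hρ l) _).le, ← lk_phi_shift (hρ l), ← hy l hl,
      inner_add_left, real_inner_smul_left]
    congr 2
    ring
  show ∏ l ∈ A, ENNReal.ofReal (phi (ρ l) (y - t * y₀ -
      ⟪x + t • (x₀ - ∑ l', α l' • s l'), s l⟫)) = (∏ l ∈ A, ENNReal.ofReal (phi (ρ l)
        (y - ⟪x, s l⟫))) * _
  rw [Finset.prod_congr rfl h1, Finset.prod_mul_distrib]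
  congr 1
  rw [← ENNReal.ofReal_prod_of_nonneg (fun l _ => (Real.exp_pos _).le), ← Real.exp_sum]
  congr 2
  rw [Finset.sum_sub_distrib, ← Finset.mul_sum]
  have h2 : ∑ l ∈ A, α l * (y - ⟪x, s l⟫) = y - ⟪x, ∑ l', α l' • s l'⟫ := by
    rw [Finset.sum_subset (Finset.subset_univ A) (fun l _ hl => by rw [hα.1 l hl, zero_mul]),
      inner_sum]
    simp only [real_inner_smul_right, mul_sub, Finset.sum_sub_distrib]
    rw [← Finset.sum_mul, hα.2, one_mul]
  have h3 : ∑ l ∈ A, t ^ 2 * (ρ l * α l) ^ 2 / 2 = t ^ 2 * (∑ l, (ρ l * α l) ^ 2) / 2 := by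
    rw [Finset.sum_subset (Finset.subset_univ A) (fun l _ hl => by rw [hα.1 l hl]; ring),
      ← Finset.sum_div, ← Finset.mul_sum]
  rw [h2, h3]

/-- the shift identity -/
theorem kM_shift (ρ : ι → ℝ) (hρ : ∀ l, 0 < ρ l) (A : Finset ι) (s : ι → E d) (x₀ : E d)
    {α : ι → ℝ} (hα : α ∈ Coef A) (y₀ : ℝ)
    (hy : ∀ l ∈ A, ⟪x₀ - ∑ l', α l' • s l', s l⟫ + y₀ = ρ l ^ 2 * α l) (t : ℝ)
    {F : E d × ℝ → ℝ≥0∞} (hF : Measurable F) :
    ∫⁻ z, F z ∂(kM ρ A s) =
      ∫⁻ z, F (z.1 + t • (x₀ - ∑ l', α l' • s l'), z.2 - t * y₀) *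
        ENNReal.ofReal (Real.exp (t * (z.2 - ⟪z.1, x₀⟫) -
          t ^ 2 * (‖x₀ - ∑ l, α l • s l‖ ^ 2 + ∑ l, (ρ l * α l) ^ 2) / 2)) ∂(kM ρ A s) := by
  have hkd := measurable_kd ρ A s
  have hsh : Measurable (fun z : E d × ℝ =>
      (z.1 + t • (x₀ - ∑ l', α l' • s l'), z.2 - t * y₀)) := by fun_prop
  have hm2 : Measurable (fun z : E d × ℝ =>
      F (z.1 + t • (x₀ - ∑ l', α l' • s l'), z.2 - t * y₀) *
        ENNReal.ofReal (Real.exp (t * (z.2 - ⟪z.1, x₀⟫) -
          t ^ 2 * (‖x₀ - ∑ l, α l • s l‖ ^ 2 + ∑ l, (ρ l * α l) ^ 2) / 2))) := by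
    refine (hF.comp hsh).mul ?_
    fun_prop
  rw [lintegral_kM ρ A s hF, lintegral_kM ρ A s hm2]
  have hG : Measurable (fun x : E d => ∫⁻ y, kd ρ A s (x, y) * F (x, y)) :=
    (hkd.mul hF).lintegral_prod_right'
  rw [← lk_cm (t • (x₀ - ∑ l', α l' • s l')) hG]
  refine lintegral_congr fun x => ?_
  rw [← lintegral_mul_const _ (by
    exact (hkd.mul hF).comp measurable_prodMk_left)]
  rw [← lintegral_sub_right_eq_self (fun y => kd ρ A s (x + t • (x₀ - ∑ l', α l' • s l'), y) *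
    F (x + t • (x₀ - ∑ l', α l' • s l'), y) * ENNReal.ofReal (Real.exp
      (-⟪x, t • (x₀ - ∑ l', α l' • s l')⟫ - ‖t • (x₀ - ∑ l', α l' • s l')‖ ^ 2 / 2))) (t * y₀)]
  refine lintegral_congr fun y => ?_
  rw [lk_kd_shift ρ hρ A s x₀ hα y₀ hy t x y]
  have h1 : ENNReal.ofReal (Real.exp (t * (y - ⟪x, ∑ l', α l' • s l'⟫) -
        t ^ 2 * (∑ l, (ρ l * α l) ^ 2) / 2)) * ENNReal.ofReal (Real.exp
      (-⟪x, t • (x₀ - ∑ l', α l' • s l')⟫ - ‖t • (x₀ - ∑ l', α l' • s l')‖ ^ 2 / 2)) =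
      ENNReal.ofReal (Real.exp (t * (y - ⟪x, x₀⟫) -
          t ^ 2 * (‖x₀ - ∑ l, α l • s l‖ ^ 2 + ∑ l, (ρ l * α l) ^ 2) / 2)) := by
    rw [← ENNReal.ofReal_mul (Real.exp_pos _).le, ← Real.exp_add]
    congr 2
    rw [norm_smul, mul_pow, Real.norm_eq_abs, sq_abs, real_inner_smul_right, inner_sub_right]
    ring
  rw [← h1]
  ring

theorem kM_ell (ρ : ι → ℝ) (hρ : ∀ l, 0 < ρ l) (A : Finset ι) (hA : A.Nonempty) (s : ι → E d)
    (x₀ : E d) : 0 < Vd ρ A s x₀ ∧ ∃ C : ℝ≥0∞, ∀ h : ℝ → ℝ≥0∞, Measurable h →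
      ∫⁻ z, h (z.2 - ⟪z.1, x₀⟫) ∂(kM ρ A s) =
        C * ∫⁻ a, h a * ENNReal.ofReal (Real.exp (-(a ^ 2 / (2 * Vd ρ A s x₀)))) := by
  obtain ⟨α, hα, y₀, hy, hV⟩ := foot ρ A hA hρ s x₀
  have hVpos : 0 < Vd ρ A s x₀ := by
    rw [hV]
    have h1 : 0 < ∑ l, (ρ l * α l) ^ 2 := by
      by_contra hcon
      have h2 : ∑ l, (ρ l * α l) ^ 2 = 0 :=
        le_antisymm (not_lt.1 hcon) (Finset.sum_nonneg fun l _ => sq_nonneg _)
      rw [Finset.sum_eq_zero_iff_of_nonneg (fun l _ => sq_nonneg _)] at h2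
      have h3 : ∀ l, α l = 0 := fun l => by
        have := h2 l (Finset.mem_univ l)
        rw [sq_eq_zero_iff, mul_eq_zero] at this
        exact this.resolve_left (hρ l).ne'
      have h4 := hα.2
      simp [h3] at h4
    positivity
  refine ⟨hVpos, ?_⟩
  set V := Vd ρ A s x₀ with hVdef
  set e := x₀ - ∑ l, α l • s l with he
  have hell : y₀ + ⟪e, x₀⟫ = V := by
    have h1 : x₀ = e + ∑ l, α l • s l := by rw [he]; abel
    have h2 : ⟪e, x₀⟫ = ‖e‖ ^ 2 + ∑ l, α l * ⟪e, s l⟫ := by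
      conv_lhs => rw [h1]
      rw [inner_add_right, real_inner_self_eq_norm_sq, inner_sum]
      simp only [real_inner_smul_right]
    have h3 : ∑ l, α l * ⟪e, s l⟫ = ∑ l, (ρ l * α l) ^ 2 - y₀ := by
      have h4 : ∀ l, α l * ⟪e, s l⟫ = (ρ l * α l) ^ 2 - α l * y₀ := by
        intro l
        by_cases hl : l ∈ A
        · have := hy l hl
          have h5 : ⟪e, s l⟫ = ρ l ^ 2 * α l - y₀ := by linarith
          rw [h5]
          ring
        · rw [hα.1 l hl]
          ring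
      simp only [h4, Finset.sum_sub_distrib]
      rw [← Finset.sum_mul, hα.2, one_mul]
    rw [h2, h3, hV]
    ring
  have hem : Measurable (fun z : E d × ℝ => z.2 - ⟪z.1, x₀⟫) := by fun_prop
  have hphi : Measurable (phi 1) := measurable_phi 1
  refine ⟨∫⁻ z, ENNReal.ofReal (phi 1 (z.2 - ⟪z.1, x₀⟫)) *
    ENNReal.ofReal (Real.exp ((z.2 - ⟪z.1, x₀⟫) ^ 2 / (2 * V))) ∂(kM ρ A s), ?_⟩
  intro h hh
  have hone : ∀ b : ℝ, ∫⁻ τ, ENNReal.ofReal (phi 1 (b + τ)) = 1 := by
    intro b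
    rw [lintegral_add_left_eq_self (fun τ => ENNReal.ofReal (phi 1 τ)) b]
    have := lintegral_phi (r := 1) one_pos 0 (F := fun _ => 1) measurable_const
    simpa using this
  have hcov : ∀ b : ℝ, ∫⁻ τ, h (b - τ) *
      ENNReal.ofReal (Real.exp (τ / V * b - (τ / V) ^ 2 * V / 2)) =
      ENNReal.ofReal (Real.exp (b ^ 2 / (2 * V))) *
        ∫⁻ a, h a * ENNReal.ofReal (Real.exp (-(a ^ 2 / (2 * V)))) := by
    intro b
    rw [← lintegral_const_mul _ (by fun_prop),
      ← lintegral_sub_left_eq_self (fun a => ENNReal.ofReal (Real.exp (b ^ 2 / (2 * V))) *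
        (h a * ENNReal.ofReal (Real.exp (-(a ^ 2 / (2 * V)))))) b]
    refine lintegral_congr fun τ => ?_
    rw [mul_left_comm, ← ENNReal.ofReal_mul (Real.exp_pos _).le, ← Real.exp_add]
    congr 3
    field_simp
    ring
  calc ∫⁻ z, h (z.2 - ⟪z.1, x₀⟫) ∂(kM ρ A s)
      = ∫⁻ z, (∫⁻ τ : ℝ, h (z.2 - ⟪z.1, x₀⟫) *
          ENNReal.ofReal (phi 1 (z.2 - ⟪z.1, x₀⟫ + τ))) ∂(kM ρ A s) := by
        refine lintegral_congr fun z => ?_
        rw [lintegral_const_mul _ (by fun_prop), hone, mul_one]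
    _ = ∫⁻ τ : ℝ, (∫⁻ z, h (z.2 - ⟪z.1, x₀⟫) *
          ENNReal.ofReal (phi 1 (z.2 - ⟪z.1, x₀⟫ + τ)) ∂(kM ρ A s)) := by
        refine lintegral_lintegral_swap ?_
        exact (by fun_prop : Measurable (fun p : (E d × ℝ) × ℝ => h (p.1.2 - ⟪p.1.1, x₀⟫) *
          ENNReal.ofReal (phi 1 (p.1.2 - ⟪p.1.1, x₀⟫ + p.2)))).aemeasurable
    _ = ∫⁻ τ : ℝ, (∫⁻ z, ENNReal.ofReal (phi 1 (z.2 - ⟪z.1, x₀⟫)) *
          (h (z.2 - ⟪z.1, x₀⟫ - τ) *
          ENNReal.ofReal (Real.exp (τ / V * (z.2 - ⟪z.1, x₀⟫) - (τ / V) ^ 2 * V / 2)))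
          ∂(kM ρ A s)) := by
        refine lintegral_congr fun τ => ?_
        have hm : Measurable (fun z : E d × ℝ => h (z.2 - ⟪z.1, x₀⟫) *
          ENNReal.ofReal (phi 1 (z.2 - ⟪z.1, x₀⟫ + τ))) := by fun_prop
        rw [kM_shift ρ hρ A s x₀ hα y₀ hy (τ / V) hm]
        refine lintegral_congr fun z => ?_
        have h5 : z.2 - τ / V * y₀ - ⟪z.1 + (τ / V) • (x₀ - ∑ l', α l' • s l'), x₀⟫ =
            z.2 - ⟪z.1, x₀⟫ - τ := by
          rw [inner_add_left, real_inner_smul_left]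
          have h6 : τ / V * (y₀ + ⟪e, x₀⟫) = τ := by
            rw [hell]
            field_simp
          linarith
        show h (z.2 - τ / V * y₀ - ⟪z.1 + (τ / V) • (x₀ - ∑ l', α l' • s l'), x₀⟫) *
          ENNReal.ofReal (phi 1 (z.2 - τ / V * y₀ -
            ⟪z.1 + (τ / V) • (x₀ - ∑ l', α l' • s l'), x₀⟫ + τ)) * _ = _
        rw [h5, sub_add_cancel, ← he, ← hV]
        ring
    _ = ∫⁻ z, (∫⁻ τ : ℝ, ENNReal.ofReal (phi 1 (z.2 - ⟪z.1, x₀⟫)) *
          (h (z.2 - ⟪z.1, x₀⟫ - τ) *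
          ENNReal.ofReal (Real.exp (τ / V * (z.2 - ⟪z.1, x₀⟫) - (τ / V) ^ 2 * V / 2))))
          ∂(kM ρ A s) := by
        refine (lintegral_lintegral_swap ?_).symm
        exact (by fun_prop : Measurable (fun p : (E d × ℝ) × ℝ =>
          ENNReal.ofReal (phi 1 (p.1.2 - ⟪p.1.1, x₀⟫)) * (h (p.1.2 - ⟪p.1.1, x₀⟫ - p.2) *
          ENNReal.ofReal (Real.exp (p.2 / V * (p.1.2 - ⟪p.1.1, x₀⟫) -
            (p.2 / V) ^ 2 * V / 2))))).aemeasurable
    _ = ∫⁻ z, ENNReal.ofReal (phi 1 (z.2 - ⟪z.1, x₀⟫)) *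
          ENNReal.ofReal (Real.exp ((z.2 - ⟪z.1, x₀⟫) ^ 2 / (2 * V))) *
          (∫⁻ a : ℝ, h a * ENNReal.ofReal (Real.exp (-(a ^ 2 / (2 * V))))) ∂(kM ρ A s) := by
        refine lintegral_congr fun z => ?_
        rw [lintegral_const_mul _ (by fun_prop), hcov, mul_assoc]
    _ = _ := lintegral_mul_const _ (by fun_prop)

theorem lk_gauss_int (V : ℝ) (hV : 0 < V) :
    ∫⁻ a : ℝ, ENNReal.ofReal (Real.exp (-(a ^ 2 / (2 * V)))) =
      ENNReal.ofReal (Real.sqrt (2 * Real.pi) * Real.sqrt V) := by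
  have hb : (0 : ℝ) < 1 / (2 * V) := by positivity
  have h1 : ∀ a : ℝ, Real.exp (-(a ^ 2 / (2 * V))) = Real.exp (-(1 / (2 * V)) * a ^ 2) := by
    intro a
    congr 1
    field_simp
  simp only [h1]
  rw [← ofReal_integral_eq_lintegral_ofReal (integrable_exp_neg_mul_sq hb)
    (Filter.Eventually.of_forall fun a => (Real.exp_pos _).le), integral_gaussian]
  congr 1
  rw [← Real.sqrt_mul (by positivity)]
  congr 1
  field_simp

/-- LEMMA K. -/
theorem kap_insert (ρ : ι → ℝ) (hρ : ∀ l, 0 < ρ l) (A : Finset ι) (hA : A.Nonempty) (a : ι)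
    (ha : a ∉ A) (s : ι → E d) :
    kap ρ (insert a A) s = kap ρ A s *
      ENNReal.ofReal ((Real.sqrt (2 * Real.pi) * Real.sqrt (Vd ρ A s (s a) + ρ a ^ 2))⁻¹) := by
  obtain ⟨hV, C, hC⟩ := kM_ell ρ hρ A hA s (s a)
  set V := Vd ρ A s (s a) with hVdef
  have hra := hρ a
  have h1 : kap ρ A s = C * ENNReal.ofReal (Real.sqrt (2 * Real.pi) * Real.sqrt V) := by
    have := hC (fun _ => 1) measurable_const
    simp only [one_mul] at this
    rw [kap_eq, this, lk_gauss_int V hV]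
  have h2 : ∫⁻ b, ENNReal.ofReal (phi (ρ a) b) * ENNReal.ofReal (Real.exp (-(b ^ 2 / (2 * V)))) =
      ENNReal.ofReal (Real.sqrt V / Real.sqrt (V + ρ a ^ 2)) := by
    have h3 : ∀ b, ENNReal.ofReal (phi (ρ a) b) * ENNReal.ofReal (Real.exp (-(b ^ 2 / (2 * V)))) =
        ENNReal.ofReal ((Real.sqrt (2 * Real.pi) * ρ a)⁻¹) *
          ENNReal.ofReal (Real.exp (-(b ^ 2 / (2 * (V * ρ a ^ 2 / (V + ρ a ^ 2)))))) := by
      intro b
      rw [← ENNReal.ofReal_mul (phi_pos hra b).le, ← ENNReal.ofReal_mul (by positivity)]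
      unfold phi
      rw [mul_assoc, ← Real.exp_add]
      congr 3
      field_simp
      ring
    simp only [h3]
    rw [lintegral_const_mul _ (by fun_prop), lk_gauss_int _ (by positivity),
      ← ENNReal.ofReal_mul (by positivity)]
    congr 1
    rw [Real.sqrt_div (by positivity), Real.sqrt_mul hV.le, Real.sqrt_sq hra.le]
    field_simp
  rw [kap_insert_eq ρ A a ha s]
  have h4 := hC (fun b => ENNReal.ofReal (phi (ρ a) b))
    (ENNReal.measurable_ofReal.comp (measurable_phi _))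
  rw [h4, h2, h1, mul_assoc, ← ENNReal.ofReal_mul (by positivity)]
  congr 2
  have : 0 < Real.sqrt (V + ρ a ^ 2) := Real.sqrt_pos.2 (by positivity)
  field_simp

theorem lk_kap_fin (ρ : ι → ℝ) (hρ : ∀ l, 0 < ρ l) (A : Finset ι) (hA : A.Nonempty)
    (s : ι → E d) : kap ρ A s ≠ 0 ∧ kap ρ A s ≠ ∞ := by
  induction hA using Finset.Nonempty.cons_induction with
  | singleton a =>
    rw [kap_singleton ρ hρ]
    exact ⟨one_ne_zero, ENNReal.one_ne_top⟩
  | cons a A ha hA ih =>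
    rw [Finset.cons_eq_insert, kap_insert ρ hρ A hA a ha]
    have h1 : 0 < (Real.sqrt (2 * Real.pi) * Real.sqrt (Vd ρ A s (s a) + ρ a ^ 2))⁻¹ := by
      have := Vd_nonneg ρ A s (s a)
      have := hρ a
      have : 0 < Real.sqrt (Vd ρ A s (s a) + ρ a ^ 2) := Real.sqrt_pos.2 (by positivity)
      positivity
    exact ⟨mul_ne_zero ih.1 (ENNReal.ofReal_pos.2 h1).ne', ENNReal.mul_ne_top ih.2
      ENNReal.ofReal_ne_top⟩

theorem kap_ne_zero (ρ : ι → ℝ) (hρ : ∀ l, 0 < ρ l) (A : Finset ι) (hA : A.Nonempty)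
    (s : ι → E d) : kap ρ A s ≠ 0 := (lk_kap_fin ρ hρ A hA s).1

theorem kap_ne_top (ρ : ι → ℝ) (hρ : ∀ l, 0 < ρ l) (A : Finset ι) (hA : A.Nonempty)
    (s : ι → E d) : kap ρ A s ≠ ∞ := (lk_kap_fin ρ hρ A hA s).2

theorem measurable_kap (ρ : ι → ℝ) (A : Finset ι) :
    Measurable (fun s : ι → E d => kap ρ A s) := by
  unfold kap
  have h1 : Measurable (fun p : ((ι → E d) × E d) × ℝ =>
      ∏ l ∈ A, ENNReal.ofReal (phi (ρ l) (p.2 - ⟪p.1.2, p.1.1 l⟫))) := by
    refine Finset.measurable_prod _ fun l _ => ENNReal.measurable_ofReal.comp ?_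
    exact (measurable_phi (ρ l)).comp (by fun_prop)
  exact (h1.lintegral_prod_right').lintegral_prod_right'

theorem lk_lg_mul_ofReal {x : ℝ≥0∞} (hx0 : x ≠ 0) (hxt : x ≠ ∞) {c : ℝ} (hc : 0 < c) :
    lg (x * ENNReal.ofReal c) = lg x + Real.log c := by
  unfold lg
  rw [ENNReal.toReal_mul, ENNReal.toReal_ofReal hc.le, Real.log_mul
    (ENNReal.toReal_ne_zero.2 ⟨hx0, hxt⟩) hc.ne']

theorem lk_td_pos {ρ : ℝ} (hρ : 0 < ρ) (A : Finset ι) (s : ι → E d) (x : E d) :
    0 < td ρ A s x := lt_of_lt_of_le hρ (le_td hρ A s x)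

/-- Product formula. -/
theorem lg_kap {n : ℕ} {ρ : ℝ} (hρ : 0 < ρ) (s : Fin (n + 1) → E d) :
    lg (kap (fun _ => ρ) Finset.univ s) =
      -∑ j ∈ Finset.univ.erase (0 : Fin (n + 1)),
        (Real.log (Real.sqrt (2 * Real.pi)) + Real.log (td ρ (bef j) s (s j))) := by
  let Ak : ℕ → Finset (Fin (n + 1)) := fun k => Finset.univ.filter (fun l => (l : ℕ) ≤ k)
  have hAk : ∀ k (l : Fin (n + 1)), l ∈ Ak k ↔ (l : ℕ) ≤ k := fun k l => by simp [Ak]
  have key : ∀ k, k ≤ n → lg (kap (fun _ => ρ) (Ak k) s) =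
      -∑ j ∈ (Ak k).erase (0 : Fin (n + 1)),
        (Real.log (Real.sqrt (2 * Real.pi)) + Real.log (td ρ (bef j) s (s j))) := by
    intro k
    induction k with
    | zero =>
      intro _
      have h0 : Ak 0 = {0} := by
        ext l
        rw [hAk, Finset.mem_singleton]
        constructor
        · intro h
          exact Fin.ext (by simpa using h)
        · rintro rfl
          simp
      rw [h0, kap_singleton _ (fun _ => hρ), Finset.erase_singleton, Finset.sum_empty, neg_zero]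
      simp [lg]
    | succ k ih =>
      intro hk
      have ih' := ih (by omega)
      let a : Fin (n + 1) := ⟨k + 1, by omega⟩
      have ha : a ∉ Ak k := by
        rw [hAk]
        show ¬ (k + 1 ≤ k)
        omega
      have hins : Ak (k + 1) = insert a (Ak k) := by
        ext l
        rw [hAk, Finset.mem_insert, hAk]
        constructor
        · intro h
          rcases Nat.lt_or_ge k l with h1 | h1
          · left
            exact Fin.ext (by show (l : ℕ) = k + 1; omega)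
          · right
            exact h1
        · rintro (rfl | h)
          · exact le_rfl
          · omega
      have hne : (Ak k).Nonempty := ⟨0, by rw [hAk]; simp⟩
      have hbef : bef a = Ak k := by
        ext l
        rw [hAk]
        unfold bef
        rw [Finset.mem_filter]
        constructor
        · rintro ⟨-, h⟩
          have h' : (l : ℕ) < k + 1 := h
          omega
        · intro h
          refine ⟨Finset.mem_univ _, ?_⟩
          show (l : ℕ) < k + 1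
          omega
      have ha0 : a ≠ 0 := by
        intro h
        have := congrArg Fin.val h
        simp [a] at this
      have hnn : 0 < Vd (fun _ => ρ) (Ak k) s (s a) + ρ ^ 2 := by
        have := Vd_nonneg (fun _ => ρ) (Ak k) s (s a)
        positivity
      have hsq : 0 < Real.sqrt (Vd (fun _ => ρ) (Ak k) s (s a) + ρ ^ 2) := Real.sqrt_pos.2 hnn
      rw [hins, kap_insert _ (fun _ => hρ) _ hne a ha,
        lk_lg_mul_ofReal (kap_ne_zero _ (fun _ => hρ) _ hne s) (kap_ne_top _ (fun _ => hρ) _ hne s)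
        (by positivity), ih', Finset.erase_insert_of_ne ha0, Finset.sum_insert
        (fun h => ha (Finset.mem_of_mem_erase h)), hbef, Real.log_inv, Real.log_mul
        (by positivity) hsq.ne']
      have htd : td ρ (Ak k) s (s a) = Real.sqrt (Vd (fun _ => ρ) (Ak k) s (s a) + ρ ^ 2) := rfl
      rw [htd]
      ring
  have hn := key n le_rfl
  have huniv : Ak n = Finset.univ := by
    ext l
    rw [hAk]
    simp only [Finset.mem_univ, iff_true]
    omega
  rw [huniv] at hn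
  exact hn

theorem lk_Vd_congr_rho {ρ ρ' : ι → ℝ} (A : Finset ι) (h : ∀ l ∈ A, ρ l = ρ' l)
    (s : ι → E d) (x : E d) : Vd ρ A s x = Vd ρ' A s x := by
  unfold Vd
  congr 1
  funext α
  congr 1
  refine Finset.sum_congr rfl fun l _ => ?_
  by_cases hl : l ∈ A
  · rw [h l hl]
  · rw [α.2.1 l hl, mul_zero, mul_zero]

theorem lk_kap_congr_rho {ρ ρ' : ι → ℝ} (A : Finset ι) (h : ∀ l ∈ A, ρ l = ρ' l)
    (s : ι → E d) : kap ρ A s = kap ρ' A s := by
  unfold kap
  refine lintegral_congr fun x => lintegral_congr fun y => ?_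
  exact Finset.prod_congr rfl fun l hl => by rw [h l hl]

/-- Mismatch of the noise levels `r ≤ w`. -/
theorem kap_mismatch {n : ℕ} (hn : 1 ≤ n) {r w : ℝ} (hr : 0 < r) (hrw : r ≤ w)
    (s : Fin (n + 1) → E d) :
    kap (fun _ => r) Finset.univ s ≤ kap (fun _ => w) Finset.univ s *
      ∏ l, ENNReal.ofReal (Real.sqrt (1 + w ^ 2 / td r (Finset.univ.erase l) s (s l) ^ 2)) := by
  have hw : 0 < w := lt_of_lt_of_le hr hrw
  let g : Fin (n + 1) → ℝ≥0∞ := fun l =>
    ENNReal.ofReal (Real.sqrt (1 + w ^ 2 / td r (Finset.univ.erase l) s (s l) ^ 2))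
  let ρk : ℕ → Fin (n + 1) → ℝ := fun k l => if (l : ℕ) < k then w else r
  have hρk : ∀ k l, 0 < ρk k l := by
    intro k l
    show 0 < if (l : ℕ) < k then w else r
    split_ifs <;> assumption
  have hρr : ∀ k l, r ≤ ρk k l := by
    intro k l
    show r ≤ if (l : ℕ) < k then w else r
    split_ifs
    · exact hrw
    · exact le_rfl
  have step : ∀ k (hk : k < n + 1), kap (ρk k) Finset.univ s ≤
      kap (ρk (k + 1)) Finset.univ s * g ⟨k, hk⟩ := by
    intro k hk
    set a : Fin (n + 1) := ⟨k, hk⟩ with ha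
    have hne : (Finset.univ.erase a).Nonempty := by
      rw [← Finset.card_pos, Finset.card_erase_of_mem (Finset.mem_univ _), Finset.card_univ,
        Fintype.card_fin]
      omega
    have huniv : (Finset.univ : Finset (Fin (n + 1))) = insert a (Finset.univ.erase a) :=
      (Finset.insert_erase (Finset.mem_univ a)).symm
    have hagree : ∀ l ∈ Finset.univ.erase a, ρk k l = ρk (k + 1) l := by
      intro l hl
      have hla : l ≠ a := Finset.ne_of_mem_erase hl
      have hla' : (l : ℕ) ≠ k := fun h => hla (Fin.ext h)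
      show (if (l : ℕ) < k then w else r) = if (l : ℕ) < k + 1 then w else r
      by_cases h1 : (l : ℕ) < k
      · rw [if_pos h1, if_pos (by omega)]
      · rw [if_neg h1, if_neg (by omega)]
    have hak : ρk k a = r := by
      show (if k < k then w else r) = r
      rw [if_neg (lt_irrefl _)]
    have hak' : ρk (k + 1) a = w := by
      show (if k < k + 1 then w else r) = w
      rw [if_pos (Nat.lt_succ_self _)]
    have e1 : kap (ρk k) Finset.univ s = kap (ρk k) (Finset.univ.erase a) s *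
        ENNReal.ofReal ((Real.sqrt (2 * Real.pi) *
          Real.sqrt (Vd (ρk k) (Finset.univ.erase a) s (s a) + r ^ 2))⁻¹) := by
      conv_lhs => rw [huniv]
      rw [kap_insert (ρk k) (hρk k) _ hne a (Finset.notMem_erase _ _), hak]
    have e2 : kap (ρk (k + 1)) Finset.univ s = kap (ρk k) (Finset.univ.erase a) s *
        ENNReal.ofReal ((Real.sqrt (2 * Real.pi) *
          Real.sqrt (Vd (ρk k) (Finset.univ.erase a) s (s a) + w ^ 2))⁻¹) := by
      conv_lhs => rw [huniv]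
      rw [kap_insert (ρk (k + 1)) (hρk (k + 1)) _ hne a (Finset.notMem_erase _ _), hak',
        lk_kap_congr_rho _ hagree, lk_Vd_congr_rho _ hagree]
    rw [e1, e2, mul_assoc, ← ENNReal.ofReal_mul (by positivity)]
    gcongr
    set V := Vd (ρk k) (Finset.univ.erase a) s (s a) with hV
    have hV0 : 0 ≤ V := Vd_nonneg _ _ _ _
    have htd : td r (Finset.univ.erase a) s (s a) ^ 2 ≤ V + r ^ 2 := by
      unfold td
      have h1 := Vd_nonneg (fun _ => r) (Finset.univ.erase a) s (s a)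
      rw [Real.sq_sqrt (by positivity)]
      have := Vd_mono (ρ := fun _ => r) (ρ' := ρk k) (fun _ => hr.le) (hρr k)
        (Finset.univ.erase a) s (s a)
      linarith
    have htd0 := lk_td_pos hr (Finset.univ.erase a) s (s a)
    set T := td r (Finset.univ.erase a) s (s a) with hT
    have hmain : V + w ^ 2 ≤ (V + r ^ 2) * (1 + w ^ 2 / T ^ 2) := by
      have h1 : w ^ 2 ≤ (V + r ^ 2) * (w ^ 2 / T ^ 2) := by
        rw [mul_div_assoc', le_div_iff₀ (by positivity)]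
        nlinarith [sq_nonneg w]
      nlinarith [sq_nonneg r]
    have hsq1 : 0 < Real.sqrt (V + r ^ 2) := Real.sqrt_pos.2 (by positivity)
    have hsq2 : 0 < Real.sqrt (V + w ^ 2) := Real.sqrt_pos.2 (by positivity)
    have hsq3 : Real.sqrt (V + w ^ 2) ≤ Real.sqrt (V + r ^ 2) * Real.sqrt (1 + w ^ 2 / T ^ 2) := by
      rw [← Real.sqrt_mul (by positivity)]
      exact Real.sqrt_le_sqrt hmain
    have h2pi : 0 < Real.sqrt (2 * Real.pi) := by positivity
    rw [inv_mul_eq_div, le_div_iff₀ (by positivity), inv_mul_eq_div, div_le_iff₀ (by positivity)]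
    nlinarith
  have key : ∀ k, k ≤ n + 1 → kap (fun _ => r) Finset.univ s ≤ kap (ρk k) Finset.univ s *
      ∏ l ∈ Finset.univ.filter (fun l : Fin (n + 1) => (l : ℕ) < k), g l := by
    intro k
    induction k with
    | zero =>
      intro _
      have h1 : ρk 0 = fun _ => r := by
        funext l
        show (if (l : ℕ) < 0 then w else r) = r
        rw [if_neg (Nat.not_lt_zero _)]
      simp [h1]
    | succ k ih =>
      intro hk
      refine (ih (by omega)).trans ?_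
      refine (mul_le_mul' (step k (by omega)) le_rfl).trans ?_
      have hf : Finset.univ.filter (fun l : Fin (n + 1) => (l : ℕ) < k + 1) =
          insert (⟨k, by omega⟩ : Fin (n + 1))
            (Finset.univ.filter (fun l : Fin (n + 1) => (l : ℕ) < k)) := by
        ext l
        simp only [Finset.mem_filter, Finset.mem_univ, true_and, Finset.mem_insert]
        constructor
        · intro h
          rcases Nat.lt_or_ge (l : ℕ) k with h1 | h1
          · exact Or.inr h1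
          · exact Or.inl (Fin.ext (by show (l : ℕ) = k; omega))
        · rintro (rfl | h)
          · exact Nat.lt_succ_self _
          · omega
      rw [hf, Finset.prod_insert (by simp), mul_assoc]
  have hfin := key (n + 1) le_rfl
  have h1 : ρk (n + 1) = fun _ => w := by
    funext l
    show (if (l : ℕ) < n + 1 then w else r) = w
    rw [if_pos l.2]
  have h2 : Finset.univ.filter (fun l : Fin (n + 1) => (l : ℕ) < n + 1) = Finset.univ := by
    ext l
    simp only [Finset.mem_filter, Finset.mem_univ, true_and, iff_true]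
    exact l.2
  rw [h1, h2] at hfin
  exact hfin

theorem lk_log_sqrt_le {x : ℝ} (hx : 0 ≤ x) : Real.log (Real.sqrt (1 + x ^ 2)) ≤ x := by
  rw [Real.log_sqrt (by positivity)]
  have h1 : Real.log (1 + x ^ 2) ≤ Real.log ((1 + x) ^ 2) :=
    Real.log_le_log (by positivity) (by nlinarith)
  rw [Real.log_pow] at h1
  have h2 := Real.log_le_sub_one_of_pos (show 0 < 1 + x by linarith)
  push_cast at h1
  linarith

/-- Logarithmic form used in the static lemma. -/
theorem lg_kap_le {n : ℕ} (hn : 1 ≤ n) {r w : ℝ} (hr : 0 < r) (hrw : r ≤ w)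
    (s : Fin (n + 1) → E d) :
    lg (kap (fun _ => r) Finset.univ s) ≤
      -∑ j ∈ Finset.univ.erase (0 : Fin (n + 1)), Real.log (td w (bef j) s (s j)) +
        w * ∑ l, (td r (Finset.univ.erase l) s (s l))⁻¹ := by
  have hw : 0 < w := lt_of_lt_of_le hr hrw
  have h1 := kap_mismatch hn hr hrw s
  have hne : (Finset.univ : Finset (Fin (n + 1))).Nonempty := Finset.univ_nonempty
  have hr0 := kap_ne_zero (fun _ => r) (fun _ => hr) Finset.univ hne s
  have hw0 := kap_ne_zero (fun _ => w) (fun _ => hw) Finset.univ hne s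
  have hwt := kap_ne_top (fun _ => w) (fun _ => hw) Finset.univ hne s
  have hq : ∀ l, 0 < Real.sqrt (1 + w ^ 2 / td r (Finset.univ.erase l) s (s l) ^ 2) :=
    fun l => Real.sqrt_pos.2 (by positivity)
  rw [← ENNReal.ofReal_prod_of_nonneg (fun l _ => (hq l).le)] at h1
  have hprod : 0 < ∏ l, Real.sqrt (1 + w ^ 2 / td r (Finset.univ.erase l) s (s l) ^ 2) :=
    Finset.prod_pos fun l _ => hq l
  have h2 : lg (kap (fun _ => r) Finset.univ s) ≤ lg (kap (fun _ => w) Finset.univ s *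
      ENNReal.ofReal (∏ l, Real.sqrt (1 + w ^ 2 / td r (Finset.univ.erase l) s (s l) ^ 2))) := by
    unfold lg
    refine Real.log_le_log (ENNReal.toReal_pos hr0
      (kap_ne_top (fun _ => r) (fun _ => hr) Finset.univ hne s)) ?_
    exact ENNReal.toReal_mono (ENNReal.mul_ne_top hwt ENNReal.ofReal_ne_top) h1
  rw [lk_lg_mul_ofReal hw0 hwt hprod, lg_kap hw, Real.log_prod (fun l _ => (hq l).ne')] at h2
  refine h2.trans ?_
  have h3 : ∑ l, Real.log (Real.sqrt (1 + w ^ 2 / td r (Finset.univ.erase l) s (s l) ^ 2)) ≤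
      w * ∑ l, (td r (Finset.univ.erase l) s (s l))⁻¹ := by
    rw [Finset.mul_sum]
    refine Finset.sum_le_sum fun l _ => ?_
    have htd0 := lk_td_pos hr (Finset.univ.erase l) s (s l)
    have := lk_log_sqrt_le (x := w * (td r (Finset.univ.erase l) s (s l))⁻¹) (by positivity)
    rwa [mul_pow, inv_pow, ← div_eq_mul_inv] at this
  have h4 : ∑ j ∈ Finset.univ.erase (0 : Fin (n + 1)), Real.log (td w (bef j) s (s j)) ≤
      ∑ j ∈ Finset.univ.erase (0 : Fin (n + 1)),
        (Real.log (Real.sqrt (2 * Real.pi)) + Real.log (td w (bef j) s (s j))) := by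
    refine Finset.sum_le_sum fun j _ => ?_
    have : 0 ≤ Real.log (Real.sqrt (2 * Real.pi)) := by
      refine Real.log_nonneg ?_
      rw [Real.one_le_sqrt]
      linarith [Real.pi_gt_three]
    linarith
  linarith

theorem lk_lintegral_fin_prod {X : Type} [MeasurableSpace X] (μ : Measure X) [SigmaFinite μ] (n : ℕ)
    (f : Fin n → X → ℝ≥0∞) (hf : ∀ i, Measurable (f i)) :
    ∫⁻ x : Fin n → X, ∏ i, f i (x i) ∂(Measure.pi fun _ => μ) = ∏ i, ∫⁻ a, f i a ∂μ := by
  induction n with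
  | zero => simp
  | succ n ih =>
    have h1 := ((measurePreserving_piFinSuccAbove (fun _ : Fin (n + 1) => μ) 0).symm).lintegral_comp
      (f := fun x : Fin (n + 1) → X => ∏ i, f i (x i))
      (Finset.measurable_prod _ fun i _ => (hf i).comp (measurable_pi_apply i))
    rw [← h1]
    simp_rw [MeasurableEquiv.piFinSuccAbove_symm_apply, Fin.insertNthEquiv,
      Fin.prod_univ_succ, Fin.insertNth_zero, Equiv.coe_fn_mk, Fin.cons_succ, Fin.cons_zero]
    rw [← ih (fun i => f i.succ) fun i => hf _]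
    exact lintegral_prod_mul (hf 0).aemeasurable
      (Finset.measurable_prod _ fun i _ => (hf _).comp (measurable_pi_apply i)).aemeasurable

/-- Windows: the integral of a product of window densities is a power of `kap`. -/
theorem lintegral_prod_winK {n : ℕ} {ρ : ℝ} (hρ : 0 < ρ) (s : ι → E d) :
    ∫⁻ u : Win d n, ∏ l, winK ρ (s l) u ∂(winM d n) = kap (fun _ => ρ) Finset.univ s ^ n := by
  let G : E d × ℝ → ℝ≥0∞ := fun z => ∏ l, ENNReal.ofReal (phi ρ (z.2 - ⟪z.1, s l⟫))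
  have hG : Measurable G := by
    refine Finset.measurable_prod _ fun l _ => ENNReal.measurable_ofReal.comp ?_
    exact (measurable_phi ρ).comp (by fun_prop)
  have h1 : ∀ u : Win d n, ∏ l, winK ρ (s l) u = ∏ i, G (u.1 i, u.2 i) := by
    intro u
    unfold winK
    rw [Finset.prod_comm]
  have hm : Measurable (fun u : Win d n => ∏ i, G (u.1 i, u.2 i)) := by
    refine Finset.measurable_prod _ fun i _ => hG.comp ?_
    exact ((measurable_pi_apply i).comp measurable_fst).prodMk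
      ((measurable_pi_apply i).comp measurable_snd)
  simp only [h1]
  unfold winM
  rw [lintegral_prod _ hm.aemeasurable]
  have h2 : ∀ X : Fin n → E d, ∫⁻ Y : Fin n → ℝ, ∏ i, G (X i, Y i) =
      ∏ i, ∫⁻ y, G (X i, y) := by
    intro X
    rw [volume_pi]
    exact lk_lintegral_fin_prod volume n (fun i y => G (X i, y))
      (fun i => hG.comp measurable_prodMk_left)
  simp only [h2]
  unfold rows
  rw [lk_lintegral_fin_prod (stdGaussian (E d)) n (fun _ x => ∫⁻ y, G (x, y))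
    (fun _ => hG.lintegral_prod_right')]
  rw [Finset.prod_const, Finset.card_univ, Fintype.card_fin]
  rfl

end Vale.Agent.P309
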