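import Vale.Agent.Lib.P309.Defs

/-!
# P309, module REPLICA: the abstract replica inequality
-/

namespace Vale.Agent.P309

open MeasureTheory ProbabilityTheory
open scoped ENNReal RealInnerProductSpace

section PiLemmas

variable {S : Type} [MeasurableSpace S] (ρ : Measure S) [IsProbabilityMeasure ρ] {k : ℕ}

/-- Resampling one coordinate of a product measure. -/
theorem lintegral_resample (i : Fin k) {F : (Fin k → S) → ℝ≥0∞} (hF : Measurable F) :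
    ∫⁻ σ, F σ ∂(Measure.pi fun _ => ρ) =
      ∫⁻ σ, ∫⁻ s, F (Function.update σ i s) ∂ρ ∂(Measure.pi fun _ => ρ) := by
  classical
  set μ : Fin k → Measure S := fun _ => ρ with hμ
  have h1 : (fun σ => ∫⁻ s, F (Function.update σ i s) ∂ρ) = lmarginal μ {i} F := by
    rw [lmarginal_singleton]
  rw [h1]
  refine lintegral_eq_of_lmarginal_eq {i} hF (hF.lmarginal _) ?_
  ext σ
  rw [lmarginal_singleton (f := lmarginal μ {i} F)]
  have h2 : ∀ s : S, lmarginal μ {i} F (Function.update σ i s) = lmarginal μ {i} F σ := fun s =>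
    lmarginal_update_of_mem μ (Finset.mem_singleton_self i) F σ s
  have h3 : ∫⁻ s, lmarginal μ {i} F (Function.update σ i s) ∂(μ i) = lmarginal μ {i} F σ := by
    rw [lintegral_congr h2, lintegral_const, measure_univ, mul_one]
  exact h3.symm

theorem lintegral_pi_eval (i : Fin k) {F : S → ℝ≥0∞} (hF : Measurable F) :
    ∫⁻ σ, F (σ i) ∂(Measure.pi fun _ => ρ) = ∫⁻ s, F s ∂ρ := by
  have hm : Measurable fun σ : Fin k → S => F (σ i) := hF.comp (measurable_pi_apply i)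
  rw [lintegral_resample ρ i hm]
  simp

end PiLemmas

namespace Setup

variable {S U : Type} [MeasurableSpace S] [MeasurableSpace U] (𝔖 : Setup S U)

attribute [local instance] Setup.hρ Setup.hν

theorem measurable_q : Measurable 𝔖.q := 𝔖.hK.lintegral_prod_left'

theorem measurable_K (u : U) : Measurable fun s => 𝔖.K s u :=
  𝔖.hK.comp (measurable_id.prodMk measurable_const)

theorem measurable_K' (s : S) : Measurable fun u => 𝔖.K s u :=
  𝔖.hK.comp (measurable_const.prodMk measurable_id)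

theorem q_ne_zero (u : U) : 𝔖.q u ≠ 0 := by
  have := 𝔖.hρ
  intro h
  have h1 := (lintegral_eq_zero_iff (𝔖.measurable_K u)).mp h
  have h2 : ∀ᵐ s ∂𝔖.ρ, False := by
    filter_upwards [h1] with s hs
    exact 𝔖.hK0 s u hs
  rw [Filter.eventually_false_iff_eq_bot, ae_eq_bot] at h2
  exact IsProbabilityMeasure.ne_zero 𝔖.ρ h2

theorem q_ne_top (u : U) : 𝔖.q u ≠ ∞ := 𝔖.hq u

theorem measurable_K_comp {Ω : Type} [MeasurableSpace Ω] {f : Ω → S} {g : Ω → U}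
    (hf : Measurable f) (hg : Measurable g) : Measurable fun ω => 𝔖.K (f ω) (g ω) :=
  𝔖.hK.comp (hf.prodMk hg)

theorem measurable_prodK {k : ℕ} (A : Finset (Fin k)) :
    Measurable fun p : (Fin k → S) × U => ∏ l ∈ A, 𝔖.K (p.1 l) p.2 := by
  refine Finset.measurable_prod _ fun l _ => ?_
  have h1 : Measurable fun p : (Fin k → S) × U => p.1 l :=
    (measurable_pi_apply l).comp measurable_fst
  exact 𝔖.measurable_K_comp h1 measurable_snd

theorem measurable_prodK' {k : ℕ} (u : U) (A : Finset (Fin k)) :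
    Measurable fun σ : Fin k → S => ∏ l ∈ A, 𝔖.K (σ l) u := by
  refine Finset.measurable_prod _ fun l _ => ?_
  exact 𝔖.measurable_K_comp (measurable_pi_apply l) measurable_const

theorem lintegral_prodK {k : ℕ} (u : U) (A : Finset (Fin k)) {F : (Fin k → S) → ℝ≥0∞}
    (hF : Measurable F) (hA : ∀ σ σ', (∀ l, l ∉ A → σ l = σ' l) → F σ = F σ') :
    ∫⁻ σ, (∏ l ∈ A, 𝔖.K (σ l) u) * F σ ∂(Measure.pi fun _ => 𝔖.ρ) =
      𝔖.q u ^ A.card * ∫⁻ σ, F σ ∂(Measure.pi fun _ => 𝔖.ρ) := by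
  classical
  have hρ := 𝔖.hρ
  induction A using Finset.induction_on with
  | empty => simp
  | insert a A ha ih =>
    have hA' : ∀ σ σ', (∀ l, l ∉ A → σ l = σ' l) → F σ = F σ' := by
      intro σ σ' h
      exact hA σ σ' fun l hl => h l fun h' => hl (Finset.mem_insert_of_mem h')
    have hm : Measurable fun σ : Fin k → S => (∏ l ∈ insert a A, 𝔖.K (σ l) u) * F σ := by
      exact (𝔖.measurable_prodK' u (insert a A)).mul hF
    rw [lintegral_resample 𝔖.ρ a hm]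
    have h1 : ∀ σ : Fin k → S, ∫⁻ s, (∏ l ∈ insert a A, 𝔖.K (Function.update σ a s l) u) *
        F (Function.update σ a s) ∂𝔖.ρ = 𝔖.q u * ((∏ l ∈ A, 𝔖.K (σ l) u) * F σ) := by
      intro σ
      have h2 : ∀ s, (∏ l ∈ insert a A, 𝔖.K (Function.update σ a s l) u) *
          F (Function.update σ a s) = 𝔖.K s u * ((∏ l ∈ A, 𝔖.K (σ l) u) * F σ) := by
        intro s
        rw [Finset.prod_insert ha, Function.update_self]
        have h3 : ∏ l ∈ A, 𝔖.K (Function.update σ a s l) u = ∏ l ∈ A, 𝔖.K (σ l) u := by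
          refine Finset.prod_congr rfl fun l hl => ?_
          have hne : l ≠ a := by
            rintro rfl
            exact ha hl
          rw [Function.update_of_ne hne]
        have h4 : F (Function.update σ a s) = F σ := by
          apply hA
          intro l hl
          rw [Function.update_of_ne]
          rintro rfl
          exact hl (Finset.mem_insert_self _ _)
        rw [h3, h4, mul_assoc]
      simp only [h2]
      rw [lintegral_mul_const _ (𝔖.measurable_K u)]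
      rfl
    have hm2 : Measurable fun σ : Fin k → S => (∏ l ∈ A, 𝔖.K (σ l) u) * F σ :=
      (𝔖.measurable_prodK' u A).mul hF
    rw [lintegral_congr h1, lintegral_const_mul _ hm2, ih hA', Finset.card_insert_of_notMem ha,
      pow_succ']
    ring

/-- Marginalisation: the replica law of a function of the coordinates in `A` and of `u`. -/
theorem rep_marg (n : ℕ) (A : Finset (Fin (n + 1))) {F : (Fin (n + 1) → S) × U → ℝ≥0∞}
    (hF : Measurable F)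
    (hA : ∀ σ σ' u, (∀ l, l ∈ A → σ l = σ' l) → F (σ, u) = F (σ', u)) :
    ∫⁻ p, F p ∂(𝔖.rep n) =
      ∫⁻ u, ∫⁻ σ, (∏ l ∈ A, 𝔖.K (σ l) u) * (𝔖.q u * (𝔖.q u)⁻¹ ^ A.card) * F (σ, u)
        ∂(Measure.pi fun _ => 𝔖.ρ) ∂𝔖.ν := by
  classical
  have hρ := 𝔖.hρ
  have hν := 𝔖.hν
  have hD : Measurable fun p : (Fin (n + 1) → S) × U =>
      (∏ l, 𝔖.K (p.1 l) p.2) * ((𝔖.q p.2)⁻¹) ^ n := by
    refine (𝔖.measurable_prodK _).mul ?_
    exact ((𝔖.measurable_q.comp measurable_snd).inv).pow_const n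
  unfold rep
  rw [lintegral_withDensity_eq_lintegral_mul _ hD hF, lintegral_prod_symm _
    (hD.mul hF).aemeasurable]
  refine lintegral_congr fun u => ?_
  have hFu : Measurable fun σ : Fin (n + 1) → S => F (σ, u) :=
    hF.comp (measurable_id.prodMk measurable_const)
  have h1 : ∀ σ : Fin (n + 1) → S, ((fun p : (Fin (n + 1) → S) × U =>
      (∏ l, 𝔖.K (p.1 l) p.2) * ((𝔖.q p.2)⁻¹) ^ n) * F) (σ, u) =
      (∏ l ∈ Aᶜ, 𝔖.K (σ l) u) *
        (((∏ l ∈ A, 𝔖.K (σ l) u) * F (σ, u)) * ((𝔖.q u)⁻¹) ^ n) := by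
    intro σ
    simp only [Pi.mul_apply]
    rw [← Finset.prod_mul_prod_compl A]
    ring
  simp only [h1]
  rw [𝔖.lintegral_prodK u Aᶜ]
  · have hc : Aᶜ.card = n + 1 - A.card := by
      rw [Finset.card_compl, Fintype.card_fin]
    have hAc : A.card ≤ n + 1 := by
      simpa using Finset.card_le_univ A
    have hq0 := 𝔖.q_ne_zero u
    have hqt := 𝔖.q_ne_top u
    have hmA : Measurable fun σ : Fin (n + 1) → S => (∏ l ∈ A, 𝔖.K (σ l) u) * F (σ, u) :=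
      (𝔖.measurable_prodK' u A).mul hFu
    rw [lintegral_mul_const _ hmA]
    have h2 : ∀ σ : Fin (n + 1) → S, (∏ l ∈ A, 𝔖.K (σ l) u) *
        (𝔖.q u * (𝔖.q u)⁻¹ ^ A.card) * F (σ, u) =
        ((∏ l ∈ A, 𝔖.K (σ l) u) * F (σ, u)) * (𝔖.q u * (𝔖.q u)⁻¹ ^ A.card) := by
      intro σ; ring
    simp only [h2]
    rw [lintegral_mul_const _ hmA, hc]
    have h3 : 𝔖.q u ^ (n + 1 - A.card) * (𝔖.q u)⁻¹ ^ n = 𝔖.q u * (𝔖.q u)⁻¹ ^ A.card := by
      have h4 : 𝔖.q u ^ A.card * (𝔖.q u)⁻¹ ^ A.card = 1 := by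
        rw [← mul_pow, ENNReal.mul_inv_cancel hq0 hqt, one_pow]
      have h5 : 𝔖.q u ^ n * (𝔖.q u)⁻¹ ^ n = 1 := by
        rw [← mul_pow, ENNReal.mul_inv_cancel hq0 hqt, one_pow]
      calc 𝔖.q u ^ (n + 1 - A.card) * (𝔖.q u)⁻¹ ^ n
          = 𝔖.q u ^ (n + 1 - A.card) * (𝔖.q u)⁻¹ ^ n * (𝔖.q u ^ A.card *
              (𝔖.q u)⁻¹ ^ A.card) := by rw [h4, mul_one]
        _ = (𝔖.q u ^ (n + 1 - A.card) * 𝔖.q u ^ A.card) * (𝔖.q u)⁻¹ ^ n *
              (𝔖.q u)⁻¹ ^ A.card := by ring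
        _ = 𝔖.q u ^ (n + 1) * (𝔖.q u)⁻¹ ^ n * (𝔖.q u)⁻¹ ^ A.card := by
            rw [← pow_add, Nat.sub_add_cancel hAc]
        _ = 𝔖.q u * (𝔖.q u ^ n * (𝔖.q u)⁻¹ ^ n) * (𝔖.q u)⁻¹ ^ A.card := by
            rw [pow_succ]; ring
        _ = 𝔖.q u * (𝔖.q u)⁻¹ ^ A.card := by rw [h5, mul_one]
    rw [← h3]
    ring
  · exact ((𝔖.measurable_prodK' u A).mul hFu).mul_const _
  · intro σ σ' h
    have h5 : ∏ l ∈ A, 𝔖.K (σ l) u = ∏ l ∈ A, 𝔖.K (σ' l) u := by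
      refine Finset.prod_congr rfl fun l hl => ?_
      rw [h l (by simpa using hl)]
    have h6 : F (σ, u) = F (σ', u) := hA σ σ' u fun l hl => h l (by simpa using hl)
    simp only [h5, h6]

theorem lintegral_q : ∫⁻ u, 𝔖.q u ∂𝔖.ν = 1 := by
  have hρ := 𝔖.hρ
  have hν := 𝔖.hν
  have h1 : ∫⁻ s, ∫⁻ u, 𝔖.K s u ∂𝔖.ν ∂𝔖.ρ = ∫⁻ u, ∫⁻ s, 𝔖.K s u ∂𝔖.ρ ∂𝔖.ν :=
    lintegral_lintegral_swap 𝔖.hK.aemeasurable
  have h2 : ∫⁻ u, 𝔖.q u ∂𝔖.ν = ∫⁻ s, ∫⁻ u, 𝔖.K s u ∂𝔖.ν ∂𝔖.ρ := h1.symm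
  rw [h2]
  simp [𝔖.hK1]

/-- The observation. -/
theorem rep_obs (n : ℕ) {F : U → ℝ≥0∞} (hF : Measurable F) :
    ∫⁻ p, F p.2 ∂(𝔖.rep n) = ∫⁻ u, 𝔖.q u * F u ∂𝔖.ν := by
  have hρ := 𝔖.hρ
  have hm : Measurable fun p : (Fin (n + 1) → S) × U => F p.2 := hF.comp measurable_snd
  rw [𝔖.rep_marg n ∅ hm (fun _ _ _ _ => rfl)]
  simp

instance rep_prob (n : ℕ) : IsProbabilityMeasure (𝔖.rep n) := by
  constructor
  have h := 𝔖.rep_obs n (F := fun _ => 1) measurable_const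
  simp only [lintegral_const, one_mul, mul_one, 𝔖.lintegral_q] at h
  exact h

theorem rep_ac (n : ℕ) : 𝔖.rep n ≪ (Measure.pi (fun _ => 𝔖.ρ)).prod 𝔖.ν :=
  withDensity_absolutelyContinuous _ _

/-- One replica together with the observation. -/
theorem rep_single (n : ℕ) (l : Fin (n + 1)) {F : S × U → ℝ≥0∞} (hF : Measurable F) :
    ∫⁻ p, F (p.1 l, p.2) ∂(𝔖.rep n) = ∫⁻ s, ∫⁻ u, 𝔖.K s u * F (s, u) ∂𝔖.ν ∂𝔖.ρ := by
  have hρ := 𝔖.hρ
  have hν := 𝔖.hν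
  have hm : Measurable fun p : (Fin (n + 1) → S) × U => F (p.1 l, p.2) :=
    hF.comp (((measurable_pi_apply l).comp measurable_fst).prodMk measurable_snd)
  rw [𝔖.rep_marg n {l} hm (fun σ σ' u h => by simp only [h l (Finset.mem_singleton_self l)])]
  have hKF : Measurable (Function.uncurry fun s u => 𝔖.K s u * F (s, u)) := 𝔖.hK.mul hF
  rw [lintegral_lintegral_swap hKF.aemeasurable]
  refine lintegral_congr fun u => ?_
  simp only [Finset.prod_singleton, Finset.card_singleton, pow_one]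
  rw [ENNReal.mul_inv_cancel (𝔖.q_ne_zero u) (𝔖.q_ne_top u)]
  simp only [mul_one]
  exact lintegral_pi_eval 𝔖.ρ l (F := fun s => 𝔖.K s u * F (s, u))
    ((𝔖.measurable_K u).mul (hF.comp (measurable_id.prodMk measurable_const)))

/-- Exchangeability. -/
theorem rep_perm (n : ℕ) (τ : Equiv.Perm (Fin (n + 1))) {F : (Fin (n + 1) → S) × U → ℝ≥0∞}
    (hF : Measurable F) :
    ∫⁻ p, F (fun l => p.1 (τ l), p.2) ∂(𝔖.rep n) = ∫⁻ p, F p ∂(𝔖.rep n) := by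
  have hρ := 𝔖.hρ
  have hν := 𝔖.hν
  have hcomp : Measurable fun σ : Fin (n + 1) → S => fun l => σ (τ l) :=
    measurable_pi_iff.mpr fun l => measurable_pi_apply (τ l)
  have hm : Measurable fun p : (Fin (n + 1) → S) × U => F (fun l => p.1 (τ l), p.2) :=
    hF.comp ((hcomp.comp measurable_fst).prodMk measurable_snd)
  rw [𝔖.rep_marg n Finset.univ hm (fun σ σ' u h => by
      have : σ = σ' := funext fun l => h l (Finset.mem_univ l)
      simp only [this]),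
    𝔖.rep_marg n Finset.univ hF (fun σ σ' u h => by
      have : σ = σ' := funext fun l => h l (Finset.mem_univ l)
      simp only [this])]
  refine lintegral_congr fun u => ?_
  have hmp : MeasurePreserving (fun σ : Fin (n + 1) → S => fun l => σ (τ l))
      (Measure.pi fun _ => 𝔖.ρ) (Measure.pi fun _ => 𝔖.ρ) := by
    refine ⟨hcomp, ?_⟩
    symm
    refine Measure.pi_eq fun s hs => ?_
    rw [Measure.map_apply hcomp (MeasurableSet.univ_pi hs)]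
    have hpre : (fun σ : Fin (n + 1) → S => fun l => σ (τ l)) ⁻¹' (Set.univ.pi s) =
        Set.univ.pi fun l => s (τ.symm l) := by
      ext σ
      simp only [Set.mem_preimage, Set.mem_pi, Set.mem_univ, true_implies]
      constructor
      · intro h l
        have := h (τ.symm l)
        simpa using this
      · intro h l
        have := h (τ l)
        simpa using this
    rw [hpre, Measure.pi_pi]
    exact Equiv.prod_comp τ.symm (fun l => 𝔖.ρ (s l))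
  have hG : Measurable fun σ : Fin (n + 1) → S => (∏ l, 𝔖.K (σ l) u) *
      (𝔖.q u * (𝔖.q u)⁻¹ ^ (Finset.univ : Finset (Fin (n + 1))).card) * F (σ, u) :=
    ((𝔖.measurable_prodK' u _).mul_const _).mul
      (hF.comp (measurable_id.prodMk measurable_const))
  rw [← hmp.lintegral_comp hG]
  refine lintegral_congr fun σ => ?_
  have : ∏ l, 𝔖.K (σ (τ l)) u = ∏ l, 𝔖.K (σ l) u := Equiv.prod_comp τ (fun l => 𝔖.K (σ l) u)
  simp only [this]

/-- a property of the signal which holds almost surely under the prior holds for all replicas -/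
theorem rep_ae (n : ℕ) {p : S → Prop} (hp : ∀ᵐ s ∂𝔖.ρ, p s) :
    ∀ᵐ x ∂(𝔖.rep n), ∀ l, p (x.1 l) := by
  have hρ := 𝔖.hρ
  have hν := 𝔖.hν
  have h1 : ∀ᵐ σ ∂(Measure.pi fun _ : Fin (n + 1) => 𝔖.ρ), ∀ l, p (σ l) := by
    rw [ae_all_iff]
    intro l
    exact (Measure.quasiMeasurePreserving_eval (fun _ => 𝔖.ρ) l).ae hp
  have h2 : ∀ᵐ x ∂((Measure.pi fun _ : Fin (n + 1) => 𝔖.ρ).prod 𝔖.ν), ∀ l, p (x.1 l) :=
    Measure.quasiMeasurePreserving_fst.ae h1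
  exact (𝔖.rep_ac n).ae_le h2

/-! ### The functions `Λ` -/

/-- the indices with value `< j` -/
def lts (n j : ℕ) : Finset (Fin (n + 1)) := Finset.univ.filter fun l => (l : ℕ) < j

theorem mem_lts {n j : ℕ} {l : Fin (n + 1)} : l ∈ lts n j ↔ (l : ℕ) < j := by
  simp [lts]

theorem card_lts {n j : ℕ} (hj : j ≤ n + 1) : (lts n j).card = j := by
  unfold lts
  rw [Fin.card_filter_val_lt]
  exact min_eq_right hj

/-- weight of the observation `u` in `Λ_j` -/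
noncomputable def lw (n j : ℕ) (σ : Fin (n + 1) → S) (u : U) : ℝ≥0∞ :=
  (∏ l ∈ lts n j, 𝔖.K (σ l) u) * (𝔖.q u * (𝔖.q u)⁻¹ ^ j)

theorem measurable_lw (n j : ℕ) :
    Measurable fun p : (Fin (n + 1) → S) × U => 𝔖.lw n j p.1 p.2 := by
  refine (𝔖.measurable_prodK _).mul ?_
  have h1 : Measurable fun p : (Fin (n + 1) → S) × U => 𝔖.q p.2 := 𝔖.measurable_q.comp measurable_snd
  exact h1.mul (h1.inv.pow_const j)

theorem lw_ne_zero (n j : ℕ) (σ : Fin (n + 1) → S) (u : U) : 𝔖.lw n j σ u ≠ 0 := by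
  unfold lw
  have h1 : (𝔖.q u)⁻¹ ≠ 0 := ENNReal.inv_ne_zero.mpr (𝔖.q_ne_top u)
  exact mul_ne_zero (Finset.prod_ne_zero_iff.mpr fun l _ => 𝔖.hK0 _ _)
    (mul_ne_zero (𝔖.q_ne_zero u) (pow_ne_zero _ h1))

variable {V : Type} (f : U → V)

/-- `Λ_j^m`. -/
noncomputable def Lam (n j : ℕ) (m : V) (σ : Fin (n + 1) → S) : ℝ≥0∞ :=
  ∫⁻ u, (f ⁻¹' {m}).indicator (fun u => 𝔖.lw n j σ u) u ∂𝔖.ν

theorem Lam_congr (n j : ℕ) (m : V) {σ σ' : Fin (n + 1) → S}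
    (h : ∀ l : Fin (n + 1), (l : ℕ) < j → σ l = σ' l) :
    𝔖.Lam f n j m σ = 𝔖.Lam f n j m σ' := by
  unfold Lam lw
  have h1 : ∀ u, ∏ l ∈ lts n j, 𝔖.K (σ l) u = ∏ l ∈ lts n j, 𝔖.K (σ' l) u := by
    intro u
    refine Finset.prod_congr rfl fun l hl => ?_
    rw [h l (mem_lts.mp hl)]
  simp only [h1]

theorem PM_eq (n : ℕ) [MeasurableSpace V] [MeasurableSingletonClass V] (hf : Measurable f) (m : V)
    (σ : Fin (n + 1) → S) : 𝔖.Lam f n 0 m σ = 𝔖.PM f m := by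
  have hρ := 𝔖.hρ
  have hν := 𝔖.hν
  have hs : MeasurableSet (f ⁻¹' {m}) := hf (measurableSet_singleton m)
  unfold PM PS Lam
  have h1 : Measurable (Function.uncurry fun s u => (f ⁻¹' {m}).indicator
      (fun u => 𝔖.K s u) u) := by
    have : (Function.uncurry fun s u => (f ⁻¹' {m}).indicator (fun u => 𝔖.K s u) u) =
        (Prod.snd ⁻¹' (f ⁻¹' {m}) : Set (S × U)).indicator (Function.uncurry 𝔖.K) := by
      ext p
      rcases p with ⟨s, u⟩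
      rfl
    rw [this]
    exact 𝔖.hK.indicator (measurable_snd hs)
  rw [lintegral_lintegral_swap h1.aemeasurable]
  refine lintegral_congr fun u => ?_
  by_cases hu : u ∈ f ⁻¹' {m}
  · simp only [Set.indicator_of_mem hu]
    unfold lw q
    simp [lts]
  · simp only [Set.indicator_of_notMem hu, lintegral_zero]

theorem measurable_Lam_aux (n j : ℕ) (m : V) (hs : MeasurableSet (f ⁻¹' {m})) :
    Measurable fun p : (Fin (n + 1) → S) × U =>
      (f ⁻¹' {m}).indicator (fun u => 𝔖.lw n j p.1 u) p.2 := by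
  have h2 : (fun p : (Fin (n + 1) → S) × U => (f ⁻¹' {m}).indicator
      (fun u => 𝔖.lw n j p.1 u) p.2) =
      (Prod.snd ⁻¹' (f ⁻¹' {m})).indicator (fun p => 𝔖.lw n j p.1 p.2) := by
    ext p
    rfl
  rw [h2]
  exact (𝔖.measurable_lw n j).indicator (measurable_snd hs)

theorem measurable_Lam (n j : ℕ) (m : V) (hs : MeasurableSet (f ⁻¹' {m})) :
    Measurable (𝔖.Lam f n j m) := by
  have hν := 𝔖.hν
  exact (𝔖.measurable_Lam_aux f n j m hs).lintegral_prod_right'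

theorem Lam_ne_zero (n j : ℕ) (m : V) (hs : MeasurableSet (f ⁻¹' {m}))
    (hm : 𝔖.ν (f ⁻¹' {m}) ≠ 0) (σ : Fin (n + 1) → S) : 𝔖.Lam f n j m σ ≠ 0 := by
  unfold Lam
  intro h
  have hmeas : Measurable fun u => (f ⁻¹' {m}).indicator (fun u => 𝔖.lw n j σ u) u :=
    (𝔖.measurable_Lam_aux f n j m hs).comp (measurable_const.prodMk measurable_id)
  rw [lintegral_eq_zero_iff hmeas] at h
  apply hm
  refine measure_mono_null (fun u hu => ?_) (ae_iff.mp h)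
  simp only [Set.mem_ofPred_eq, Pi.zero_apply]
  rw [Set.indicator_of_mem hu]
  exact 𝔖.lw_ne_zero n j σ u

theorem PS_ne_zero (m : V) (hs : MeasurableSet (f ⁻¹' {m}))
    (hm : 𝔖.ν (f ⁻¹' {m}) ≠ 0) (s : S) : 𝔖.PS f m s ≠ 0 := by
  unfold PS
  intro h
  have hmeas : Measurable fun u => (f ⁻¹' {m}).indicator (fun u => 𝔖.K s u) u :=
    (𝔖.measurable_K' s).indicator hs
  rw [lintegral_eq_zero_iff hmeas] at h
  apply hm
  refine measure_mono_null (fun u hu => ?_) (ae_iff.mp h)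
  simp only [Set.mem_ofPred_eq, Pi.zero_apply]
  rw [Set.indicator_of_mem hu]
  exact 𝔖.hK0 s u

theorem PS_le_one (m : V) (s : S) : 𝔖.PS f m s ≤ 1 := by
  unfold PS
  rw [← 𝔖.hK1 s]
  exact lintegral_mono fun u => Set.indicator_le_self _ _ u

theorem measurable_PS (m : V) (hs : MeasurableSet (f ⁻¹' {m})) : Measurable (𝔖.PS f m) := by
  have hν := 𝔖.hν
  have h1 : Measurable fun p : S × U => (f ⁻¹' {m}).indicator (fun u => 𝔖.K p.1 u) p.2 := by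
    have h2 : (fun p : S × U => (f ⁻¹' {m}).indicator (fun u => 𝔖.K p.1 u) p.2) =
        (Prod.snd ⁻¹' (f ⁻¹' {m})).indicator (Function.uncurry 𝔖.K) := by
      ext p
      rfl
    rw [h2]
    exact 𝔖.hK.indicator (measurable_snd hs)
  exact h1.lintegral_prod_right'

/-- Integrals over the replica law of functions of `f u` and of the first `j` replicas. -/
theorem rep_Lam [Fintype V] [MeasurableSpace V] [MeasurableSingletonClass V] (hf : Measurable f)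
    {n j : ℕ} (hj : j ≤ n + 1) (G : V → (Fin (n + 1) → S) → ℝ≥0∞) (hG : ∀ m, Measurable (G m))
    (hGd : ∀ m σ σ', (∀ l : Fin (n + 1), (l : ℕ) < j → σ l = σ' l) → G m σ = G m σ') :
    ∫⁻ p, G (f p.2) p.1 ∂(𝔖.rep n) =
      ∑ m, ∫⁻ σ, 𝔖.Lam f n j m σ * G m σ ∂(Measure.pi fun _ => 𝔖.ρ) := by
  classical
  have hρ := 𝔖.hρ
  have hν := 𝔖.hν
  have hs : ∀ m, MeasurableSet (f ⁻¹' {m}) := fun m => hf (measurableSet_singleton m)
  have hGm : Measurable fun p : (Fin (n + 1) → S) × U => G (f p.2) p.1 := by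
    have h1 : Measurable fun z : V × (Fin (n + 1) → S) => G z.1 z.2 :=
      measurable_from_prod_countable_right fun m => hG m
    exact h1.comp ((hf.comp measurable_snd).prodMk measurable_fst)
  rw [𝔖.rep_marg n (lts n j) hGm (fun σ σ' u h => hGd _ σ σ' fun l hl => h l (mem_lts.mpr hl)),
    card_lts hj]
  have hsplit : ∀ (u : U) (σ : Fin (n + 1) → S),
      (∏ l ∈ lts n j, 𝔖.K (σ l) u) * (𝔖.q u * (𝔖.q u)⁻¹ ^ j) * G (f u) σ =
        ∑ m, (f ⁻¹' {m}).indicator (fun u => 𝔖.lw n j σ u) u * G m σ := by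
    intro u σ
    rw [Finset.sum_eq_single (f u)]
    · rw [Set.indicator_of_mem (show u ∈ f ⁻¹' {f u} from rfl)]
      rfl
    · intro m _ hm
      rw [Set.indicator_of_notMem, zero_mul]
      intro h
      exact hm (Set.mem_singleton_iff.mp h).symm
    · intro h
      exact absurd (Finset.mem_univ _) h
  simp only [hsplit]
  have hmm : ∀ m, Measurable fun p : (Fin (n + 1) → S) × U =>
      (f ⁻¹' {m}).indicator (fun u => 𝔖.lw n j p.1 u) p.2 * G m p.1 := fun m =>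
    (𝔖.measurable_Lam_aux f n j m (hs m)).mul ((hG m).comp measurable_fst)
  have hswap : ∫⁻ u, ∫⁻ σ, ∑ m, (f ⁻¹' {m}).indicator (fun u => 𝔖.lw n j σ u) u * G m σ
      ∂(Measure.pi fun _ => 𝔖.ρ) ∂𝔖.ν =
      ∫⁻ σ, ∫⁻ u, ∑ m, (f ⁻¹' {m}).indicator (fun u => 𝔖.lw n j σ u) u * G m σ
      ∂𝔖.ν ∂(Measure.pi fun _ => 𝔖.ρ) := by
    symm
    apply lintegral_lintegral_swap
    apply Measurable.aemeasurable
    exact Finset.measurable_sum _ fun m _ => hmm m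
  rw [hswap]
  have h3 : ∀ σ : Fin (n + 1) → S,
      ∫⁻ u, ∑ m, (f ⁻¹' {m}).indicator (fun u => 𝔖.lw n j σ u) u * G m σ ∂𝔖.ν =
        ∑ m, 𝔖.Lam f n j m σ * G m σ := by
    intro σ
    rw [lintegral_finsetSum]
    · refine Finset.sum_congr rfl fun m _ => ?_
      rw [lintegral_mul_const]
      · rfl
      · exact (𝔖.measurable_Lam_aux f n j m (hs m)).comp (measurable_const.prodMk measurable_id)
    · intro m _
      exact (hmm m).comp (measurable_const.prodMk measurable_id)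
  rw [lintegral_congr h3, lintegral_finsetSum]
  intro m _
  exact (𝔖.measurable_Lam f n j m (hs m)).mul (hG m)

theorem sum_Lam [Fintype V] [MeasurableSpace V] [MeasurableSingletonClass V] (hf : Measurable f)
    {n j : ℕ} (hj : j ≤ n + 1) :
    ∑ m, ∫⁻ σ, 𝔖.Lam f n j m σ ∂(Measure.pi fun _ => 𝔖.ρ) = 1 := by
  have h := 𝔖.rep_Lam f hf hj (fun _ _ => 1) (fun _ => measurable_const) (fun _ _ _ _ => rfl)
  simp only [lintegral_one, measure_univ, mul_one] at h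
  exact h.symm

end Setup

section Lg

theorem lg_mul {a b : ℝ≥0∞} (ha : a ≠ 0) (ha' : a ≠ ∞) (hb : b ≠ 0) (hb' : b ≠ ∞) :
    lg (a * b) = lg a + lg b := by
  unfold lg
  rw [ENNReal.toReal_mul, Real.log_mul (ENNReal.toReal_ne_zero.mpr ⟨ha, ha'⟩)
    (ENNReal.toReal_ne_zero.mpr ⟨hb, hb'⟩)]

theorem lg_div {a b : ℝ≥0∞} (ha : a ≠ 0) (ha' : a ≠ ∞) (hb : b ≠ 0) (hb' : b ≠ ∞) :
    lg (a / b) = lg a - lg b := by
  unfold lg
  rw [ENNReal.toReal_div, Real.log_div (ENNReal.toReal_ne_zero.mpr ⟨ha, ha'⟩)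
    (ENNReal.toReal_ne_zero.mpr ⟨hb, hb'⟩)]

theorem lg_pow (a : ℝ≥0∞) (k : ℕ) : lg (a ^ k) = k * lg a := by
  unfold lg
  rw [ENNReal.toReal_pow, Real.log_pow]

end Lg

section Main

variable {S U X W V : Type} [MeasurableSpace S] [MeasurableSpace U] [MeasurableSpace X]
    [MeasurableSpace W] (𝔖 : Setup S U) (n : ℕ) (f : U → V) (Wf : S → X → W)
    (Pm : V → W → ℝ≥0∞) (R : Fin (n + 1) → W → (Fin (n + 1) → S) → ℝ≥0∞)
    (κ : (Fin (n + 1) → S) → ℝ≥0∞)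

/-- `x_j` -/
noncomputable def xx (j : Fin (n + 1)) (m : V) (σ : Fin (n + 1) → S) (ξ : X) : ℝ≥0∞ :=
  𝔖.Lam f n j m σ / 𝔖.Lam f n (j + 1) m σ *
    (𝔖.PS f m (σ j) * (R j (Wf (σ j) ξ) σ / Pm m (Wf (σ j) ξ)))

/-- `Λ_{j+1} x_j` (almost) -/
noncomputable def gg (j : Fin (n + 1)) (m : V) (σ : Fin (n + 1) → S) (ξ : X) : ℝ≥0∞ :=
  𝔖.Lam f n j m σ * (𝔖.PS f m (σ j) * (R j (Wf (σ j) ξ) σ / Pm m (Wf (σ j) ξ)))

/-- `y` -/
noncomputable def yy (m : V) (σ : Fin (n + 1) → S) (u : U) : ℝ≥0∞ :=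
  𝔖.Lam f n (n + 1) m σ * 𝔖.q u ^ n / κ σ

variable {Wf Pm R κ}

theorem measurable_W_comp (hW : Measurable (Function.uncurry Wf)) {Ω : Type} [MeasurableSpace Ω]
    {a : Ω → S} {b : Ω → X} (ha : Measurable a) (hb : Measurable b) :
    Measurable fun ω => Wf (a ω) (b ω) := hW.comp (ha.prodMk hb)

theorem measurable_R_comp (hR : ∀ j, Measurable (Function.uncurry (R j))) (j : Fin (n + 1))
    {Ω : Type} [MeasurableSpace Ω] {a : Ω → W} {b : Ω → (Fin (n + 1) → S)} (ha : Measurable a)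
    (hb : Measurable b) : Measurable fun ω => R j (a ω) (b ω) := (hR j).comp (ha.prodMk hb)

theorem measurable_xx (hW : Measurable (Function.uncurry Wf)) (hPm : ∀ m, Measurable (Pm m))
    (hR : ∀ j, Measurable (Function.uncurry (R j))) (hs : ∀ m, MeasurableSet (f ⁻¹' {m}))
    (j : Fin (n + 1)) (m : V) :
    Measurable fun z : (Fin (n + 1) → S) × X => xx 𝔖 n f Wf Pm R j m z.1 z.2 := by
  unfold xx
  have h1 : Measurable fun z : (Fin (n + 1) → S) × X => z.1 j :=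
    (measurable_pi_apply j).comp measurable_fst
  have h2 : Measurable fun z : (Fin (n + 1) → S) × X => Wf (z.1 j) z.2 :=
    measurable_W_comp hW h1 measurable_snd
  refine Measurable.mul ?_ ?_
  · exact ((𝔖.measurable_Lam f n j m (hs m)).comp measurable_fst).div
      ((𝔖.measurable_Lam f n (j + 1) m (hs m)).comp measurable_fst)
  · refine Measurable.mul ((𝔖.measurable_PS f m (hs m)).comp h1) ?_
    exact (measurable_R_comp n hR j h2 measurable_fst).div ((hPm m).comp h2)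

theorem measurable_gg (hW : Measurable (Function.uncurry Wf)) (hPm : ∀ m, Measurable (Pm m))
    (hR : ∀ j, Measurable (Function.uncurry (R j))) (hs : ∀ m, MeasurableSet (f ⁻¹' {m}))
    (j : Fin (n + 1)) (m : V) :
    Measurable fun z : (Fin (n + 1) → S) × X => gg 𝔖 n f Wf Pm R j m z.1 z.2 := by
  unfold gg
  have h1 : Measurable fun z : (Fin (n + 1) → S) × X => z.1 j :=
    (measurable_pi_apply j).comp measurable_fst
  have h2 : Measurable fun z : (Fin (n + 1) → S) × X => Wf (z.1 j) z.2 :=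
    measurable_W_comp hW h1 measurable_snd
  refine Measurable.mul ((𝔖.measurable_Lam f n j m (hs m)).comp measurable_fst) ?_
  refine Measurable.mul ((𝔖.measurable_PS f m (hs m)).comp h1) ?_
  exact (measurable_R_comp n hR j h2 measurable_fst).div ((hPm m).comp h2)

theorem lintegral_gg (μX : Measure X)
    [IsProbabilityMeasure μX] (hW : Measurable (Function.uncurry Wf))
    (hPm : ∀ m, Measurable (Pm m))
    (hprop : ∀ m, ∀ h : W → ℝ≥0∞, Measurable h →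
      ∫⁻ s, 𝔖.PS f m s * ∫⁻ ξ, h (Wf s ξ) ∂μX ∂𝔖.ρ =
        ∫⁻ s, ∫⁻ ξ, Pm m (Wf s ξ) * h (Wf s ξ) ∂μX ∂𝔖.ρ)
    (hR : ∀ j, Measurable (Function.uncurry (R j)))
    (hRd : ∀ j w σ σ', (∀ l, l < j → σ l = σ' l) → R j w σ = R j w σ')
    (hR1 : ∀ j σ, ∫⁻ s, ∫⁻ ξ, R j (Wf s ξ) σ ∂μX ∂𝔖.ρ ≤ 1)
    (hs : ∀ m, MeasurableSet (f ⁻¹' {m})) (j : Fin (n + 1)) (m : V) :
    ∫⁻ σ, ∫⁻ ξ, gg 𝔖 n f Wf Pm R j m σ ξ ∂μX ∂(Measure.pi fun _ => 𝔖.ρ) ≤
      ∫⁻ σ, 𝔖.Lam f n j m σ ∂(Measure.pi fun _ => 𝔖.ρ) := by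
  have hρ := 𝔖.hρ
  have hν := 𝔖.hν
  have hgm := measurable_gg 𝔖 n f hW hPm hR hs j m
  rw [lintegral_resample 𝔖.ρ j hgm.lintegral_prod_right']
  refine lintegral_mono fun σ => ?_
  have hupd : ∀ s ξ, gg 𝔖 n f Wf Pm R j m (Function.update σ j s) ξ =
      𝔖.Lam f n j m σ * (𝔖.PS f m s * (R j (Wf s ξ) σ / Pm m (Wf s ξ))) := by
    intro s ξ
    have e1 : 𝔖.Lam f n j m (Function.update σ j s) = 𝔖.Lam f n j m σ :=
      𝔖.Lam_congr f n j m fun l hl => by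
        have hne : l ≠ j := by
          rintro rfl
          exact lt_irrefl _ hl
        rw [Function.update_of_ne hne]
    have e2 : ∀ w, R j w (Function.update σ j s) = R j w σ := fun w =>
      hRd j w _ _ fun l hl => by
        rw [Function.update_of_ne (ne_of_lt hl)]
    unfold gg
    rw [e1, Function.update_self, e2]
  simp only [hupd]
  have hh : Measurable fun w => R j w σ / Pm m w :=
    ((hR j).comp (measurable_id.prodMk measurable_const)).div (hPm m)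
  have hWs : ∀ s, Measurable fun ξ => Wf s ξ := fun s =>
    hW.comp (measurable_const.prodMk measurable_id)
  have hWs' : ∀ s, Measurable fun ξ => R j (Wf s ξ) σ / Pm m (Wf s ξ) := fun s => hh.comp (hWs s)
  have hin : ∀ s, ∫⁻ ξ, 𝔖.Lam f n j m σ * (𝔖.PS f m s * (R j (Wf s ξ) σ / Pm m (Wf s ξ))) ∂μX =
      𝔖.Lam f n j m σ * (𝔖.PS f m s * ∫⁻ ξ, R j (Wf s ξ) σ / Pm m (Wf s ξ) ∂μX) := by
    intro s
    rw [lintegral_const_mul _ ((hWs' s).const_mul _), lintegral_const_mul _ (hWs' s)]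
  rw [lintegral_congr hin]
  have hmS : Measurable fun s => 𝔖.PS f m s * ∫⁻ ξ, R j (Wf s ξ) σ / Pm m (Wf s ξ) ∂μX := by
    refine (𝔖.measurable_PS f m (hs m)).mul ?_
    have h3 : Measurable fun z : S × X => R j (Wf z.1 z.2) σ / Pm m (Wf z.1 z.2) := hh.comp hW
    exact h3.lintegral_prod_right'
  rw [lintegral_const_mul _ hmS, hprop m (fun w => R j w σ / Pm m w) hh]
  calc 𝔖.Lam f n j m σ * ∫⁻ s, ∫⁻ ξ, Pm m (Wf s ξ) * (R j (Wf s ξ) σ / Pm m (Wf s ξ)) ∂μX ∂𝔖.ρ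
      ≤ 𝔖.Lam f n j m σ * ∫⁻ s, ∫⁻ ξ, R j (Wf s ξ) σ ∂μX ∂𝔖.ρ := by
        refine mul_le_mul_right ?_ _
        exact lintegral_mono fun s => lintegral_mono fun ξ => ENNReal.mul_div_le
    _ ≤ 𝔖.Lam f n j m σ * 1 := mul_le_mul_right (hR1 j σ) _
    _ = 𝔖.Lam f n j m σ := mul_one _

omit [MeasurableSpace X] [MeasurableSpace W] in
theorem xx_congr (hRd : ∀ j w σ σ', (∀ l, l < j → σ l = σ' l) → R j w σ = R j w σ')
    (j : Fin (n + 1)) (m : V) (ξ : X) (σ σ' : Fin (n + 1) → S)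
    (h : ∀ l : Fin (n + 1), (l : ℕ) < j + 1 → σ l = σ' l) :
    xx 𝔖 n f Wf Pm R j m σ ξ = xx 𝔖 n f Wf Pm R j m σ' ξ := by
  have e1 : 𝔖.Lam f n j m σ = 𝔖.Lam f n j m σ' :=
    𝔖.Lam_congr f n j m fun l hl => h l (by omega)
  have e2 : 𝔖.Lam f n (j + 1) m σ = 𝔖.Lam f n (j + 1) m σ' :=
    𝔖.Lam_congr f n (j + 1) m fun l hl => h l hl
  have e3 : σ j = σ' j := h j (Nat.lt_succ_self _)
  have e4 : R j (Wf (σ' j) ξ) σ = R j (Wf (σ' j) ξ) σ' :=
    hRd j _ σ σ' fun l hl => h l (by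
      have : (l : ℕ) < j := hl
      omega)
  unfold xx
  rw [e1, e2, e3, e4]

omit [MeasurableSpace X] [MeasurableSpace W] in
theorem mul_xx_le (j : Fin (n + 1)) (m : V) (σ : Fin (n + 1) → S) (ξ : X) :
    𝔖.Lam f n (j + 1) m σ * xx 𝔖 n f Wf Pm R j m σ ξ ≤ gg 𝔖 n f Wf Pm R j m σ ξ := by
  unfold xx gg
  rw [← mul_assoc]
  exact mul_le_mul_left ENNReal.mul_div_le _

theorem measurable_yy (hκ : Measurable κ) (hs : ∀ m, MeasurableSet (f ⁻¹' {m})) (m : V) :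
    Measurable fun p : (Fin (n + 1) → S) × U => yy 𝔖 n f κ m p.1 p.2 := by
  unfold yy
  have h1 : Measurable fun p : (Fin (n + 1) → S) × U => 𝔖.q p.2 :=
    𝔖.measurable_q.comp measurable_snd
  exact (((𝔖.measurable_Lam f n (n + 1) m (hs m)).comp measurable_fst).mul (h1.pow_const n)).div
    (hκ.comp measurable_fst)

variable [Fintype V] [MeasurableSpace V] [MeasurableSingletonClass V]

theorem measurable_xx' (hf : Measurable f)
    (hW : Measurable (Function.uncurry Wf)) (hPm : ∀ m, Measurable (Pm m))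
    (hR : ∀ j, Measurable (Function.uncurry (R j)))
    (j : Fin (n + 1)) : Measurable fun p : ((Fin (n + 1) → S) × U) × X =>
      xx 𝔖 n f Wf Pm R j (f p.1.2) p.1.1 p.2 := by
  have hs : ∀ m, MeasurableSet (f ⁻¹' {m}) := fun m => hf (measurableSet_singleton m)
  have h1 : Measurable fun z : V × ((Fin (n + 1) → S) × X) =>
      xx 𝔖 n f Wf Pm R j z.1 z.2.1 z.2.2 :=
    measurable_from_prod_countable_right fun m => measurable_xx 𝔖 n f hW hPm hR hs j m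
  exact h1.comp ((hf.comp (measurable_snd.comp measurable_fst)).prodMk
    ((measurable_fst.comp measurable_fst).prodMk measurable_snd))

theorem lintegral_xx_rep (hf : Measurable f)
    (hW : Measurable (Function.uncurry Wf)) (hPm : ∀ m, Measurable (Pm m))
    (hR : ∀ j, Measurable (Function.uncurry (R j)))
    (hRd : ∀ j w σ σ', (∀ l, l < j → σ l = σ' l) → R j w σ = R j w σ')
    (j : Fin (n + 1)) (ξ : X) :
    ∫⁻ p, xx 𝔖 n f Wf Pm R j (f p.2) p.1 ξ ∂(𝔖.rep n) ≤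
      ∑ m, ∫⁻ σ, gg 𝔖 n f Wf Pm R j m σ ξ ∂(Measure.pi fun _ => 𝔖.ρ) := by
  have hs : ∀ m, MeasurableSet (f ⁻¹' {m}) := fun m => hf (measurableSet_singleton m)
  have hj1 : (j : ℕ) + 1 ≤ n + 1 := j.isLt
  have hc : Measurable fun σ : Fin (n + 1) → S => (σ, ξ) := measurable_id.prodMk measurable_const
  have hm : ∀ m, Measurable fun σ : Fin (n + 1) → S => xx 𝔖 n f Wf Pm R j m σ ξ := by
    intro m
    have h1 : Measurable fun z : (Fin (n + 1) → S) × X => xx 𝔖 n f Wf Pm R j m z.1 z.2 :=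
      measurable_xx 𝔖 n f hW hPm hR hs j m
    exact Measurable.comp (g := fun z : (Fin (n + 1) → S) × X => xx 𝔖 n f Wf Pm R j m z.1 z.2)
      (f := fun σ => (σ, ξ)) h1 hc
  have hd : ∀ m (σ σ' : Fin (n + 1) → S), (∀ l : Fin (n + 1), (l : ℕ) < (j : ℕ) + 1 → σ l = σ' l) →
      xx 𝔖 n f Wf Pm R j m σ ξ = xx 𝔖 n f Wf Pm R j m σ' ξ :=
    fun m σ σ' h => xx_congr 𝔖 n f hRd j m ξ σ σ' h
  have h := 𝔖.rep_Lam f hf hj1 (fun m σ => xx 𝔖 n f Wf Pm R j m σ ξ) hm hd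
  refine (le_of_eq h).trans ?_
  refine Finset.sum_le_sum fun m _ => lintegral_mono fun σ => ?_
  exact mul_xx_le 𝔖 n f j m σ ξ

theorem lintegral_xx (hf : Measurable f) (μX : Measure X)
    [IsProbabilityMeasure μX] (hW : Measurable (Function.uncurry Wf))
    (hPm : ∀ m, Measurable (Pm m))
    (hprop : ∀ m, ∀ h : W → ℝ≥0∞, Measurable h →
      ∫⁻ s, 𝔖.PS f m s * ∫⁻ ξ, h (Wf s ξ) ∂μX ∂𝔖.ρ =
        ∫⁻ s, ∫⁻ ξ, Pm m (Wf s ξ) * h (Wf s ξ) ∂μX ∂𝔖.ρ)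
    (hR : ∀ j, Measurable (Function.uncurry (R j)))
    (hRd : ∀ j w σ σ', (∀ l, l < j → σ l = σ' l) → R j w σ = R j w σ')
    (hR1 : ∀ j σ, ∫⁻ s, ∫⁻ ξ, R j (Wf s ξ) σ ∂μX ∂𝔖.ρ ≤ 1) (j : Fin (n + 1)) :
    ∫⁻ p, xx 𝔖 n f Wf Pm R j (f p.1.2) p.1.1 p.2 ∂((𝔖.rep n).prod μX) ≤ 1 := by
  have hρ := 𝔖.hρ
  have hν := 𝔖.hν
  have hs : ∀ m, MeasurableSet (f ⁻¹' {m}) := fun m => hf (measurableSet_singleton m)
  have hxm' := measurable_xx' 𝔖 n f hf hW hPm hR j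
  rw [lintegral_prod_symm _ hxm'.aemeasurable]
  refine (lintegral_mono fun ξ => lintegral_xx_rep 𝔖 n f hf hW hPm hR hRd j ξ).trans ?_
  have hgm := measurable_gg 𝔖 n f hW hPm hR hs j
  have hgξ : ∀ m ∈ (Finset.univ : Finset V), Measurable fun ξ =>
      ∫⁻ σ, gg 𝔖 n f Wf Pm R j m σ ξ ∂(Measure.pi fun _ => 𝔖.ρ) := fun m _ =>
    (hgm m).lintegral_prod_left'
  rw [lintegral_finsetSum _ hgξ]
  rw [← 𝔖.sum_Lam f hf (n := n) (j := j) (by omega)]
  refine Finset.sum_le_sum fun m _ => ?_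
  have hswap : ∫⁻ ξ, ∫⁻ σ, gg 𝔖 n f Wf Pm R j m σ ξ ∂(Measure.pi fun _ => 𝔖.ρ) ∂μX =
      ∫⁻ σ, ∫⁻ ξ, gg 𝔖 n f Wf Pm R j m σ ξ ∂μX ∂(Measure.pi fun _ => 𝔖.ρ) :=
    (lintegral_lintegral_swap (hgm m).aemeasurable).symm
  rw [hswap]
  exact lintegral_gg 𝔖 n f μX hW hPm hprop hR hRd hR1 hs j m

theorem lintegral_yy (hf : Measurable f) (hκ : Measurable κ)
    (hκ1 : ∀ σ, ∫⁻ u, ∏ l, 𝔖.K (σ l) u ∂𝔖.ν ≤ κ σ) :
    ∫⁻ p, yy 𝔖 n f κ (f p.2) p.1 p.2 ∂(𝔖.rep n) ≤ 1 := by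
  classical
  have hρ := 𝔖.hρ
  have hν := 𝔖.hν
  have hs : ∀ m, MeasurableSet (f ⁻¹' {m}) := fun m => hf (measurableSet_singleton m)
  have hym := measurable_yy 𝔖 n f hκ hs
  have hym' : Measurable fun p : (Fin (n + 1) → S) × U => yy 𝔖 n f κ (f p.2) p.1 p.2 := by
    have h1 : Measurable fun z : V × ((Fin (n + 1) → S) × U) => yy 𝔖 n f κ z.1 z.2.1 z.2.2 :=
      measurable_from_prod_countable_right fun m => hym m
    exact h1.comp ((hf.comp measurable_snd).prodMk measurable_id)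
  rw [𝔖.rep_marg n Finset.univ hym' (fun σ σ' u h => by
      have : σ = σ' := funext fun l => h l (Finset.mem_univ l)
      simp only [this])]
  set G : V → (Fin (n + 1) → S) → U → ℝ≥0∞ := fun m σ u =>
    (f ⁻¹' {m}).indicator (fun u => ∏ l, 𝔖.K (σ l) u) u * (𝔖.Lam f n (n + 1) m σ / κ σ) with hG
  have hind : ∀ m, Measurable fun p : (Fin (n + 1) → S) × U =>
      (f ⁻¹' {m}).indicator (fun u => ∏ l, 𝔖.K (p.1 l) u) p.2 := by
    intro m
    have h2 : (fun p : (Fin (n + 1) → S) × U => (f ⁻¹' {m}).indicator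
        (fun u => ∏ l, 𝔖.K (p.1 l) u) p.2) =
        (Prod.snd ⁻¹' (f ⁻¹' {m})).indicator
          (fun p : (Fin (n + 1) → S) × U => ∏ l, 𝔖.K (p.1 l) p.2) := by
      ext p
      rfl
    rw [h2]
    exact (𝔖.measurable_prodK _).indicator (measurable_snd (hs m))
  have hind' : ∀ m (σ : Fin (n + 1) → S), Measurable fun u =>
      (f ⁻¹' {m}).indicator (fun u => ∏ l, 𝔖.K (σ l) u) u := fun m σ =>
    (hind m).comp (measurable_const.prodMk measurable_id)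
  have hGm : ∀ m, Measurable fun p : (Fin (n + 1) → S) × U => G m p.1 p.2 := fun m =>
    (hind m).mul (((𝔖.measurable_Lam f n (n + 1) m (hs m)).comp measurable_fst).div
      (hκ.comp measurable_fst))
  have hpt : ∀ (u : U) (σ : Fin (n + 1) → S), (∏ l, 𝔖.K (σ l) u) *
      (𝔖.q u * (𝔖.q u)⁻¹ ^ (Finset.univ : Finset (Fin (n + 1))).card) * yy 𝔖 n f κ (f u) σ u =
      ∑ m, G m σ u := by
    intro u σ
    rw [Finset.sum_eq_single (f u)]
    · simp only [hG]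
      rw [Set.indicator_of_mem (show u ∈ f ⁻¹' {f u} from rfl)]
      unfold yy
      rw [Finset.card_univ, Fintype.card_fin]
      have h4 : 𝔖.q u * (𝔖.q u)⁻¹ = 1 :=
        ENNReal.mul_inv_cancel (𝔖.q_ne_zero u) (𝔖.q_ne_top u)
      have h5 : 𝔖.q u ^ n * (𝔖.q u)⁻¹ ^ n = 1 := by
        rw [← mul_pow, h4, one_pow]
      rw [div_eq_mul_inv, div_eq_mul_inv]
      calc (∏ l, 𝔖.K (σ l) u) * (𝔖.q u * (𝔖.q u)⁻¹ ^ (n + 1)) *
            (𝔖.Lam f n (n + 1) (f u) σ * 𝔖.q u ^ n * (κ σ)⁻¹)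
          = (∏ l, 𝔖.K (σ l) u) * (𝔖.Lam f n (n + 1) (f u) σ * (κ σ)⁻¹) *
              ((𝔖.q u * (𝔖.q u)⁻¹) * (𝔖.q u ^ n * (𝔖.q u)⁻¹ ^ n)) := by
            rw [pow_succ]; ring
        _ = _ := by rw [h4, h5, mul_one, mul_one]
    · intro m _ hm
      simp only [hG]
      rw [Set.indicator_of_notMem, zero_mul]
      intro h
      exact hm (Set.mem_singleton_iff.mp h).symm
    · intro h
      exact absurd (Finset.mem_univ _) h
  simp only [hpt]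
  have hswap : ∫⁻ u, ∫⁻ σ, ∑ m, G m σ u ∂(Measure.pi fun _ => 𝔖.ρ) ∂𝔖.ν =
      ∫⁻ σ, ∫⁻ u, ∑ m, G m σ u ∂𝔖.ν ∂(Measure.pi fun _ => 𝔖.ρ) := by
    symm
    apply lintegral_lintegral_swap
    apply Measurable.aemeasurable
    exact Finset.measurable_sum _ fun m _ => hGm m
  rw [hswap]
  have h3 : ∀ σ : Fin (n + 1) → S, ∫⁻ u, ∑ m, G m σ u ∂𝔖.ν ≤ ∑ m, 𝔖.Lam f n (n + 1) m σ := by
    intro σ
    rw [lintegral_finsetSum]
    · refine Finset.sum_le_sum fun m _ => ?_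
      simp only [hG]
      rw [lintegral_mul_const _ (hind' m σ)]
      calc (∫⁻ u, (f ⁻¹' {m}).indicator (fun u => ∏ l, 𝔖.K (σ l) u) u ∂𝔖.ν) *
            (𝔖.Lam f n (n + 1) m σ / κ σ)
          ≤ κ σ * (𝔖.Lam f n (n + 1) m σ / κ σ) := by
            gcongr
            refine le_trans (lintegral_mono fun u => Set.indicator_le_self _ _ u) (hκ1 σ)
        _ ≤ 𝔖.Lam f n (n + 1) m σ := ENNReal.mul_div_le
    · intro m _
      exact (hGm m).comp (measurable_const.prodMk measurable_id)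
  refine (lintegral_mono h3).trans ?_
  rw [lintegral_finsetSum _ (fun m _ => 𝔖.measurable_Lam f n (n + 1) m (hs m))]
  exact (𝔖.sum_Lam f hf le_rfl).le

/-! ### almost sure statements -/

omit [MeasurableSpace W] [Fintype V] [MeasurableSpace V] [MeasurableSingletonClass V] in
theorem ae_lift (μX : Measure X) [IsProbabilityMeasure μX] {P : (Fin (n + 1) → S) → X → Prop}
    (hP : MeasurableSet {z : (Fin (n + 1) → S) × X | P z.1 z.2})
    (h : ∀ᵐ σ ∂(Measure.pi fun _ => 𝔖.ρ), ∀ᵐ ξ ∂μX, P σ ξ) :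
    ∀ᵐ p ∂((𝔖.rep n).prod μX), P p.1.1 p.2 := by
  have hρ := 𝔖.hρ
  have hν := 𝔖.hν
  have h1 : ∀ᵐ q ∂((Measure.pi fun _ : Fin (n + 1) => 𝔖.ρ).prod 𝔖.ν), ∀ᵐ ξ ∂μX, P q.1 ξ :=
    Measure.quasiMeasurePreserving_fst.ae h
  have h2 : ∀ᵐ q ∂(𝔖.rep n), ∀ᵐ ξ ∂μX, P q.1 ξ := (𝔖.rep_ac n).ae_le h1
  have hm : MeasurableSet {p : ((Fin (n + 1) → S) × U) × X | P p.1.1 p.2} := by
    have h3 : Measurable fun p : ((Fin (n + 1) → S) × U) × X => (p.1.1, p.2) :=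
      (measurable_fst.comp measurable_fst).prodMk measurable_snd
    exact h3 hP
  exact (Measure.ae_prod_iff_ae_ae hm).mpr h2

theorem ae_Lam_fin (hf : Measurable f) :
    ∀ᵐ σ ∂(Measure.pi fun _ => 𝔖.ρ), ∀ j ≤ n + 1, ∀ m, 𝔖.Lam f n j m σ ≠ ∞ := by
  have hρ := 𝔖.hρ
  have hs : ∀ m, MeasurableSet (f ⁻¹' {m}) := fun m => hf (measurableSet_singleton m)
  rw [ae_all_iff]
  intro j
  rw [ae_all_iff]
  intro hj
  rw [ae_all_iff]
  intro m
  have h1 : ∫⁻ σ, 𝔖.Lam f n j m σ ∂(Measure.pi fun _ => 𝔖.ρ) ≠ ∞ := by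
    have h2 : ∫⁻ σ, 𝔖.Lam f n j m σ ∂(Measure.pi fun _ => 𝔖.ρ) ≤ 1 := by
      rw [← 𝔖.sum_Lam f hf hj]
      exact Finset.single_le_sum
        (f := fun m => ∫⁻ σ, 𝔖.Lam f n j m σ ∂(Measure.pi fun _ => 𝔖.ρ))
        (fun _ _ => zero_le) (Finset.mem_univ m)
    exact ne_top_of_le_ne_top ENNReal.one_ne_top h2
  filter_upwards [ae_lt_top (𝔖.measurable_Lam f n j m (hs m)) h1] with σ hσ
  exact hσ.ne

omit [MeasurableSpace V] [MeasurableSingletonClass V] in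
theorem ae_obs_pos : ∀ᵐ u ∂𝔖.ν, 𝔖.ν (f ⁻¹' {f u}) ≠ 0 := by
  classical
  have h1 : ∀ m : V, 𝔖.ν (f ⁻¹' {m}) = 0 → ∀ᵐ u ∂𝔖.ν, f u ≠ m := by
    intro m hm
    rw [ae_iff]
    simpa [Set.preimage] using hm
  have h2 : ∀ᵐ u ∂𝔖.ν, ∀ m : V, 𝔖.ν (f ⁻¹' {m}) = 0 → f u ≠ m := by
    rw [ae_all_iff]
    intro m
    by_cases hm : 𝔖.ν (f ⁻¹' {m}) = 0
    · filter_upwards [h1 m hm] with u hu _
      exact hu
    · exact Filter.Eventually.of_forall fun u h => absurd h hm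
  filter_upwards [h2] with u hu h
  exact hu (f u) h rfl

theorem ae_R_fin (μX : Measure X)
    [IsProbabilityMeasure μX] (hW : Measurable (Function.uncurry Wf))
    (hR : ∀ j, Measurable (Function.uncurry (R j)))
    (hRd : ∀ j w σ σ', (∀ l, l < j → σ l = σ' l) → R j w σ = R j w σ')
    (hR1 : ∀ j σ, ∫⁻ s, ∫⁻ ξ, R j (Wf s ξ) σ ∂μX ∂𝔖.ρ ≤ 1) (j : Fin (n + 1)) :
    ∀ᵐ σ ∂(Measure.pi fun _ => 𝔖.ρ), ∀ᵐ ξ ∂μX, R j (Wf (σ j) ξ) σ ≠ ∞ := by
  have hρ := 𝔖.hρ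
  have h1 : Measurable fun z : (Fin (n + 1) → S) × X => z.1 j :=
    (measurable_pi_apply j).comp measurable_fst
  have h2 : Measurable fun z : (Fin (n + 1) → S) × X => Wf (z.1 j) z.2 :=
    measurable_W_comp hW h1 measurable_snd
  have hm : Measurable fun z : (Fin (n + 1) → S) × X => R j (Wf (z.1 j) z.2) z.1 :=
    measurable_R_comp n hR j h2 measurable_fst
  have h3 : ∫⁻ σ, ∫⁻ ξ, R j (Wf (σ j) ξ) σ ∂μX ∂(Measure.pi fun _ => 𝔖.ρ) ≤ 1 := by
    rw [lintegral_resample 𝔖.ρ j hm.lintegral_prod_right']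
    have h4 : ∀ σ : Fin (n + 1) → S, ∫⁻ s, ∫⁻ ξ, R j (Wf (Function.update σ j s j) ξ)
        (Function.update σ j s) ∂μX ∂𝔖.ρ ≤ 1 := by
      intro σ
      refine le_trans (le_of_eq ?_) (hR1 j σ)
      refine lintegral_congr fun s => lintegral_congr fun ξ => ?_
      rw [Function.update_self]
      exact hRd j _ _ _ fun l hl => by rw [Function.update_of_ne (ne_of_lt hl)]
    refine (lintegral_mono h4).trans ?_
    simp
  have h5 := ae_lt_top hm.lintegral_prod_right' (ne_top_of_le_ne_top ENNReal.one_ne_top h3)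
  filter_upwards [h5] with σ hσ
  have h6 : Measurable fun ξ => R j (Wf (σ j) ξ) σ :=
    hm.comp (measurable_const.prodMk measurable_id)
  filter_upwards [ae_lt_top h6 hσ.ne] with ξ hξ
  exact hξ.ne

omit [Fintype V] in
theorem ae_Pm_pos (hf : Measurable f) (μX : Measure X)
    [IsProbabilityMeasure μX] (hW : Measurable (Function.uncurry Wf))
    (hPm : ∀ m, Measurable (Pm m))
    (hprop : ∀ m, ∀ h : W → ℝ≥0∞, Measurable h →
      ∫⁻ s, 𝔖.PS f m s * ∫⁻ ξ, h (Wf s ξ) ∂μX ∂𝔖.ρ =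
        ∫⁻ s, ∫⁻ ξ, Pm m (Wf s ξ) * h (Wf s ξ) ∂μX ∂𝔖.ρ)
    (m : V) (hm : 𝔖.ν (f ⁻¹' {m}) ≠ 0) :
    ∀ᵐ s ∂𝔖.ρ, ∀ᵐ ξ ∂μX, Pm m (Wf s ξ) ≠ 0 := by
  have hs : MeasurableSet (f ⁻¹' {m}) := hf (measurableSet_singleton m)
  have hset : MeasurableSet {w | Pm m w = 0} := (hPm m) (measurableSet_singleton 0)
  set h : W → ℝ≥0∞ := Set.indicator {w | Pm m w = 0} 1 with hh
  have hhm : Measurable h := measurable_one.indicator hset
  have h1 := hprop m h hhm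
  have h2 : ∀ w, Pm m w * h w = 0 := by
    intro w
    by_cases hw : Pm m w = 0
    · rw [hw, zero_mul]
    · have : h w = 0 := Set.indicator_of_notMem (s := {w | Pm m w = 0}) (a := w) hw _
      rw [this, mul_zero]
  simp only [h2, lintegral_zero] at h1
  have hc : Measurable fun z : S × X => h (Wf z.1 z.2) := hhm.comp hW
  have h3 : Measurable fun s => 𝔖.PS f m s * ∫⁻ ξ, h (Wf s ξ) ∂μX :=
    (𝔖.measurable_PS f m hs).mul hc.lintegral_prod_right'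
  rw [lintegral_eq_zero_iff h3] at h1
  filter_upwards [h1] with s hsz
  have h4 : ∫⁻ ξ, h (Wf s ξ) ∂μX = 0 := by
    rcases mul_eq_zero.mp hsz with h5 | h5
    · exact absurd h5 (𝔖.PS_ne_zero f m hs hm s)
    · exact h5
  have h6 : Measurable fun ξ => h (Wf s ξ) := hc.comp (measurable_const.prodMk measurable_id)
  rw [lintegral_eq_zero_iff h6] at h4
  filter_upwards [h4] with ξ hξ hPz
  have h7 : h (Wf s ξ) = 1 :=
    Set.indicator_of_mem (s := {w | Pm m w = 0}) (a := Wf s ξ) hPz _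
  rw [h7] at hξ
  exact one_ne_zero hξ

end Main

/-- The elementary inequality behind the replica inequality. -/
theorem sum_log_le {k : ℕ} (x : Fin k → ℝ) (y : ℝ) (hx : ∀ j, 0 < x j) (hy : 0 < y) :
    ∑ j, Real.log (x j) + Real.log y ≤
      (k + 1) * Real.log ((∑ j, x j + y) / (k + 1)) := by
  have hk : (0 : ℝ) < k + 1 := by positivity
  have hQ : 0 < ∑ j, x j + y := by
    have : 0 ≤ ∑ j, x j := Finset.sum_nonneg fun j _ => (hx j).le
    linarith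
  set c := (∑ j, x j + y) / (k + 1) with hc
  have hc0 : 0 < c := div_pos hQ hk
  have key : ∀ z : ℝ, 0 < z → Real.log z ≤ Real.log c + z / c - 1 := by
    intro z hz
    have h1 := Real.log_le_sub_one_of_pos (div_pos hz hc0)
    rw [Real.log_div hz.ne' hc0.ne'] at h1
    linarith
  have h2 : ∑ j, Real.log (x j) ≤ ∑ j, (Real.log c + x j / c - 1) :=
    Finset.sum_le_sum fun j _ => key _ (hx j)
  have h3 := key y hy
  have h4 : ∑ j, (Real.log c + x j / c - 1) = k * Real.log c + (∑ j, x j) / c - k := by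
    rw [Finset.sum_sub_distrib, Finset.sum_add_distrib, Finset.sum_div]
    simp
  have h5 : (∑ j, x j) / c + y / c = k + 1 := by
    rw [← add_div, hc]
    field_simp
  linarith


theorem replica {S U X W V : Type} [MeasurableSpace S] [MeasurableSpace U] [MeasurableSpace X]
    [MeasurableSpace W] [Fintype V] [MeasurableSpace V] [MeasurableSingletonClass V]
    (𝔖 : Setup S U) (n : ℕ) (f : U → V) (hf : Measurable f) (μX : Measure X)
    [IsProbabilityMeasure μX] (Wf : S → X → W) (hW : Measurable (Function.uncurry Wf))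
    (Pm : V → W → ℝ≥0∞) (hPm : ∀ m, Measurable (Pm m)) (hPm1 : ∀ m w, Pm m w ≤ 1)
    (hprop : ∀ m, ∀ h : W → ℝ≥0∞, Measurable h →
      ∫⁻ s, 𝔖.PS f m s * ∫⁻ ξ, h (Wf s ξ) ∂μX ∂𝔖.ρ =
        ∫⁻ s, ∫⁻ ξ, Pm m (Wf s ξ) * h (Wf s ξ) ∂μX ∂𝔖.ρ)
    (R : Fin (n + 1) → W → (Fin (n + 1) → S) → ℝ≥0∞)
    (hR : ∀ j, Measurable (Function.uncurry (R j))) (hR0 : ∀ j w σ, R j w σ ≠ 0)
    (hRd : ∀ j w σ σ', (∀ l, l < j → σ l = σ' l) → R j w σ = R j w σ')
    (hR1 : ∀ j σ, ∫⁻ s, ∫⁻ ξ, R j (Wf s ξ) σ ∂μX ∂𝔖.ρ ≤ 1)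
    (κ : (Fin (n + 1) → S) → ℝ≥0∞) (hκ : Measurable κ) (hκ0 : ∀ σ, κ σ ≠ 0)
    (hκt : ∀ σ, κ σ ≠ ∞) (hκ1 : ∀ σ, ∫⁻ u, ∏ l, 𝔖.K (σ l) u ∂𝔖.ν ≤ κ σ) :
    ∃ Q : ((Fin (n + 1) → S) × U) × X → ℝ≥0∞, Measurable Q ∧
      ∫⁻ p, Q p ∂((𝔖.rep n).prod μX) ≤ n + 2 ∧
      ∀ᵐ p ∂((𝔖.rep n).prod μX), Q p ≠ ∞ ∧ Q p ≠ 0 ∧
        (∀ j, R j (Wf (p.1.1 j) p.2) p.1.1 ≠ ∞) ∧
        lg (𝔖.PM f (f p.1.2)) +
            ∑ j, (lg (𝔖.PS f (f p.1.2) (p.1.1 j)) - lg (Pm (f p.1.2) (Wf (p.1.1 j) p.2))) +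
            ∑ j, lg (R j (Wf (p.1.1 j) p.2) p.1.1) + n * lg (𝔖.q p.1.2) - lg (κ p.1.1) ≤
          (n + 2) * Real.log ((Q p).toReal / (n + 2)) := by
  classical
  have hρ := 𝔖.hρ
  have hν := 𝔖.hν
  have hs : ∀ m, MeasurableSet (f ⁻¹' {m}) := fun m => hf (measurableSet_singleton m)
  have hxm := measurable_xx' 𝔖 n f hf hW hPm hR
  have hym' : Measurable fun p : ((Fin (n + 1) → S) × U) × X =>
      yy 𝔖 n f κ (f p.1.2) p.1.1 p.1.2 := by
    have h1 : Measurable fun z : V × ((Fin (n + 1) → S) × U) => yy 𝔖 n f κ z.1 z.2.1 z.2.2 :=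
      measurable_from_prod_countable_right fun m => measurable_yy 𝔖 n f hκ hs m
    exact h1.comp ((hf.comp (measurable_snd.comp measurable_fst)).prodMk measurable_fst)
  refine ⟨fun p => ∑ j, xx 𝔖 n f Wf Pm R j (f p.1.2) p.1.1 p.2 + yy 𝔖 n f κ (f p.1.2) p.1.1 p.1.2,
    (Finset.measurable_sum _ fun j _ => hxm j).add hym', ?_, ?_⟩
  · rw [lintegral_add_right _ hym', lintegral_finsetSum _ fun j _ => hxm j]
    have h1 : ∑ j : Fin (n + 1), ∫⁻ p, xx 𝔖 n f Wf Pm R j (f p.1.2) p.1.1 p.2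
        ∂((𝔖.rep n).prod μX) ≤ n + 1 := by
      refine (Finset.sum_le_sum fun j _ =>
        lintegral_xx 𝔖 n f hf μX hW hPm hprop hR hRd hR1 j).trans ?_
      simp
    have h2 : ∫⁻ p, yy 𝔖 n f κ (f p.1.2) p.1.1 p.1.2 ∂((𝔖.rep n).prod μX) ≤ 1 := by
      rw [lintegral_prod _ hym'.aemeasurable]
      simp only [lintegral_const, measure_univ, mul_one]
      exact lintegral_yy 𝔖 n f hf hκ hκ1
    calc _ ≤ ((n : ℝ≥0∞) + 1) + 1 := add_le_add h1 h2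
      _ = n + 2 := by rw [add_assoc, one_add_one_eq_two]
  · -- almost sure statements
    have a1 : ∀ᵐ p ∂((𝔖.rep n).prod μX), 𝔖.ν (f ⁻¹' {f p.1.2}) ≠ 0 := by
      have h1 : ∀ᵐ q ∂((Measure.pi fun _ : Fin (n + 1) => 𝔖.ρ).prod 𝔖.ν),
          𝔖.ν (f ⁻¹' {f q.2}) ≠ 0 := Measure.quasiMeasurePreserving_snd.ae (ae_obs_pos 𝔖 f)
      exact Measure.quasiMeasurePreserving_fst.ae ((𝔖.rep_ac n).ae_le h1)
    have a2 : ∀ᵐ p ∂((𝔖.rep n).prod μX), ∀ j ≤ n + 1, ∀ m, 𝔖.Lam f n j m p.1.1 ≠ ∞ := by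
      have h1 : ∀ᵐ q ∂((Measure.pi fun _ : Fin (n + 1) => 𝔖.ρ).prod 𝔖.ν),
          ∀ j ≤ n + 1, ∀ m, 𝔖.Lam f n j m q.1 ≠ ∞ :=
        Measure.quasiMeasurePreserving_fst.ae (ae_Lam_fin 𝔖 n f hf)
      exact Measure.quasiMeasurePreserving_fst.ae ((𝔖.rep_ac n).ae_le h1)
    have a3 : ∀ᵐ p ∂((𝔖.rep n).prod μX), ∀ j, R j (Wf (p.1.1 j) p.2) p.1.1 ≠ ∞ := by
      rw [ae_all_iff]
      intro j
      refine ae_lift 𝔖 n μX (P := fun σ ξ => R j (Wf (σ j) ξ) σ ≠ ∞) ?_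
        (ae_R_fin 𝔖 n μX hW hR hRd hR1 j)
      have h1 : Measurable fun z : (Fin (n + 1) → S) × X => z.1 j :=
        (measurable_pi_apply j).comp measurable_fst
      have h2 : Measurable fun z : (Fin (n + 1) → S) × X => Wf (z.1 j) z.2 :=
        measurable_W_comp hW h1 measurable_snd
      have h3 : Measurable fun z : (Fin (n + 1) → S) × X => R j (Wf (z.1 j) z.2) z.1 :=
        measurable_R_comp n hR j h2 measurable_fst
      exact h3 (measurableSet_singleton ∞).compl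
    have a4 : ∀ᵐ p ∂((𝔖.rep n).prod μX), ∀ m, 𝔖.ν (f ⁻¹' {m}) ≠ 0 →
        ∀ j, Pm m (Wf (p.1.1 j) p.2) ≠ 0 := by
      rw [ae_all_iff]
      intro m
      by_cases hm : 𝔖.ν (f ⁻¹' {m}) = 0
      · exact Filter.Eventually.of_forall fun p h => absurd hm h
      · have h0 : ∀ᵐ p ∂((𝔖.rep n).prod μX), ∀ j, Pm m (Wf (p.1.1 j) p.2) ≠ 0 := by
          rw [ae_all_iff]
          intro j
          refine ae_lift 𝔖 n μX (P := fun σ ξ => Pm m (Wf (σ j) ξ) ≠ 0) ?_ ?_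
          · have h1 : Measurable fun z : (Fin (n + 1) → S) × X => z.1 j :=
              (measurable_pi_apply j).comp measurable_fst
            have h2 : Measurable fun z : (Fin (n + 1) → S) × X => Wf (z.1 j) z.2 :=
              measurable_W_comp hW h1 measurable_snd
            have h3 : Measurable fun z : (Fin (n + 1) → S) × X => Pm m (Wf (z.1 j) z.2) :=
              (hPm m).comp h2
            exact h3 (measurableSet_singleton 0).compl
          · exact (Measure.quasiMeasurePreserving_eval (fun _ => 𝔖.ρ) j).ae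
              (ae_Pm_pos 𝔖 f hf μX hW hPm hprop m hm)
        filter_upwards [h0] with p hp _
        exact hp
    filter_upwards [a1, a2, a3, a4] with p b1 b2 b3 b4
    obtain ⟨⟨σ, u⟩, ξ⟩ := p
    simp only at b1 b2 b3 b4 ⊢
    set m := f u with hmdef
    have c4 := b4 m b1
    have hL0 : ∀ j, 𝔖.Lam f n j m σ ≠ 0 := fun j => 𝔖.Lam_ne_zero f n j m (hs m) b1 σ
    have hLt : ∀ j ≤ n + 1, 𝔖.Lam f n j m σ ≠ ∞ := fun j hj => b2 j hj m
    have hPS0 : ∀ s, 𝔖.PS f m s ≠ 0 := fun s => 𝔖.PS_ne_zero f m (hs m) b1 s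
    have hPSt : ∀ s, 𝔖.PS f m s ≠ ∞ := fun s =>
      ne_top_of_le_ne_top ENNReal.one_ne_top (𝔖.PS_le_one f m s)
    have hPmt : ∀ w, Pm m w ≠ ∞ := fun w => ne_top_of_le_ne_top ENNReal.one_ne_top (hPm1 m w)
    have hq0 := 𝔖.q_ne_zero u
    have hqt := 𝔖.q_ne_top u
    have hfac : ∀ j : Fin (n + 1), xx 𝔖 n f Wf Pm R j m σ ξ ≠ 0 ∧
        xx 𝔖 n f Wf Pm R j m σ ξ ≠ ∞ ∧
        lg (xx 𝔖 n f Wf Pm R j m σ ξ) = (lg (𝔖.Lam f n j m σ) - lg (𝔖.Lam f n (j + 1) m σ)) +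
          (lg (𝔖.PS f m (σ j)) + (lg (R j (Wf (σ j) ξ) σ) - lg (Pm m (Wf (σ j) ξ)))) := by
      intro j
      have hj1 : (j : ℕ) + 1 ≤ n + 1 := j.isLt
      have d1 : 𝔖.Lam f n j m σ / 𝔖.Lam f n (j + 1) m σ ≠ 0 :=
        ENNReal.div_ne_zero.mpr ⟨hL0 _, hLt _ hj1⟩
      have d2 : 𝔖.Lam f n j m σ / 𝔖.Lam f n (j + 1) m σ ≠ ∞ :=
        ENNReal.div_ne_top (hLt _ (by omega)) (hL0 _)
      have d3 : R j (Wf (σ j) ξ) σ / Pm m (Wf (σ j) ξ) ≠ 0 :=
        ENNReal.div_ne_zero.mpr ⟨hR0 _ _ _, hPmt _⟩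
      have d4 : R j (Wf (σ j) ξ) σ / Pm m (Wf (σ j) ξ) ≠ ∞ :=
        ENNReal.div_ne_top (b3 j) (c4 j)
      have d5 : 𝔖.PS f m (σ j) * (R j (Wf (σ j) ξ) σ / Pm m (Wf (σ j) ξ)) ≠ 0 :=
        mul_ne_zero (hPS0 _) d3
      have d6 : 𝔖.PS f m (σ j) * (R j (Wf (σ j) ξ) σ / Pm m (Wf (σ j) ξ)) ≠ ∞ :=
        ENNReal.mul_ne_top (hPSt _) d4
      unfold xx
      refine ⟨mul_ne_zero d1 d5, ENNReal.mul_ne_top d2 d6, ?_⟩
      rw [lg_mul d1 d2 d5 d6, lg_mul (hPS0 _) (hPSt _) d3 d4,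
        lg_div (hL0 _) (hLt _ (by omega)) (hL0 _) (hLt _ hj1),
        lg_div (hR0 _ _ _) (b3 j) (c4 j) (hPmt _)]
    have hy0 : yy 𝔖 n f κ m σ u ≠ 0 ∧ yy 𝔖 n f κ m σ u ≠ ∞ ∧
        lg (yy 𝔖 n f κ m σ u) = lg (𝔖.Lam f n (n + 1) m σ) + n * lg (𝔖.q u) - lg (κ σ) := by
      have e1 : 𝔖.q u ^ n ≠ 0 := pow_ne_zero _ hq0
      have e2 : 𝔖.q u ^ n ≠ ∞ := ENNReal.pow_ne_top hqt
      have e3 : 𝔖.Lam f n (n + 1) m σ * 𝔖.q u ^ n ≠ 0 := mul_ne_zero (hL0 _) e1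
      have e4 : 𝔖.Lam f n (n + 1) m σ * 𝔖.q u ^ n ≠ ∞ := ENNReal.mul_ne_top (hLt _ le_rfl) e2
      unfold yy
      refine ⟨ENNReal.div_ne_zero.mpr ⟨e3, hκt _⟩, ENNReal.div_ne_top e4 (hκ0 _), ?_⟩
      rw [lg_div e3 e4 (hκ0 _) (hκt _), lg_mul (hL0 _) (hLt _ le_rfl) e1 e2, lg_pow]
    have hxt : ∑ j, xx 𝔖 n f Wf Pm R j m σ ξ ≠ ∞ :=
      ENNReal.sum_ne_top.mpr fun j _ => (hfac j).2.1
    refine ⟨ENNReal.add_ne_top.mpr ⟨hxt, hy0.2.1⟩, ?_, b3, ?_⟩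
    · intro h
      exact hy0.1 (add_eq_zero.mp h).2
    have hsum := sum_log_le (fun j : Fin (n + 1) => (xx 𝔖 n f Wf Pm R j m σ ξ).toReal)
      (yy 𝔖 n f κ m σ u).toReal
      (fun j => ENNReal.toReal_pos (hfac j).1 (hfac j).2.1) (ENNReal.toReal_pos hy0.1 hy0.2.1)
    have hQ : (∑ j, xx 𝔖 n f Wf Pm R j m σ ξ + yy 𝔖 n f κ m σ u).toReal =
        ∑ j, (xx 𝔖 n f Wf Pm R j m σ ξ).toReal + (yy 𝔖 n f κ m σ u).toReal := by
      rw [ENNReal.toReal_add hxt hy0.2.1, ENNReal.toReal_sum fun j _ => (hfac j).2.1]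
    rw [hQ]
    have hcast : ((n + 1 : ℕ) : ℝ) + 1 = n + 2 := by push_cast; ring
    rw [hcast] at hsum
    refine le_trans (le_of_eq ?_) hsum
    have htel : ∑ j : Fin (n + 1), (lg (𝔖.Lam f n j m σ) - lg (𝔖.Lam f n (j + 1) m σ)) =
        lg (𝔖.PM f m) - lg (𝔖.Lam f n (n + 1) m σ) := by
      rw [Fin.sum_univ_eq_sum_range
        (fun j => lg (𝔖.Lam f n j m σ) - lg (𝔖.Lam f n (j + 1) m σ)) (n + 1),
        Finset.sum_range_sub', 𝔖.PM_eq f n hf m σ]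
    have hxl : ∑ j : Fin (n + 1), Real.log (xx 𝔖 n f Wf Pm R j m σ ξ).toReal =
        (lg (𝔖.PM f m) - lg (𝔖.Lam f n (n + 1) m σ)) +
          (∑ j, (lg (𝔖.PS f m (σ j)) - lg (Pm m (Wf (σ j) ξ))) +
            ∑ j, lg (R j (Wf (σ j) ξ) σ)) := by
      rw [← htel, ← Finset.sum_add_distrib, ← Finset.sum_add_distrib]
      refine Finset.sum_congr rfl fun j _ => ?_
      have := (hfac j).2.2
      unfold lg at this ⊢
      rw [this]
      ring
    have hyl : Real.log (yy 𝔖 n f κ m σ u).toReal =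
        lg (𝔖.Lam f n (n + 1) m σ) + n * lg (𝔖.q u) - lg (κ σ) := hy0.2.2
    rw [hxl, hyl]
    ring

end Vale.Agent.P309
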