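import Vale.Agent.Lib.P309.U1
import Vale.Agent.Lib.P309.LemmaK
import Vale.Agent.Lib.P309.Replica

/-!
# P309, module AP, part A: Gaussian moments of labels, the replica inequality for `V = Unit`

`replica` with `V = Unit`, `X = Unit`, `W = S`, `Pm = 1`, `R_0 = 1`,
`R_j = (π/C^d) (td r (bef j) σ (W))^{-8n}` (needs `U1` with `F = span (σ l, l < j)`),
`κ = (kap r univ)^n` (`lintegral_prod_winK`), `lg_kap`, plus `n` copies of `ref(Y)/q(u)` with
`ref = ∏ φ_2(Y_i)` (`rep_obs`).  See section 8 of the paper proof (notes/P309/proof.md).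
-/

namespace Vale.Agent.P309

open MeasureTheory ProbabilityTheory
open scoped ENNReal RealInnerProductSpace

/-! ### Gaussian moments of the labels -/

theorem ap_lintegral_pi_prod {n : ℕ} {α : Type} [MeasurableSpace α] (μ : Measure α)
    [IsProbabilityMeasure μ] (h : Fin n → α → ℝ≥0∞) (hh : ∀ i, Measurable (h i)) :
    ∫⁻ x, ∏ i, h i (x i) ∂(Measure.pi (fun _ : Fin n => μ)) = ∏ i, ∫⁻ a, h i a ∂μ := by
  have h1 := lintegral_prod_eq_prod_lintegral_of_indepFun (μ := Measure.pi (fun _ : Fin n => μ))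
    Finset.univ (fun i x => h i (x i))
    (iIndepFun_pi (fun i => (hh i).aemeasurable)) (fun i => (hh i).comp (measurable_pi_apply i))
  rw [h1]
  apply Finset.prod_congr rfl
  intro i _
  have := (measurePreserving_eval (fun _ : Fin n => μ) i).lintegral_comp (hh i)
  exact this

theorem lintegral_exp_one : ∫⁻ x, ENNReal.ofReal (Real.exp (x ^ 2 / 4)) ∂(gaussianReal 0 1) ≤ 2 := by
  have h1 := lintegral_orthonormal (H := ℝ) (m := 1) (fun _ => (1 : ℝ))
    (by
      constructor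
      · intro i; simp
      · intro i j hij; exact absurd (Subsingleton.elim i j) hij)
    (fun _ x => ENNReal.ofReal (Real.exp (x ^ 2 / 4))) (fun _ => by fun_prop)
  simp only [Finset.univ_unique, Finset.prod_singleton] at h1
  rw [← h1]
  have h2 := lintegral_exp_norm (H := ℝ)
  simp only [Module.finrank_self, pow_one] at h2
  refine le_trans (le_of_eq ?_) h2
  congr 1
  ext x
  simp [RCLike.inner_apply, sq_abs]

theorem lintegral_inner_exp {d : ℕ} (s : E d) (hs : ‖s‖ = 1) :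
    ∫⁻ x, ENNReal.ofReal (Real.exp (⟪x, s⟫ ^ 2 / 4)) ∂(stdGaussian (E d)) ≤ 2 := by
  have h1 := lintegral_orthonormal (H := E d) (m := 1) (fun _ => s)
    (by
      constructor
      · intro i; exact hs
      · intro i j hij; exact absurd (Subsingleton.elim i j) hij)
    (fun _ x => ENNReal.ofReal (Real.exp (x ^ 2 / 4))) (fun _ => by fun_prop)
  simp only [Finset.univ_unique, Finset.prod_singleton] at h1
  refine le_trans (le_of_eq ?_) lintegral_exp_one
  rw [← h1]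
  congr 1
  ext x
  rw [real_inner_comm]

/-- one label: `E exp(y^2/16) ≤ 4` -/
theorem lintegral_label {d : ℕ} {r : ℝ} (hr : 0 < r) (hr1 : r ≤ 1) (s : E d) (hs : ‖s‖ = 1) :
    ∫⁻ x, ∫⁻ g, ENNReal.ofReal (Real.exp ((⟪x, s⟫ + r * g) ^ 2 / 16)) ∂(gaussianReal 0 1)
      ∂(stdGaussian (E d)) ≤ 4 := by
  have h1 : ∀ (x : E d) (g : ℝ), ENNReal.ofReal (Real.exp ((⟪x, s⟫ + r * g) ^ 2 / 16)) ≤
      ENNReal.ofReal (Real.exp (⟪x, s⟫ ^ 2 / 4)) * ENNReal.ofReal (Real.exp (g ^ 2 / 4)) := by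
    intro x g
    rw [← ENNReal.ofReal_mul (Real.exp_pos _).le, ← Real.exp_add]
    apply ENNReal.ofReal_le_ofReal
    apply Real.exp_le_exp.2
    have h2 : (r * g) ^ 2 ≤ g ^ 2 := by
      rw [mul_pow]
      have : r ^ 2 ≤ 1 := by nlinarith
      nlinarith [sq_nonneg g]
    nlinarith [sq_nonneg (⟪x, s⟫ - r * g), sq_nonneg (⟪x, s⟫), sq_nonneg g]
  calc _ ≤ ∫⁻ x, ∫⁻ g, ENNReal.ofReal (Real.exp (⟪x, s⟫ ^ 2 / 4)) *
        ENNReal.ofReal (Real.exp (g ^ 2 / 4)) ∂(gaussianReal 0 1) ∂(stdGaussian (E d)) := by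
        apply lintegral_mono; intro x
        apply lintegral_mono; intro g
        exact h1 x g
    _ = ∫⁻ x, ENNReal.ofReal (Real.exp (⟪x, s⟫ ^ 2 / 4)) *
        ∫⁻ g, ENNReal.ofReal (Real.exp (g ^ 2 / 4)) ∂(gaussianReal 0 1) ∂(stdGaussian (E d)) := by
        apply lintegral_congr; intro x
        rw [lintegral_const_mul]
        fun_prop
    _ ≤ ∫⁻ x, ENNReal.ofReal (Real.exp (⟪x, s⟫ ^ 2 / 4)) * 2 ∂(stdGaussian (E d)) := by
        apply lintegral_mono; intro x
        exact mul_le_mul_right lintegral_exp_one _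
    _ = (∫⁻ x, ENNReal.ofReal (Real.exp (⟪x, s⟫ ^ 2 / 4)) ∂(stdGaussian (E d))) * 2 := by
        rw [lintegral_mul_const]
        fun_prop
    _ ≤ 2 * 2 := mul_le_mul_left (lintegral_inner_exp s hs) _
    _ = 4 := by norm_num

/-- product of functions of the labels -/
theorem lintegral_labels {d n : ℕ} {r : ℝ} (hr : 0 < r) (s : E d) (h : Fin n → ℝ → ℝ≥0∞)
    (hh : ∀ i, Measurable (h i)) :
    ∫⁻ u, winK r s u * ∏ i, h i (u.2 i) ∂(winM d n) =
      ∏ i, ∫⁻ x, ∫⁻ g, h i (⟪x, s⟫ + r * g) ∂(gaussianReal 0 1) ∂(stdGaussian (E d)) := by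
  rw [lintegral_winK hr s (F := fun u : Win d n => ∏ i, h i (u.2 i))
    (Finset.measurable_prod _ (fun i _ => (hh i).comp
      ((measurable_pi_apply i).comp measurable_snd)))]
  have h1 : ∀ X : Fin n → E d, ∫⁻ g, ∏ i, h i (⟪X i, s⟫ + r * g i) ∂(gs n) =
      ∏ i, ∫⁻ g, h i (⟪X i, s⟫ + r * g) ∂(gaussianReal 0 1) := by
    intro X
    rw [gs]
    exact ap_lintegral_pi_prod (gaussianReal 0 1) (fun i g => h i (⟪X i, s⟫ + r * g))
      (fun i => (hh i).comp (by fun_prop))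
  simp only [h1]
  rw [rows]
  have h2 : ∀ i, Measurable (fun x : E d => ∫⁻ g, h i (⟪x, s⟫ + r * g) ∂(gaussianReal 0 1)) := by
    intro i
    apply Measurable.lintegral_prod_right' (f := fun p : E d × ℝ => h i (⟪p.1, s⟫ + r * p.2))
    exact (hh i).comp (by fun_prop)
  exact ap_lintegral_pi_prod (stdGaussian (E d))
    (fun i x => ∫⁻ g, h i (⟪x, s⟫ + r * g) ∂(gaussianReal 0 1)) h2

theorem labels_exp {d n : ℕ} {r : ℝ} (hr : 0 < r) (hr1 : r ≤ 1) (s : E d) (hs : ‖s‖ = 1) :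
    ∫⁻ u : Win d n, winK r s u * ENNReal.ofReal (Real.exp ((∑ i, u.2 i ^ 2) / 16)) ∂(winM d n) ≤
      4 ^ n := by
  have h1 : ∀ u : Win d n, ENNReal.ofReal (Real.exp ((∑ i, u.2 i ^ 2) / 16)) =
      ∏ i, ENNReal.ofReal (Real.exp ((u.2 i) ^ 2 / 16)) := by
    intro u
    rw [← ENNReal.ofReal_prod_of_nonneg (fun i _ => (Real.exp_pos _).le), ← Real.exp_sum,
      Finset.sum_div]
  simp only [h1]
  rw [lintegral_labels hr s (fun _ y => ENNReal.ofReal (Real.exp (y ^ 2 / 16)))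
    (fun _ => by fun_prop)]
  calc _ ≤ ∏ _i : Fin n, (4 : ℝ≥0∞) := Finset.prod_le_prod' (fun i _ => lintegral_label hr hr1 s hs)
    _ = 4 ^ n := by simp

theorem label_one {d n : ℕ} {r : ℝ} (hr : 0 < r) (hr1 : r ≤ 1) (s : E d) (hs : ‖s‖ = 1)
    (i : Fin n) :
    ∫⁻ u : Win d n, winK r s u * ENNReal.ofReal (Real.exp ((u.2 i) ^ 2 / 16)) ∂(winM d n) ≤ 4 := by
  set h : Fin n → ℝ → ℝ≥0∞ := fun k y => if k = i then ENNReal.ofReal (Real.exp (y ^ 2 / 16))
    else 1 with hh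
  have hm : ∀ k, Measurable (h k) := by
    intro k
    simp only [hh]
    split_ifs <;> fun_prop
  have h1 : ∀ u : Win d n, ENNReal.ofReal (Real.exp ((u.2 i) ^ 2 / 16)) = ∏ k, h k (u.2 k) := by
    intro u
    simp only [hh]
    rw [Finset.prod_ite_eq' Finset.univ i]
    simp
  simp only [h1]
  rw [lintegral_labels hr s h hm, ← Finset.mul_prod_erase Finset.univ _ (Finset.mem_univ i)]
  have hone : ∏ k ∈ Finset.univ.erase i, ∫⁻ x, ∫⁻ g, h k (⟪x, s⟫ + r * g) ∂(gaussianReal 0 1)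
      ∂(stdGaussian (E d)) = 1 := by
    apply Finset.prod_eq_one
    intro k hk
    have hki : k ≠ i := (Finset.mem_erase.1 hk).1
    simp [hh, hki]
  rw [hone, mul_one]
  have h2 : h i = fun y => ENNReal.ofReal (Real.exp (y ^ 2 / 16)) := by
    simp [hh]
  rw [h2]
  exact lintegral_label hr hr1 s hs

theorem labels_sq {d n : ℕ} {r : ℝ} (hr : 0 < r) (hr1 : r ≤ 1) (s : E d) (hs : ‖s‖ = 1) :
    ∫⁻ u : Win d n, winK r s u * ENNReal.ofReal (∑ i, u.2 i ^ 2) ∂(winM d n) ≤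
      ENNReal.ofReal (64 * n) := by
  have hm : ∀ i : Fin n, Measurable (fun u : Win d n => winK r s u *
      ENNReal.ofReal (Real.exp ((u.2 i) ^ 2 / 16))) := by
    intro i
    apply Measurable.mul
    · exact Measurable.of_uncurry_left (measurable_winK r)
    · exact (by fun_prop : Measurable (fun y : ℝ => ENNReal.ofReal (Real.exp (y ^ 2 / 16)))).comp
          ((measurable_pi_apply i).comp measurable_snd)
  have h1 : ∀ u : Win d n, winK r s u * ENNReal.ofReal (∑ i, u.2 i ^ 2) ≤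
      ∑ i, 16 * (winK r s u * ENNReal.ofReal (Real.exp ((u.2 i) ^ 2 / 16))) := by
    intro u
    rw [ENNReal.ofReal_sum_of_nonneg (fun i _ => sq_nonneg _), Finset.mul_sum]
    apply Finset.sum_le_sum
    intro i _
    have h3 : ENNReal.ofReal (u.2 i ^ 2) ≤ 16 * ENNReal.ofReal (Real.exp ((u.2 i) ^ 2 / 16)) := by
      have : (16 : ℝ≥0∞) = ENNReal.ofReal 16 := by norm_num
      rw [this, ← ENNReal.ofReal_mul (by norm_num)]
      apply ENNReal.ofReal_le_ofReal
      have := Real.add_one_le_exp ((u.2 i) ^ 2 / 16)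
      linarith
    calc winK r s u * ENNReal.ofReal (u.2 i ^ 2)
        ≤ winK r s u * (16 * ENNReal.ofReal (Real.exp ((u.2 i) ^ 2 / 16))) := by gcongr
      _ = _ := by ring
  refine (lintegral_mono h1).trans ?_
  rw [lintegral_finsetSum _ (fun i _ => (hm i).const_mul _)]
  have h4 : ∀ i ∈ (Finset.univ : Finset (Fin n)), ∫⁻ u : Win d n, 16 * (winK r s u *
      ENNReal.ofReal (Real.exp ((u.2 i) ^ 2 / 16))) ∂(winM d n) ≤ 64 := by
    intro i _
    rw [lintegral_const_mul _ (hm i)]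
    calc _ ≤ (16 : ℝ≥0∞) * 4 := mul_le_mul_right (label_one hr hr1 s hs i) _
      _ = 64 := by norm_num
  refine (Finset.sum_le_sum h4).trans (le_of_eq ?_)
  simp only [Finset.sum_const, Finset.card_univ, Fintype.card_fin, nsmul_eq_mul]
  rw [mul_comm (64 : ℝ), ENNReal.ofReal_mul (Nat.cast_nonneg n), ENNReal.ofReal_natCast]
  norm_num

/-! ### The replica inequality -/

/-- the density ratios used here -/
noncomputable def Rap {d n : ℕ} (c : ℝ≥0∞) (r : ℝ) (j : Fin (n + 1)) (x : E d)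
    (σ : Fin (n + 1) → E d) : ℝ≥0∞ :=
  if j = 0 then 1 else c * ((ENNReal.ofReal (td r (bef j) σ x))⁻¹) ^ (8 * n)

theorem ap_mem_bef {k : ℕ} {j l : Fin k} : l ∈ bef j ↔ l < j := by
  simp [bef]

theorem ap_bef_nonempty {n : ℕ} {j : Fin (n + 1)} (hj : j ≠ 0) : (bef j).Nonempty :=
  ⟨0, ap_mem_bef.2 (Fin.pos_iff_ne_zero.2 hj)⟩

theorem ap_td_pos {d k : ℕ} {r : ℝ} (hr : 0 < r) (A : Finset (Fin k)) (σ : Fin k → E d) (x : E d) :
    0 < td r A σ x := lt_of_lt_of_le hr (le_td hr A σ x)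

theorem Rap_meas {d n : ℕ} (c : ℝ≥0∞) (r : ℝ) (j : Fin (n + 1)) :
    Measurable (Function.uncurry (Rap (d := d) c r j)) := by
  by_cases hj : j = 0
  · have : Function.uncurry (Rap (d := d) c r j) = fun _ => 1 := by
      ext p; simp [Function.uncurry, Rap, hj]
    rw [this]; exact measurable_const
  · have : Function.uncurry (Rap (d := d) c r j) = fun p =>
        c * ((ENNReal.ofReal (td r (bef j) p.2 p.1))⁻¹) ^ (8 * n) := by
      ext p; simp [Function.uncurry, Rap, hj]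
    rw [this]
    exact (((measurable_td r (bef j)).comp measurable_swap).ennreal_ofReal.inv.pow_const _).const_mul _

theorem Rap_dep {d n : ℕ} (c : ℝ≥0∞) (r : ℝ) (j : Fin (n + 1)) (x : E d)
    (σ σ' : Fin (n + 1) → E d) (h : ∀ l, l < j → σ l = σ' l) :
    Rap c r j x σ = Rap c r j x σ' := by
  unfold Rap
  have : td r (bef j) σ x = td r (bef j) σ' x := by
    unfold td
    rw [Vd_congr _ _ (fun l hl => h l (ap_mem_bef.1 hl))]
  rw [this]

theorem Rap_ne_zero {d n : ℕ} {c : ℝ≥0∞} (hc : c ≠ 0) (r : ℝ) (j : Fin (n + 1)) (x : E d)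
    (σ : Fin (n + 1) → E d) : Rap c r j x σ ≠ 0 := by
  unfold Rap
  split_ifs
  · exact one_ne_zero
  · exact mul_ne_zero hc (pow_ne_zero _ (ENNReal.inv_ne_zero.2 ENNReal.ofReal_ne_top))

theorem lg_Rap {d n : ℕ} {p0 C r : ℝ} (hp0 : 0 < p0) (hC : 1 ≤ C) (hr : 0 < r) {j : Fin (n + 1)}
    (hj : j ≠ 0) (x : E d) (σ : Fin (n + 1) → E d) :
    lg (Rap (ENNReal.ofReal (p0 / C ^ d)) r j x σ) =
      Real.log p0 - d * Real.log C - 8 * n * Real.log (td r (bef j) σ x) := by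
  have ht := ap_td_pos hr (bef j) σ x
  have hC0 : 0 < C := by linarith
  unfold Rap lg
  rw [if_neg hj, ENNReal.toReal_mul, ENNReal.toReal_pow, ENNReal.toReal_inv,
    ENNReal.toReal_ofReal (by positivity), ENNReal.toReal_ofReal ht.le,
    Real.log_mul (by positivity) (by positivity), Real.log_div hp0.ne' (by positivity),
    Real.log_pow, Real.log_pow, Real.log_inv]
  push_cast
  ring

theorem Rap_int {C : ℝ} (hC : 1 ≤ C) {d n : ℕ} (hn : 1 ≤ n) (hU : ∀ β : ℕ, β ≤ 12 * n →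
    ∀ F : Submodule ℝ (E d), Module.finrank ℝ F ≤ n + 1 →
      ∫⁻ s, ((ENNReal.ofReal (Metric.infDist s (F : Set (E d))))⁻¹) ^ β ∂(unif d) ≤
        ENNReal.ofReal (C ^ d)) {r : ℝ} (hr : 0 < r) (ρ : Measure (E d)) [IsProbabilityMeasure ρ]
    {p0 : ℝ} (hp0 : 0 < p0) (hρ : ρ ≤ (ENNReal.ofReal p0)⁻¹ • unif d) (j : Fin (n + 1))
    (σ : Fin (n + 1) → E d) :
    ∫⁻ s, Rap (ENNReal.ofReal (p0 / C ^ d)) r j s σ ∂ρ ≤ 1 := by
  classical
  by_cases hj : j = 0
  · simp [Rap, hj]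
  · have hC0 : 0 < C := by linarith
    simp only [Rap, if_neg hj]
    set F : Submodule ℝ (E d) := Submodule.span ℝ (((bef j).image σ : Finset (E d)) : Set (E d))
      with hF
    have hfin : Module.finrank ℝ F ≤ n + 1 := by
      have h1 := finrank_span_finset_le_card (R := ℝ) ((bef j).image σ)
      have h2 : ((bef j).image σ).card ≤ n + 1 := by
        refine Finset.card_image_le.trans ?_
        refine (Finset.card_le_univ _).trans ?_
        simp
      exact h1.trans h2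
    have hle : ∀ s : E d, ((ENNReal.ofReal (td r (bef j) σ s))⁻¹) ^ (8 * n) ≤
        ((ENNReal.ofReal (Metric.infDist s (F : Set (E d))))⁻¹) ^ (8 * n) := by
      intro s
      apply pow_le_pow_left'
      apply ENNReal.inv_le_inv.2
      apply ENNReal.ofReal_le_ofReal
      apply infDist_le_td hr (bef j) (ap_bef_nonempty hj) σ s F
      intro l hl
      apply Submodule.subset_span
      exact Finset.mem_coe.2 (Finset.mem_image_of_mem σ hl)
    calc ∫⁻ s, ENNReal.ofReal (p0 / C ^ d) * ((ENNReal.ofReal (td r (bef j) σ s))⁻¹) ^ (8 * n) ∂ρ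
        ≤ ∫⁻ s, ENNReal.ofReal (p0 / C ^ d) *
          ((ENNReal.ofReal (Metric.infDist s (F : Set (E d))))⁻¹) ^ (8 * n) ∂ρ := by
          apply lintegral_mono; intro s
          exact mul_le_mul_right (hle s) _
      _ ≤ ∫⁻ s, ENNReal.ofReal (p0 / C ^ d) *
          ((ENNReal.ofReal (Metric.infDist s (F : Set (E d))))⁻¹) ^ (8 * n)
            ∂((ENNReal.ofReal p0)⁻¹ • unif d) := lintegral_mono' hρ le_rfl
      _ = ENNReal.ofReal (p0 / C ^ d) * ((ENNReal.ofReal p0)⁻¹ *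
          ∫⁻ s, ((ENNReal.ofReal (Metric.infDist s (F : Set (E d))))⁻¹) ^ (8 * n) ∂(unif d)) := by
          rw [lintegral_const_mul' _ _ ENNReal.ofReal_ne_top, lintegral_smul_measure]
          rfl
      _ ≤ ENNReal.ofReal (p0 / C ^ d) * ((ENNReal.ofReal p0)⁻¹ * ENNReal.ofReal (C ^ d)) := by
          gcongr
          exact hU (8 * n) (by omega) F hfin
      _ = 1 := by
          rw [ENNReal.ofReal_div_of_pos (by positivity), ENNReal.div_eq_inv_mul]
          have h1 : ENNReal.ofReal (C ^ d) ≠ 0 := by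
            rw [Ne, ENNReal.ofReal_eq_zero, not_le]; positivity
          have h2 : ENNReal.ofReal p0 ≠ 0 := by
            rw [Ne, ENNReal.ofReal_eq_zero, not_le]; exact hp0
          calc (ENNReal.ofReal (C ^ d))⁻¹ * ENNReal.ofReal p0 *
              ((ENNReal.ofReal p0)⁻¹ * ENNReal.ofReal (C ^ d)) =
              ((ENNReal.ofReal (C ^ d))⁻¹ * ENNReal.ofReal (C ^ d)) *
              ((ENNReal.ofReal p0) * (ENNReal.ofReal p0)⁻¹) := by ring
            _ = 1 := by
              rw [ENNReal.inv_mul_cancel h1 ENNReal.ofReal_ne_top,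
                ENNReal.mul_inv_cancel h2 ENNReal.ofReal_ne_top, one_mul]

theorem AP0 {C : ℝ} (hC : 1 ≤ C) {d n : ℕ} (hn : 1 ≤ n) (hU : ∀ β : ℕ, β ≤ 12 * n →
    ∀ F : Submodule ℝ (E d), Module.finrank ℝ F ≤ n + 1 →
      ∫⁻ s, ((ENNReal.ofReal (Metric.infDist s (F : Set (E d))))⁻¹) ^ β ∂(unif d) ≤
        ENNReal.ofReal (C ^ d)) (r : ℝ) (hr : 0 < r) (ρ : Measure (E d))
    (hρ : IsProbabilityMeasure ρ) (p0 : ℝ) (hp0 : 0 < p0)
    (hρ0 : ρ ≤ (ENNReal.ofReal p0)⁻¹ • unif d) :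
    ∃ Q : (Fin (n + 1) → E d) × Win d n → ℝ≥0∞, Measurable Q ∧
      ∫⁻ p, Q p ∂((conc n r hr ρ hρ).rep n) ≤ n + 2 ∧
      ∀ᵐ p ∂((conc n r hr ρ hρ).rep n), Q p ≠ ∞ ∧ Q p ≠ 0 ∧
        n * (Real.log p0 - d * Real.log C) -
            7 * n * ∑ j ∈ Finset.univ.erase (0 : Fin (n + 1)), Real.log (td r (bef j) p.1 (p.1 j)) +
          n ^ 2 * Real.log (Real.sqrt (2 * Real.pi)) + n * lg ((conc n r hr ρ hρ).q p.2) ≤
          (n + 2) * Real.log ((Q p).toReal / (n + 2)) := by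
  have hC0 : 0 < C := by linarith
  set c : ℝ≥0∞ := ENNReal.ofReal (p0 / C ^ d) with hc
  have hc0 : c ≠ 0 := by
    rw [hc, Ne, ENNReal.ofReal_eq_zero, not_le]; positivity
  set 𝔖 := conc n r hr ρ hρ with h𝔖
  have hPS : ∀ m s, 𝔖.PS (fun _ : Win d n => ()) m s = 1 := by
    intro m s
    unfold Setup.PS
    have : (fun _ : Win d n => ()) ⁻¹' {m} = Set.univ := by
      ext; simp
    simp only [this, Set.indicator_univ]
    exact 𝔖.hK1 s
  have hPM : ∀ m, 𝔖.PM (fun _ : Win d n => ()) m = 1 := by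
    intro m
    unfold Setup.PM
    simp only [hPS]
    have : IsProbabilityMeasure 𝔖.ρ := 𝔖.hρ
    simp
  have hnn : (0 : ℝ) < n := by exact_mod_cast hn
  obtain ⟨Q, hQm, hQi, hQae⟩ := replica 𝔖 n (fun _ : Win d n => ()) measurable_const
    (Measure.dirac ()) (fun s _ => s) measurable_fst (fun _ _ => 1) (fun _ => measurable_const)
    (fun _ _ => le_rfl) (by
      intro m h hh
      simp [hPS]) (Rap c r) (fun j => Rap_meas c r j) (fun j w σ => Rap_ne_zero hc0 r j w σ)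
    (fun j w σ σ' h => Rap_dep c r j w σ σ' h) (by
      intro j σ
      simp only [lintegral_const, measure_univ, mul_one]
      exact Rap_int hC hn hU hr ρ hp0 hρ0 j σ)
    (fun σ => kap (fun _ => r) Finset.univ σ ^ n)
    ((measurable_kap _ _).pow_const n)
    (fun σ => pow_ne_zero _ (kap_ne_zero _ (fun _ => hr) _ Finset.univ_nonempty σ))
    (fun σ => ENNReal.pow_ne_top (kap_ne_top _ (fun _ => hr) _ Finset.univ_nonempty σ))
    (fun σ => (lintegral_prod_winK hr σ).le)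
  refine ⟨fun p => Q (p, ()), hQm.comp (measurable_id.prodMk measurable_const), ?_, ?_⟩
  · rw [lintegral_prod _ hQm.aemeasurable] at hQi
    simpa using hQi
  · have h1 := Measure.ae_ae_of_ae_prod hQae
    filter_upwards [h1] with p hp
    rw [ae_dirac_eq] at hp
    obtain ⟨hp1, hp2, -, hp3⟩ := hp
    refine ⟨hp1, hp2, ?_⟩
    simp only [hPS, hPM] at hp3
    have hlg1 : lg 1 = 0 := by simp [lg]
    rw [hlg1] at hp3
    have hsum : ∑ j, lg (Rap c r j (p.1 j) p.1) = n * (Real.log p0 - d * Real.log C) -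
        8 * n * ∑ j ∈ Finset.univ.erase (0 : Fin (n + 1)), Real.log (td r (bef j) p.1 (p.1 j)) := by
      rw [← Finset.add_sum_erase Finset.univ _ (Finset.mem_univ (0 : Fin (n + 1)))]
      have h0 : lg (Rap c r 0 (p.1 0) p.1) = 0 := by
        simp [Rap, lg]
      rw [h0, zero_add]
      rw [Finset.sum_congr rfl (fun j hj => lg_Rap hp0 hC hr (Finset.mem_erase.1 hj).1 (p.1 j) p.1)]
      rw [Finset.sum_sub_distrib, ← Finset.mul_sum]
      simp
      ring
    have hkap : lg (kap (fun _ => r) Finset.univ p.1 ^ n) =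
        -(n ^ 2 * Real.log (Real.sqrt (2 * Real.pi)) +
          n * ∑ j ∈ Finset.univ.erase (0 : Fin (n + 1)), Real.log (td r (bef j) p.1 (p.1 j))) := by
      have h2 := lg_kap hr p.1
      unfold lg at h2 ⊢
      rw [ENNReal.toReal_pow, Real.log_pow, h2, Finset.sum_add_distrib]
      simp
      ring
    rw [hsum, hkap] at hp3
    simp only [sub_self, Finset.sum_const_zero] at hp3
    linarith

end Vale.Agent.P309
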