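import Vale.Agent.Lib.P309.APA

/-!
# P309, module AP, part B: facts on the replica law of the concrete setup
-/

namespace Vale.Agent.P309

open MeasureTheory ProbabilityTheory
open scoped ENNReal RealInnerProductSpace

/-- the reference density of the window (signal `0`, noise level `2`) divided by `q` -/
noncomputable def zap {d n : ℕ} (q : Win d n → ℝ≥0∞) (u : Win d n) : ℝ≥0∞ :=
  winK 2 (0 : E d) u / q u

theorem ap_winK_ne_zero {d n : ℕ} {r : ℝ} (hr : 0 < r) (s : E d) (u : Win d n) : winK r s u ≠ 0 := by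
  unfold winK
  rw [Finset.prod_ne_zero_iff]
  intro i _
  rw [Ne, ENNReal.ofReal_eq_zero, not_le]
  exact phi_pos hr _

theorem ap_winK_ne_top {d n : ℕ} {r : ℝ} (s : E d) (u : Win d n) : winK r s u ≠ ∞ := by
  unfold winK
  exact ENNReal.prod_ne_top (fun i _ => ENNReal.ofReal_ne_top)

theorem lg_winK_zero {d n : ℕ} (u : Win d n) :
    lg (winK 2 (0 : E d) u) =
      -(n * (Real.log 2 + Real.log (Real.sqrt (2 * Real.pi)))) - (∑ i, u.2 i ^ 2) / 8 := by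
  unfold lg winK
  have hs : 0 < Real.sqrt (2 * Real.pi) := Real.sqrt_pos.2 (by positivity)
  rw [ENNReal.toReal_prod]
  simp only [inner_zero_right, sub_zero]
  have h1 : ∀ i, (ENNReal.ofReal (phi 2 (u.2 i))).toReal = phi 2 (u.2 i) := fun i =>
    ENNReal.toReal_ofReal (phi_pos (by norm_num) _).le
  simp only [h1]
  rw [Real.log_prod (fun i _ => (phi_pos (by norm_num) _).ne')]
  have h2 : ∀ i, Real.log (phi 2 (u.2 i)) =
      -(Real.log 2 + Real.log (Real.sqrt (2 * Real.pi))) - u.2 i ^ 2 / 8 := by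
    intro i
    unfold phi
    rw [Real.log_mul (by positivity) (Real.exp_pos _).ne', Real.log_exp, Real.log_inv,
      Real.log_mul hs.ne' (by norm_num)]
    ring
  simp only [h2]
  rw [Finset.sum_sub_distrib, Finset.sum_const, Finset.card_univ, Fintype.card_fin, nsmul_eq_mul,
    ← Finset.sum_div]
  ring

theorem measurable_zap {d n : ℕ} (r : ℝ) (hr : 0 < r) (ρ : Measure (E d))
    (hρ : IsProbabilityMeasure ρ) : Measurable (zap (conc n r hr ρ hρ).q) := by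
  unfold zap
  exact (Measurable.of_uncurry_left (measurable_winK 2)).div (conc n r hr ρ hρ).measurable_q

theorem lintegral_zap {d n : ℕ} (r : ℝ) (hr : 0 < r) (ρ : Measure (E d))
    (hρ : IsProbabilityMeasure ρ) :
    ∫⁻ p, zap (conc n r hr ρ hρ).q p.2 ∂((conc n r hr ρ hρ).rep n) = 1 := by
  rw [(conc n r hr ρ hρ).rep_obs n (F := zap (conc n r hr ρ hρ).q) (measurable_zap r hr ρ hρ)]
  have h1 : ∀ u, (conc n r hr ρ hρ).q u * zap (conc n r hr ρ hρ).q u = winK 2 (0 : E d) u := by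
    intro u
    unfold zap
    exact ENNReal.mul_div_cancel ((conc n r hr ρ hρ).q_ne_zero u) ((conc n r hr ρ hρ).hq u)
  simp only [h1]
  exact (conc n 2 (by norm_num) ρ hρ).hK1 0

theorem rep_norm {d n : ℕ} (hd : 1 ≤ d) (r : ℝ) (hr : 0 < r) (ρ : Measure (E d))
    (hρ : IsProbabilityMeasure ρ) {c : ℝ≥0∞} (hρ0 : ρ ≤ c • unif d) :
    ∀ᵐ p ∂((conc n r hr ρ hρ).rep n), ∀ l, ‖p.1 l‖ = 1 := by
  refine (conc n r hr ρ hρ).rep_ae n (p := fun s => ‖s‖ = 1) ?_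
  have h1 : ρ ≪ unif d := (Measure.absolutelyContinuous_of_le hρ0).trans
    (Measure.smul_absolutelyContinuous)
  exact h1.ae_le (unif_norm hd)

theorem rho_norm {d : ℕ} (hd : 1 ≤ d) (ρ : Measure (E d)) {c : ℝ≥0∞} (hρ0 : ρ ≤ c • unif d) :
    ∀ᵐ s ∂ρ, ‖s‖ = 1 := by
  have h1 : ρ ≪ unif d := (Measure.absolutelyContinuous_of_le hρ0).trans
    (Measure.smul_absolutelyContinuous)
  exact h1.ae_le (unif_norm hd)

theorem rep_sq {d n : ℕ} (hd : 1 ≤ d) (r : ℝ) (hr : 0 < r) (hr1 : r ≤ 1) (ρ : Measure (E d))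
    (hρ : IsProbabilityMeasure ρ) {c : ℝ≥0∞} (hρ0 : ρ ≤ c • unif d) :
    ∫⁻ p, ENNReal.ofReal (∑ i, p.2.2 i ^ 2) ∂((conc n r hr ρ hρ).rep n) ≤
      ENNReal.ofReal (64 * n) := by
  have hF : Measurable (fun p : E d × Win d n => ENNReal.ofReal (∑ i, p.2.2 i ^ 2)) := by
    fun_prop
  have h1 := (conc n r hr ρ hρ).rep_single n 0 hF
  simp only at h1
  rw [h1]
  have h2 : ∀ᵐ s ∂ρ, ∫⁻ u, winK r s u * ENNReal.ofReal (∑ i, u.2 i ^ 2) ∂(winM d n) ≤
      ENNReal.ofReal (64 * n) := by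
    filter_upwards [rho_norm hd ρ hρ0] with s hs
    exact labels_sq hr hr1 s hs
  calc _ ≤ ∫⁻ _s, ENNReal.ofReal (64 * n) ∂ρ := lintegral_mono_ae h2
    _ = ENNReal.ofReal (64 * n) := by simp

theorem rep_exp {d n : ℕ} (hd : 1 ≤ d) (r : ℝ) (hr : 0 < r) (hr1 : r ≤ 1) (ρ : Measure (E d))
    (hρ : IsProbabilityMeasure ρ) {c : ℝ≥0∞} (hρ0 : ρ ≤ c • unif d) :
    ∫⁻ p, ENNReal.ofReal (Real.exp ((∑ i, p.2.2 i ^ 2) / 16)) ∂((conc n r hr ρ hρ).rep n) ≤
      4 ^ n := by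
  have hF : Measurable (fun p : E d × Win d n =>
      ENNReal.ofReal (Real.exp ((∑ i, p.2.2 i ^ 2) / 16))) := by
    fun_prop
  have h1 := (conc n r hr ρ hρ).rep_single n 0 hF
  simp only at h1
  rw [h1]
  have h2 : ∀ᵐ s ∂ρ, ∫⁻ u, winK r s u * ENNReal.ofReal (Real.exp ((∑ i, u.2 i ^ 2) / 16))
      ∂(winM d n) ≤ 4 ^ n := by
    filter_upwards [rho_norm hd ρ hρ0] with s hs
    exact labels_exp hr hr1 s hs
  calc _ ≤ ∫⁻ _s, (4 : ℝ≥0∞) ^ n ∂ρ := lintegral_mono_ae h2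
    _ = 4 ^ n := by simp

/-- `lg z = lg (winK 2 0 u) - lg q`, and `z ∈ (0,∞)` -/
theorem zap_facts {d n : ℕ} (r : ℝ) (hr : 0 < r) (ρ : Measure (E d))
    (hρ : IsProbabilityMeasure ρ) (u : Win d n) :
    zap (conc n r hr ρ hρ).q u ≠ 0 ∧ zap (conc n r hr ρ hρ).q u ≠ ∞ ∧
      lg (zap (conc n r hr ρ hρ).q u) =
        -(n * (Real.log 2 + Real.log (Real.sqrt (2 * Real.pi)))) - (∑ i, u.2 i ^ 2) / 8 -
          lg ((conc n r hr ρ hρ).q u) := by
  have hq0 := (conc n r hr ρ hρ).q_ne_zero u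
  have hqt : (conc n r hr ρ hρ).q u ≠ ∞ := (conc n r hr ρ hρ).hq u
  have hw0 := ap_winK_ne_zero (d := d) (n := n) (r := 2) (by norm_num) (0 : E d) u
  have hwt := ap_winK_ne_top (d := d) (n := n) (r := 2) (0 : E d) u
  refine ⟨ENNReal.div_ne_zero.2 ⟨hw0, hqt⟩, ENNReal.div_ne_top hwt hq0, ?_⟩
  rw [← lg_winK_zero u]
  unfold lg zap
  rw [ENNReal.toReal_div, Real.log_div (ENNReal.toReal_ne_zero.2 ⟨hw0, hwt⟩)
    (ENNReal.toReal_ne_zero.2 ⟨hq0, hqt⟩)]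

/-! ### Relabelling -/

theorem Vd_relabel_le {ι : Type} [Fintype ι] [DecidableEq ι] {d : ℕ} (ρ : ℝ) (τ : Equiv.Perm ι)
    (A A' : Finset ι) (hA' : A'.Nonempty) (hA : ∀ l, l ∈ A ↔ τ l ∈ A') (s : ι → E d) (x : E d) :
    Vd (fun _ => ρ) A (fun l => s (τ l)) x ≤ Vd (fun _ => ρ) A' s x := by
  haveI : Nonempty (Coef A') := (Coef_nonempty hA').to_subtype
  apply le_ciInf
  rintro ⟨α, hα0, hα1⟩
  have hmem : (fun l => α (τ l)) ∈ Coef A := by
    constructor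
    · intro l hl
      exact hα0 (τ l) (fun h => hl ((hA l).2 h))
    · rw [← hα1]
      exact Equiv.sum_comp τ α
  refine (Vd_le (fun _ => ρ) A (fun l => s (τ l)) x hmem).trans (le_of_eq ?_)
  simp only
  rw [Equiv.sum_comp τ (fun l => α l • s l), Equiv.sum_comp τ (fun l => (ρ * α l) ^ 2)]

theorem td_relabel {ι : Type} [Fintype ι] [DecidableEq ι] {d : ℕ} (ρ : ℝ) (τ : Equiv.Perm ι)
    (A A' : Finset ι) (hAn : A.Nonempty) (hA' : A'.Nonempty) (hA : ∀ l, l ∈ A ↔ τ l ∈ A')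
    (s : ι → E d) (x : E d) :
    td ρ A (fun l => s (τ l)) x = td ρ A' s x := by
  unfold td
  congr 2
  apply le_antisymm
  · exact Vd_relabel_le ρ τ A A' hA' hA s x
  · have h := Vd_relabel_le ρ τ⁻¹ A' A hAn (fun l => by
      rw [hA (τ⁻¹ l)]
      simp) (fun l => s (τ l)) x
    simpa using h

end Vale.Agent.P309
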