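import Vale.Agent.Lib.P309.Gauss

/-!
# P309: basic facts on `PSr` (message probabilities)
-/

namespace Vale.Agent.P309

open MeasureTheory ProbabilityTheory
open scoped ENNReal RealInnerProductSpace

instance winM_sfinite {d n : ℕ} : SFinite (winM d n) := by
  unfold winM
  infer_instance

theorem lintegral_winK_one {d n : ℕ} {r : ℝ} (hr : 0 < r) (s : E d) :
    ∫⁻ u, winK r s u ∂(winM d n) = 1 := by
  have := lintegral_winK (n := n) hr s (F := fun _ => 1) measurable_const
  simpa using this

theorem measurable_PSr {d n : ℕ} {V : Type} [MeasurableSpace V] [MeasurableSingletonClass V]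
    {r : ℝ} {f : Win d n → V} (hf : Measurable f) (m : V) : Measurable (PSr r f m) := by
  unfold PSr
  have hS : MeasurableSet (f ⁻¹' {m}) := hf (measurableSet_singleton m)
  have h1 : Measurable (fun p : E d × Win d n =>
      (f ⁻¹' {m}).indicator (fun u => winK r p.1 u) p.2) := by
    have h2 : (fun p : E d × Win d n => (f ⁻¹' {m}).indicator (fun u => winK r p.1 u) p.2) =
        (Prod.snd ⁻¹' (f ⁻¹' {m})).indicator (Function.uncurry (winK (d := d) (n := n) r)) := by
      funext p
      by_cases hp : p.2 ∈ f ⁻¹' {m}
      · rw [Set.indicator_of_mem hp, Set.indicator_of_mem (by exact hp)]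
        rfl
      · rw [Set.indicator_of_notMem hp, Set.indicator_of_notMem (by exact hp)]
    rw [h2]
    exact (measurable_winK r).indicator (measurable_snd hS)
  exact h1.lintegral_prod_right'

theorem sum_indicator_fiber {U V : Type} [Fintype V] (f : U → V) (g : U → ℝ≥0∞) (u : U) :
    ∑ m, (f ⁻¹' {m}).indicator g u = g u := by
  rw [Finset.sum_eq_single (f u)]
  · rw [Set.indicator_of_mem (by simp)]
  · intro m _ hm
    rw [Set.indicator_of_notMem]
    intro h
    exact hm (by simpa using h.symm)
  · intro h
    exact absurd (Finset.mem_univ _) h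

section

attribute [local irreducible] winK winM

theorem sum_PSr {d n : ℕ} {V : Type} [Fintype V] [MeasurableSpace V] [MeasurableSingletonClass V]
    {r : ℝ} (hr : 0 < r) {f : Win d n → V} (hf : Measurable f) (s : E d) :
    ∑ m, PSr r f m s = 1 := by
  have hS : ∀ m, MeasurableSet (f ⁻¹' {m}) := fun m => hf (measurableSet_singleton m)
  have hK : Measurable (fun u : Win d n => winK r s u) :=
    (measurable_winK r).comp (measurable_const.prodMk measurable_id)
  have h1 : ∑ m, PSr r f m s =
      ∫⁻ u, ∑ m, (f ⁻¹' {m}).indicator (fun u => winK r s u) u ∂(winM d n) := by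
    unfold PSr
    rw [lintegral_finsetSum _ (fun m _ => hK.indicator (hS m))]
  rw [h1]
  have h2 : ∀ u : Win d n, ∑ m, (f ⁻¹' {m}).indicator (fun u => winK r s u) u = winK r s u :=
    fun u => sum_indicator_fiber f _ u
  simp only [h2]
  exact lintegral_winK_one hr s

end

theorem PSr_le_one {d n : ℕ} {V : Type} {r : ℝ} (hr : 0 < r) (f : Win d n → V) (m : V) (s : E d) :
    PSr r f m s ≤ 1 := by
  refine le_trans ?_ (lintegral_winK_one (n := n) hr s).le
  exact lintegral_mono (fun u => Set.indicator_le_self _ _ u)

end Vale.Agent.P309
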