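import Vale.Agent.Lib.P309.RelEnt
import Vale.Agent.Lib.P309.PSrFacts

/-!
# P309, module CHAIN: the potential under one window
-/

namespace Vale.Agent.P309

open MeasureTheory ProbabilityTheory
open scoped ENNReal RealInnerProductSpace

/-- normalised prior given the memory state -/
noncomputable def prior {d : ℕ} (μ : Measure (E d)) (g : E d → ℝ≥0∞) : Measure (E d) :=
  (∫⁻ s, g s ∂μ)⁻¹ • μ.withDensity g

/-! ### Elementary inequalities -/

theorem ch_log_sum_ineq {V : Type} [Fintype V] (a b : V → ℝ) (ha : ∀ v, 0 ≤ a v)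
    (hb : ∀ v, 0 ≤ b v) (hab : ∀ v, b v = 0 → a v = 0) :
    (∑ v, a v) * (Real.log (∑ v, a v) - Real.log (∑ v, b v)) ≤
      ∑ v, a v * (Real.log (a v) - Real.log (b v)) := by
  have hA0 : 0 ≤ ∑ v, a v := Finset.sum_nonneg fun v _ => ha v
  rcases hA0.eq_or_lt with hA | hA
  · have hz : ∀ v, a v = 0 := fun v =>
      (Finset.sum_eq_zero_iff_of_nonneg (fun v _ => ha v)).1 hA.symm v (Finset.mem_univ v)
    rw [← hA]
    simp [hz]
  · obtain ⟨v0, hv0⟩ : ∃ v, 0 < a v := by
      by_contra hcon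
      push Not at hcon
      exact absurd hA (not_lt.2 (Finset.sum_nonpos fun v _ => hcon v))
    have hB : 0 < ∑ v, b v := by
      have h1 : 0 < b v0 := lt_of_le_of_ne (hb v0) (fun h => hv0.ne' (hab v0 h.symm))
      exact lt_of_lt_of_le h1 (Finset.single_le_sum (fun v _ => hb v) (Finset.mem_univ v0))
    set A := ∑ v, a v with hAdef
    set Bs := ∑ v, b v with hBdef
    have key : ∀ v, a v * (Real.log A - Real.log Bs) + (a v - b v * (A / Bs)) ≤
        a v * (Real.log (a v) - Real.log (b v)) := by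
      intro v
      rcases (ha v).eq_or_lt with h0 | h0
      · rw [← h0]
        have : 0 ≤ b v * (A / Bs) := mul_nonneg (hb v) (div_nonneg hA.le hB.le)
        simp only [zero_mul, zero_sub, zero_add]
        linarith
      · have hbv : 0 < b v := lt_of_le_of_ne (hb v) (fun h => h0.ne' (hab v h.symm))
        have hx : 0 < (b v * A) / (a v * Bs) := by positivity
        have h1 := Real.log_le_sub_one_of_pos hx
        rw [Real.log_div (by positivity) (by positivity), Real.log_mul hbv.ne' hA.ne',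
          Real.log_mul h0.ne' hB.ne'] at h1
        have h2 : a v * ((b v * A) / (a v * Bs)) = b v * (A / Bs) := by
          field_simp
        nlinarith [mul_le_mul_of_nonneg_left h1 h0.le]
    have hsum := Finset.sum_le_sum fun v (_ : v ∈ Finset.univ) => key v
    rw [Finset.sum_add_distrib, ← Finset.sum_mul, Finset.sum_sub_distrib, ← Finset.sum_mul,
      ← hAdef, ← hBdef] at hsum
    have h3 : Bs * (A / Bs) = A := by field_simp
    rw [h3] at hsum
    linarith

theorem ch_lg_one : lg 1 = 0 := by simp [lg]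

theorem ch_lg_mul {x y : ℝ≥0∞} (hx : x ≠ 0) (hx' : x ≠ ∞) (hy : y ≠ 0) (hy' : y ≠ ∞) :
    lg (x * y) = lg x + lg y := by
  unfold lg
  rw [ENNReal.toReal_mul, Real.log_mul (ENNReal.toReal_ne_zero.2 ⟨hx, hx'⟩)
    (ENNReal.toReal_ne_zero.2 ⟨hy, hy'⟩)]

/-! ### Facts on the posterior mean -/

section post

variable {d B k : ℕ}

theorem ch_winK_ne_zero' {n : ℕ} {w : ℝ} (hw : 0 < w) (s : E d) (u : Win d n) : winK w s u ≠ 0 := by
  unfold winK
  rw [Finset.prod_ne_zero_iff]
  intro i _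
  exact (ENNReal.ofReal_pos.2 (phi_pos hw _)).ne'

theorem ch_winK_le' {n : ℕ} {w : ℝ} (hw : 0 < w) (s : E d) (u : Win d n) :
    winK w s u ≤ ENNReal.ofReal ((Real.sqrt (2 * Real.pi) * w)⁻¹) ^ n := by
  unfold winK
  calc ∏ i, ENNReal.ofReal (phi w (u.2 i - ⟪u.1 i, s⟫))
      ≤ ∏ _i : Fin n, ENNReal.ofReal ((Real.sqrt (2 * Real.pi) * w)⁻¹) :=
        Finset.prod_le_prod' fun i _ => ENNReal.ofReal_le_ofReal (phi_le hw _)
    _ = _ := by simp

theorem ch_lintegral_winK_ne_top {w : ℝ} (hw : 0 < w) (μ : Measure (E d)) [IsFiniteMeasure μ]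
    {g : E d → ℝ≥0∞} (hg1 : ∀ s, g s ≤ 1) (u : Win d B) :
    ∫⁻ s, g s * winK w s u ∂μ ≠ ∞ := by
  have h1 : ∫⁻ s, g s * winK w s u ∂μ ≤
      ∫⁻ _, ENNReal.ofReal ((Real.sqrt (2 * Real.pi) * w)⁻¹) ^ B ∂μ := by
    refine lintegral_mono fun s => ?_
    calc g s * winK w s u ≤ 1 * ENNReal.ofReal ((Real.sqrt (2 * Real.pi) * w)⁻¹) ^ B :=
          mul_le_mul' (hg1 s) (ch_winK_le' hw s u)
      _ = _ := one_mul _
  rw [lintegral_const] at h1
  refine ne_top_of_le_ne_top ?_ h1
  exact ENNReal.mul_ne_top (ENNReal.pow_ne_top ENNReal.ofReal_ne_top) (measure_ne_top _ _)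

theorem ch_measurable_winK_left {w : ℝ} (u : Win d B) : Measurable (fun s : E d => winK w s u) :=
  (measurable_winK w).of_uncurry_right

theorem ch_lintegral_winK_eq_zero {w : ℝ} (hw : 0 < w) (μ : Measure (E d))
    {g : E d → ℝ≥0∞} (hg : Measurable g) (u : Win d B)
    (h : ∫⁻ s, g s * winK w s u ∂μ = 0) : ∫⁻ s, g s ∂μ = 0 := by
  have hm : Measurable (fun s => g s * winK w s u) := hg.mul (ch_measurable_winK_left u)
  rw [lintegral_eq_zero_iff hm] at h
  rw [lintegral_eq_zero_iff hg]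
  filter_upwards [h] with s hs
  simpa [ch_winK_ne_zero' hw s u] using hs

theorem ch_lintegral_winK_ne_zero {w : ℝ} (hw : 0 < w) (μ : Measure (E d)) [IsProbabilityMeasure μ]
    (u : Win d B) : ∫⁻ s, winK w s u ∂μ ≠ 0 := by
  intro h
  have := ch_lintegral_winK_eq_zero hw μ (g := fun _ => 1) measurable_const u (by simpa using h)
  simp at this

theorem ch_lintegral_winK_ne_top' {w : ℝ} (hw : 0 < w) (μ : Measure (E d)) [IsFiniteMeasure μ]
    (u : Win d B) : ∫⁻ s, winK w s u ∂μ ≠ ∞ := by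
  have := ch_lintegral_winK_ne_top hw μ (g := fun _ => 1) (fun _ => le_rfl) u
  simpa using this

theorem ch_postW_eq_zero {w : ℝ} (hw : 0 < w) (μ : Measure (E d)) [IsProbabilityMeasure μ]
    {g : E d → ℝ≥0∞} (hg : Measurable g) (W : Xi d B k) (h : postW w μ g W = 0) :
    ∫⁻ s, g s ∂μ = 0 := by
  unfold postW at h
  rw [ENNReal.div_eq_zero_iff] at h
  rcases h with h | h
  · exact ch_lintegral_winK_eq_zero hw μ hg W.1 h
  · exact absurd h (ch_lintegral_winK_ne_top' hw μ W.1)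

theorem ch_postW_one {w : ℝ} (hw : 0 < w) (μ : Measure (E d)) [IsProbabilityMeasure μ]
    (W : Xi d B k) : postW w μ (fun _ => 1) W = 1 := by
  unfold postW
  simp only [one_mul]
  exact ENNReal.div_self (ch_lintegral_winK_ne_zero hw μ W.1) (ch_lintegral_winK_ne_top' hw μ W.1)

theorem ch_lintegral_prior (μ : Measure (E d)) {g h : E d → ℝ≥0∞} (hg : Measurable g)
    (hh : Measurable h) :
    ∫⁻ s, h s ∂(prior μ g) = (∫⁻ s, g s ∂μ)⁻¹ * ∫⁻ s, g s * h s ∂μ := by
  unfold prior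
  rw [lintegral_smul_measure, lintegral_withDensity_eq_lintegral_mul μ hg hh]
  simp

theorem ch_prior_prob (μ : Measure (E d)) {g : E d → ℝ≥0∞} (hg : Measurable g)
    (h0 : ∫⁻ s, g s ∂μ ≠ 0) (h1 : ∫⁻ s, g s ∂μ ≠ ∞) : IsProbabilityMeasure (prior μ g) := by
  constructor
  have := ch_lintegral_prior μ hg (h := fun _ => 1) measurable_const
  simp only [lintegral_const, one_mul, mul_one] at this
  rw [this]
  exact ENNReal.inv_mul_cancel h0 h1

theorem ch_postW_prior {w : ℝ} (hw : 0 < w) (μ : Measure (E d)) [IsProbabilityMeasure μ]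
    {g h : E d → ℝ≥0∞} (hg : Measurable g) (hh : Measurable h) (hg1 : ∀ s, g s ≤ 1)
    (h0 : ∫⁻ s, g s ∂μ ≠ 0) (W : Xi d B k) :
    postW w μ (fun s => g s * h s) W = postW w μ g W * postW w (prior μ g) h W := by
  have hc : ∫⁻ s, g s ∂μ ≠ ∞ := by
    refine ne_top_of_le_ne_top (ENNReal.one_ne_top) ?_
    calc ∫⁻ s, g s ∂μ ≤ ∫⁻ _, 1 ∂μ := lintegral_mono hg1
      _ = 1 := by simp
  have hm : Measurable (fun s => h s * winK w s W.1) := hh.mul (ch_measurable_winK_left W.1)
  unfold postW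
  rw [ch_lintegral_prior μ hg hm, ch_lintegral_prior μ hg (ch_measurable_winK_left W.1)]
  have hN2 : ∫⁻ s, g s * winK w s W.1 ∂μ ≠ 0 := fun h => h0 (ch_lintegral_winK_eq_zero hw μ hg _ h)
  have hN2' := ch_lintegral_winK_ne_top hw μ hg1 W.1
  have hD := ch_lintegral_winK_ne_zero hw μ W.1
  have hD' := ch_lintegral_winK_ne_top' hw μ W.1
  simp only [← mul_assoc]
  set c := (∫⁻ s, g s ∂μ)⁻¹ with hcdef
  have hc0 : c ≠ 0 := ENNReal.inv_ne_zero.2 hc
  have hct : c ≠ ∞ := ENNReal.inv_ne_top.2 h0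
  rw [ENNReal.mul_div_mul_left _ _ hc0 hct]
  set N1 := ∫⁻ s, g s * h s * winK w s W.1 ∂μ
  set N2 := ∫⁻ s, g s * winK w s W.1 ∂μ
  set D := ∫⁻ s, winK w s W.1 ∂μ
  rw [div_eq_mul_inv, div_eq_mul_inv, div_eq_mul_inv]
  calc N1 * D⁻¹ = (N2 * N2⁻¹) * (N1 * D⁻¹) := by rw [ENNReal.mul_inv_cancel hN2 hN2', one_mul]
    _ = _ := by ring

end post

/-! ### The chain rule -/

section main

variable {d n B k : ℕ} {V : Type} [Fintype V]

/-- integrand of `relEnt` -/
noncomputable def chTer (w : ℝ) (μ : Measure (E d)) (g : E d → ℝ≥0∞) (p : E d × Xi d B k) : ℝ :=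
  (g p.1).toReal * (lg (g p.1) - lg (postW w μ g (Wm w p.1 p.2)))

theorem ch_ae_zero (μ : Measure (E d)) [IsProbabilityMeasure μ] {g : E d → ℝ≥0∞}
    (hg : Measurable g) :
    ∀ᵐ p ∂(μ.prod (xiM d B k)), (∫⁻ s, g s ∂μ = 0 → g p.1 = 0) := by
  by_cases h : ∫⁻ s, g s ∂μ = 0
  · have h1 : ∀ᵐ s ∂μ, g s = 0 := by
      rw [lintegral_eq_zero_iff hg] at h
      exact h
    have h2 := Measure.quasiMeasurePreserving_fst (μ := μ) (ν := xiM d B k) |>.ae h1
    filter_upwards [h2] with p hp _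
    exact hp
  · exact Filter.Eventually.of_forall fun p hp => absurd hp h

/-- change of measure for the prior -/
theorem ch_integral_prior (μ : Measure (E d)) [IsProbabilityMeasure μ] {g : E d → ℝ≥0∞}
    (hg : Measurable g) (hg1 : ∀ s, g s ≤ 1) (h0 : ∫⁻ s, g s ∂μ ≠ 0)
    (f : E d × Xi d B k → ℝ) :
    ∫ p, (g p.1).toReal * f p ∂(μ.prod (xiM d B k)) =
      (∫⁻ s, g s ∂μ).toReal * ∫ p, f p ∂((prior μ g).prod (xiM d B k)) := by
  have hc : ∫⁻ s, g s ∂μ ≠ ∞ := by
    refine ne_top_of_le_ne_top (ENNReal.one_ne_top) ?_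
    calc ∫⁻ s, g s ∂μ ≤ ∫⁻ _, 1 ∂μ := lintegral_mono hg1
      _ = 1 := by simp
  have hgm : Measurable (fun z : E d × Xi d B k => g z.1) := hg.comp measurable_fst
  unfold prior
  rw [Measure.prod_smul_left, prod_withDensity_left hg, integral_smul_measure,
    integral_withDensity_eq_integral_toReal_smul hgm
      (Filter.Eventually.of_forall fun p => lt_of_le_of_lt (hg1 p.1) ENNReal.one_lt_top)]
  simp only [smul_eq_mul, ENNReal.toReal_inv]
  rw [← mul_assoc, mul_inv_cancel₀ (ENNReal.toReal_ne_zero.2 ⟨h0, hc⟩), one_mul]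

theorem ch_chain_point {w : ℝ} (hw : 0 < w) (μ : Measure (E d)) [IsProbabilityMeasure μ]
    {g h : E d → ℝ≥0∞} (hg : Measurable g) (hh : Measurable h) (hg1 : ∀ s, g s ≤ 1)
    (hh1 : ∀ s, h s ≤ 1) (h0 : ∫⁻ s, g s ∂μ ≠ 0) (p : E d × Xi d B k)
    (hp : ∫⁻ s, g s * h s ∂μ = 0 → g p.1 * h p.1 = 0) :
    chTer w μ (fun s => g s * h s) p =
      (h p.1).toReal * chTer w μ g p + (g p.1).toReal * chTer w (prior μ g) h p := by
  unfold chTer
  have hc : ∫⁻ s, g s ∂μ ≠ ∞ := by
    refine ne_top_of_le_ne_top (ENNReal.one_ne_top) ?_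
    calc ∫⁻ s, g s ∂μ ≤ ∫⁻ _, 1 ∂μ := lintegral_mono hg1
      _ = 1 := by simp
  have := ch_prior_prob μ hg h0 hc
  by_cases hgz : g p.1 = 0
  · simp [hgz]
  by_cases hhz : h p.1 = 0
  · simp [hhz]
  have hgt : g p.1 ≠ ∞ := ne_top_of_le_ne_top ENNReal.one_ne_top (hg1 _)
  have hht : h p.1 ≠ ∞ := ne_top_of_le_ne_top ENNReal.one_ne_top (hh1 _)
  set W := Wm w p.1 p.2 with hW
  have hpost := ch_postW_prior (B := B) (k := k) hw μ hg hh hg1 h0 W
  have hgh1 : ∀ s, g s * h s ≤ 1 := fun s => mul_le_one' (hg1 s) (hh1 s)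
  have hgh : postW w μ (fun s => g s * h s) W ≠ 0 := by
    intro hz
    have := hp (ch_postW_eq_zero hw μ (hg.mul hh) W hz)
    rw [mul_eq_zero] at this
    rcases this with h | h
    · exact hgz h
    · exact hhz h
  rw [hpost] at hgh ⊢
  have h1 : postW w μ g W ≠ 0 := left_ne_zero_of_mul hgh
  have h2 : postW w (prior μ g) h W ≠ 0 := right_ne_zero_of_mul hgh
  have h1' : postW w μ g W ≠ ∞ := ne_top_of_le_ne_top ENNReal.one_ne_top (postW_le_one hw μ hg1 W)
  have h2' : postW w (prior μ g) h W ≠ ∞ :=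
    ne_top_of_le_ne_top ENNReal.one_ne_top (postW_le_one hw _ hh1 W)
  rw [ch_lg_mul hgz hgt hhz hht, ch_lg_mul h1 h1' h2 h2', ENNReal.toReal_mul]
  ring

theorem ch_ter_integrable {ι : Type} [Fintype ι] {w : ℝ} (hw : 0 < w) (μ : Measure (E d))
    [IsProbabilityMeasure μ] {P : ι → E d → ℝ≥0∞} (hP : ∀ v, Measurable (P v))
    (hP1 : ∀ s, ∑ v, P v s ≤ 1) (v : ι) :
    Integrable (chTer (B := B) (k := k) w μ (P v)) (μ.prod (xiM d B k)) :=
  relEnt_integrable hw μ hP hP1 v

theorem ch_relEnt_eq {ι : Type} [Fintype ι] (w : ℝ) (μ : Measure (E d)) (P : ι → E d → ℝ≥0∞) :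
    relEnt B k w μ P = ∫ p, ∑ m, chTer (B := B) (k := k) w μ (P m) p ∂(μ.prod (xiM d B k)) := rfl

/-- chain rule for one value `g = P v` of the first variable -/
theorem ch_chain_one {w : ℝ} (hw : 0 < w) (μ : Measure (E d)) [IsProbabilityMeasure μ]
    {g : E d → ℝ≥0∞} {h : V → E d → ℝ≥0∞} (hg : Measurable g) (hh : ∀ m, Measurable (h m))
    (hg1 : ∀ s, g s ≤ 1) (hh1 : ∀ s, ∑ m, h m s = 1) {J : ℝ}
    (hJ : (∫⁻ s, g s ∂μ) ≠ 0 → relEnt B k w (prior μ g) h ≤ J) :
    ∫ p, ∑ m, chTer (B := B) (k := k) w μ (fun s => g s * h m s) p ∂(μ.prod (xiM d B k)) ≤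
      ∫ p, chTer (B := B) (k := k) w μ g p ∂(μ.prod (xiM d B k)) +
        (∫⁻ s, g s ∂μ).toReal * J := by
  have hhm1 : ∀ m s, h m s ≤ 1 := fun m s => by
    rw [← hh1 s]
    exact Finset.single_le_sum (f := fun m => h m s) (fun _ _ => zero_le) (Finset.mem_univ m)
  by_cases h0 : ∫⁻ s, g s ∂μ = 0
  · have hae := ch_ae_zero (B := B) (k := k) μ hg
    have e1 : ∫ p, ∑ m, chTer (B := B) (k := k) w μ (fun s => g s * h m s) p ∂(μ.prod (xiM d B k)) =
        0 := by
      rw [integral_eq_zero_of_ae]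
      filter_upwards [hae] with p hp
      simp [chTer, hp h0]
    have e2 : ∫ p, chTer (B := B) (k := k) w μ g p ∂(μ.prod (xiM d B k)) = 0 := by
      rw [integral_eq_zero_of_ae]
      filter_upwards [hae] with p hp
      simp [chTer, hp h0]
    rw [e1, e2, h0]
    simp
  · have hae : ∀ᵐ p ∂(μ.prod (xiM d B k)), ∀ m,
        (∫⁻ s, g s * h m s ∂μ = 0 → g p.1 * h m p.1 = 0) := by
      rw [ae_all_iff]
      exact fun m => ch_ae_zero (B := B) (k := k) μ (hg.mul (hh m))
    have hpt : (fun p => ∑ m, chTer (B := B) (k := k) w μ (fun s => g s * h m s) p)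
        =ᵐ[μ.prod (xiM d B k)] (fun p => chTer w μ g p +
          (g p.1).toReal * ∑ m, chTer w (prior μ g) (h m) p) := by
      filter_upwards [hae] with p hp
      have h1 : ∀ m, chTer w μ (fun s => g s * h m s) p = (h m p.1).toReal * chTer w μ g p +
          (g p.1).toReal * chTer w (prior μ g) (h m) p :=
        fun m => ch_chain_point hw μ hg (hh m) hg1 (hhm1 m) h0 p (hp m)
      simp only [h1]
      rw [Finset.sum_add_distrib, ← Finset.sum_mul, ← Finset.mul_sum]
      have h2 : ∑ m, (h m p.1).toReal = 1 := by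
        rw [← ENNReal.toReal_sum (fun m _ => ne_top_of_le_ne_top ENNReal.one_ne_top (hhm1 m _)),
          hh1, ENNReal.toReal_one]
      rw [h2, one_mul]
    have hig : Integrable (chTer (B := B) (k := k) w μ g) (μ.prod (xiM d B k)) :=
      ch_ter_integrable (ι := Unit) hw μ (P := fun _ => g) (fun _ => hg) (fun s => by simpa using hg1 s) ()
    have hisum : Integrable (fun p => ∑ m, chTer (B := B) (k := k) w μ (fun s => g s * h m s) p)
        (μ.prod (xiM d B k)) := by
      refine integrable_finsetSum _ fun m _ => ?_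
      refine ch_ter_integrable (ι := V) hw μ (P := fun m s => g s * h m s) (fun m => hg.mul (hh m))
        (fun s => ?_) m
      rw [← Finset.mul_sum, hh1, mul_one]
      exact hg1 s
    have hi2 : Integrable (fun p : E d × Xi d B k => (g p.1).toReal * ∑ m, chTer w (prior μ g) (h m) p)
        (μ.prod (xiM d B k)) := by
      have := (hisum.congr hpt).sub hig
      refine this.congr ?_
      filter_upwards with p
      simp
    rw [integral_congr_ae hpt, integral_add hig hi2, ch_integral_prior μ hg hg1 h0, ← ch_relEnt_eq]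
    have := mul_le_mul_of_nonneg_left (hJ h0) (ENNReal.toReal_nonneg (a := ∫⁻ s, g s ∂μ))
    linarith

/-- data processing -/
theorem ch_log_sum_ter {w : ℝ} (hw : 0 < w) (μ : Measure (E d)) [IsProbabilityMeasure μ]
    {G : V → E d → ℝ≥0∞} (hG : ∀ v, Measurable (G v)) (hG1 : ∀ v s, G v s ≤ 1)
    (p : E d × Xi d B k) (hp : ∀ v, (∫⁻ s, G v s ∂μ = 0 → G v p.1 = 0)) :
    chTer (B := B) (k := k) w μ (fun s => ∑ v, G v s) p ≤ ∑ v, chTer w μ (G v) p := by
  have hpt : ∀ v, postW w μ (G v) (Wm w p.1 p.2) ≠ ∞ := fun v =>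
    ne_top_of_le_ne_top ENNReal.one_ne_top (postW_le_one hw μ (hG1 v) _)
  have hGt : ∀ v, G v p.1 ≠ ∞ := fun v => ne_top_of_le_ne_top ENNReal.one_ne_top (hG1 v _)
  have key := ch_log_sum_ineq (fun v => (G v p.1).toReal)
    (fun v => (postW w μ (G v) (Wm w p.1 p.2)).toReal) (fun v => ENNReal.toReal_nonneg)
    (fun v => ENNReal.toReal_nonneg) (fun v hv => by
      rw [ENNReal.toReal_eq_zero_iff] at hv ⊢
      rcases hv with hv | hv
      · exact Or.inl (hp v (ch_postW_eq_zero hw μ (hG v) _ hv))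
      · exact absurd hv (hpt v))
  unfold chTer lg
  rw [postW_sum w μ hG, ENNReal.toReal_sum (fun v _ => hGt v),
    ENNReal.toReal_sum (fun v _ => hpt v)]
  exact key

end main

theorem chain_step {d n B k : ℕ} {V : Type} [Fintype V] [DecidableEq V] [MeasurableSpace V]
    [MeasurableSingletonClass V] {r w : ℝ} (hr : 0 < r) (hw : 0 < w) (μ : Measure (E d))
    [IsProbabilityMeasure μ] (P : V → E d → ℝ≥0∞) (hP : ∀ v, Measurable (P v))
    (hP1 : ∀ s, ∑ v, P v s = 1) (F : V → Win d n → V) (hF : ∀ v, Measurable (F v)) (J : V → ℝ)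
    (hJ : ∀ v, (∫⁻ s, P v s ∂μ) ≠ 0 → relEnt B k w (prior μ (P v)) (PSr r (F v)) ≤ J v) :
    relEnt B k w μ (fun v' s => ∑ v, P v s * PSr r (F v) v' s) ≤
      relEnt B k w μ P + ∑ v, (∫⁻ s, P v s ∂μ).toReal * J v := by
  have hK : ∀ v m, Measurable (PSr r (F v) m) := fun v m => measurable_PSr (hF v) m
  have hK1 : ∀ v s, ∑ m, PSr r (F v) m s = 1 := fun v s => sum_PSr hr (hF v) s
  have hKm1 : ∀ v m s, PSr r (F v) m s ≤ 1 := fun v m s => PSr_le_one hr (F v) m s
  have hPm1 : ∀ v s, P v s ≤ 1 := fun v s => by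
    rw [← hP1 s]
    exact Finset.single_le_sum (f := fun v => P v s) (fun _ _ => zero_le) (Finset.mem_univ v)
  have hG : ∀ v m, Measurable (fun s => P v s * PSr r (F v) m s) := fun v m =>
    (hP v).mul (hK v m)
  have hG1 : ∀ v m s, P v s * PSr r (F v) m s ≤ 1 := fun v m s =>
    mul_le_one' (hPm1 v s) (hKm1 v m s)
  have hi2 : ∀ v m, Integrable (chTer (B := B) (k := k) w μ (fun s => P v s * PSr r (F v) m s))
      (μ.prod (xiM d B k)) := by
    intro v m
    refine ch_ter_integrable (ι := V) hw μ (P := fun m s => P v s * PSr r (F v) m s) (hG v)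
      (fun s => ?_) m
    rw [← Finset.mul_sum, hK1, mul_one]
    exact hPm1 v s
  have hi1 : ∀ m, Integrable (chTer (B := B) (k := k) w μ (fun s => ∑ v, P v s * PSr r (F v) m s))
      (μ.prod (xiM d B k)) := by
    intro m
    refine ch_ter_integrable (ι := V) hw μ (P := fun m s => ∑ v, P v s * PSr r (F v) m s)
      (fun m => Finset.measurable_fun_sum _ fun v _ => hG v m) (fun s => ?_) m
    rw [Finset.sum_comm]
    simp only [← Finset.mul_sum, hK1, mul_one, hP1, le_refl]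
  have hi0 : ∀ v, Integrable (chTer (B := B) (k := k) w μ (P v)) (μ.prod (xiM d B k)) := fun v =>
    ch_ter_integrable (ι := V) hw μ hP (fun s => (hP1 s).le) v
  have hae : ∀ᵐ p ∂(μ.prod (xiM d B k)), ∀ m v,
      (∫⁻ s, P v s * PSr r (F v) m s ∂μ = 0 → P v p.1 * PSr r (F v) m p.1 = 0) := by
    rw [ae_all_iff]
    intro m
    rw [ae_all_iff]
    exact fun v => ch_ae_zero (B := B) (k := k) μ (hG v m)
  rw [ch_relEnt_eq, ch_relEnt_eq]
  calc ∫ p, ∑ m, chTer (B := B) (k := k) w μ (fun s => ∑ v, P v s * PSr r (F v) m s) p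
        ∂(μ.prod (xiM d B k))
      ≤ ∫ p, ∑ v, ∑ m, chTer (B := B) (k := k) w μ (fun s => P v s * PSr r (F v) m s) p
          ∂(μ.prod (xiM d B k)) := by
        refine integral_mono_ae (integrable_finsetSum _ fun m _ => hi1 m)
          (integrable_finsetSum _ fun v _ => integrable_finsetSum _ fun m _ => hi2 v m) ?_
        filter_upwards [hae] with p hp
        rw [Finset.sum_comm]
        exact Finset.sum_le_sum fun m _ =>
          ch_log_sum_ter hw μ (fun v => hG v m) (fun v => hG1 v m) p (hp m)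
    _ = ∑ v, ∫ p, ∑ m, chTer (B := B) (k := k) w μ (fun s => P v s * PSr r (F v) m s) p
          ∂(μ.prod (xiM d B k)) :=
        integral_finsetSum _ fun v _ => integrable_finsetSum _ fun m _ => hi2 v m
    _ ≤ ∑ v, (∫ p, chTer (B := B) (k := k) w μ (P v) p ∂(μ.prod (xiM d B k)) +
          (∫⁻ s, P v s ∂μ).toReal * J v) :=
        Finset.sum_le_sum fun v _ =>
          ch_chain_one hw μ (hP v) (hK v) (hPm1 v) (hK1 v) (hJ v)
    _ = _ := by
        rw [Finset.sum_add_distrib, integral_finsetSum _ fun v _ => hi0 v]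

/-- The initial potential vanishes. -/
theorem relEnt_init {d B k : ℕ} {V : Type} [Fintype V] [DecidableEq V] {w : ℝ} (hw : 0 < w)
    (μ : Measure (E d)) [IsProbabilityMeasure μ] (v0 : V) :
    relEnt B k w μ (fun v _ => if v = v0 then 1 else 0) ≤ 0 := by
  refine le_of_eq ?_
  unfold relEnt
  rw [integral_eq_zero_of_ae]
  refine Filter.Eventually.of_forall fun p => ?_
  simp only [Pi.zero_apply]
  refine Finset.sum_eq_zero fun m _ => ?_
  by_cases hm : m = v0
  · simp [hm, ch_postW_one hw μ, ch_lg_one]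
  · simp [hm]

/-- Deterministic messages carry no information. -/
theorem relEnt_const {d n B k : ℕ} {V : Type} [Fintype V] [MeasurableSpace V]
    [MeasurableSingletonClass V] {r w : ℝ} (hr : 0 < r) (hw : 0 < w) (μ : Measure (E d))
    [IsProbabilityMeasure μ] (F : Win d n → V) (v : V) (hF : ∀ u, F u = v) :
    relEnt B k w μ (PSr r F) ≤ 0 := by
  classical
  have h : PSr r F = fun m _ => if m = v then (1 : ℝ≥0∞) else 0 := by
    funext m s
    unfold PSr
    by_cases hm : m = v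
    · have h1 : ∀ u : Win d n, (F ⁻¹' {m}).indicator (fun u => winK r s u) u = winK r s u :=
        fun u => Set.indicator_of_mem (by simp [hF, hm]) _
      rw [lintegral_congr h1, if_pos hm]
      exact lintegral_winK_one hr s
    · have h1 : ∀ u : Win d n, (F ⁻¹' {m}).indicator (fun u => winK r s u) u = 0 :=
        fun u => Set.indicator_of_notMem (by simp [hF, Ne.symm hm]) _
      rw [lintegral_congr h1, if_neg hm]
      simp
  rw [h]
  exact relEnt_init hw μ v

end Vale.Agent.P309
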