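import Vale.Agent.Lib.P309.U1
import Vale.Agent.Lib.P309.Model

/-!
# P309, module COUNT: the counting bound

Fix the seed (Fubini).  The output takes at most `2^M (T+1)` values (final state and stopping
index), and `unif {s | ‖a-s‖ ≤ ε} ≤ ε^β ∫ ‖a-s‖^{-β} ≤ ε^β C^d` with `β = 12 (d/128)` (`U1` with
`F = span {a}`).
-/

namespace Vale.Agent.P309

open MeasureTheory ProbabilityTheory
open scoped ENNReal RealInnerProductSpace

theorem counting : ∃ c : ℝ, 0 < c ∧ ∃ ε₀ : ℝ, 0 < ε₀ ∧ ∃ d₀ : ℕ,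
    ∀ (d M T : ℕ) (ε : ℝ), d₀ ≤ d → 0 < ε → ε ≤ ε₀ →
    ∀ (Ω : Type) [MeasurableSpace Ω] (P : Measure Ω) [IsProbabilityMeasure P]
      (A : Learner d M Ω), A.Succeeds T P ε →
      c * d * Real.log (1 / ε) ≤ M + Real.log (T + 1) := by
  sorry

end Vale.Agent.P309
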