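import Vale.Agent.Lib.P309.ModelDefs

/-!
# P309: memory / precision tradeoff for noiseless Gaussian regression

Common definitions.  `E d` is `ℝ^d`.  `phi r` is the centred normal density with standard
deviation `r`.  `Win d n` is the data type of a window of `n` samples.
-/

namespace Vale.Agent.P309

open MeasureTheory ProbabilityTheory
open scoped ENNReal RealInnerProductSpace

/-- The centred normal density with standard deviation `r`. -/
noncomputable def phi (r x : ℝ) : ℝ :=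
  (Real.sqrt (2 * Real.pi) * r)⁻¹ * Real.exp (-(x ^ 2) / (2 * r ^ 2))

/-- Uniform law on the unit sphere of `ℝ^d` (as a measure on `ℝ^d`): the law of `ξ/‖ξ‖` with `ξ`
standard normal. -/
noncomputable def unif (d : ℕ) : Measure (E d) :=
  (stdGaussian (E d)).map (fun x => ‖x‖⁻¹ • x)

/-- `n` independent standard normal numbers. -/
noncomputable def gs (n : ℕ) : Measure (Fin n → ℝ) :=
  Measure.pi (fun _ => gaussianReal 0 1)

/-- A window of `n` samples: rows and labels. -/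
abbrev Win (d n : ℕ) : Type := (Fin n → E d) × (Fin n → ℝ)

/-- Reference measure on windows: standard normal rows, Lebesgue measure for the labels. -/
noncomputable def winM (d n : ℕ) : Measure (Win d n) :=
  (rows d n).prod (volume : Measure (Fin n → ℝ))

/-- Density (with respect to `winM`) of a window of samples of the signal `s` with label noise
of standard deviation `r`. -/
noncomputable def winK {d n : ℕ} (r : ℝ) (s : E d) (u : Win d n) : ℝ≥0∞ :=
  ∏ i, ENNReal.ofReal (phi r (u.2 i - ⟪u.1 i, s⟫))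

/-- logarithm of an extended nonnegative number, as a real number (`0` at `0` and `∞`). -/
noncomputable def lg (x : ℝ≥0∞) : ℝ := Real.log x.toReal

/-- Coefficient vectors with sum one supported on `A`. -/
def Coef {ι : Type} [Fintype ι] (A : Finset ι) : Set (ι → ℝ) :=
  {α | (∀ l, l ∉ A → α l = 0) ∧ ∑ l, α l = 1}

/-- Regularised squared distance of `x` to the affine hull of the points `s l`, `l ∈ A`. -/
noncomputable def Vd {ι : Type} [Fintype ι] {d : ℕ} (ρ : ι → ℝ) (A : Finset ι) (s : ι → E d)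
    (x : E d) : ℝ :=
  ⨅ α : Coef A, (‖x - ∑ l, (α : ι → ℝ) l • s l‖ ^ 2 + ∑ l, (ρ l * (α : ι → ℝ) l) ^ 2)

/-- `t(x)`: regularised distance, `t^2 = Vd + ρ^2`, all regularisations equal to `ρ`. -/
noncomputable def td {ι : Type} [Fintype ι] {d : ℕ} (ρ : ℝ) (A : Finset ι) (s : ι → E d)
    (x : E d) : ℝ :=
  Real.sqrt (Vd (fun _ => ρ) A s x + ρ ^ 2)

/-- `κ_A = ∫ γ(dx) ∫ dy ∏_{l ∈ A} φ_{ρ_l}(y - <x, s_l>)`. -/
noncomputable def kap {ι : Type} [Fintype ι] {d : ℕ} (ρ : ι → ℝ) (A : Finset ι) (s : ι → E d) :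
    ℝ≥0∞ :=
  ∫⁻ x, ∫⁻ y, ∏ l ∈ A, ENNReal.ofReal (phi (ρ l) (y - ⟪x, s l⟫)) ∂volume ∂(stdGaussian (E d))

/-- The indices before `j`. -/
def bef {k : ℕ} (j : Fin k) : Finset (Fin k) := Finset.univ.filter (fun l => l < j)

/-! ### Replica setting (abstract) -/

/-- A prior `ρ` on `S` and an observation channel with positive density `K` with respect to `ν`. -/
structure Setup (S U : Type) [MeasurableSpace S] [MeasurableSpace U] where
  ρ : Measure S
  ν : Measure U
  K : S → U → ℝ≥0∞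
  hρ : IsProbabilityMeasure ρ
  hν : SigmaFinite ν
  hK : Measurable (Function.uncurry K)
  hK0 : ∀ s u, K s u ≠ 0
  hKt : ∀ s u, K s u ≠ ∞
  hq : ∀ u, ∫⁻ s, K s u ∂ρ ≠ ∞
  hK1 : ∀ s, ∫⁻ u, K s u ∂ν = 1

namespace Setup

variable {S U : Type} [MeasurableSpace S] [MeasurableSpace U] (𝔖 : Setup S U)

/-- marginal density of the observation -/
noncomputable def q (u : U) : ℝ≥0∞ := ∫⁻ s, 𝔖.K s u ∂𝔖.ρ

/-- The replica law on `(Fin (n+1) → S) × U`. -/
noncomputable def rep (n : ℕ) : Measure ((Fin (n + 1) → S) × U) :=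
  ((Measure.pi (fun _ => 𝔖.ρ)).prod 𝔖.ν).withDensity
    (fun p => (∏ l, 𝔖.K (p.1 l) p.2) * ((𝔖.q p.2)⁻¹) ^ n)

/-- Probability of the message `m` given the signal. -/
noncomputable def PS {V : Type} (f : U → V) (m : V) (s : S) : ℝ≥0∞ :=
  ∫⁻ u, (f ⁻¹' {m}).indicator (fun u => 𝔖.K s u) u ∂𝔖.ν

/-- Probability of the message `m`. -/
noncomputable def PM {V : Type} (f : U → V) (m : V) : ℝ≥0∞ :=
  ∫⁻ s, 𝔖.PS f m s ∂𝔖.ρ

end Setup

/-! ### The concrete objects of the static lemma -/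

/-- Auxiliary randomness: the rows and the label noise of the imaginary window, and the auxiliary
noise `aux i l`. -/
abbrev Xi (d B k : ℕ) : Type := Win d B × (Fin B → Fin k → ℝ)

/-- law of the auxiliary randomness (everything standard normal, independent) -/
noncomputable def xiM (d B k : ℕ) : Measure (Xi d B k) :=
  ((rows d B).prod (gs B)).prod (Measure.pi (fun _ => gs k))

/-- The imaginary window (with auxiliary noise) as a function of the signal and the randomness. -/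
noncomputable def Wm {d B k : ℕ} (w : ℝ) (s : E d) (ξ : Xi d B k) : Xi d B k :=
  ((ξ.1.1, fun i => ⟪ξ.1.1 i, s⟫ + w * ξ.1.2 i), ξ.2)

/-- posterior mean of `g` given the imaginary window `W`, for the prior `ρ` -/
noncomputable def postW {d B k : ℕ} (w : ℝ) (ρ : Measure (E d)) (g : E d → ℝ≥0∞)
    (W : Xi d B k) : ℝ≥0∞ :=
  (∫⁻ s, g s * winK w s W.1 ∂ρ) / (∫⁻ s, winK w s W.1 ∂ρ)

/-- Squared distance in `ℝ^B` of the labels `W.1.2` to the affine hull of the (noisy) images of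
the points `σ l`, `l ∈ A`. -/
noncomputable def Dsq {d B k : ℕ} (w : ℝ) (A : Finset (Fin k)) (σ : Fin k → E d)
    (W : Xi d B k) : ℝ :=
  ⨅ α : Coef A, ∑ i, (W.1.2 i - ∑ l, (α : Fin k → ℝ) l * (⟪W.1.1 i, σ l⟫ + w * W.2 i l)) ^ 2

/-- Expected relative entropy of the law `P · s` of a finite random variable given the signal with
respect to its law given the imaginary window (prior `ρ` for the signal). -/
noncomputable def relEnt {d : ℕ} {V : Type} [Fintype V] (B k : ℕ) (w : ℝ) (ρ : Measure (E d))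
    (P : V → E d → ℝ≥0∞) : ℝ :=
  ∫ p : E d × Xi d B k, ∑ m, (P m p.1).toReal *
    (lg (P m p.1) - lg (postW w ρ (P m) (Wm w p.1 p.2))) ∂(ρ.prod (xiM d B k))

/-- Probability that the message `f u` equals `m`, given the signal `s`, for a window `u` of `n`
samples with label noise `r`. -/
noncomputable def PSr {d n : ℕ} {V : Type} (r : ℝ) (f : Win d n → V) (m : V) (s : E d) : ℝ≥0∞ :=
  ∫⁻ u, (f ⁻¹' {m}).indicator (fun u => winK r s u) u ∂(winM d n)

/-- `A_κ(σ) = ∫ ρ(dx) (1 + B t(x)^2 / 4^κ)^{-n}`. -/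
noncomputable def Ak {d k : ℕ} (w : ℝ) (B n : ℕ) (ρ : Measure (E d)) (A : Finset (Fin k))
    (σ : Fin k → E d) (κ : ℤ) : ℝ≥0∞ :=
  ∫⁻ x, ENNReal.ofReal (((1 + B * td w A σ x ^ 2 / (4 : ℝ) ^ κ)⁻¹) ^ n) ∂ρ

/-- weights on scales -/
noncomputable def lam (k : ℤ) : ℝ≥0∞ := ENNReal.ofReal ((3 : ℝ)⁻¹ * (2 : ℝ) ^ (-|k|))

/-- The weight functional `ϱ_j` (with `B = 8 n`, `n + 1` replicas). -/
noncomputable def Rr {d n : ℕ} (C w : ℝ) (ρ : Measure (E d)) (j : Fin (n + 1))
    (W : Xi d (8 * n) (n + 1)) (σ : Fin (n + 1) → E d) : ℝ≥0∞ :=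
  if j = 0 then 1 else
    ∑' κ : ℤ, lam κ * ENNReal.ofReal (((1 + Dsq w (bef j) σ W / (4 : ℝ) ^ κ)⁻¹) ^ n) /
      (ENNReal.ofReal (C ^ n) * Ak w (8 * n) n ρ (bef j) σ κ)

/-- The mollified marginal density `𝒦̄`. -/
noncomputable def KK {d n : ℕ} (r : ℝ) (ρ : Measure (E d)) (u : Win d n) : ℝ≥0∞ :=
  ∑' κ : ℤ, lam κ * (ENNReal.ofReal ((Real.pi * (2 : ℝ) ^ κ / Real.sqrt n) ^ n))⁻¹ *
    ∫⁻ y : Fin n → ℝ, (∫⁻ s, winK r s (u.1, y) ∂ρ) *
      ENNReal.ofReal (((1 + (∑ i, (y i - u.2 i) ^ 2) / (4 : ℝ) ^ κ)⁻¹) ^ n)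

end Vale.Agent.P309
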