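import Vale.Agent.Lib.P309.LemmaK

/-!
# P309, module DIST: the distance `D` of the Gaussian images

Embedding: `p_l = (s_l, w e_l)`, `p^+ = (x, w e_+)`.  Rows `i < B` of the Gaussian matrix
`(Z_i, aux_i, g_i)` are independent standard normal vectors.  With the foot `α` (module LEMMAK)
`e^ = p^+ - ∑ α_l p_l` is orthogonal to all `p_l - p_{l'}` (`l,l' ∈ A`) and `|e^| = td`.
`Dsq = dist(Z^ e^, span Z^(p_l - p_{l0}))^2`, and `Z^ e^ = td * ζ`, `ζ ∼ N(0,I_B)` independent of the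
`Z^(p_l-p_{l0})` (use `resample` for every row with `u = e^/|e^|`).
(5a): `Dsq ≤ |Z^ e^|^2`.
(5b): `Dsq ≥ td^2 ∑_{i<7n} <ζ,f_i>^2`, `f_i` orthonormal in the orthogonal complement of
the span (dimension `≤ n-1`); AM-GM `1 + a∑ζ_i^2 ≥ ∏ (1+7n a ζ_i^2)^{1/(7n)}`;
`(1+7n a z^2)^{-1/7} ≤ (1+8n a)^{-1/7} (1 + 2|z|^{-2/7})`.
-/

namespace Vale.Agent.P309

open MeasureTheory ProbabilityTheory
open scoped ENNReal RealInnerProductSpace

/-- an infimum of continuous nonnegative functions is measurable -/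
theorem measurable_iInf_of_continuous {X ι : Type} [TopologicalSpace X] [MeasurableSpace X]
    [BorelSpace X] [Nonempty ι] (f : ι → X → ℝ) (h0 : ∀ i x, 0 ≤ f i x)
    (hf : ∀ i, Continuous (f i)) : Measurable (fun x => ⨅ i, f i x) := by
  have h1 : UpperSemicontinuous (fun x => ⨅ i, f i x) :=
    upperSemicontinuous_ciInf (fun x => ⟨0, by rintro _ ⟨i, rfl⟩; exact h0 i x⟩)
      (fun i => (hf i).upperSemicontinuous)
  exact h1.measurable

theorem Dsq_nonneg {d B k : ℕ} (w : ℝ) (A : Finset (Fin k)) (σ : Fin k → E d) (W : Xi d B k) :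
    0 ≤ Dsq w A σ W :=
  Real.iInf_nonneg fun _ => Finset.sum_nonneg fun _ _ => sq_nonneg _

theorem measurable_Dsq {d B k : ℕ} (w : ℝ) (A : Finset (Fin k)) :
    Measurable (fun p : (Fin k → E d) × Xi d B k => Dsq w A p.1 p.2) := by
  unfold Dsq
  rcases isEmpty_or_nonempty (Coef A) with hE | hN
  · simp only [Real.iInf_of_isEmpty]
    exact measurable_const
  · apply measurable_iInf_of_continuous
    · intro α p
      exact Finset.sum_nonneg fun _ _ => sq_nonneg _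
    · intro α
      refine continuous_finsetSum _ fun i _ => ?_
      refine Continuous.pow ?_ 2
      refine Continuous.sub (by fun_prop) ?_
      refine continuous_finsetSum _ fun l _ => ?_
      refine continuous_const.mul ?_
      refine Continuous.add ?_ (by fun_prop)
      exact Continuous.inner (by fun_prop) (by fun_prop)

theorem Dsq_congr {d B k : ℕ} (w : ℝ) (A : Finset (Fin k)) {σ σ' : Fin k → E d}
    (h : ∀ l ∈ A, σ l = σ' l) (W : Xi d B k) : Dsq w A σ W = Dsq w A σ' W := by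
  unfold Dsq
  congr 1
  funext α
  apply Finset.sum_congr rfl
  intro i _
  congr 2
  apply Finset.sum_congr rfl
  intro l _
  by_cases hl : l ∈ A
  · rw [h l hl]
  · rw [α.2.1 l hl, zero_mul, zero_mul]

theorem measurable_Wm {d B k : ℕ} (w : ℝ) :
    Measurable (fun p : E d × Xi d B k => Wm w p.1 p.2) := by
  apply Continuous.measurable
  unfold Wm
  refine Continuous.prodMk (Continuous.prodMk (by fun_prop) ?_) (by fun_prop)
  refine continuous_pi fun i => Continuous.add ?_ (by fun_prop)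
  exact Continuous.inner (by fun_prop) (by fun_prop)

section abs

variable {H : Type} [NormedAddCommGroup H] [InnerProductSpace ℝ H] [FiniteDimensional ℝ H]
  [MeasurableSpace H] [BorelSpace H]

/-- the abstract form of `Dsq` -/
noncomputable def DD {B k : ℕ} (A : Finset (Fin k)) (P : Fin k → H) (p : H) (Z : Fin B → H) : ℝ :=
  ⨅ α : Coef A, ∑ i, (⟪Z i, p⟫ - ∑ l, (α : Fin k → ℝ) l * ⟪Z i, P l⟫) ^ 2

omit [FiniteDimensional ℝ H] [MeasurableSpace H] [BorelSpace H] in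
theorem DD_nonneg {B k : ℕ} (A : Finset (Fin k)) (P : Fin k → H) (p : H) (Z : Fin B → H) :
    0 ≤ DD A P p Z :=
  Real.iInf_nonneg fun _ => Finset.sum_nonneg fun _ _ => sq_nonneg _

theorem measurable_DD {B k : ℕ} (A : Finset (Fin k)) (P : Fin k → H) (p : H) :
    Measurable (fun Z : Fin B → H => DD A P p Z) := by
  unfold DD
  rcases isEmpty_or_nonempty (Coef A) with hE | hN
  · simp only [Real.iInf_of_isEmpty]
    exact measurable_const
  · apply measurable_iInf_of_continuous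
    · intro α p
      exact Finset.sum_nonneg fun _ _ => sq_nonneg _
    · intro α
      refine continuous_finsetSum _ fun i _ => ?_
      refine Continuous.pow ?_ 2
      refine Continuous.sub (Continuous.inner (by fun_prop) (by fun_prop)) ?_
      refine continuous_finsetSum _ fun l _ => ?_
      refine continuous_const.mul ?_
      exact Continuous.inner (by fun_prop) (by fun_prop)

/-- resampling in all rows -/
theorem resample_pi {B : ℕ} (u : H) (hu : ‖u‖ = 1) :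
    ((Measure.pi (fun _ : Fin B => stdGaussian H)).prod (gs B)).map
        (fun q => fun i => q.1 i + (q.2 i - ⟪q.1 i, u⟫) • u) =
      Measure.pi (fun _ : Fin B => stdGaussian H) := by
  have h1 := measurePreserving_arrowProdEquivProdArrow H ℝ (Fin B)
    (fun _ => stdGaussian H) (fun _ => gaussianReal 0 1)
  have hT : Measurable (fun p : H × ℝ => p.1 + (p.2 - ⟪p.1, u⟫) • u) := by
    apply Continuous.measurable
    refine Continuous.add (by fun_prop) ?_
    refine Continuous.smul ?_ continuous_const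
    exact Continuous.sub (by fun_prop) (Continuous.inner (by fun_prop) (by fun_prop))
  have hsf : SigmaFinite (((stdGaussian H).prod (gaussianReal 0 1)).map
      (fun p => p.1 + (p.2 - ⟪p.1, u⟫) • u)) := by
    rw [resample u hu]; infer_instance
  have h2 : (Measure.pi (fun _ : Fin B => (stdGaussian H).prod (gaussianReal 0 1))).map
      (fun x i => (fun p : H × ℝ => p.1 + (p.2 - ⟪p.1, u⟫) • u) (x i)) =
      Measure.pi (fun _ : Fin B => ((stdGaussian H).prod (gaussianReal 0 1)).map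
      (fun p => p.1 + (p.2 - ⟪p.1, u⟫) • u)) :=
    Measure.pi_map_pi (fun _ => hT.aemeasurable)
  rw [resample u hu] at h2
  refine Eq.trans ?_ h2
  rw [gs, ← h1.map_eq, Measure.map_map ?_ h1.measurable]
  · rfl
  · apply measurable_pi_lambda
    intro i
    have : Measurable (fun q : (Fin B → H) × (Fin B → ℝ) => (q.1 i, q.2 i)) := by fun_prop
    exact hT.comp this

omit [MeasurableSpace H] [BorelSpace H] [FiniteDimensional ℝ H] in
/-- lower bound for `DD` by Bessel's inequality -/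
theorem DD_lower {B k m : ℕ} (A : Finset (Fin k)) (P : Fin k → H) (p : H) (α₀ : Fin k → ℝ)
    (hα₀ : α₀ ∈ Coef A) (ζ : E B) (Z : Fin B → H) (τ : ℝ)
    (hZe : ∀ i, ⟪Z i, p - ∑ l, α₀ l • P l⟫ = τ * ζ i)
    (f : Fin m → E B) (hf : Orthonormal ℝ f)
    (hfp : ∀ j, ∀ β : Fin k → ℝ, (∀ l, l ∉ A → β l = 0) → ∑ l, β l = 0 →
      ⟪f j, (WithLp.toLp 2 (fun i => ⟪Z i, ∑ l, β l • P l⟫) : E B)⟫ = 0) :
    τ ^ 2 * ∑ j, ⟪f j, ζ⟫ ^ 2 ≤ DD A P p Z := by
  have : Nonempty (Coef A) := ⟨⟨α₀, hα₀⟩⟩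
  apply le_ciInf
  rintro ⟨α, hα⟩
  simp only
  set β : Fin k → ℝ := fun l => α₀ l - α l with hβ
  have hβ0 : ∀ l, l ∉ A → β l = 0 := fun l hl => by
    simp only [hβ, hα₀.1 l hl, hα.1 l hl, sub_zero]
  have hβ1 : ∑ l, β l = 0 := by
    simp only [hβ, Finset.sum_sub_distrib, hα₀.2, hα.2, sub_self]
  set v : E B := WithLp.toLp 2 (fun i => ⟪Z i, p⟫ - ∑ l, α l * ⟪Z i, P l⟫) with hv
  have hv1 : v = τ • ζ + (WithLp.toLp 2 (fun i => ⟪Z i, ∑ l, β l • P l⟫) : E B) := by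
    ext i
    have e1 : ⟪Z i, p⟫ - ∑ l, α₀ l * ⟪Z i, P l⟫ = τ * ζ i := by
      rw [← hZe i, inner_sub_right, inner_sum]
      simp only [inner_smul_right]
    have e2 : ⟪Z i, ∑ l, β l • P l⟫ = ∑ l, α₀ l * ⟪Z i, P l⟫ - ∑ l, α l * ⟪Z i, P l⟫ := by
      rw [inner_sum, ← Finset.sum_sub_distrib]
      simp only [inner_smul_right, hβ, sub_mul]
    show ⟪Z i, p⟫ - ∑ l, α l * ⟪Z i, P l⟫ = τ * ζ i + ⟪Z i, ∑ l, β l • P l⟫
    rw [e2, ← e1]
    ring
  have hvn : ∑ i, (⟪Z i, p⟫ - ∑ l, α l * ⟪Z i, P l⟫) ^ 2 = ‖v‖ ^ 2 := by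
    rw [EuclideanSpace.norm_sq_eq]
    apply Finset.sum_congr rfl
    intro i _
    rw [Real.norm_eq_abs, sq_abs]
  have hb := hf.sum_inner_products_le (x := v) (s := Finset.univ)
  rw [hvn]
  refine le_trans (le_of_eq ?_) hb
  rw [Finset.mul_sum]
  apply Finset.sum_congr rfl
  intro j _
  rw [hv1, inner_add_right, hfp j β hβ0 hβ1, add_zero, inner_smul_right, Real.norm_eq_abs, sq_abs]
  ring

omit [MeasurableSpace H] [BorelSpace H] [FiniteDimensional ℝ H] in
theorem span_mem {B k : ℕ} (A : Finset (Fin k)) (P : Fin k → H) (Z : Fin B → H) (l₀ : Fin k)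
    (β : Fin k → ℝ) (h0 : ∀ l, l ∉ A → β l = 0) (h1 : ∑ l, β l = 0) :
    (WithLp.toLp 2 (fun i => ⟪Z i, ∑ l, β l • P l⟫) : E B) ∈
      Submodule.span ℝ ((((A.erase l₀).image (fun l =>
        (WithLp.toLp 2 (fun i => ⟪Z i, P l - P l₀⟫) : E B)) : Finset (E B))) : Set (E B)) := by
  classical
  have e : (WithLp.toLp 2 (fun i => ⟪Z i, ∑ l, β l • P l⟫) : E B) =
      ∑ l ∈ A.erase l₀, β l • (WithLp.toLp 2 (fun i => ⟪Z i, P l - P l₀⟫) : E B) := by
    have e1 : ∑ l, β l • P l = ∑ l ∈ A.erase l₀, β l • (P l - P l₀) := by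
      have e2 : ∑ l, β l • P l = ∑ l, β l • (P l - P l₀) := by
        simp only [smul_sub, Finset.sum_sub_distrib, ← Finset.sum_smul, h1, zero_smul, sub_zero]
      rw [e2]
      symm
      apply Finset.sum_subset (Finset.subset_univ _)
      intro l _ hl
      rw [Finset.mem_erase, not_and_or] at hl
      rcases hl with hl | hl
      · rw [not_not] at hl
        rw [hl, sub_self, smul_zero]
      · rw [h0 l hl, zero_smul]
    ext i
    rw [e1]
    simp only [inner_sum, inner_smul_right, WithLp.ofLp_sum, WithLp.ofLp_smul,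
      Finset.sum_apply, Pi.smul_apply, smul_eq_mul]
  rw [e]
  apply Submodule.sum_mem
  intro l hl
  apply Submodule.smul_mem
  apply Submodule.subset_span
  rw [Finset.mem_coe, Finset.mem_image]
  exact ⟨l, hl, rfl⟩

end abs

theorem exists_orthonormal_perp {N m r : ℕ} (F : Submodule ℝ (E N)) (hF : Module.finrank ℝ F ≤ r)
    (h : m + r ≤ N) : ∃ f : Fin m → E N, Orthonormal ℝ f ∧ ∀ j, f j ∈ Fᗮ := by
  have h1 := F.finrank_add_finrank_orthogonal
  rw [finrank_euclideanSpace, Fintype.card_fin] at h1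
  have h2 : m ≤ Module.finrank ℝ Fᗮ := by omega
  let b := stdOrthonormalBasis ℝ Fᗮ
  refine ⟨fun j => (b (Fin.castLE h2 j) : E N), ?_, fun j => (b (Fin.castLE h2 j)).2⟩
  have h3 : Orthonormal ℝ (fun j : Fin m => b (Fin.castLE h2 j)) :=
    b.orthonormal.comp _ (Fin.castLE_injective h2)
  exact h3.comp_linearIsometry (Submodule.subtypeₗᵢ Fᗮ)

/-- the one dimensional integral -/
theorem one_dim {n : ℕ} {a : ℝ} (ha : 0 ≤ a) :
    ∫⁻ x, ENNReal.ofReal ((1 + 7 * n * a * x ^ 2) ^ (-(1 / 7) : ℝ)) ∂(gaussianReal 0 1) ≤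
      ENNReal.ofReal (9 * (1 + 8 * n * a) ^ (-(1 / 7) : ℝ)) := by
  have hn : (0 : ℝ) ≤ n := Nat.cast_nonneg n
  set L : ℝ := (1 + 8 * n * a) ^ (-(1 / 7) : ℝ) with hL
  have hbase : 0 < 1 + 8 * n * a := by positivity
  have hL0 : 0 ≤ L := Real.rpow_nonneg hbase.le _
  have hpt : ∀ x : ℝ, x ≠ 0 → (1 + 7 * n * a * x ^ 2) ^ (-(1 / 7) : ℝ) ≤
      L * (3 + 2 * |x| ^ (-(1 / 2) : ℝ)) := by
    intro x hx
    have hx2 : 0 < x ^ 2 := by positivity
    set m : ℝ := min 1 (7 * x ^ 2 / 8) with hm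
    have hm0 : 0 < m := lt_min one_pos (by positivity)
    have h1 : m * (1 + 8 * n * a) ≤ 1 + 7 * n * a * x ^ 2 := by
      have h2 : m ≤ 1 := min_le_left _ _
      have h3 : m ≤ 7 * x ^ 2 / 8 := min_le_right _ _
      have h4 : m * (8 * n * a) ≤ 7 * x ^ 2 / 8 * (8 * n * a) :=
        mul_le_mul_of_nonneg_right h3 (by positivity)
      nlinarith
    have h2 : (1 + 7 * n * a * x ^ 2) ^ (-(1 / 7) : ℝ) ≤ (m * (1 + 8 * n * a)) ^ (-(1 / 7) : ℝ) :=
      Real.rpow_le_rpow_of_nonpos (by positivity) h1 (by norm_num)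
    rw [Real.mul_rpow hm0.le hbase.le, ← hL] at h2
    have h3 : m ^ (-(1 / 7) : ℝ) ≤ 3 + 2 * |x| ^ (-(1 / 2) : ℝ) := by
      have h4 : 0 ≤ |x| ^ (-(1 / 2) : ℝ) := Real.rpow_nonneg (abs_nonneg x) _
      rcases le_total 1 (7 * x ^ 2 / 8) with h5 | h5
      · rw [hm, min_eq_left h5, Real.one_rpow]
        linarith
      · rw [hm, min_eq_right h5]
        have h6 : (7 * x ^ 2 / 8) ^ (-(1 / 7) : ℝ) ≤ (7 * x ^ 2 / 8) ^ (-(1 / 4) : ℝ) :=
          Real.rpow_le_rpow_of_exponent_ge (by positivity) h5 (by norm_num)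
        have h7 : (7 * x ^ 2 / 8) ^ (-(1 / 4) : ℝ) =
            (7 / 8 : ℝ) ^ (-(1 / 4) : ℝ) * |x| ^ (-(1 / 2) : ℝ) := by
          have e1 : 7 * x ^ 2 / 8 = (7 / 8 : ℝ) * |x| ^ (2 : ℝ) := by
            rw [Real.rpow_two, sq_abs]; ring
          rw [e1, Real.mul_rpow (by norm_num) (Real.rpow_nonneg (abs_nonneg x) _),
            ← Real.rpow_mul (abs_nonneg x)]
          norm_num
        have h8 : (7 / 8 : ℝ) ^ (-(1 / 4) : ℝ) ≤ (7 / 8 : ℝ) ^ (-1 : ℝ) :=
          Real.rpow_le_rpow_of_exponent_ge (by norm_num) (by norm_num) (by norm_num)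
        have h9 : (7 / 8 : ℝ) ^ (-1 : ℝ) ≤ 2 := by
          rw [Real.rpow_neg_one]; norm_num
        have h10 : (7 / 8 : ℝ) ^ (-(1 / 4) : ℝ) * |x| ^ (-(1 / 2) : ℝ) ≤
            2 * |x| ^ (-(1 / 2) : ℝ) := mul_le_mul_of_nonneg_right (h8.trans h9) h4
        linarith
    calc (1 + 7 * n * a * x ^ 2) ^ (-(1 / 7) : ℝ) ≤ m ^ (-(1 / 7) : ℝ) * L := h2
      _ ≤ (3 + 2 * |x| ^ (-(1 / 2) : ℝ)) * L := mul_le_mul_of_nonneg_right h3 hL0
      _ = _ := mul_comm _ _
  have hae : ∀ᵐ x ∂(gaussianReal 0 1), x ≠ 0 := by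
    have := nullSingletonClass_gaussianReal (μ := 0) (v := 1) (by norm_num)
    rw [ae_iff]
    have h1 : {x : ℝ | ¬ x ≠ 0} = {0} := by ext x; simp
    rw [h1]
    exact measure_singleton 0
  calc ∫⁻ x, ENNReal.ofReal ((1 + 7 * n * a * x ^ 2) ^ (-(1 / 7) : ℝ)) ∂(gaussianReal 0 1)
      ≤ ∫⁻ x, ENNReal.ofReal L * (3 + 2 * ENNReal.ofReal (|x| ^ (-(1 / 2) : ℝ)))
          ∂(gaussianReal 0 1) := by
        apply lintegral_mono_ae
        filter_upwards [hae] with x hx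
        refine (ENNReal.ofReal_le_ofReal (hpt x hx)).trans (le_of_eq ?_)
        have h4 : 0 ≤ |x| ^ (-(1 / 2) : ℝ) := Real.rpow_nonneg (abs_nonneg x) _
        rw [ENNReal.ofReal_mul hL0, ENNReal.ofReal_add (by norm_num) (by positivity),
          ENNReal.ofReal_mul (by norm_num)]
        norm_num
    _ = ENNReal.ofReal L * (3 + 2 * ∫⁻ x, ENNReal.ofReal (|x| ^ (-(1 / 2) : ℝ))
          ∂(gaussianReal 0 1)) := by
        have hmeas : Measurable (fun x : ℝ => ENNReal.ofReal (|x| ^ (-(1 / 2) : ℝ))) := by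
          fun_prop
        rw [lintegral_const_mul' _ _ ENNReal.ofReal_ne_top,
          lintegral_add_left measurable_const, lintegral_const, measure_univ, mul_one,
          lintegral_const_mul _ hmeas]
    _ ≤ ENNReal.ofReal L * (3 + 2 * 3) := by
        gcongr
        exact mom_neg_half
    _ = ENNReal.ofReal (9 * L) := by
        rw [ENNReal.ofReal_mul (by norm_num), mul_comm]
        norm_num

/-- arithmetic-geometric mean inequality -/
theorem amgm {n : ℕ} (hn : 1 ≤ n) {a : ℝ} (ha : 0 ≤ a) (x : Fin (7 * n) → ℝ) :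
    ((1 + a * ∑ j, x j ^ 2)⁻¹) ^ n ≤ ∏ j, (1 + 7 * n * a * x j ^ 2) ^ (-(1 / 7) : ℝ) := by
  have hn0 : (0 : ℝ) < n := by exact_mod_cast hn
  have hz : ∀ j, 0 < 1 + 7 * n * a * x j ^ 2 := fun j => by positivity
  have h1 := Real.geom_mean_le_arith_mean_weighted Finset.univ
    (fun _ : Fin (7 * n) => 1 / (7 * (n : ℝ))) (fun j => 1 + 7 * n * a * x j ^ 2)
    (fun _ _ => by positivity) (by
      rw [Finset.sum_const, Finset.card_univ, Fintype.card_fin, nsmul_eq_mul]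
      push_cast
      field_simp) (fun j _ => (hz j).le)
  have h2 : ∑ j : Fin (7 * n), 1 / (7 * (n : ℝ)) * (1 + 7 * n * a * x j ^ 2) =
      1 + a * ∑ j, x j ^ 2 := by
    rw [← Finset.mul_sum, Finset.sum_add_distrib, ← Finset.mul_sum, Finset.sum_const,
      Finset.card_univ, Fintype.card_fin, nsmul_eq_mul]
    push_cast
    field_simp
  rw [h2] at h1
  have hG : 0 < ∏ j : Fin (7 * n), (1 + 7 * n * a * x j ^ 2) ^ (1 / (7 * (n : ℝ))) :=
    Finset.prod_pos fun j _ => Real.rpow_pos_of_pos (hz j) _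
  calc ((1 + a * ∑ j, x j ^ 2)⁻¹) ^ n
      ≤ ((∏ j : Fin (7 * n), (1 + 7 * n * a * x j ^ 2) ^ (1 / (7 * (n : ℝ))))⁻¹) ^ n :=
        pow_le_pow_left₀ (inv_nonneg.2 (hG.le.trans h1)) (inv_anti₀ hG h1) n
    _ = ∏ j, (1 + 7 * n * a * x j ^ 2) ^ (-(1 / 7) : ℝ) := by
        rw [← Finset.prod_inv_distrib, ← Finset.prod_pow]
        apply Finset.prod_congr rfl
        intro j _
        rw [← Real.rpow_neg (hz j).le, ← Real.rpow_natCast, ← Real.rpow_mul (hz j).le]
        congr 1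
        field_simp

theorem gs_map_toLp (B : ℕ) : (gs B).map (WithLp.toLp 2) = stdGaussian (E B) :=
  map_pi_eq_stdGaussian

section abs

variable {H : Type} [NormedAddCommGroup H] [InnerProductSpace ℝ H] [FiniteDimensional ℝ H]
  [MeasurableSpace H] [BorelSpace H]

theorem lintegral_inner_sq (e : H) :
    ∫⁻ z, ENNReal.ofReal (⟪z, e⟫ ^ 2) ∂(stdGaussian H) = ENNReal.ofReal (‖e‖ ^ 2) := by
  rcases eq_or_ne e 0 with rfl | he
  · simp
  have hn : ‖e‖ ≠ 0 := norm_ne_zero_iff.2 he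
  set u : H := ‖e‖⁻¹ • e with hu
  have hu1 : ‖u‖ = 1 := by
    rw [hu, norm_smul, norm_inv, norm_norm, inv_mul_cancel₀ hn]
  have hortho : Orthonormal ℝ (fun _ : Fin 1 => u) := by
    refine ⟨fun _ => hu1, fun i j hij => absurd (Subsingleton.elim i j) hij⟩
  have h1 := lintegral_orthonormal (fun _ : Fin 1 => u) hortho
    (fun _ x => ENNReal.ofReal (x ^ 2)) (fun _ => by fun_prop)
  simp only [Finset.univ_unique, Finset.prod_singleton] at h1
  have h2 : ∫⁻ x, ENNReal.ofReal (x ^ 2) ∂(gaussianReal 0 1) = 1 := by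
    have h3 : ∫ x, x ^ 2 ∂(gaussianReal 0 1) = 1 := by
      have := variance_id_gaussianReal (μ := 0) (v := 1)
      rw [variance_of_integral_eq_zero (by fun_prop) (by simp)] at this
      simpa using this
    have h4 : Integrable (fun x : ℝ => x ^ 2) (gaussianReal 0 1) := by
      have := memLp_id_gaussianReal (μ := 0) (v := 1) 2
      have h5 := this.integrable_sq
      simpa using h5
    rw [← ofReal_integral_eq_lintegral_ofReal h4 (Filter.Eventually.of_forall fun x => sq_nonneg x),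
      h3, ENNReal.ofReal_one]
  rw [h2] at h1
  have h3 : ∀ z : H, ENNReal.ofReal (⟪z, e⟫ ^ 2) =
      ENNReal.ofReal (‖e‖ ^ 2) * ENNReal.ofReal (⟪u, z⟫ ^ 2) := by
    intro z
    rw [← ENNReal.ofReal_mul (sq_nonneg _)]
    congr 1
    rw [hu, inner_smul_left, real_inner_comm e z, ← mul_pow]
    congr 1
    simp only [conj_trivial]
    field_simp
  rw [lintegral_congr h3, lintegral_const_mul' _ _ ENNReal.ofReal_ne_top, h1, mul_one]

/-- abstract form of (5a) -/
theorem abs5a {B k : ℕ} (A : Finset (Fin k)) (P : Fin k → H) (p : H) (α₀ : Fin k → ℝ)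
    (hα₀ : α₀ ∈ Coef A) :
    ∫⁻ Z, ENNReal.ofReal (DD A P p Z) ∂(Measure.pi (fun _ : Fin B => stdGaussian H)) ≤
      ENNReal.ofReal (B * ‖p - ∑ l, α₀ l • P l‖ ^ 2) := by
  set e : H := p - ∑ l, α₀ l • P l with he
  have hle : ∀ Z : Fin B → H, ENNReal.ofReal (DD A P p Z) ≤
      ∑ i, ENNReal.ofReal (⟪Z i, e⟫ ^ 2) := by
    intro Z
    rw [← ENNReal.ofReal_sum_of_nonneg (fun _ _ => sq_nonneg _)]
    apply ENNReal.ofReal_le_ofReal
    have h1 : DD A P p Z ≤ ∑ i, (⟪Z i, p⟫ - ∑ l, α₀ l * ⟪Z i, P l⟫) ^ 2 :=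
      ciInf_le (f := fun α : Coef A => ∑ i, (⟪Z i, p⟫ - ∑ l, (α : Fin k → ℝ) l * ⟪Z i, P l⟫) ^ 2)
        ⟨0, by rintro _ ⟨α, rfl⟩; exact Finset.sum_nonneg fun _ _ => sq_nonneg _⟩ ⟨α₀, hα₀⟩
    refine h1.trans (le_of_eq ?_)
    apply Finset.sum_congr rfl
    intro i _
    rw [he, inner_sub_right, inner_sum]
    simp only [inner_smul_right]
  have hm : Measurable (fun z : H => ENNReal.ofReal (⟪z, e⟫ ^ 2)) := by
    apply ENNReal.measurable_ofReal.comp
    apply Continuous.measurable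
    exact (Continuous.inner continuous_id continuous_const).pow 2
  calc ∫⁻ Z, ENNReal.ofReal (DD A P p Z) ∂(Measure.pi (fun _ : Fin B => stdGaussian H))
      ≤ ∫⁻ Z, ∑ i, ENNReal.ofReal (⟪Z i, e⟫ ^ 2)
          ∂(Measure.pi (fun _ : Fin B => stdGaussian H)) := lintegral_mono hle
    _ = ∑ i : Fin B, ∫⁻ Z, ENNReal.ofReal (⟪Z i, e⟫ ^ 2)
          ∂(Measure.pi (fun _ : Fin B => stdGaussian H)) := by
        rw [lintegral_finsetSum]
        intro i _
        exact hm.comp (measurable_pi_apply i)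
    _ = ∑ i : Fin B, ENNReal.ofReal (‖e‖ ^ 2) := by
        apply Finset.sum_congr rfl
        intro i _
        have h2 := (measurePreserving_eval (fun _ : Fin B => stdGaussian H) i).lintegral_comp hm
        rw [← lintegral_inner_sq e]
        exact h2
    _ = ENNReal.ofReal (B * ‖e‖ ^ 2) := by
        rw [Finset.sum_const, Finset.card_univ, Fintype.card_fin, nsmul_eq_mul,
          ENNReal.ofReal_mul (Nat.cast_nonneg B), ENNReal.ofReal_natCast]

/-- abstract form of (5b) -/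
theorem abs5b {n k : ℕ} (hn : 1 ≤ n) (A : Finset (Fin k)) (hA : A.Nonempty) (hAn : A.card ≤ n)
    (P : Fin k → H) (p : H) (α₀ : Fin k → ℝ) (hα₀ : α₀ ∈ Coef A)
    (he0 : p - ∑ l, α₀ l • P l ≠ 0)
    (hperp : ∀ β : Fin k → ℝ, (∀ l, l ∉ A → β l = 0) → ∑ l, β l = 0 →
      ⟪p - ∑ l, α₀ l • P l, ∑ l, β l • P l⟫ = 0) {θ : ℝ} (hθ : 0 < θ) :
    ∫⁻ Z, ENNReal.ofReal (((1 + DD A P p Z / θ)⁻¹) ^ n)
        ∂(Measure.pi (fun _ : Fin (8 * n) => stdGaussian H)) ≤
      ENNReal.ofReal ((9 ^ 7) ^ n * ((1 + (8 * n : ℕ) * ‖p - ∑ l, α₀ l • P l‖ ^ 2 / θ)⁻¹) ^ n) := by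
  classical
  set e : H := p - ∑ l, α₀ l • P l with he
  have hn0 : (0 : ℝ) < n := by exact_mod_cast hn
  have hτ : 0 < ‖e‖ := norm_pos_iff.2 he0
  set u : H := ‖e‖⁻¹ • e with hu
  have hu1 : ‖u‖ = 1 := by
    rw [hu, norm_smul, norm_inv, norm_norm, inv_mul_cancel₀ hτ.ne']
  set a : ℝ := ‖e‖ ^ 2 / θ with ha
  have ha0 : 0 ≤ a := by positivity
  set T : (Fin (8 * n) → H) × (Fin (8 * n) → ℝ) → (Fin (8 * n) → H) :=
    fun q => fun i => q.1 i + (q.2 i - ⟪q.1 i, u⟫) • u with hT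
  have hTm : Measurable T := by
    apply measurable_pi_lambda
    intro i
    apply Continuous.measurable
    refine Continuous.add (by fun_prop) ?_
    refine Continuous.smul ?_ continuous_const
    exact Continuous.sub (by fun_prop) (Continuous.inner (by fun_prop) (by fun_prop))
  have hFm : Measurable (fun Z : Fin (8 * n) → H =>
      ENNReal.ofReal (((1 + DD A P p Z / θ)⁻¹) ^ n)) := by
    have := measurable_DD (B := 8 * n) A P p
    fun_prop
  have hgs : IsProbabilityMeasure (gs (8 * n)) := gs_prob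
  have hFT : Measurable (fun q => ENNReal.ofReal (((1 + DD A P p (T q) / θ)⁻¹) ^ n)) :=
    hFm.comp hTm
  rw [← resample_pi u hu1, lintegral_map hFm hTm, lintegral_prod _ hFT.aemeasurable]
  -- the inner integral
  have hin : ∀ Z' : Fin (8 * n) → H,
      ∫⁻ ζ, ENNReal.ofReal (((1 + DD A P p (T (Z', ζ)) / θ)⁻¹) ^ n) ∂(gs (8 * n)) ≤
        ENNReal.ofReal ((9 ^ 7) ^ n * ((1 + (8 * n : ℕ) * ‖e‖ ^ 2 / θ)⁻¹) ^ n) := by
    intro Z'
    obtain ⟨l₀, hl₀⟩ := hA
    set S : Finset (E (8 * n)) := (A.erase l₀).image (fun l =>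
        (WithLp.toLp 2 (fun i => ⟪Z' i, P l - P l₀⟫) : E (8 * n))) with hS
    have hcard : Module.finrank ℝ (Submodule.span ℝ (S : Set (E (8 * n)))) ≤ n - 1 := by
      refine (finrank_span_finset_le_card S).trans ?_
      refine Finset.card_image_le.trans ?_
      rw [Finset.card_erase_of_mem hl₀]
      omega
    obtain ⟨f, hf, hfF⟩ := exists_orthonormal_perp (m := 7 * n) _ hcard (by omega)
    have hlow : ∀ ζ : Fin (8 * n) → ℝ,
        ‖e‖ ^ 2 * ∑ j, ⟪f j, (WithLp.toLp 2 ζ : E (8 * n))⟫ ^ 2 ≤ DD A P p (T (Z', ζ)) := by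
      intro ζ
      have hTi : ∀ i, T (Z', ζ) i = Z' i + (ζ i - ⟪Z' i, u⟫) • u := fun i => rfl
      have heu : ⟪u, e⟫ = ‖e‖ := by
        rw [hu, inner_smul_left, real_inner_self_eq_norm_sq]
        simp only [conj_trivial]
        field_simp
      apply DD_lower A P p α₀ hα₀ (WithLp.toLp 2 ζ) (T (Z', ζ)) ‖e‖ _ f hf
      · intro j β h0 h1
        have h2 : (WithLp.toLp 2 (fun i => ⟪T (Z', ζ) i, ∑ l, β l • P l⟫) : E (8 * n)) =
            WithLp.toLp 2 (fun i => ⟪Z' i, ∑ l, β l • P l⟫) := by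
          ext i
          show ⟪T (Z', ζ) i, ∑ l, β l • P l⟫ = ⟪Z' i, ∑ l, β l • P l⟫
          have h3 : ⟪u, ∑ l, β l • P l⟫ = 0 := by
            rw [hu, inner_smul_left, hperp β h0 h1, mul_zero]
          rw [hTi, inner_add_left, inner_smul_left, h3, mul_zero, add_zero]
        rw [h2]
        exact Submodule.inner_left_of_mem_orthogonal
          (span_mem A P Z' l₀ β h0 h1) (hfF j)
      · intro i
        rw [← he, hTi, inner_add_left, inner_smul_left, heu]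
        have h4 : ⟪Z' i, u⟫ * ‖e‖ = ⟪Z' i, e⟫ := by
          rw [hu, inner_smul_right]
          field_simp
        simp only [conj_trivial]
        show ⟪Z' i, e⟫ + (ζ i - ⟪Z' i, u⟫) * ‖e‖ = ‖e‖ * ζ i
        rw [sub_mul, h4]
        ring
    have hpt : ∀ ζ : Fin (8 * n) → ℝ, ENNReal.ofReal (((1 + DD A P p (T (Z', ζ)) / θ)⁻¹) ^ n) ≤
        ∏ j, ENNReal.ofReal ((1 + 7 * n * a * ⟪f j, (WithLp.toLp 2 ζ : E (8 * n))⟫ ^ 2) ^
          (-(1 / 7) : ℝ)) := by
      intro ζ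
      rw [← ENNReal.ofReal_prod_of_nonneg (fun j _ => Real.rpow_nonneg (by positivity) _)]
      apply ENNReal.ofReal_le_ofReal
      refine le_trans ?_ (amgm hn ha0 (fun j => ⟪f j, (WithLp.toLp 2 ζ : E (8 * n))⟫))
      have hD0 := DD_nonneg A P p (T (Z', ζ))
      have h5 : a * ∑ j, ⟪f j, (WithLp.toLp 2 ζ : E (8 * n))⟫ ^ 2 ≤
          DD A P p (T (Z', ζ)) / θ := by
        rw [ha, div_mul_eq_mul_div]
        exact div_le_div_of_nonneg_right (hlow ζ) hθ.le
      have h6 : 0 ≤ a * ∑ j, ⟪f j, (WithLp.toLp 2 ζ : E (8 * n))⟫ ^ 2 := by positivity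
      exact pow_le_pow_left₀ (by positivity) (inv_anti₀ (by positivity) (by linarith)) n
    have hgm : ∀ j : Fin (7 * n), Measurable (fun x : ℝ =>
        ENNReal.ofReal ((1 + 7 * n * a * x ^ 2) ^ (-(1 / 7) : ℝ))) := fun j => by fun_prop
    have hprodm : Measurable (fun ξ : E (8 * n) => ∏ j,
        ENNReal.ofReal ((1 + 7 * n * a * ⟪f j, ξ⟫ ^ 2) ^ (-(1 / 7) : ℝ))) := by
      apply Finset.measurable_prod
      intro j _
      have h7 : Measurable (fun ξ : E (8 * n) => ⟪f j, ξ⟫) :=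
        (Continuous.inner continuous_const continuous_id).measurable
      exact (hgm j).comp h7
    calc ∫⁻ ζ, ENNReal.ofReal (((1 + DD A P p (T (Z', ζ)) / θ)⁻¹) ^ n) ∂(gs (8 * n))
        ≤ ∫⁻ ζ, ∏ j, ENNReal.ofReal ((1 + 7 * n * a *
            ⟪f j, (WithLp.toLp 2 ζ : E (8 * n))⟫ ^ 2) ^ (-(1 / 7) : ℝ)) ∂(gs (8 * n)) :=
          lintegral_mono hpt
      _ = ∫⁻ ξ, ∏ j, ENNReal.ofReal ((1 + 7 * n * a * ⟪f j, ξ⟫ ^ 2) ^ (-(1 / 7) : ℝ))
            ∂(stdGaussian (E (8 * n))) := by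
          rw [← gs_map_toLp, lintegral_map hprodm (by fun_prop)]
      _ = ∏ j : Fin (7 * n), ∫⁻ x, ENNReal.ofReal ((1 + 7 * n * a * x ^ 2) ^ (-(1 / 7) : ℝ))
            ∂(gaussianReal 0 1) :=
          lintegral_orthonormal f hf (fun _ x => ENNReal.ofReal ((1 + 7 * n * a * x ^ 2) ^
            (-(1 / 7) : ℝ))) hgm
      _ ≤ ∏ j : Fin (7 * n), ENNReal.ofReal (9 * (1 + 8 * n * a) ^ (-(1 / 7) : ℝ)) :=
          Finset.prod_le_prod' fun j _ => one_dim ha0
      _ = ENNReal.ofReal ((9 ^ 7) ^ n * ((1 + (8 * n : ℕ) * ‖e‖ ^ 2 / θ)⁻¹) ^ n) := by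
          have hb : 0 < 1 + 8 * (n : ℝ) * a := by positivity
          rw [Finset.prod_const, Finset.card_univ, Fintype.card_fin,
            ← ENNReal.ofReal_pow (mul_nonneg (by norm_num) (Real.rpow_nonneg hb.le _))]
          congr 1
          rw [mul_pow, ← pow_mul]
          congr 1
          rw [← Real.rpow_natCast, ← Real.rpow_mul hb.le]
          have h8 : (1 + ((8 * n : ℕ) : ℝ) * ‖e‖ ^ 2 / θ) = 1 + 8 * (n : ℝ) * a := by
            rw [ha]; push_cast; ring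
          rw [h8, ← Real.rpow_neg_one, ← Real.rpow_natCast, ← Real.rpow_mul hb.le]
          congr 1
          push_cast
          ring
  calc ∫⁻ Z', ∫⁻ ζ, ENNReal.ofReal (((1 + DD A P p (T (Z', ζ)) / θ)⁻¹) ^ n) ∂(gs (8 * n))
        ∂(Measure.pi (fun _ : Fin (8 * n) => stdGaussian H))
      ≤ ∫⁻ _, ENNReal.ofReal ((9 ^ 7) ^ n * ((1 + (8 * n : ℕ) * ‖e‖ ^ 2 / θ)⁻¹) ^ n)
        ∂(Measure.pi (fun _ : Fin (8 * n) => stdGaussian H)) := lintegral_mono hin
    _ = _ := by rw [lintegral_const, measure_univ, mul_one]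

end abs

/-! ### the embedding -/

theorem stdGaussian_prod {H₁ H₂ : Type} [NormedAddCommGroup H₁] [InnerProductSpace ℝ H₁]
    [FiniteDimensional ℝ H₁] [MeasurableSpace H₁] [BorelSpace H₁] [NormedAddCommGroup H₂]
    [InnerProductSpace ℝ H₂] [FiniteDimensional ℝ H₂] [MeasurableSpace H₂] [BorelSpace H₂] :
    ((stdGaussian H₁).prod (stdGaussian H₂)).map (WithLp.toLp 2) =
      stdGaussian (WithLp 2 (H₁ × H₂)) := by
  have hm : Measurable (WithLp.toLp 2 : H₁ × H₂ → WithLp 2 (H₁ × H₂)) := by fun_prop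
  have : IsProbabilityMeasure (((stdGaussian H₁).prod (stdGaussian H₂)).map (WithLp.toLp 2)) :=
    Measure.isProbabilityMeasure_map hm.aemeasurable
  apply Measure.ext_of_charFun
  funext t
  rw [charFun_prod, charFun_stdGaussian, charFun_stdGaussian, charFun_stdGaussian,
    ← Complex.exp_add]
  congr 1
  have h1 : ‖t‖ ^ 2 = ‖(WithLp.ofLp t).1‖ ^ 2 + ‖(WithLp.ofLp t).2‖ ^ 2 :=
    WithLp.prod_norm_sq_eq_of_L2 t
  rw [← Complex.ofReal_pow, ← Complex.ofReal_pow, ← Complex.ofReal_pow, h1]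
  push_cast
  ring

theorem gaussianReal_eq : gaussianReal 0 1 = stdGaussian ℝ := by
  apply Measure.ext_of_charFun
  funext t
  rw [charFun_stdGaussian, charFun_gaussianReal]
  congr 1
  rw [Real.norm_eq_abs, ← Complex.ofReal_pow |t| 2, sq_abs]
  push_cast
  ring

/-- the Hilbert space of one row -/
abbrev Hh (d k : ℕ) : Type := WithLp 2 (WithLp 2 (E d × ℝ) × E k)

/-- the row vector in the Hilbert space -/
noncomputable def Psi {d k : ℕ} (z : (E d × ℝ) × (Fin k → ℝ)) : Hh d k :=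
  WithLp.toLp 2 (WithLp.toLp 2 z.1, WithLp.toLp 2 z.2)

theorem measurable_Psi {d k : ℕ} : Measurable (Psi (d := d) (k := k)) := by
  unfold Psi
  fun_prop

theorem law_Psi {d k : ℕ} :
    (((stdGaussian (E d)).prod (gaussianReal 0 1)).prod (gs k)).map (Psi (d := d) (k := k)) =
      stdGaussian (Hh d k) := by
  have h1 : ((stdGaussian (E d)).prod (gaussianReal 0 1)).map (WithLp.toLp 2) =
      stdGaussian (WithLp 2 (E d × ℝ)) := by
    rw [gaussianReal_eq]
    exact stdGaussian_prod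
  have hgs : IsProbabilityMeasure (gs k) := gs_prob
  have hm1 : Measurable (WithLp.toLp 2 : E d × ℝ → WithLp 2 (E d × ℝ)) := by fun_prop
  have hm2 : Measurable (WithLp.toLp 2 : (Fin k → ℝ) → E k) := by fun_prop
  have h2 := Measure.map_prod_map ((stdGaussian (E d)).prod (gaussianReal 0 1)) (gs k) hm1 hm2
  rw [h1, gs_map_toLp] at h2
  rw [← stdGaussian_prod, h2, Measure.map_map (by fun_prop) (hm1.prodMap hm2)]
  rfl

/-- all rows in the Hilbert space -/
noncomputable def Xih {d B k : ℕ} (ξ : Xi d B k) : Fin B → Hh d k :=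
  fun i => Psi ((ξ.1.1 i, ξ.1.2 i), ξ.2 i)

theorem measurable_Xih {d B k : ℕ} : Measurable (Xih (d := d) (B := B) (k := k)) := by
  unfold Xih
  apply measurable_pi_lambda
  intro i
  apply measurable_Psi.comp
  fun_prop

theorem law_Xih {d B k : ℕ} : (xiM d B k).map (Xih (d := d) (B := B) (k := k)) =
    Measure.pi (fun _ : Fin B => stdGaussian (Hh d k)) := by
  have hgs : IsProbabilityMeasure (gs k) := gs_prob
  have h1 := measurePreserving_arrowProdEquivProdArrow (E d) ℝ (Fin B)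
    (fun _ => stdGaussian (E d)) (fun _ => gaussianReal 0 1)
  have h2 := measurePreserving_arrowProdEquivProdArrow (E d × ℝ) (Fin k → ℝ) (Fin B)
    (fun _ => (stdGaussian (E d)).prod (gaussianReal 0 1)) (fun _ => gs k)
  have h3 := h1.prod (MeasurePreserving.id (Measure.pi (fun _ : Fin B => gs k)))
  have h4 := h3.comp h2
  have h5 : xiM d B k = (Measure.pi (fun _ : Fin B =>
      ((stdGaussian (E d)).prod (gaussianReal 0 1)).prod (gs k))).map _ := h4.map_eq.symm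
  have hsf : SigmaFinite ((((stdGaussian (E d)).prod (gaussianReal 0 1)).prod (gs k)).map
      (Psi (d := d) (k := k))) := by
    rw [law_Psi]; infer_instance
  have h6 := Measure.pi_map_pi (ι := Fin B)
    (μ := fun _ => ((stdGaussian (E d)).prod (gaussianReal 0 1)).prod (gs k))
    (f := fun _ => Psi (d := d) (k := k)) (fun _ => measurable_Psi.aemeasurable)
  rw [law_Psi] at h6
  rw [h5, Measure.map_map measurable_Xih h4.measurable]
  exact h6

/-- images of the points -/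
noncomputable def PP {d k : ℕ} (w : ℝ) (σ : Fin k → E d) (l : Fin k) : Hh d k :=
  WithLp.toLp 2 (WithLp.toLp 2 (σ l, 0), EuclideanSpace.single l w)

/-- image of the signal -/
noncomputable def pp {d : ℕ} (k : ℕ) (w : ℝ) (x : E d) : Hh d k :=
  WithLp.toLp 2 (WithLp.toLp 2 (x, w), 0)

theorem inner_PP {d k : ℕ} (w : ℝ) (σ : Fin k → E d) (l : Fin k) (z : (E d × ℝ) × (Fin k → ℝ)) :
    ⟪Psi z, PP w σ l⟫ = ⟪z.1.1, σ l⟫ + w * z.2 l := by
  unfold Psi PP
  rw [WithLp.prod_inner_apply, WithLp.prod_inner_apply]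
  simp only [EuclideanSpace.inner_single_right]
  simp

theorem inner_pp {d k : ℕ} (w : ℝ) (x : E d) (z : (E d × ℝ) × (Fin k → ℝ)) :
    ⟪Psi z, pp k w x⟫ = ⟪z.1.1, x⟫ + w * z.1.2 := by
  unfold Psi pp
  rw [WithLp.prod_inner_apply, WithLp.prod_inner_apply]
  simp

theorem comb_eq {d k : ℕ} (w : ℝ) (σ : Fin k → E d) (x : E d) (α : Fin k → ℝ) :
    pp k w x - ∑ l, α l • PP w σ l =
      WithLp.toLp 2 (WithLp.toLp 2 (x - ∑ l, α l • σ l, w),
        WithLp.toLp 2 (fun l => -(w * α l))) := by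
  have h1 : ∑ l, α l • PP w σ l = (WithLp.toLp 2 (WithLp.toLp 2 (∑ l, α l • σ l, 0),
        WithLp.toLp 2 (fun l => w * α l)) : Hh d k) := by
    have h2 : ∀ (s : Finset (Fin k)), ∑ l ∈ s, α l • PP w σ l =
        (WithLp.toLp 2 (WithLp.toLp 2 (∑ l ∈ s, α l • σ l, 0),
          ∑ l ∈ s, α l • (EuclideanSpace.single l w : E k)) : Hh d k) := by
      intro s
      classical
      induction s using Finset.induction_on with
      | empty => simp; rfl
      | insert a s ha ih =>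
        rw [Finset.sum_insert ha, Finset.sum_insert ha, Finset.sum_insert ha, ih]
        unfold PP
        rw [← WithLp.toLp_smul, ← WithLp.toLp_add, Prod.smul_mk, Prod.mk_add_mk,
          ← WithLp.toLp_smul, ← WithLp.toLp_add, Prod.smul_mk, Prod.mk_add_mk, smul_zero,
          add_zero]
    rw [h2]
    congr 2
    ext j
    simp only [WithLp.ofLp_sum, WithLp.ofLp_smul, Finset.sum_apply, Pi.smul_apply, smul_eq_mul,
      PiLp.single_apply]
    rw [Finset.sum_eq_single j]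
    · simp [mul_comm]
    · intro b _ hb
      simp [hb.symm]
    · intro h
      exact absurd (Finset.mem_univ j) h
  rw [h1]
  unfold pp
  rw [← WithLp.toLp_sub, Prod.mk_sub_mk, ← WithLp.toLp_sub, Prod.mk_sub_mk, sub_zero, zero_sub]
  rfl

theorem norm_comb {d k : ℕ} (w : ℝ) (σ : Fin k → E d) (x : E d) (α : Fin k → ℝ) :
    ‖pp k w x - ∑ l, α l • PP w σ l‖ ^ 2 =
      ‖x - ∑ l, α l • σ l‖ ^ 2 + ∑ l, (w * α l) ^ 2 + w ^ 2 := by
  rw [comb_eq, WithLp.prod_norm_sq_eq_of_L2, WithLp.prod_norm_sq_eq_of_L2]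
  have h1 : ‖(WithLp.toLp 2 (fun l => -(w * α l)) : E k)‖ ^ 2 = ∑ l, (w * α l) ^ 2 := by
    rw [EuclideanSpace.norm_sq_eq]
    simp only [norm_neg, Real.norm_eq_abs, sq_abs]
  have h2 : ‖w‖ ^ 2 = w ^ 2 := by rw [Real.norm_eq_abs, sq_abs]
  rw [← h1, ← h2]
  show ‖x - ∑ l, α l • σ l‖ ^ 2 + ‖w‖ ^ 2 + ‖(WithLp.toLp 2 (fun l => -(w * α l)) : E k)‖ ^ 2 = _
  ring

theorem inner_comb {d k : ℕ} (w : ℝ) (σ : Fin k → E d) (x : E d) (α : Fin k → ℝ) (l : Fin k) :
    ⟪pp k w x - ∑ l, α l • PP w σ l, PP w σ l⟫ =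
      ⟪x - ∑ l', α l' • σ l', σ l⟫ - w ^ 2 * α l := by
  rw [comb_eq]
  have h := inner_PP w σ l ((x - ∑ l, α l • σ l, w), fun l => -(w * α l))
  unfold Psi at h
  simp only at h
  rw [h]
  ring

theorem Dsq_eq_DD {d B k : ℕ} (w : ℝ) (A : Finset (Fin k)) (σ : Fin k → E d) (x : E d)
    (ξ : Xi d B k) : Dsq w A σ (Wm w x ξ) = DD A (PP w σ) (pp k w x) (Xih ξ) := by
  unfold Dsq DD Wm Xih
  simp only [inner_PP, inner_pp]

/-- integrals of functions of `Dsq` in the Hilbert space -/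
theorem lintegral_Dsq {d B k : ℕ} (w : ℝ) (A : Finset (Fin k)) (σ : Fin k → E d) (x : E d)
    {F : ℝ → ℝ≥0∞} (hF : Measurable F) :
    ∫⁻ ξ, F (Dsq w A σ (Wm w x ξ)) ∂(xiM d B k) =
      ∫⁻ Z, F (DD A (PP w σ) (pp k w x) Z)
        ∂(Measure.pi (fun _ : Fin B => stdGaussian (Hh d k))) := by
  have hm : Measurable (fun Z : Fin B → Hh d k => F (DD A (PP w σ) (pp k w x) Z)) :=
    hF.comp (measurable_DD A (PP w σ) (pp k w x))
  rw [← law_Xih, lintegral_map hm measurable_Xih]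
  apply lintegral_congr
  intro ξ
  rw [Dsq_eq_DD]

theorem dist5a {d B k : ℕ} {w : ℝ} (hw : 0 < w) (A : Finset (Fin k)) (hA : A.Nonempty)
    (σ : Fin k → E d) (x : E d) :
    ∫⁻ ξ, ENNReal.ofReal (Dsq w A σ (Wm w x ξ)) ∂(xiM d B k) ≤
      ENNReal.ofReal (B * td w A σ x ^ 2) := by
  obtain ⟨α, hα, y, _, hV⟩ := foot (fun _ => w) A hA (fun _ => hw) σ x
  have h1 : td w A σ x ^ 2 = ‖pp k w x - ∑ l, α l • PP w σ l‖ ^ 2 := by
    rw [norm_comb, td, Real.sq_sqrt (add_nonneg (Vd_nonneg _ _ _ _) (sq_nonneg w)), hV]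
  rw [lintegral_Dsq w A σ x ENNReal.measurable_ofReal, h1]
  exact abs5a A (PP w σ) (pp k w x) α hα

theorem dist5b : ∃ C : ℝ, 1 ≤ C ∧ ∀ (d n k : ℕ) (w θ : ℝ), 1 ≤ n → 0 < w → 0 < θ →
    ∀ (A : Finset (Fin k)), A.Nonempty → A.card ≤ n → ∀ (σ : Fin k → E d) (x : E d),
      ∫⁻ ξ, ENNReal.ofReal (((1 + Dsq w A σ (Wm w x ξ) / θ)⁻¹) ^ n) ∂(xiM d (8 * n) k) ≤
        ENNReal.ofReal (C ^ n * ((1 + (8 * n : ℕ) * td w A σ x ^ 2 / θ)⁻¹) ^ n) := by
  refine ⟨9 ^ 7, by norm_num, ?_⟩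
  intro d n k w θ hn hw hθ A hA hAn σ x
  obtain ⟨α, hα, y, hy, hV⟩ := foot (fun _ => w) A hA (fun _ => hw) σ x
  have h1 : td w A σ x ^ 2 = ‖pp k w x - ∑ l, α l • PP w σ l‖ ^ 2 := by
    rw [norm_comb, td, Real.sq_sqrt (add_nonneg (Vd_nonneg _ _ _ _) (sq_nonneg w)), hV]
  have hF : Measurable (fun D : ℝ => ENNReal.ofReal (((1 + D / θ)⁻¹) ^ n)) := by fun_prop
  have h2 := lintegral_Dsq (B := 8 * n) w A σ x hF
  rw [h2, h1]
  apply abs5b hn A hA hAn (PP w σ) (pp k w x) α hα _ _ hθ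
  · intro h0
    have h3 := norm_comb w σ x α
    rw [h0, norm_zero] at h3
    have h4 : 0 ≤ ∑ l, (w * α l) ^ 2 := Finset.sum_nonneg fun _ _ => sq_nonneg _
    have h5 := sq_nonneg ‖x - ∑ l, α l • σ l‖
    have h6 : 0 < w ^ 2 := by positivity
    nlinarith
  · intro β h0 hs
    rw [inner_sum]
    have h3 : ∀ l ∈ Finset.univ, ⟪pp k w x - ∑ l, α l • PP w σ l, β l • PP w σ l⟫ =
        -(y * β l) := by
      intro l _
      by_cases hl : l ∈ A
      · rw [inner_smul_right, inner_comb]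
        have := hy l hl
        have h4 : ⟪x - ∑ l', α l' • σ l', σ l⟫ - w ^ 2 * α l = -y := by linarith
        rw [h4]; ring
      · rw [h0 l hl, zero_smul, inner_zero_right]
        simp
    rw [Finset.sum_congr rfl h3, Finset.sum_neg_distrib, ← Finset.mul_sum, hs, mul_zero, neg_zero]

end Vale.Agent.P309
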