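import Vale.Agent.Lib.P309.Main
import Vale.Agent.Lib.P309.Model

/-!
# P309, module FINAL: from learners to automata, and the numbers

Fix the seed (Fubini), `V = Fin (2^M) × Option (Fin (T+1))`, `Act = {(v,none)}`, `n = d/128`,
`L = T/n+1`, steps with index `≥ T` do nothing, `Rl l = {(q,none)} ∪ {(q,some τ) : l n < τ ≤ (l+1) n}`
(intersected with the possible `τ`), chord ≤ angle (`Real.one_sub_sq_div_two_le_cos`).
-/

namespace Vale.Agent.P309

open MeasureTheory ProbabilityTheory
open scoped ENNReal RealInnerProductSpace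

/-- states of the automaton -/
@[ext] structure FV (M T : ℕ) : Type where
  /-- memory -/
  q : Fin (2 ^ M)
  /-- stopping time -/
  o : Option (Fin (T + 1))
deriving DecidableEq

/-- `FV` is a product -/
def fvEquiv (M T : ℕ) : Fin (2 ^ M) × Option (Fin (T + 1)) ≃ FV M T where
  toFun p := ⟨p.1, p.2⟩
  invFun v := (v.q, v.o)
  left_inv _ := rfl
  right_inv _ := rfl

instance instFintypeFV (M T : ℕ) : Fintype (FV M T) := Fintype.ofEquiv _ (fvEquiv M T)
instance instMeasFV (M T : ℕ) : MeasurableSpace (FV M T) := ⊤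
instance instDiscFV (M T : ℕ) : DiscreteMeasurableSpace (FV M T) := ⟨fun _ => trivial⟩

/-- stopping times are capped at `T` -/
def fCap (T τ : ℕ) : Fin (T + 1) := ⟨min τ T, by omega⟩

/-- encoding of the learner's states -/
def fEnc (M T : ℕ) (p : Fin (2 ^ M) × Option ℕ) : FV M T := ⟨p.1, p.2.map (fCap T)⟩

section

variable {d M : ℕ} {Ω : Type} [MeasurableSpace Ω] (A : Learner d M Ω)

/-- the automaton -/
noncomputable def fStep (T : ℕ) (ω : Ω) (t : ℕ) (v : FV M T) (z : E d × ℝ) : FV M T :=
  if v.o = none then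
    (if t < T then ⟨(A.step t ω v.q z.1 z.2).1,
      if (A.step t ω v.q z.1 z.2).2 then some (fCap T (t + 1)) else none⟩ else v)
  else v

/-- the initial state -/
noncomputable def fInit (T : ℕ) (ω : Ω) : FV M T :=
  ⟨(A.init ω).1, if (A.init ω).2 then some (fCap T 0) else none⟩

/-- the output -/
noncomputable def fOut (T : ℕ) (ω : Ω) (v : FV M T) : E d :=
  A.out (v.o.elim T (fun j => (j : ℕ))) ω v.q

theorem fInit_eq {T : ℕ} (ω : Ω) (s : E d) (x : Fin T → E d) :
    fEnc M T (A.run ω s x 0) = fInit A T ω := by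
  unfold fEnc fInit Learner.run
  split_ifs <;> rfl

theorem fEnc_run_succ {T : ℕ} (ω : Ω) (s : E d) (x : Fin T → E d) (t : ℕ) (h : t < T) :
    fEnc M T (A.run ω s x (t + 1)) =
      fStep A T ω t (fEnc M T (A.run ω s x t)) (x ⟨t, h⟩, ⟪x ⟨t, h⟩, s⟫) := by
  rw [Learner.run]
  rcases hr : A.run ω s x t with ⟨v, o⟩
  cases o with
  | some τ =>
    simp only [fEnc, fStep, Option.map_some]
    simp
  | none =>
    simp only [fEnc, fStep, Option.map_none, if_true]
    rw [dif_pos h, if_pos h]
    by_cases hb : (A.step t ω v (x ⟨t, h⟩) ⟪x ⟨t, h⟩, s⟫).2 = true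
    · simp only [hb, if_true, Option.map_some]
    · simp only [hb, if_false, Option.map_none, Bool.false_eq_true]

theorem run_ge {T : ℕ} (ω : Ω) (s : E d) (x : Fin T → E d) (t : ℕ) (h : T ≤ t) :
    A.run ω s x (t + 1) = A.run ω s x t := by
  rw [Learner.run]
  rcases hr : A.run ω s x t with ⟨v, o⟩
  cases o with
  | some τ => rfl
  | none =>
    simp only
    rw [dif_neg (by omega)]

theorem run_add {T : ℕ} (ω : Ω) (s : E d) (x : Fin T → E d) (m : ℕ) :
    A.run ω s x (T + m) = A.run ω s x T := by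
  induction m with
  | zero => rfl
  | succ m ih => rw [← add_assoc, run_ge A ω s x (T + m) (by omega), ih]

theorem run_le {T : ℕ} (ω : Ω) (s : E d) (x : Fin T → E d) (t : ℕ) :
    ∀ τ, (A.run ω s x t).2 = some τ → τ ≤ t := by
  induction t with
  | zero =>
    intro τ h
    rw [Learner.run] at h
    simp only at h
    split_ifs at h
    simp only [Option.some.injEq] at h
    omega
  | succ t ih =>
    intro τ h
    rw [Learner.run] at h
    rcases hr : A.run ω s x t with ⟨v, o⟩
    rw [hr] at h ih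
    cases o with
    | some τ' =>
      simp only at h ih
      have := ih τ h
      omega
    | none =>
      simp only at h
      by_cases ht : t < T
      · rw [dif_pos ht] at h
        simp only at h
        split_ifs at h
        simp only [Option.some.injEq] at h
        omega
      · rw [dif_neg ht] at h
        simp at h

theorem fRunN_eq {T : ℕ} (ω : Ω) (s : E d) (x : Fin T → E d) : ∀ (k : ℕ) (z : Fin k → E d × ℝ),
    (∀ (i : Fin k) (h : (i : ℕ) < T), z i = (x ⟨i, h⟩, ⟪x ⟨i, h⟩, s⟫)) →
    runN (fStep A T ω) 0 (fInit A T ω) k z = fEnc M T (A.run ω s x k)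
  | 0, z, _ => by
    rw [fInit_eq]; rfl
  | k + 1, z, hz => by
    have ih := fRunN_eq ω s x k (fun i => z i.castSucc) (fun i h => hz i.castSucc h)
    show fStep A T ω (0 + k) (runN (fStep A T ω) 0 (fInit A T ω) k (fun i => z i.castSucc))
      (z (Fin.last k)) = _
    rw [ih, zero_add]
    by_cases hk : k < T
    · rw [fEnc_run_succ A ω s x k hk, hz (Fin.last k) hk]
      rfl
    · rw [run_ge A ω s x k (by omega)]
      unfold fStep
      split_ifs <;> rfl

theorem fOut_eq {T : ℕ} (ω : Ω) (s : E d) (x : Fin T → E d) :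
    A.estimate ω s x = fOut A T ω (fEnc M T (A.run ω s x T)) := by
  unfold Learner.estimate fOut fEnc
  have hle := run_le A ω s x T
  rcases hr : A.run ω s x T with ⟨v, o⟩
  rw [hr] at hle
  cases o with
  | some τ =>
    have := hle τ rfl
    simp only [Option.getD_some, Option.map_some, Option.elim_some, fCap]
    rw [min_eq_left this]
  | none => rfl

/-! ### Measurability -/

theorem fStep_meas (T : ℕ) (t : ℕ) (v : FV M T) :
    Measurable (fun p : Ω × (E d × ℝ) => fStep A T p.1 t v p.2) := by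
  unfold fStep
  by_cases h1 : v.o = none
  · simp only [h1, if_true]
    by_cases h2 : t < T
    · simp only [h2, if_true]
      have h3 : Measurable (fun p : Ω × (E d × ℝ) => A.step t p.1 v.q p.2.1 p.2.2) :=
        A.step_meas t v.q
      have h4 : Measurable (fun q : Fin (2 ^ M) × Bool =>
          (⟨q.1, if q.2 then some (fCap T (t + 1)) else none⟩ : FV M T)) :=
        Measurable.of_discrete
      exact h4.comp h3
    · simp only [h2, if_false]
      exact measurable_const
  · simp only [h1, if_false]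
    exact measurable_const

theorem fStep_meas' (T : ℕ) (ω : Ω) (t : ℕ) (v : FV M T) : Measurable (fStep A T ω t v) :=
  (fStep_meas A T t v).comp (g := fun p : Ω × (E d × ℝ) => fStep A T p.1 t v p.2)
    (f := fun z => (ω, z)) measurable_prodMk_left

theorem fEnc_run_meas (T : ℕ) (t : ℕ) (ht : t ≤ T) :
    Measurable (fun p : (Ω × E d) × (Fin T → E d) => fEnc M T (A.run p.1.1 p.1.2 p.2 t)) := by
  induction t with
  | zero =>
    simp only [fInit_eq]
    unfold fInit
    have h4 : Measurable (fun q : Fin (2 ^ M) × Bool =>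
        (⟨q.1, if q.2 then some (fCap T 0) else none⟩ : FV M T)) := Measurable.of_discrete
    exact h4.comp (A.init_meas.comp (measurable_fst.comp measurable_fst))
  | succ t ih =>
    have hlt : t < T := by omega
    have ih' := ih (by omega)
    simp only [fun (p : (Ω × E d) × (Fin T → E d)) => fEnc_run_succ A p.1.1 p.1.2 p.2 t hlt]
    have h1 : Measurable (fun q : FV M T × (Ω × (E d × ℝ)) => fStep A T q.2.1 t q.1 q.2.2) := by
      apply measurable_from_prod_countable_right
      intro v
      exact fStep_meas A T t v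
    have hx : Measurable (fun p : (Ω × E d) × (Fin T → E d) => p.2 ⟨t, hlt⟩) :=
      (measurable_pi_apply _).comp measurable_snd
    have hs : Measurable (fun p : (Ω × E d) × (Fin T → E d) => p.1.2) :=
      measurable_snd.comp measurable_fst
    have h2 : Measurable (fun p : (Ω × E d) × (Fin T → E d) =>
        (fEnc M T (A.run p.1.1 p.1.2 p.2 t), (p.1.1, (p.2 ⟨t, hlt⟩, ⟪p.2 ⟨t, hlt⟩, p.1.2⟫)))) :=
      ih'.prodMk ((measurable_fst.comp measurable_fst).prodMk (hx.prodMk (hx.inner hs)))
    exact h1.comp h2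

theorem fOut_meas (T : ℕ) (v : FV M T) : Measurable (fun ω => fOut A T ω v) :=
  A.out_meas _ _

theorem estimate_meas (T : ℕ) :
    Measurable (fun p : (Ω × E d) × (Fin T → E d) => A.estimate p.1.1 p.1.2 p.2) := by
  simp only [fOut_eq]
  have h1 : Measurable (fun q : FV M T × Ω => fOut A T q.2 q.1) := by
    apply measurable_from_prod_countable_right
    intro v
    exact fOut_meas A T v
  exact h1.comp ((fEnc_run_meas A T T le_rfl).prodMk (measurable_fst.comp measurable_fst))

theorem succ_meas (T : ℕ) (ε : ℝ) : MeasurableSet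
    {p : (Ω × E d) × (Fin T → E d) | Real.arccos ⟪A.estimate p.1.1 p.1.2 p.2, p.1.2⟫ ≤ ε} := by
  have h1 := estimate_meas A T
  have hs : Measurable (fun p : (Ω × E d) × (Fin T → E d) => p.1.2) :=
    measurable_snd.comp measurable_fst
  exact measurableSet_le (Real.continuous_arccos.measurable.comp (h1.inner hs)) measurable_const

/-- fix the seed -/
theorem fix_seed {T : ℕ} (hd : 1 ≤ d) (P : Measure Ω) [IsProbabilityMeasure P] (ε : ℝ)
    (hA : A.Succeeds T P ε) : ∃ ω : Ω, ENNReal.ofReal (2 / 3) ≤ ((unif d).prod (rows d T))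
      {p | Real.arccos ⟪A.estimate ω p.1 p.2, p.1⟫ ≤ ε} := by
  have := sphereUnif_prob hd
  unfold Learner.Succeeds at hA
  set S : Set ((Ω × E d) × (Fin T → E d)) :=
    {p | Real.arccos ⟪A.estimate p.1.1 p.1.2 p.2, p.1.2⟫ ≤ ε} with hS
  have hSm : MeasurableSet S := succ_meas A T ε
  -- transfer to `unif`
  have hcoe : Measurable (fun s : Metric.sphere (0 : E d) 1 => (s : E d)) := measurable_subtype_coe
  set S' : Set ((Ω × Metric.sphere (0 : E d) 1) × (Fin T → E d)) :=
    {p | Real.arccos ⟪A.estimate p.1.1 (p.1.2 : E d) p.2, (p.1.2 : E d)⟫ ≤ ε} with hS'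
  have hmap : Measurable (fun p : (Ω × Metric.sphere (0 : E d) 1) × (Fin T → E d) =>
      (((p.1.1, (p.1.2 : E d)), p.2) : (Ω × E d) × (Fin T → E d))) :=
    ((measurable_fst.comp measurable_fst).prodMk
      (hcoe.comp (measurable_snd.comp measurable_fst))).prodMk measurable_snd
  have hS'm : MeasurableSet S' := hmap hSm
  rw [Measure.prod_apply hS'm] at hA
  have hm1 : Measurable (fun p : Ω × Metric.sphere (0 : E d) 1 =>
      (rows d T) (Prod.mk p ⁻¹' S')) := measurable_measure_prodMk_left hS'm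
  rw [lintegral_prod _ hm1.aemeasurable] at hA
  have hne : ∫⁻ ω, ∫⁻ s, (rows d T) (Prod.mk (ω, s) ⁻¹' S') ∂(sphereUnif d) ∂P ≠ ∞ := by
    refine ne_top_of_le_ne_top ENNReal.one_ne_top ?_
    calc ∫⁻ ω, ∫⁻ s, (rows d T) (Prod.mk (ω, s) ⁻¹' S') ∂(sphereUnif d) ∂P
        ≤ ∫⁻ ω, ∫⁻ s, 1 ∂(sphereUnif d) ∂P :=
          lintegral_mono fun ω => lintegral_mono fun s => prob_le_one
      _ = 1 := by simp
  obtain ⟨ω, hω⟩ := exists_lintegral_le (μ := P) hne
  refine ⟨ω, hA.trans (hω.trans ?_)⟩
  rw [← sphereUnif_map hd]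
  have hB : MeasurableSet {p : E d × (Fin T → E d) |
      Real.arccos ⟪A.estimate ω p.1 p.2, p.1⟫ ≤ ε} := by
    have h1 : Measurable (fun p : E d × (Fin T → E d) => (((ω, p.1), p.2) :
        (Ω × E d) × (Fin T → E d))) :=
      (measurable_const.prodMk measurable_fst).prodMk measurable_snd
    exact h1 hSm
  rw [Measure.prod_apply hB, lintegral_map (measurable_measure_prodMk_left hB) hcoe]
  exact le_rfl

end

/-- restriction to the first coordinates -/
theorem rows_castLE {d T n : ℕ} (h : T ≤ n) :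
    (rows d n).map (fun y : Fin n → E d => fun i : Fin T => y (Fin.castLE h i)) = rows d T := by
  have hm : Measurable (fun y : Fin n → E d => fun i : Fin T => y (Fin.castLE h i)) :=
    measurable_pi_iff.mpr fun i => measurable_pi_apply _
  unfold rows
  symm
  refine Measure.pi_eq fun s hs => ?_
  rw [Measure.map_apply hm (MeasurableSet.univ_pi hs)]
  have h1 : (fun y : Fin n → E d => fun i : Fin T => y (Fin.castLE h i)) ⁻¹' (Set.univ.pi s) =
      Set.univ.pi (fun j : Fin n => if hj : (j : ℕ) < T then s ⟨j, hj⟩ else Set.univ) := by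
    ext y
    simp only [Set.mem_preimage, Set.mem_pi, Set.mem_univ, true_implies]
    constructor
    · intro hy j
      split_ifs with hj
      · exact hy ⟨j, hj⟩
      · trivial
    · intro hy i
      have := hy (Fin.castLE h i)
      simpa using this
  rw [h1, Measure.pi_pi]
  have h2 : ∀ j : Fin n, stdGaussian (E d)
      (if hj : (j : ℕ) < T then s ⟨j, hj⟩ else Set.univ) =
      if hj : (j : ℕ) < T then stdGaussian (E d) (s ⟨j, hj⟩) else 1 := by
    intro j
    split_ifs with hj
    · rfl
    · exact measure_univ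
  simp only [h2]
  symm
  refine Finset.prod_of_injOn (Fin.castLE h) ?_ ?_ ?_ ?_
  · exact (Fin.castLE_injective h).injOn
  · intro i _; simp
  · intro j _ hj
    rw [dif_neg]
    intro hj'
    apply hj
    simp only [Finset.coe_univ, Set.image_univ, Set.mem_range]
    exact ⟨⟨j, hj'⟩, rfl⟩
  · intro i _
    simp

theorem fRl {d M : ℕ} {Ω : Type} [MeasurableSpace Ω] (A : Learner d M Ω) (T : ℕ) (ω : Ω)
    (t0 : ℕ) (v : FV M T) (hv : v.o = none) : ∀ (k : ℕ) (z : Fin k → E d × ℝ),
    (runN (fStep A T ω) t0 v k z).o = none ∨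
      ∃ j, j < k ∧ (runN (fStep A T ω) t0 v k z).o = some (fCap T (t0 + j + 1))
  | 0, z => Or.inl hv
  | k + 1, z => by
    have ih := fRl A T ω t0 v hv k (fun i => z i.castSucc)
    have hdef : runN (fStep A T ω) t0 v (k + 1) z =
      fStep A T ω (t0 + k) (runN (fStep A T ω) t0 v k (fun i => z i.castSucc))
        (z (Fin.last k)) := rfl
    rw [hdef]
    set w := runN (fStep A T ω) t0 v k (fun i => z i.castSucc) with hw
    rcases ih with h | ⟨j, hj, h⟩
    · unfold fStep
      rw [if_pos h]
      by_cases h2 : t0 + k < T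
      · rw [if_pos h2]
        by_cases h3 : (A.step (t0 + k) ω w.q (z (Fin.last k)).1 (z (Fin.last k)).2).2 = true
        · right
          refine ⟨k, by omega, ?_⟩
          simp only [h3, if_true]
        · left
          simp only [h3]
          simp
      · rw [if_neg h2]
        exact Or.inl h
    · right
      refine ⟨j, by omega, ?_⟩
      unfold fStep
      rw [if_neg (by rw [h]; simp)]
      exact h

theorem chord_le {d : ℕ} {u v : E d} (hu : ‖u‖ = 1) (hv : ‖v‖ = 1) {ε : ℝ} (hε : 0 ≤ ε)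
    (h : Real.arccos ⟪u, v⟫ ≤ ε) : ‖u - v‖ ≤ ε := by
  have h1 : ‖u - v‖ ^ 2 = 2 - 2 * ⟪u, v⟫ := by
    rw [@norm_sub_sq_real, hu, hv]; ring
  have habs : |⟪u, v⟫| ≤ 1 := by
    have := abs_real_inner_le_norm u v
    rwa [hu, hv, mul_one] at this
  rw [abs_le] at habs
  have h2 : Real.cos (Real.arccos ⟪u, v⟫) = ⟪u, v⟫ := Real.cos_arccos habs.1 habs.2
  have h3 := Real.one_sub_sq_div_two_le_cos (x := Real.arccos ⟪u, v⟫)
  rw [h2] at h3
  have h4 : 0 ≤ Real.arccos ⟪u, v⟫ := Real.arccos_nonneg _
  have h5 : Real.arccos ⟪u, v⟫ ^ 2 ≤ ε ^ 2 := by gcongr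
  have h6 : ‖u - v‖ ^ 2 ≤ ε ^ 2 := by rw [h1]; linarith
  exact le_of_sq_le_sq h6 hε

theorem final : ∀ K : ℝ, 0 < K → ∃ c : ℝ, 0 < c ∧ ∃ ε₀ : ℝ, 0 < ε₀ ∧ ∃ d₀ : ℕ,
    ∀ (d M T : ℕ) (ε : ℝ), d₀ ≤ d → 0 < ε → ε ≤ ε₀ → (M : ℝ) ≤ K * d ^ 2 →
    ∀ (Ω : Type) [MeasurableSpace Ω] (P : Measure Ω) [IsProbabilityMeasure P]
      (A : Learner d M Ω), A.Succeeds T P ε → c * d * Real.log (1 / ε) ≤ T := by
  intro K hK
  obtain ⟨C, hC1, hC⟩ := auto_bound
  set B : ℝ := C * (256 * K + 1) with hB
  have hBpos : 0 < B := by positivity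
  set Λ₀ : ℝ := (1280 / 6) * (C + B) with hΛ₀
  have hΛ₀pos : 0 < Λ₀ := by positivity
  refine ⟨(12 / 2560) / (256 * B), by positivity, Real.exp (-Λ₀), Real.exp_pos _, 256, ?_⟩
  intro d M T ε hd hε hε₀ hM Ω _ P _ A hA
  have hd1 : 1 ≤ d := by omega
  have hε1 : ε ≤ 1 := hε₀.trans (Real.exp_le_one_iff.mpr (by linarith))
  set n := d / 128 with hn
  have hn2 : 2 ≤ n := by omega
  have hn1 : 128 * n ≤ d := by omega
  have hn3 : d ≤ 256 * n := by omega
  obtain ⟨ω, hω⟩ := fix_seed A hd1 P ε hA
  set L := T / n + 1 with hL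
  have hTL : T ≤ L * n := by
    have h1 := Nat.div_add_mod T n
    have h2 := Nat.mod_lt T (show 0 < n by omega)
    rw [hL, add_mul, one_mul, mul_comm (T / n) n]
    omega
  -- the automaton
  have hkey := hC d n hn2 hn1 hn3 (FV M T) (fStep A T ω) (fStep_meas' A T ω) (fInit A T ω)
    (Finset.univ.image (fun q : Fin (2 ^ M) => (⟨q, none⟩ : FV M T))) (2 ^ M) Nat.one_le_two_pow
    (Finset.card_image_le.trans (by simp))
    (by
      intro v hv t z
      unfold fStep
      rw [if_neg]
      intro h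
      apply hv
      simp only [Finset.mem_image, Finset.mem_univ, true_and]
      exact ⟨v.q, by ext1 <;> simp [h]⟩)
    (fun l => Finset.univ.image (fun q : Fin (2 ^ M) => (⟨q, none⟩ : FV M T)) ∪
      (Finset.univ ×ˢ Finset.range n).image
        (fun r : Fin (2 ^ M) × ℕ => (⟨r.1, some (fCap T (l * n + r.2 + 1))⟩ : FV M T)))
    (by
      intro l
      refine (Finset.card_union_le _ _).trans ?_
      refine (add_le_add Finset.card_image_le Finset.card_image_le).trans ?_
      rw [Finset.card_product]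
      simp only [Finset.card_univ, Fintype.card_fin, Finset.card_range]
      apply le_of_eq; ring)
    (by
      intro l v hv u
      simp only [Finset.mem_image, Finset.mem_univ, true_and] at hv
      obtain ⟨q, rfl⟩ := hv
      unfold winF
      rw [Finset.mem_union]
      rcases fRl A T ω (l * n) ⟨q, none⟩ rfl n (fun i => (u.1 i, u.2 i)) with h | ⟨j, hj, h⟩
      · left
        simp only [Finset.mem_image, Finset.mem_univ, true_and]
        exact ⟨_, FV.ext rfl h.symm⟩
      · right
        simp only [Finset.mem_image, Finset.mem_product, Finset.mem_univ, true_and,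
          Finset.mem_range]
        exact ⟨(_, j), hj, FV.ext rfl h.symm⟩)
    (fOut A T ω) (fun v => A.out_norm _ _ _) L ε hε hε1
    (by
      refine hω.trans ?_
      -- transfer from the first `T` rows
      set φ : E d × (Fin (L * n) → E d) → E d × (Fin T → E d) :=
        fun p => (p.1, fun i => p.2 (Fin.castLE hTL i)) with hφ
      have hmp : MeasurePreserving φ ((unif d).prod (rows d (L * n)))
          ((unif d).prod (rows d T)) := by
        have h1 : MeasurePreserving (fun y : Fin (L * n) → E d =>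
            fun i : Fin T => y (Fin.castLE hTL i)) (rows d (L * n)) (rows d T) :=
          ⟨measurable_pi_iff.mpr fun i => measurable_pi_apply _, rows_castLE hTL⟩
        exact (MeasurePreserving.id (unif d)).prod h1
      have hSm : MeasurableSet {p : E d × (Fin T → E d) |
          Real.arccos ⟪A.estimate ω p.1 p.2, p.1⟫ ≤ ε} := by
        have h1 : Measurable (fun p : E d × (Fin T → E d) => (((ω, p.1), p.2) :
            (Ω × E d) × (Fin T → E d))) :=
          (measurable_const.prodMk measurable_fst).prodMk measurable_snd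
        exact h1 (succ_meas A T ε)
      rw [← hmp.measure_preimage hSm.nullMeasurableSet]
      -- almost every signal has norm one
      have hae : ∀ᵐ p ∂((unif d).prod (rows d (L * n))), ‖p.1‖ = 1 :=
        (Measure.quasiMeasurePreserving_fst (μ := unif d) (ν := rows d (L * n))).ae
          (unif_norm hd1)
      refine measure_mono_ae ?_
      filter_upwards [hae] with p hp hpS
      have hpS' : Real.arccos ⟪A.estimate ω p.1 (fun i => p.2 (Fin.castLE hTL i)), p.1⟫ ≤ ε := hpS
      have hest : A.estimate ω p.1 (fun i => p.2 (Fin.castLE hTL i)) =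
          fOut A T ω (runN (fStep A T ω) 0 (fInit A T ω) (L * n)
            (fun i => (p.2 i, ⟪p.2 i, p.1⟫))) := by
        rw [fOut_eq, fRunN_eq A ω p.1 (fun i => p.2 (Fin.castLE hTL i)) (L * n)
          (fun i => (p.2 i, ⟪p.2 i, p.1⟫)) (fun i h => rfl)]
        obtain ⟨m, hm⟩ := Nat.exists_eq_add_of_le hTL
        have hr : A.run ω p.1 (fun i => p.2 (Fin.castLE hTL i)) (L * n) =
            A.run ω p.1 (fun i => p.2 (Fin.castLE hTL i)) T := by
          have h := run_add A ω p.1 (fun i => p.2 (Fin.castLE hTL i)) m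
          rwa [← hm] at h
        rw [hr]
      rw [hest] at hpS'
      exact chord_le (A.out_norm _ _ _) hp hε.le hpS')
  -- the numbers
  have hdR : (0 : ℝ) < d := by exact_mod_cast (show 0 < d by omega)
  have hnR : (0 : ℝ) < n := by exact_mod_cast (show 0 < n by omega)
  have hn256 : (d : ℝ) ≤ 256 * n := by exact_mod_cast hn3
  set Λ := Real.log (1 / ε) with hΛ
  have hΛge : Λ₀ ≤ Λ := by
    rw [hΛ, one_div, Real.log_inv]
    have := Real.log_le_log hε hε₀
    rw [Real.log_exp] at this
    linarith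
  have hlogN : Real.log ((2 ^ M : ℕ) : ℝ) ≤ K * d ^ 2 := by
    push_cast
    rw [Real.log_pow]
    have h2 : Real.log 2 ≤ 1 := by
      have := Real.log_two_lt_d9
      linarith
    have hM0 : (0 : ℝ) ≤ M := by positivity
    nlinarith
  have hq : Real.log ((2 ^ M : ℕ) : ℝ) / n ≤ 256 * K * d := by
    rw [div_le_iff₀ hnR]
    calc Real.log ((2 ^ M : ℕ) : ℝ) ≤ K * d ^ 2 := hlogN
      _ = K * d * d := by ring
      _ ≤ K * d * (256 * n) := by gcongr
      _ = 256 * K * d * n := by ring
  have hLr : (L : ℝ) ≤ 256 * T / d + 1 := by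
    rw [hL]
    push_cast
    have h1 : ((T / n : ℕ) : ℝ) ≤ T / n := Nat.cast_div_le
    have h2 : (T : ℝ) / n ≤ 256 * T / d := by
      rw [div_le_div_iff₀ hnR hdR]
      have hT0 : (0 : ℝ) ≤ T := by positivity
      nlinarith
    linarith
  have hL0 : (0 : ℝ) ≤ L := by positivity
  have h1 : C * (Real.log ((2 ^ M : ℕ) : ℝ) / n + d) ≤ B * d := by
    rw [hB]
    have : Real.log ((2 ^ M : ℕ) : ℝ) / n + d ≤ (256 * K + 1) * d := by linarith
    calc C * (Real.log ((2 ^ M : ℕ) : ℝ) / n + d) ≤ C * ((256 * K + 1) * d) := by gcongr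
      _ = C * (256 * K + 1) * d := by ring
  have h2 : (L : ℝ) * (C * (Real.log ((2 ^ M : ℕ) : ℝ) / n + d)) ≤ 256 * B * T + B * d := by
    calc (L : ℝ) * (C * (Real.log ((2 ^ M : ℕ) : ℝ) / n + d)) ≤ L * (B * d) := by gcongr
      _ ≤ (256 * T / d + 1) * (B * d) := by gcongr
      _ = 256 * B * T + B * d := by field_simp
  have h3 : 12 / 1280 * d * Λ ≤ 12 / 5 * n * Λ := by
    have hΛ0 : 0 ≤ Λ := by linarith
    have : 12 / 1280 * (d : ℝ) ≤ 12 / 5 * n := by linarith
    exact mul_le_mul_of_nonneg_right this hΛ0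
  have h4 : 12 / 1280 * d * Λ ≤ 256 * B * T + (C + B) * d := by
    have := hkey
    linarith
  have h5 : (C + B) * d ≤ 12 / 2560 * d * Λ := by
    have : C + B ≤ 12 / 2560 * Λ := by
      have : (1280 / 6) * (C + B) ≤ Λ := hΛge
      linarith
    nlinarith
  have h6 : 12 / 2560 * d * Λ ≤ 256 * B * T := by linarith
  rw [div_mul_eq_mul_div, div_mul_eq_mul_div, div_le_iff₀ (by positivity)]
  linarith

end Vale.Agent.P309
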