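import Vale.Agent.Lib.P309.Gauss
import Vale.Agent.Lib.P309.Replica
import Vale.Agent.Lib.P309.PSrFacts

/-!
# P309, module RELENT: posterior means and relative entropies
-/

namespace Vale.Agent.P309

open MeasureTheory ProbabilityTheory
open scoped ENNReal RealInnerProductSpace

variable {d B k : ℕ}

namespace RE

theorem meas_winK_s (w : ℝ) (u : Win d B) : Measurable (fun s : E d => winK w s u) := by
  unfold winK
  refine Finset.measurable_fun_prod _ (fun i _ => ?_)
  refine ENNReal.measurable_ofReal.comp ((measurable_phi w).comp ?_)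
  fun_prop

theorem meas_winK_u (w : ℝ) (s : E d) : Measurable (fun u : Win d B => winK w s u) := by
  unfold winK
  refine Finset.measurable_fun_prod _ (fun i _ => ?_)
  refine ENNReal.measurable_ofReal.comp ((measurable_phi w).comp ?_)
  fun_prop

theorem meas_winK_sW (w : ℝ) : Measurable (fun p : E d × Xi d B k => winK w p.1 p.2.1) := by
  unfold winK
  refine Finset.measurable_fun_prod _ (fun i _ => ?_)
  refine ENNReal.measurable_ofReal.comp ((measurable_phi w).comp ?_)
  fun_prop

theorem winK_ne_zero {w : ℝ} (hw : 0 < w) (s : E d) (u : Win d B) : winK w s u ≠ 0 := by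
  unfold winK
  refine Finset.prod_ne_zero_iff.mpr (fun i _ => ?_)
  exact (ENNReal.ofReal_pos.mpr (phi_pos hw _)).ne'

theorem winK_le {w : ℝ} (hw : 0 < w) (s : E d) (u : Win d B) :
    winK w s u ≤ (ENNReal.ofReal ((Real.sqrt (2 * Real.pi) * w)⁻¹)) ^ B := by
  unfold winK
  calc ∏ i, ENNReal.ofReal (phi w (u.2 i - ⟪u.1 i, s⟫))
      ≤ ∏ _i : Fin B, ENNReal.ofReal ((Real.sqrt (2 * Real.pi) * w)⁻¹) :=
        Finset.prod_le_prod' (fun i _ => ENNReal.ofReal_le_ofReal (phi_le hw _))
    _ = _ := by simp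

theorem den_ne_zero {w : ℝ} (hw : 0 < w) (ρ : Measure (E d)) [IsProbabilityMeasure ρ]
    (u : Win d B) : ∫⁻ s, winK w s u ∂ρ ≠ 0 := by
  intro h
  rw [lintegral_eq_zero_iff (meas_winK_s w u)] at h
  obtain ⟨s, hs⟩ := h.exists
  exact winK_ne_zero hw s u hs

theorem den_ne_top {w : ℝ} (hw : 0 < w) (ρ : Measure (E d)) [IsProbabilityMeasure ρ]
    (u : Win d B) : ∫⁻ s, winK w s u ∂ρ ≠ ∞ := by
  refine ne_top_of_le_ne_top ?_ (lintegral_mono (fun s => winK_le hw s u))
  simp only [lintegral_const, measure_univ, mul_one]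
  exact ENNReal.pow_ne_top ENNReal.ofReal_ne_top

end RE

section
attribute [local irreducible] winK winM

theorem measurable_postW (w : ℝ) (ρ : Measure (E d)) [IsProbabilityMeasure ρ] {g : E d → ℝ≥0∞}
    (hg : Measurable g) : Measurable (postW (B := B) (k := k) w ρ g) := by
  unfold postW
  have h1 := RE.meas_winK_sW (d := d) (B := B) (k := k) w
  have h2 : Measurable (fun p : E d × Xi d B k => g p.1 * winK w p.1 p.2.1) :=
    (hg.comp measurable_fst).mul h1
  exact h2.lintegral_prod_left'.div h1.lintegral_prod_left'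

theorem postW_le_one {w : ℝ} (hw : 0 < w) (ρ : Measure (E d)) [IsProbabilityMeasure ρ]
    {g : E d → ℝ≥0∞} (hg : ∀ s, g s ≤ 1) (W : Xi d B k) : postW w ρ g W ≤ 1 := by
  unfold postW
  refine le_trans ?_ (ENNReal.div_self_le_one (a := ∫⁻ s, winK w s W.1 ∂ρ))
  refine ENNReal.div_le_div_right (lintegral_mono (fun s => ?_)) _
  calc g s * winK w s W.1 ≤ 1 * winK w s W.1 := mul_le_mul_left (hg s) _
    _ = _ := one_mul _

theorem postW_sum {V : Type} [Fintype V] (w : ℝ) (ρ : Measure (E d)) [IsProbabilityMeasure ρ]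
    {g : V → E d → ℝ≥0∞} (hg : ∀ v, Measurable (g v)) (W : Xi d B k) :
    postW w ρ (fun s => ∑ v, g v s) W = ∑ v, postW w ρ (g v) W := by
  unfold postW
  simp_rw [Finset.sum_mul]
  have hm : ∀ v ∈ (Finset.univ : Finset V), Measurable (fun s => g v s * winK w s W.1) :=
    fun v _ => (hg v).mul (RE.meas_winK_s w W.1)
  rw [lintegral_finsetSum _ hm]
  simp_rw [div_eq_mul_inv]
  rw [Finset.sum_mul]

/-- Law of the imaginary window: `Wm w s ξ` has density `winK w s` with respect to
`winM d B ⊗ aux`. -/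
theorem lintegral_Wm {w : ℝ} (hw : 0 < w) (s : E d) {h : Xi d B k → ℝ≥0∞} (hh : Measurable h) :
    ∫⁻ ξ, h (Wm w s ξ) ∂(xiM d B k) =
      ∫⁻ W, winK w s W.1 * h W ∂((winM d B).prod (Measure.pi (fun _ : Fin B => gs k))) := by
  have hWm : Measurable (fun ξ : Xi d B k => Wm w s ξ) := by
    unfold Wm
    fun_prop
  have hK : Measurable (fun W : Xi d B k => winK w s W.1) := (RE.meas_winK_u w s).comp measurable_fst
  unfold xiM
  have hA : Measurable (fun ξ : Xi d B k => h (Wm w s ξ)) := hh.comp hWm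
  have hB : Measurable (fun W : Xi d B k => winK w s W.1 * h W) := hK.mul hh
  rw [lintegral_prod_symm' _ hA, lintegral_prod_symm' _ hB]
  refine lintegral_congr (fun a => ?_)
  dsimp only
  have hF : Measurable (fun u : Win d B => h (u, a)) := hh.comp (by fun_prop)
  rw [lintegral_winK hw s hF]
  have hm2 : Measurable (fun p : (Fin B → E d) × (Fin B → ℝ) => h (Wm w s (p, a))) :=
    (hh.comp hWm).comp (by fun_prop)
  exact lintegral_prod _ hm2.aemeasurable


/-- The defining property of the posterior mean. -/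
theorem postW_prop {w : ℝ} (hw : 0 < w) (ρ : Measure (E d)) [IsProbabilityMeasure ρ]
    {g : E d → ℝ≥0∞} (hg : Measurable g) {h : Xi d B k → ℝ≥0∞} (hh : Measurable h) :
    ∫⁻ s, g s * ∫⁻ ξ, h (Wm w s ξ) ∂(xiM d B k) ∂ρ =
      ∫⁻ s, ∫⁻ ξ, postW w ρ g (Wm w s ξ) * h (Wm w s ξ) ∂(xiM d B k) ∂ρ := by
  have hK2 := RE.meas_winK_sW (d := d) (B := B) (k := k) w
  have hp : Measurable (postW (B := B) (k := k) w ρ g) := measurable_postW w ρ hg
  set N : Measure (Xi d B k) := (winM d B).prod (Measure.pi (fun _ : Fin B => gs k)) with hN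
  have hKW : ∀ s : E d, Measurable (fun W : Xi d B k => winK w s W.1) := fun s =>
    (RE.meas_winK_u w s).comp measurable_fst
  have e1 : ∀ s : E d, g s * ∫⁻ ξ, h (Wm w s ξ) ∂(xiM d B k) =
      ∫⁻ W, g s * (winK w s W.1 * h W) ∂N := by
    intro s
    rw [lintegral_Wm hw s hh, ← hN, lintegral_const_mul]
    exact (hKW s).mul hh
  have e2 : ∀ s : E d, ∫⁻ ξ, postW w ρ g (Wm w s ξ) * h (Wm w s ξ) ∂(xiM d B k) =
      ∫⁻ W, winK w s W.1 * (postW w ρ g W * h W) ∂N := by
    intro s
    rw [← lintegral_Wm hw s (h := fun W => postW w ρ g W * h W) (hp.mul hh)]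
  rw [lintegral_congr e1, lintegral_congr e2]
  have m1 : Measurable (Function.uncurry (fun (s : E d) (W : Xi d B k) => g s * (winK w s W.1 * h W))) :=
    (hg.comp measurable_fst).mul (hK2.mul (hh.comp measurable_snd))
  have m2 : Measurable (Function.uncurry (fun (s : E d) (W : Xi d B k) =>
      winK w s W.1 * (postW w ρ g W * h W))) :=
    hK2.mul ((hp.mul hh).comp measurable_snd)
  rw [lintegral_lintegral_swap m1.aemeasurable, lintegral_lintegral_swap m2.aemeasurable]
  refine lintegral_congr (fun W => ?_)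
  have hKs := RE.meas_winK_s (d := d) (B := B) w W.1
  rw [lintegral_mul_const _ hKs]
  have e3 : ∀ s : E d, g s * (winK w s W.1 * h W) = (g s * winK w s W.1) * h W := fun s => by ring
  have hgK : Measurable (fun s => g s * winK w s W.1) := hg.mul hKs
  rw [lintegral_congr e3, lintegral_mul_const _ hgK, ← mul_assoc]
  congr 1
  unfold postW
  rw [mul_comm, ENNReal.div_mul_cancel (RE.den_ne_zero hw ρ W.1) (RE.den_ne_top hw ρ W.1)]


namespace RE

theorem measurable_lg : Measurable lg := by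
  unfold lg
  fun_prop

theorem meas_Wm (w : ℝ) : Measurable (fun p : E d × Xi d B k => Wm w p.1 p.2) := by
  unfold Wm
  fun_prop

theorem meas_Wm1 (w : ℝ) (s : E d) : Measurable (fun ξ : Xi d B k => Wm w s ξ) := by
  unfold Wm
  fun_prop

theorem abs_mul_log_le {x : ℝ} (h0 : 0 ≤ x) (h1 : x ≤ 1) : |x * Real.log x| ≤ 1 := by
  rcases h0.eq_or_lt with h | h
  · rw [← h]; simp
  · have h2 := Real.log_le_sub_one_of_pos (inv_pos.mpr h)
    rw [Real.log_inv] at h2
    have h3 : Real.log x ≤ 0 := Real.log_nonpos h0 h1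
    rw [abs_of_nonpos (mul_nonpos_of_nonneg_of_nonpos h0 h3)]
    have h4 : x * (-Real.log x) ≤ x * (x⁻¹ - 1) := mul_le_mul_of_nonneg_left h2 h0
    have h5 : x * (x⁻¹ - 1) = 1 - x := by field_simp
    linarith [h4, h5]

theorem mul_lg_le {p : ℝ≥0∞} (hp : p ≤ 1) : p * ENNReal.ofReal |lg p| ≤ 1 := by
  have hpt : p ≠ ∞ := ne_top_of_le_ne_top ENNReal.one_ne_top hp
  have h1 : p.toReal ≤ 1 := by
    have := ENNReal.toReal_mono ENNReal.one_ne_top hp
    simpa using this
  have h0 : 0 ≤ p.toReal := ENNReal.toReal_nonneg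
  have h2 := abs_mul_log_le h0 h1
  rw [abs_mul, abs_of_nonneg h0] at h2
  have h3 : lg p = Real.log p.toReal := rfl
  rw [h3]
  have h4 : p = ENNReal.ofReal p.toReal := (ENNReal.ofReal_toReal hpt).symm
  have h5 : p * ENNReal.ofReal |Real.log p.toReal| =
      ENNReal.ofReal (p.toReal * |Real.log p.toReal|) := by
    rw [ENNReal.ofReal_mul h0, ENNReal.ofReal_toReal hpt]
  rw [h5]
  calc ENNReal.ofReal (p.toReal * |Real.log p.toReal|) ≤ ENNReal.ofReal 1 :=
        ENNReal.ofReal_le_ofReal h2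
    _ = 1 := ENNReal.ofReal_one

end RE

attribute [local irreducible] postW Wm lg in
/-- Integrability of the integrand of `relEnt` (each term). -/
theorem relEnt_integrable {V : Type} [Fintype V] {w : ℝ} (hw : 0 < w) (ρ : Measure (E d))
    [IsProbabilityMeasure ρ] {P : V → E d → ℝ≥0∞} (hP : ∀ v, Measurable (P v))
    (hP1 : ∀ s, ∑ v, P v s ≤ 1) (v : V) :
    Integrable (fun p : E d × Xi d B k => (P v p.1).toReal *
      (lg (P v p.1) - lg (postW w ρ (P v) (Wm w p.1 p.2)))) (ρ.prod (xiM d B k)) := by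
  have hv1 : ∀ s, P v s ≤ 1 := fun s =>
    (Finset.single_le_sum (f := fun v => P v s) (fun _ _ => zero_le) (Finset.mem_univ v)).trans (hP1 s)
  have hpost : Measurable (postW (B := B) (k := k) w ρ (P v)) := measurable_postW w ρ (hP v)
  have hpW : Measurable (fun p : E d × Xi d B k => postW w ρ (P v) (Wm w p.1 p.2)) :=
    hpost.comp (RE.meas_Wm w)
  have hPv : Measurable (fun p : E d × Xi d B k => P v p.1) := (hP v).comp measurable_fst
  have hf : Measurable (fun p : E d × Xi d B k => (P v p.1).toReal *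
      (lg (P v p.1) - lg (postW w ρ (P v) (Wm w p.1 p.2)))) :=
    hPv.ennreal_toReal.mul ((RE.measurable_lg.comp hPv).sub (RE.measurable_lg.comp hpW))
  refine ⟨hf.aestronglyMeasurable, ?_⟩
  rw [hasFiniteIntegral_iff_norm]
  have hb : ∀ p : E d × Xi d B k, ENNReal.ofReal ‖(P v p.1).toReal *
      (lg (P v p.1) - lg (postW w ρ (P v) (Wm w p.1 p.2)))‖ ≤
      1 + P v p.1 * ENNReal.ofReal |lg (postW w ρ (P v) (Wm w p.1 p.2))| := by
    intro p
    have hpt : P v p.1 ≠ ∞ := ne_top_of_le_ne_top ENNReal.one_ne_top (hv1 _)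
    rw [Real.norm_eq_abs, abs_mul, abs_of_nonneg ENNReal.toReal_nonneg,
      ENNReal.ofReal_mul ENNReal.toReal_nonneg, ENNReal.ofReal_toReal hpt]
    calc P v p.1 * ENNReal.ofReal |lg (P v p.1) - lg (postW w ρ (P v) (Wm w p.1 p.2))|
        ≤ P v p.1 * (ENNReal.ofReal |lg (P v p.1)| +
            ENNReal.ofReal |lg (postW w ρ (P v) (Wm w p.1 p.2))|) := by
          rw [← ENNReal.ofReal_add (abs_nonneg _) (abs_nonneg _)]
          exact mul_le_mul_right (ENNReal.ofReal_le_ofReal (abs_sub _ _)) _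
      _ = P v p.1 * ENNReal.ofReal |lg (P v p.1)| +
            P v p.1 * ENNReal.ofReal |lg (postW w ρ (P v) (Wm w p.1 p.2))| := mul_add _ _ _
      _ ≤ _ := add_le_add_left (RE.mul_lg_le (hv1 _)) _
  have hH : Measurable (fun W : Xi d B k => ENNReal.ofReal |lg (postW w ρ (P v) W)|) := by
    have := RE.measurable_lg.comp hpost
    exact (this.abs).ennreal_ofReal
  have hHW : Measurable (fun p : E d × Xi d B k =>
      ENNReal.ofReal |lg (postW w ρ (P v) (Wm w p.1 p.2))|) := hH.comp (RE.meas_Wm w)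
  refine lt_of_le_of_lt (lintegral_mono hb) ?_
  rw [lintegral_add_left measurable_const]
  have h2 : ∫⁻ p : E d × Xi d B k, P v p.1 *
      ENNReal.ofReal |lg (postW w ρ (P v) (Wm w p.1 p.2))| ∂(ρ.prod (xiM d B k)) ≤ 1 := by
    have hmm : Measurable (fun p : E d × Xi d B k => P v p.1 *
      ENNReal.ofReal |lg (postW w ρ (P v) (Wm w p.1 p.2))|) := hPv.mul hHW
    rw [lintegral_prod _ hmm.aemeasurable]
    have e1 : ∀ s : E d, ∫⁻ ξ : Xi d B k, P v s *
        ENNReal.ofReal |lg (postW w ρ (P v) (Wm w s ξ))| ∂(xiM d B k) =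
        P v s * ∫⁻ ξ : Xi d B k,
        ENNReal.ofReal |lg (postW w ρ (P v) (Wm w s ξ))| ∂(xiM d B k) := by
      intro s
      have hHs : Measurable (fun ξ : Xi d B k =>
          ENNReal.ofReal |lg (postW w ρ (P v) (Wm w s ξ))|) := hH.comp (RE.meas_Wm1 w s)
      rw [lintegral_const_mul _ hHs]
    calc ∫⁻ s : E d, (∫⁻ ξ : Xi d B k, P v s *
        ENNReal.ofReal |lg (postW w ρ (P v) (Wm w s ξ))| ∂(xiM d B k)) ∂ρ
        = ∫⁻ s : E d, P v s * ∫⁻ ξ : Xi d B k,
        ENNReal.ofReal |lg (postW w ρ (P v) (Wm w s ξ))| ∂(xiM d B k) ∂ρ := lintegral_congr e1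
      _ = ∫⁻ s, ∫⁻ ξ, postW w ρ (P v) (Wm w s ξ) *
          ENNReal.ofReal |lg (postW w ρ (P v) (Wm w s ξ))| ∂(xiM d B k) ∂ρ :=
          postW_prop hw ρ (hP v) hH
      _ ≤ ∫⁻ s : E d, ∫⁻ ξ : Xi d B k, 1 ∂(xiM d B k) ∂ρ :=
          lintegral_mono (fun s => lintegral_mono (fun ξ =>
            RE.mul_lg_le (postW_le_one hw ρ hv1 _)))
      _ = 1 := by simp
  have h3 : ∫⁻ _p : E d × Xi d B k, (1:ℝ≥0∞) ∂(ρ.prod (xiM d B k)) = 1 := by simp
  rw [h3]
  exact lt_of_le_of_lt (add_le_add_right h2 1) (by norm_num)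


namespace RE

theorem map_rep {n : ℕ} {V : Type} [MeasurableSpace V] [MeasurableSingletonClass V]
    {r : ℝ} (hr : 0 < r) (ρ : Measure (E d)) (hρ : IsProbabilityMeasure ρ)
    {f : Win d n → V} (hf : Measurable f) (l : Fin (n + 1)) (m : V) :
    ((((conc n r hr ρ hρ).rep n).prod (xiM d B k)).restrict
      {p : ((Fin (n + 1) → E d) × Win d n) × Xi d B k | f p.1.2 = m}).map
        (fun p : ((Fin (n + 1) → E d) × Win d n) × Xi d B k => (p.1.1 l, p.2)) =
      (ρ.prod (xiM d B k)).withDensity (fun q => PSr r f m q.1) := by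
  have hS : MeasurableSet {p : ((Fin (n + 1) → E d) × Win d n) × Xi d B k | f p.1.2 = m} :=
    (hf.comp (measurable_snd.comp measurable_fst)) (measurableSet_singleton m)
  have hSf : MeasurableSet (f ⁻¹' {m}) := hf (measurableSet_singleton m)
  have hT : Measurable (fun p : ((Fin (n + 1) → E d) × Win d n) × Xi d B k => (p.1.1 l, p.2)) := by
    fun_prop
  have hPS : Measurable (fun q : E d × Xi d B k => PSr r f m q.1) :=
    (measurable_PSr hf m).comp measurable_fst
  haveI : IsProbabilityMeasure ((conc n r hr ρ hρ).rep n) := Setup.rep_prob _ n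
  refine Measure.ext_of_lintegral _ (fun H hH => ?_)
  rw [lintegral_map hH hT, ← lintegral_indicator hS, lintegral_withDensity_eq_lintegral_mul _ hPS hH]
  have hI : Measurable ({p : ((Fin (n + 1) → E d) × Win d n) × Xi d B k | f p.1.2 = m}.indicator
      (fun p => H (p.1.1 l, p.2))) := (hH.comp hT).indicator hS
  rw [lintegral_prod_symm' _ hI, lintegral_prod_symm' _ (hPS.mul hH)]
  refine lintegral_congr (fun ξ => ?_)
  have hF : Measurable (fun q : E d × Win d n => (f ⁻¹' {m}).indicator (fun _ => H (q.1, ξ)) q.2) := by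
    have h2 : (fun q : E d × Win d n => (f ⁻¹' {m}).indicator (fun _ => H (q.1, ξ)) q.2) =
        (Prod.snd ⁻¹' (f ⁻¹' {m})).indicator (fun q : E d × Win d n => H (q.1, ξ)) := by
      funext q
      by_cases hq : q.2 ∈ f ⁻¹' {m}
      · rw [Set.indicator_of_mem hq, Set.indicator_of_mem (by exact hq)]
      · rw [Set.indicator_of_notMem hq, Set.indicator_of_notMem (by exact hq)]
    rw [h2]
    exact (hH.comp (by fun_prop)).indicator (measurable_snd hSf)
  have h3 := Setup.rep_single (conc n r hr ρ hρ) n l hF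
  have h4 : ∫⁻ p : (Fin (n + 1) → E d) × Win d n,
      {p : ((Fin (n + 1) → E d) × Win d n) × Xi d B k | f p.1.2 = m}.indicator
      (fun p => H (p.1.1 l, p.2)) (p, ξ) ∂((conc n r hr ρ hρ).rep n) =
      ∫⁻ p, (f ⁻¹' {m}).indicator (fun _ => H (p.1 l, ξ)) p.2 ∂((conc n r hr ρ hρ).rep n) := by
    refine lintegral_congr (fun p => ?_)
    by_cases hp : f p.2 = m
    · rw [Set.indicator_of_mem (by exact hp), Set.indicator_of_mem (by exact hp)]
    · rw [Set.indicator_of_notMem (by exact hp), Set.indicator_of_notMem (by exact hp)]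
  rw [h4, h3]
  refine lintegral_congr (fun s => ?_)
  change ∫⁻ u, winK r s u * (f ⁻¹' {m}).indicator (fun _ => H (s, ξ)) u ∂(winM d n) =
    PSr r f m s * H (s, ξ)
  unfold PSr
  rw [← lintegral_mul_const _ ((meas_winK_u r s).indicator hSf)]
  refine lintegral_congr (fun u => ?_)
  by_cases hu : u ∈ f ⁻¹' {m}
  · rw [Set.indicator_of_mem hu, Set.indicator_of_mem hu]
  · rw [Set.indicator_of_notMem hu, Set.indicator_of_notMem hu]
    simp

end RE

/-- The relative entropy of the message as an expectation under the replica law. -/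
theorem relEnt_rep {n : ℕ} {V : Type} [Fintype V] [MeasurableSpace V] [MeasurableSingletonClass V]
    {w r : ℝ} (hw : 0 < w) (hr : 0 < r) (ρ : Measure (E d)) (hρ : IsProbabilityMeasure ρ)
    {f : Win d n → V} (hf : Measurable f) (l : Fin (n + 1)) :
    Integrable (fun p : ((Fin (n + 1) → E d) × Win d n) × Xi d B k =>
        lg (PSr r f (f p.1.2) (p.1.1 l)) - lg (postW w ρ (PSr r f (f p.1.2)) (Wm w (p.1.1 l) p.2)))
        (((conc n r hr ρ hρ).rep n).prod (xiM d B k)) ∧
      ∫ p, (lg (PSr r f (f p.1.2) (p.1.1 l)) -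
          lg (postW w ρ (PSr r f (f p.1.2)) (Wm w (p.1.1 l) p.2)))
          ∂(((conc n r hr ρ hρ).rep n).prod (xiM d B k)) =
        relEnt B k w ρ (PSr r f) := by
  set μ : Measure (((Fin (n + 1) → E d) × Win d n) × Xi d B k) :=
    ((conc n r hr ρ hρ).rep n).prod (xiM d B k) with hμ
  set Φ : ((Fin (n + 1) → E d) × Win d n) × Xi d B k → ℝ := fun p =>
    lg (PSr r f (f p.1.2) (p.1.1 l)) -
      lg (postW w ρ (PSr r f (f p.1.2)) (Wm w (p.1.1 l) p.2)) with hΦ
  set S : V → Set (((Fin (n + 1) → E d) × Win d n) × Xi d B k) := fun m => {p | f p.1.2 = m} with hSdef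
  set T : ((Fin (n + 1) → E d) × Win d n) × Xi d B k → E d × Xi d B k :=
    fun p => (p.1.1 l, p.2) with hTdef
  set g : V → E d × Xi d B k → ℝ := fun m q =>
    lg (PSr r f m q.1) - lg (postW w ρ (PSr r f m) (Wm w q.1 q.2)) with hg
  have hS : ∀ m, MeasurableSet (S m) := fun m =>
    (hf.comp (measurable_snd.comp measurable_fst)) (measurableSet_singleton m)
  have hT : Measurable T := by fun_prop
  have hPm : ∀ m, Measurable (PSr r f m) := fun m => measurable_PSr hf m
  have hgm : ∀ m, Measurable (g m) := fun m => by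
    have hpost : Measurable (postW (B := B) (k := k) w ρ (PSr r f m)) := measurable_postW w ρ (hPm m)
    exact (RE.measurable_lg.comp ((hPm m).comp measurable_fst)).sub
      (RE.measurable_lg.comp (hpost.comp (RE.meas_Wm w)))
  have hI : ∀ m, Integrable (fun q : E d × Xi d B k => (PSr r f m q.1).toReal * g m q)
      (ρ.prod (xiM d B k)) := fun m =>
    relEnt_integrable hw ρ (P := PSr r f) hPm (fun s => (sum_PSr hr hf s).le) m
  have hlt : ∀ m, ∀ᵐ q ∂(ρ.prod (xiM d B k)), PSr r f m q.1 < ∞ := fun m =>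
    Filter.Eventually.of_forall (fun q => lt_of_le_of_lt (PSr_le_one hr f m q.1) ENNReal.one_lt_top)
  have hmap : ∀ m, (μ.restrict (S m)).map T =
      (ρ.prod (xiM d B k)).withDensity (fun q => PSr r f m q.1) := fun m =>
    RE.map_rep hr ρ hρ hf l m
  have hgI : ∀ m, Integrable (g m) ((μ.restrict (S m)).map T) := fun m => by
    rw [hmap m]
    have hPq : Measurable (fun q : E d × Xi d B k => PSr r f m q.1) := (hPm m).comp measurable_fst
    rw [integrable_withDensity_iff_integrable_smul' hPq (hlt m)]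
    simpa [smul_eq_mul] using hI m
  have hon : ∀ m, IntegrableOn Φ (S m) μ := fun m => by
    have h1 : Integrable (g m ∘ T) (μ.restrict (S m)) :=
      (integrable_map_measure (hgm m).aestronglyMeasurable hT.aemeasurable).mp (hgI m)
    refine IntegrableOn.congr_fun (f := g m ∘ T) h1 (fun p hp => ?_) (hS m)
    have : f p.1.2 = m := hp
    simp only [hΦ, hg, hTdef, Function.comp, this]
  have hcov : (⋃ m, S m) = Set.univ := by
    ext p
    simp [hSdef]
  have hdisj : Pairwise (Function.onFun Disjoint S) := by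
    intro a b hab
    refine Set.disjoint_left.mpr (fun p hp hq => hab ?_)
    have h1 : f p.1.2 = a := hp
    have h2 : f p.1.2 = b := hq
    rw [← h1, ← h2]
  have hint : Integrable Φ μ := by
    rw [← integrableOn_univ, ← hcov]
    exact integrableOn_finite_iUnion.mpr hon
  refine ⟨hint, ?_⟩
  rw [← setIntegral_univ, ← hcov, integral_iUnion_fintype hS hdisj hon]
  unfold relEnt
  rw [integral_finsetSum _ (fun m _ => hI m)]
  refine Finset.sum_congr rfl (fun m _ => ?_)
  calc ∫ p in S m, Φ p ∂μ = ∫ p in S m, g m (T p) ∂μ := by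
        refine setIntegral_congr_fun (hS m) (fun p hp => ?_)
        have : f p.1.2 = m := hp
        simp only [hΦ, hg, hTdef, this]
    _ = ∫ q, g m q ∂((μ.restrict (S m)).map T) :=
        (integral_map hT.aemeasurable (hgm m).aestronglyMeasurable).symm
    _ = ∫ q, (PSr r f m q.1).toReal * g m q ∂(ρ.prod (xiM d B k)) := by
        rw [hmap m]
        have hPq : Measurable (fun q : E d × Xi d B k => PSr r f m q.1) := (hPm m).comp measurable_fst
        rw [integral_withDensity_eq_integral_toReal_smul hPq (hlt m)]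
        rfl

end

end Vale.Agent.P309
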