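import Vale.Agent.Lib.P309.U1
import Vale.Agent.Lib.P309.RelEnt
import Vale.Agent.Lib.P309.PSrFacts

/-!
# P309, module FINALLB: a successful estimator forces a large potential (section 2)
-/

namespace Vale.Agent.P309

open MeasureTheory ProbabilityTheory
open scoped ENNReal RealInnerProductSpace

theorem lintegral_phi_one {r : ℝ} (hr : 0 < r) : ∫⁻ y, ENNReal.ofReal (phi r y) = 1 := by
  have h := lintegral_phi hr 0 (F := fun _ => 1) measurable_const
  simpa using h

/-- smoothed density bound -/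
theorem lintegral_phi_inner_le {d : ℕ} {w : ℝ} (hw : 0 < w) (e : E d) (c : ℝ) :
    ∫⁻ x, ENNReal.ofReal (phi w (⟪x, e⟫ + c)) ∂(stdGaussian (E d)) ≤ (ENNReal.ofReal ‖e‖)⁻¹ := by
  by_cases he : e = 0
  · subst he; simp
  have hn : 0 < ‖e‖ := norm_pos_iff.2 he
  set u : E d := ‖e‖⁻¹ • e with hu
  have hunorm : ‖u‖ = 1 := by
    rw [hu, norm_smul, norm_inv, norm_norm, inv_mul_cancel₀ hn.ne']
  have hou : Orthonormal ℝ (fun _ : Fin 1 => u) := by
    constructor
    · intro _; exact hunorm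
    · intro i j hij; exact absurd (Subsingleton.elim i j) hij
  have hm : Measurable fun t : ℝ => ENNReal.ofReal (phi w (c + ‖e‖ * t)) :=
    ENNReal.measurable_ofReal.comp ((measurable_phi w).comp (by fun_prop))
  have h1 := lintegral_orthonormal (fun _ : Fin 1 => u) hou
    (fun _ t => ENNReal.ofReal (phi w (c + ‖e‖ * t))) (fun _ => hm)
  simp only [Finset.univ_unique, Fin.default_eq_zero, Fin.isValue, Finset.prod_const,
    Finset.card_singleton, pow_one] at h1
  have h2 : ∀ x : E d, c + ‖e‖ * ⟪u, x⟫ = ⟪x, e⟫ + c := by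
    intro x
    rw [hu, real_inner_smul_left, ← mul_assoc, mul_inv_cancel₀ hn.ne', one_mul,
      real_inner_comm, add_comm]
  simp only [h2] at h1
  rw [h1]
  have hF : Measurable fun y : ℝ => ENNReal.ofReal (phi w y) :=
    ENNReal.measurable_ofReal.comp (measurable_phi w)
  have h3 := lintegral_phi hn c hF
  rw [← h3]
  calc ∫⁻ y, ENNReal.ofReal (phi ‖e‖ (y - c)) * ENNReal.ofReal (phi w y)
      ≤ ∫⁻ y, ENNReal.ofReal (‖e‖⁻¹) * ENNReal.ofReal (phi w y) := by
        refine lintegral_mono fun y => ?_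
        gcongr
        refine (phi_le hn _).trans ?_
        rw [mul_inv]
        have h4 : (1 : ℝ) ≤ Real.sqrt (2 * Real.pi) := by
          rw [Real.one_le_sqrt]
          linarith [Real.pi_gt_three]
        have h5 : (Real.sqrt (2 * Real.pi))⁻¹ ≤ 1 := inv_le_one_of_one_le₀ h4
        have h6 : 0 < ‖e‖⁻¹ := inv_pos.2 hn
        nlinarith
    _ = ENNReal.ofReal (‖e‖⁻¹) * 1 := by
        rw [lintegral_const_mul _ hF, lintegral_phi_one hw]
    _ = (ENNReal.ofReal ‖e‖)⁻¹ := by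
        rw [mul_one, ENNReal.ofReal_inv_of_pos hn]

theorem winK_eq {d n : ℕ} (r : ℝ) (s : E d) (X : Fin n → E d) (y : Fin n → ℝ) :
    winK r s ((X, y) : Win d n) = ∏ i, ENNReal.ofReal (phi r (y i - ⟪X i, s⟫)) := rfl

section

attribute [local irreducible] winK winM Dsq Wm td

theorem flb_measurable_Wm {d B k : ℕ} (w : ℝ) :
    Measurable (fun p : E d × Xi d B k => Wm w p.1 p.2) := by
  unfold Wm
  fun_prop

theorem lintegral_xiM_fst {d B k : ℕ} {f : (Fin B → E d) × (Fin B → ℝ) → ℝ≥0∞}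
    (hf : Measurable f) :
    ∫⁻ ξ, f ξ.1 ∂(xiM d B k) = ∫⁻ p, f p ∂((rows d B).prod (gs B)) := by
  unfold xiM
  exact (measurePreserving_fst (μ := (rows d B).prod (gs B))
    (ν := Measure.pi (fun _ : Fin B => gs k))).lintegral_comp hf

/-- expected likelihood of a wrong point -/
theorem lintegral_winK_Wm_le {d B k : ℕ} {w : ℝ} (hw : 0 < w) (s s' : E d) :
    ∫⁻ ξ, winK w s' (Wm w s ξ).1 ∂(xiM d B k) ≤ ((ENNReal.ofReal ‖s - s'‖)⁻¹) ^ B := by
  have hmeas : Measurable (fun p : (Fin B → E d) × (Fin B → ℝ) =>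
      winK w s' ((p.1, fun i => ⟪p.1 i, s⟫ + w * p.2 i) : Win d B)) := by
    have h1 : Measurable (fun p : (Fin B → E d) × (Fin B → ℝ) =>
        (s', ((p.1, fun i => ⟪p.1 i, s⟫ + w * p.2 i) : Win d B))) := by fun_prop
    exact (measurable_winK w).comp h1
  have h1 : ∫⁻ ξ, winK w s' (Wm w s ξ).1 ∂(xiM d B k) =
      ∫⁻ p, winK w s' ((p.1, fun i => ⟪p.1 i, s⟫ + w * p.2 i) : Win d B)
        ∂((rows d B).prod (gs B)) := by
    have : (fun ξ : Xi d B k => winK w s' (Wm w s ξ).1) =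
        fun ξ => (fun p : (Fin B → E d) × (Fin B → ℝ) =>
          winK w s' ((p.1, fun i => ⟪p.1 i, s⟫ + w * p.2 i) : Win d B)) ξ.1 := by
      funext ξ
      rw [Wm]
    rw [this]
    exact lintegral_xiM_fst hmeas
  rw [h1, lintegral_prod_symm _ hmeas.aemeasurable]
  calc ∫⁻ g, ∫⁻ X, winK w s' ((X, fun i => ⟪X i, s⟫ + w * g i) : Win d B) ∂(rows d B) ∂(gs B)
      ≤ ∫⁻ _g, ((ENNReal.ofReal ‖s - s'‖)⁻¹) ^ B ∂(gs B) := by
        refine lintegral_mono fun g => ?_
        have h2 : ∀ X : Fin B → E d, winK w s' ((X, fun i => ⟪X i, s⟫ + w * g i) : Win d B) =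
            ∏ i, (fun i (x : E d) => ENNReal.ofReal (phi w (⟪x, s - s'⟫ + w * g i))) i (X i) := by
          intro X
          rw [winK_eq]
          refine Finset.prod_congr rfl fun i _ => ?_
          simp only
          rw [inner_sub_right]
          congr 2
          ring
        simp only [h2]
        unfold rows
        rw [lintegral_pi_prod (fun _ => stdGaussian (E d))
          (fun i (x : E d) => ENNReal.ofReal (phi w (⟪x, s - s'⟫ + w * g i)))
          (fun i => ENNReal.measurable_ofReal.comp ((measurable_phi w).comp (by fun_prop)))]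
        calc ∏ i, ∫⁻ x, ENNReal.ofReal (phi w (⟪x, s - s'⟫ + w * g i)) ∂(stdGaussian (E d))
            ≤ ∏ _i : Fin B, (ENNReal.ofReal ‖s - s'‖)⁻¹ :=
              Finset.prod_le_prod' fun i _ => lintegral_phi_inner_le hw _ _
          _ = _ := by simp
    _ = ((ENNReal.ofReal ‖s - s'‖)⁻¹) ^ B := by simp

/-- second moment -/
theorem lintegral_sq_gauss : ∫⁻ t, ENNReal.ofReal (t ^ 2) ∂(gaussianReal 0 1) = 1 := by
  have h1 : MemLp id 2 (gaussianReal 0 1) := memLp_id_gaussianReal 2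
  have h2 := ofReal_variance h1
  have h3 : variance id (gaussianReal 0 1) = 1 := by
    simp
  rw [h3, evariance_eq_lintegral_ofReal] at h2
  have h4 : ∫ x, id x ∂(gaussianReal 0 1) = 0 := by
    simp
  rw [h4] at h2
  simp only [id, sub_zero, ENNReal.ofReal_one] at h2
  exact h2.symm

theorem flb_lintegral_inner_sq {d : ℕ} {s : E d} (hs : ‖s‖ = 1) :
    ∫⁻ x, ENNReal.ofReal (⟪x, s⟫ ^ 2) ∂(stdGaussian (E d)) = 1 := by
  have hou : Orthonormal ℝ (fun _ : Fin 1 => s) := by
    constructor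
    · intro _; exact hs
    · intro i j hij; exact absurd (Subsingleton.elim i j) hij
  have h1 := lintegral_orthonormal (fun _ : Fin 1 => s) hou
    (fun _ t => ENNReal.ofReal (t ^ 2)) (fun _ => by fun_prop)
  simp only [Finset.univ_unique, Fin.default_eq_zero, Fin.isValue, Finset.prod_const,
    Finset.card_singleton, pow_one] at h1
  rw [lintegral_sq_gauss] at h1
  simpa only [real_inner_comm] using h1

theorem lintegral_label_sq {d B k : ℕ} {w : ℝ} (hw : 0 < w) (hw1 : w ≤ 1) {s : E d}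
    (hs : ‖s‖ = 1) (i : Fin B) :
    ∫⁻ ξ, ENNReal.ofReal ((⟪ξ.1.1 i, s⟫ + w * ξ.1.2 i) ^ 2 / 2) ∂(xiM d B k) ≤ 2 := by
  have hm : Measurable fun p : (Fin B → E d) × (Fin B → ℝ) =>
      ENNReal.ofReal ((⟪p.1 i, s⟫ + w * p.2 i) ^ 2 / 2) := by fun_prop
  rw [lintegral_xiM_fst (k := k) hm]
  calc ∫⁻ p, ENNReal.ofReal ((⟪p.1 i, s⟫ + w * p.2 i) ^ 2 / 2) ∂((rows d B).prod (gs B))
      ≤ ∫⁻ p, (ENNReal.ofReal (⟪p.1 i, s⟫ ^ 2) + ENNReal.ofReal (p.2 i ^ 2))
          ∂((rows d B).prod (gs B)) := by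
        refine lintegral_mono fun p => ?_
        rw [← ENNReal.ofReal_add (sq_nonneg _) (sq_nonneg _)]
        refine ENNReal.ofReal_le_ofReal ?_
        have h1 : (w * p.2 i) ^ 2 ≤ p.2 i ^ 2 := by
          rw [mul_pow]
          have : w ^ 2 ≤ 1 := by nlinarith
          nlinarith [sq_nonneg (p.2 i)]
        nlinarith [sq_nonneg (⟪p.1 i, s⟫ - w * p.2 i)]
    _ = ∫⁻ p, ENNReal.ofReal (⟪p.1 i, s⟫ ^ 2) ∂((rows d B).prod (gs B)) +
          ∫⁻ p, ENNReal.ofReal (p.2 i ^ 2) ∂((rows d B).prod (gs B)) := by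
        refine lintegral_add_left ?_ _
        fun_prop
    _ = ∫⁻ X, ENNReal.ofReal (⟪X i, s⟫ ^ 2) ∂(rows d B) +
          ∫⁻ g, ENNReal.ofReal (g i ^ 2) ∂(gs B) := by
        have e1 := (measurePreserving_fst (μ := rows d B) (ν := gs B)).lintegral_comp
          (f := fun X => ENNReal.ofReal (⟪X i, s⟫ ^ 2)) (by fun_prop)
        have e2 := (measurePreserving_snd (μ := rows d B) (ν := gs B)).lintegral_comp
          (f := fun g => ENNReal.ofReal (g i ^ 2)) (by fun_prop)
        rw [e1, e2]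
    _ = 1 + 1 := by
        unfold rows gs
        have e1 := (measurePreserving_eval (fun _ : Fin B => stdGaussian (E d)) i).lintegral_comp
          (f := fun x => ENNReal.ofReal (⟪x, s⟫ ^ 2)) (by fun_prop)
        have e2 := (measurePreserving_eval (fun _ : Fin B => gaussianReal 0 1) i).lintegral_comp
          (f := fun x => ENNReal.ofReal (x ^ 2)) (by fun_prop)
        simp only [Function.eval] at e1 e2
        rw [e1, e2, flb_lintegral_inner_sq hs, lintegral_sq_gauss]
    _ = 2 := by norm_num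

theorem flb_measurable_winK {d B k : ℕ} (w : ℝ) (s : E d) :
    Measurable (fun W : Xi d B k => winK w s W.1) := by
  have h1 : Measurable (fun W : Xi d B k => (s, W.1)) := by fun_prop
  exact (measurable_winK w).comp h1

theorem flb_measurable_winK2 {d B k : ℕ} (w : ℝ) :
    Measurable (fun p : E d × Xi d B k => winK w p.1 p.2.1) := by
  have h1 : Measurable (fun p : E d × Xi d B k => (p.1, p.2.1)) := by fun_prop
  exact (measurable_winK w).comp h1

theorem flb_measurable_int {d B k : ℕ} (w : ℝ) (ρ : Measure (E d)) [IsProbabilityMeasure ρ]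
    {g : E d → ℝ≥0∞} (hg : Measurable g) :
    Measurable (fun W : Xi d B k => ∫⁻ s, g s * winK w s W.1 ∂ρ) := by
  have h1 : Measurable (fun p : Xi d B k × E d => g p.2 * winK w p.2 p.1.1) := by
    have h2 : Measurable (fun p : Xi d B k × E d => (p.2, p.1.1)) := by fun_prop
    exact (hg.comp measurable_snd).mul ((measurable_winK w).comp h2)
  exact h1.lintegral_prod_right'

/-- the reference density for the labels -/
theorem flb_G1 {d B k : ℕ} {w : ℝ} (hw : 0 < w) (ρ : Measure (E d)) [IsProbabilityMeasure ρ] :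
    ∫⁻ s, ∫⁻ ξ, winK 1 (0 : E d) (Wm w s ξ).1 / (∫⁻ s', winK w s' (Wm w s ξ).1 ∂ρ)
      ∂(xiM d B k) ∂ρ ≤ 1 := by
  have hq : Measurable (fun W : Xi d B k => ∫⁻ s, winK w s W.1 ∂ρ) := by
    have := flb_measurable_int (k := k) (B := B) w ρ (g := fun _ => 1) measurable_const
    simpa only [one_mul] using this
  have hh : Measurable (fun W : Xi d B k => winK 1 (0 : E d) W.1 / (∫⁻ s, winK w s W.1 ∂ρ)) :=
    (flb_measurable_winK 1 0).div hq
  have h1 : ∀ s : E d, ∫⁻ ξ, winK 1 (0 : E d) (Wm w s ξ).1 / (∫⁻ s', winK w s' (Wm w s ξ).1 ∂ρ)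
      ∂(xiM d B k) = ∫⁻ W, winK w s W.1 *
        (winK 1 (0 : E d) W.1 / (∫⁻ s', winK w s' W.1 ∂ρ))
        ∂((winM d B).prod (Measure.pi (fun _ : Fin B => gs k))) := fun s =>
    lintegral_Wm hw s hh
  simp only [h1]
  have hm : Measurable (Function.uncurry fun (s : E d) (W : Xi d B k) => winK w s W.1 *
        (winK 1 (0 : E d) W.1 / (∫⁻ s', winK w s' W.1 ∂ρ))) :=
    (flb_measurable_winK2 w).mul (hh.comp measurable_snd)
  rw [lintegral_lintegral_swap hm.aemeasurable]
  calc ∫⁻ W, ∫⁻ s, winK w s W.1 * (winK 1 (0 : E d) W.1 / (∫⁻ s', winK w s' W.1 ∂ρ)) ∂ρ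
        ∂((winM d B).prod (Measure.pi (fun _ : Fin B => gs k)))
      ≤ ∫⁻ W, winK 1 (0 : E d) W.1 ∂((winM d B).prod (Measure.pi (fun _ : Fin B => gs k))) := by
        refine lintegral_mono fun W => ?_
        have hms : Measurable fun s : E d => winK w s W.1 := by
          have h2 : Measurable (fun s : E d => (s, W.1)) := by fun_prop
          exact (measurable_winK w).comp h2
        rw [lintegral_mul_const _ hms]
        exact ENNReal.mul_div_le
    _ = 1 := by
        have h3 := lintegral_Wm (d := d) (B := B) (k := k) one_pos (0 : E d)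
          (h := fun _ => 1) measurable_const
        simp only [mul_one, lintegral_const, measure_univ] at h3
        exact h3.symm

/-- negative moments of the distance to a point -/
theorem flb_U1 : ∃ C : ℝ, 1 ≤ C ∧ ∀ d n : ℕ, 1 ≤ n → 128 * n ≤ d → ∀ x : E d,
    ∫⁻ s, ((ENNReal.ofReal ‖x - s‖)⁻¹) ^ (12 * n) ∂(unif d) ≤ ENNReal.ofReal (C ^ d) := by
  obtain ⟨C, hC1, hU⟩ := U1
  refine ⟨C, hC1, fun d n hn hd x => ?_⟩
  have h1 := hU d n (12 * n) hn hd le_rfl (Submodule.span ℝ {x}) (by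
    refine (finrank_span_le_card (R := ℝ) ({x} : Set (E d))).trans ?_
    simp)
  refine le_trans (lintegral_mono fun s => ?_) h1
  have h2 : Metric.infDist s ((Submodule.span ℝ {x} : Submodule ℝ (E d)) : Set (E d)) ≤
      ‖x - s‖ := by
    have := Metric.infDist_le_dist_of_mem (x := s)
      (Submodule.mem_span_singleton_self (R := ℝ) x)
    rwa [dist_comm, dist_eq_norm] at this
  gcongr

theorem flb_pow_le (a b : ℝ≥0∞) (n : ℕ) :
    a ^ (4 * n) * b ^ (8 * n) ≤ a ^ (12 * n) + b ^ (12 * n) := by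
  have e : 12 * n = 4 * n + 8 * n := by ring
  rcases le_total a b with h | h
  · calc a ^ (4 * n) * b ^ (8 * n) ≤ b ^ (4 * n) * b ^ (8 * n) := by gcongr
      _ = b ^ (12 * n) := by rw [← pow_add, ← e]
      _ ≤ _ := le_add_self
  · calc a ^ (4 * n) * b ^ (8 * n) ≤ a ^ (4 * n) * a ^ (8 * n) := by gcongr
      _ = a ^ (12 * n) := by rw [← pow_add, ← e]
      _ ≤ _ := le_self_add

/-- expected weighted likelihood -/
theorem flb_G2 {d n k : ℕ} {w : ℝ} (hw : 0 < w) {M : ℝ≥0∞}
    (hU : ∀ x : E d, ∫⁻ s, ((ENNReal.ofReal ‖x - s‖)⁻¹) ^ (12 * n) ∂(unif d) ≤ M)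
    (o : E d) {g : E d → ℝ≥0∞} (hg : Measurable g)
    (hgle : ∀ s, g s ≤ ((ENNReal.ofReal ‖o - s‖)⁻¹) ^ (4 * n)) (s : E d) :
    ∫⁻ ξ, ∫⁻ s', g s' * winK w s' (Wm w s ξ).1 ∂(unif d) ∂(xiM d (8 * n) k) ≤ 2 * M := by
  have hm : Measurable (Function.uncurry fun (ξ : Xi d (8 * n) k) (s' : E d) =>
      g s' * winK w s' (Wm w s ξ).1) := by
    have h1 : Measurable (fun p : Xi d (8 * n) k × E d => (p.2, (Wm w s p.1).1)) := by
      refine measurable_snd.prodMk ?_
      have h2 : Measurable fun p : Xi d (8 * n) k × E d => (s, p.1) :=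
        measurable_const.prodMk measurable_fst
      exact measurable_fst.comp ((flb_measurable_Wm w).comp h2)
    exact (hg.comp measurable_snd).mul ((measurable_winK w).comp h1)
  rw [lintegral_lintegral_swap hm.aemeasurable]
  calc ∫⁻ s', ∫⁻ ξ, g s' * winK w s' (Wm w s ξ).1 ∂(xiM d (8 * n) k) ∂(unif d)
      ≤ ∫⁻ s', (((ENNReal.ofReal ‖o - s'‖)⁻¹) ^ (12 * n) +
          ((ENNReal.ofReal ‖s - s'‖)⁻¹) ^ (12 * n)) ∂(unif d) := by
        refine lintegral_mono fun s' => ?_
        have hm2 : Measurable fun ξ : Xi d (8 * n) k => winK w s' (Wm w s ξ).1 := by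
          have h2 : Measurable fun ξ : Xi d (8 * n) k => (s, ξ) :=
            measurable_const.prodMk measurable_id
          exact (flb_measurable_winK w s').comp ((flb_measurable_Wm w).comp h2)
        rw [lintegral_const_mul _ hm2]
        refine le_trans ?_ (flb_pow_le _ _ n)
        exact mul_le_mul' (hgle s') (lintegral_winK_Wm_le hw s s')
    _ = ∫⁻ s', ((ENNReal.ofReal ‖o - s'‖)⁻¹) ^ (12 * n) ∂(unif d) +
          ∫⁻ s', ((ENNReal.ofReal ‖s - s'‖)⁻¹) ^ (12 * n) ∂(unif d) := by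
        refine lintegral_add_left ?_ _
        fun_prop
    _ ≤ M + M := add_le_add (hU o) (hU s)
    _ = 2 * M := (two_mul M).symm

/-- the posterior ratio -/
theorem flb_G3 {d B k : ℕ} {w : ℝ} (hw : 0 < w) (ρ : Measure (E d)) [IsProbabilityMeasure ρ]
    {V : Type} [Fintype V] (P : V → E d → ℝ≥0∞) (hP : ∀ v, Measurable (P v))
    (hP1 : ∀ s, ∑ v, P v s = 1) (φ : V → E d → ℝ≥0∞) (hφ : ∀ v, Measurable (φ v)) :
    ∫⁻ s, ∫⁻ ξ, ∑ v, φ v s * ((postW w ρ (φ v) (Wm w s ξ))⁻¹ * postW w ρ (P v) (Wm w s ξ))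
      ∂(xiM d B k) ∂ρ ≤ 1 := by
  have hWm : ∀ s : E d, Measurable fun ξ : Xi d B k => Wm w s ξ := fun s => by
    have h2 : Measurable fun ξ : Xi d B k => (s, ξ) := measurable_const.prodMk measurable_id
    exact (flb_measurable_Wm w).comp h2
  have hh : ∀ v, Measurable fun W : Xi d B k => (postW w ρ (φ v) W)⁻¹ * postW w ρ (P v) W :=
    fun v => (measurable_postW w ρ (hφ v)).inv.mul (measurable_postW w ρ (hP v))
  have hhW : Measurable fun p : E d × Xi d B k => Wm w p.1 p.2 := flb_measurable_Wm w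
  calc ∫⁻ s, ∫⁻ ξ, ∑ v, φ v s * ((postW w ρ (φ v) (Wm w s ξ))⁻¹ * postW w ρ (P v) (Wm w s ξ))
        ∂(xiM d B k) ∂ρ
      = ∑ v, ∫⁻ s, φ v s * ∫⁻ ξ, (fun W : Xi d B k => (postW w ρ (φ v) W)⁻¹ * postW w ρ (P v) W)
          (Wm w s ξ) ∂(xiM d B k) ∂ρ := by
        have e1 : ∀ s, ∫⁻ ξ, ∑ v, φ v s *
            ((postW w ρ (φ v) (Wm w s ξ))⁻¹ * postW w ρ (P v) (Wm w s ξ)) ∂(xiM d B k) =
            ∑ v, φ v s * ∫⁻ ξ, (fun W : Xi d B k => (postW w ρ (φ v) W)⁻¹ * postW w ρ (P v) W)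
              (Wm w s ξ) ∂(xiM d B k) := by
          intro s
          have hhs : ∀ v, Measurable fun ξ : Xi d B k =>
              (postW w ρ (φ v) (Wm w s ξ))⁻¹ * postW w ρ (P v) (Wm w s ξ) := fun v =>
            (hh v).comp (hWm s)
          rw [lintegral_finsetSum _ (fun v _ => (hhs v).const_mul _)]
          refine Finset.sum_congr rfl fun v _ => ?_
          exact lintegral_const_mul _ (hhs v)
        simp only [e1]
        refine lintegral_finsetSum _ fun v _ => (hφ v).mul ?_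
        exact ((hh v).comp hhW).lintegral_prod_right'
    _ = ∑ v, ∫⁻ s, ∫⁻ ξ, postW w ρ (φ v) (Wm w s ξ) *
          (fun W : Xi d B k => (postW w ρ (φ v) W)⁻¹ * postW w ρ (P v) W) (Wm w s ξ)
          ∂(xiM d B k) ∂ρ := Finset.sum_congr rfl fun v _ => postW_prop hw ρ (hφ v) (hh v)
    _ ≤ ∑ v, ∫⁻ s, ∫⁻ ξ, postW w ρ (P v) (Wm w s ξ) ∂(xiM d B k) ∂ρ := by
        refine Finset.sum_le_sum fun v _ => lintegral_mono fun s => lintegral_mono fun ξ => ?_
        simp only
        rw [← mul_assoc]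
        calc postW w ρ (φ v) (Wm w s ξ) * (postW w ρ (φ v) (Wm w s ξ))⁻¹ *
              postW w ρ (P v) (Wm w s ξ) ≤ 1 * postW w ρ (P v) (Wm w s ξ) := by
              gcongr
              exact ENNReal.mul_inv_le_one _
          _ = _ := one_mul _
    _ = ∫⁻ s, ∫⁻ ξ, ∑ v, postW w ρ (P v) (Wm w s ξ) ∂(xiM d B k) ∂ρ := by
        have e1 : ∀ s, ∫⁻ ξ, ∑ v, postW w ρ (P v) (Wm w s ξ) ∂(xiM d B k) =
            ∑ v, ∫⁻ ξ, postW w ρ (P v) (Wm w s ξ) ∂(xiM d B k) := fun s =>
          lintegral_finsetSum _ (fun v _ => (measurable_postW w ρ (hP v)).comp (hWm s))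
        simp only [e1]
        refine (lintegral_finsetSum _ fun v _ => ?_).symm
        exact ((measurable_postW w ρ (hP v)).comp hhW).lintegral_prod_right'
    _ ≤ ∫⁻ _s, ∫⁻ _ξ, 1 ∂(xiM d B k) ∂ρ := by
        refine lintegral_mono fun s => lintegral_mono fun ξ => ?_
        rw [← postW_sum w ρ hP]
        exact postW_le_one hw ρ (fun s => (hP1 s).le) _
    _ = 1 := by simp

/-- the real inequality -/
theorem flb_real {ι : Type} [Fintype ι] (P φ I p : ι → ℝ) (q r Cd : ℝ) (hP : ∀ v, 0 ≤ P v)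
    (hP1 : ∑ v, P v = 1) (hφ : ∀ v, 0 < φ v) (hI : ∀ v, 0 < I v) (hq : 0 < q) (hr : 0 < r)
    (hCd : 0 < Cd) (hp : ∀ v, 0 ≤ p v) (hp0 : ∀ v, P v = 0 ∨ 0 < p v) :
    ∑ v, P v * Real.log (φ v) + 3 - Real.log Cd + Real.log r - r / q -
        ∑ v, P v * (I v / Cd) - ∑ v, φ v * ((I v / q)⁻¹ * p v) ≤
      ∑ v, P v * (Real.log (P v) - Real.log (p v)) := by
  have hlog : ∀ x : ℝ, 0 < x → Real.log x ≤ x - 1 := fun x hx => Real.log_le_sub_one_of_pos hx
  have h1 : ∀ v, P v * Real.log (φ v) + P v * (3 - Real.log Cd + Real.log r - r / q) -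
      P v * (I v / Cd) - φ v * ((I v / q)⁻¹ * p v) ≤
      P v * (Real.log (P v) - Real.log (p v)) := by
    intro v
    have hnn : 0 ≤ φ v * ((I v / q)⁻¹ * p v) :=
      mul_nonneg (hφ v).le (mul_nonneg (inv_nonneg.2 (div_nonneg (hI v).le hq.le)) (hp v))
    rcases (hP v).eq_or_lt with h0 | h0
    · rw [← h0]; simp only [zero_mul]; linarith
    have hpv : 0 < p v := (hp0 v).resolve_left h0.ne'
    have e1 := hlog (φ v * ((I v / q)⁻¹ * p v) / P v)
      (by have := hφ v; have := hI v; positivity)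
    rw [Real.log_div (by have := hφ v; have := hI v; positivity) h0.ne',
      Real.log_mul (hφ v).ne' (by have := hI v; positivity),
      Real.log_mul (by have := hI v; positivity) hpv.ne', Real.log_inv,
      Real.log_div (hI v).ne' hq.ne'] at e1
    have e2 := hlog (I v / Cd) (div_pos (hI v) hCd)
    rw [Real.log_div (hI v).ne' hCd.ne'] at e2
    have e3 := hlog (r / q) (div_pos hr hq)
    rw [Real.log_div hr.ne' hq.ne'] at e3
    have e4 := mul_le_mul_of_nonneg_left e1 h0.le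
    have e5 : P v * (φ v * ((I v / q)⁻¹ * p v) / P v - 1) =
        φ v * ((I v / q)⁻¹ * p v) - P v := by
      field_simp
    rw [e5] at e4
    have e6 := mul_le_mul_of_nonneg_left e2 h0.le
    have e7 := mul_le_mul_of_nonneg_left e3 h0.le
    nlinarith
  have h2 := Finset.sum_le_sum (s := Finset.univ) (fun v _ => h1 v)
  rw [Finset.sum_sub_distrib, Finset.sum_sub_distrib, Finset.sum_add_distrib, ← Finset.sum_mul,
    hP1, one_mul] at h2
  linarith

theorem log_ref {d B k : ℕ} (W : Xi d B k) :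
    Real.log (winK 1 (0 : E d) W.1).toReal =
      -(B * Real.log (Real.sqrt (2 * Real.pi))) - ∑ i, W.1.2 i ^ 2 / 2 := by
  have h1 : winK 1 (0 : E d) W.1 = ∏ i, ENNReal.ofReal (phi 1 (W.1.2 i)) := by
    rw [winK]
    simp
  rw [h1, ENNReal.toReal_prod, Real.log_prod]
  · have h2 : ∀ i, Real.log (ENNReal.ofReal (phi 1 (W.1.2 i))).toReal =
        -Real.log (Real.sqrt (2 * Real.pi)) - W.1.2 i ^ 2 / 2 := by
      intro i
      rw [ENNReal.toReal_ofReal (phi_pos one_pos _).le]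
      unfold phi
      rw [Real.log_mul (by positivity) (Real.exp_pos _).ne', Real.log_exp, mul_one, Real.log_inv]
      ring
    simp only [h2]
    rw [Finset.sum_sub_distrib, Finset.sum_const, Finset.card_univ, Fintype.card_fin,
      nsmul_eq_mul]
    ring
  · intro i _
    rw [ENNReal.toReal_ofReal (phi_pos one_pos _).le]
    exact (phi_pos one_pos _).ne'

theorem winK_ne_zero' {d n : ℕ} {r : ℝ} (hr : 0 < r) (s : E d) (u : Win d n) :
    winK r s u ≠ 0 := by
  rw [winK, Finset.prod_ne_zero_iff]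
  intro i _
  exact (ENNReal.ofReal_pos.2 (phi_pos hr _)).ne'

theorem winK_le' {d n : ℕ} {r : ℝ} (hr : 0 < r) (s : E d) (u : Win d n) :
    winK r s u ≤ ENNReal.ofReal ((Real.sqrt (2 * Real.pi) * r)⁻¹) ^ n := by
  rw [winK]
  calc ∏ i, ENNReal.ofReal (phi r (u.2 i - ⟪u.1 i, s⟫))
      ≤ ∏ _i : Fin n, ENNReal.ofReal ((Real.sqrt (2 * Real.pi) * r)⁻¹) :=
        Finset.prod_le_prod' fun i _ => ENNReal.ofReal_le_ofReal (phi_le hr _)
    _ = _ := by simp

theorem winK_ne_top' {d n : ℕ} {r : ℝ} (hr : 0 < r) (s : E d) (u : Win d n) :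
    winK r s u ≠ ∞ :=
  ne_top_of_le_ne_top (ENNReal.pow_ne_top ENNReal.ofReal_ne_top) (winK_le' hr s u)

theorem flb_int_ne_zero {d B k : ℕ} {w : ℝ} (hw : 0 < w) (ρ : Measure (E d))
    {g : E d → ℝ≥0∞} (hg : Measurable g) (W : Xi d B k)
    (h0 : ∫⁻ s, g s * winK w s W.1 ∂ρ = 0) : ∀ᵐ s ∂ρ, g s = 0 := by
  have hm : Measurable fun s : E d => g s * winK w s W.1 := by
    have h2 : Measurable (fun s : E d => (s, W.1)) := by fun_prop
    exact hg.mul ((measurable_winK w).comp h2)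
  rw [lintegral_eq_zero_iff hm] at h0
  filter_upwards [h0] with s hs
  exact (mul_eq_zero.1 hs).resolve_right (winK_ne_zero' hw s W.1)

theorem flb_int_ne_top {d B k : ℕ} {w : ℝ} (hw : 0 < w) (ρ : Measure (E d))
    [IsProbabilityMeasure ρ] {g : E d → ℝ≥0∞} {M : ℝ≥0∞} (hM : M ≠ ∞) (hg : ∀ s, g s ≤ M)
    (W : Xi d B k) : ∫⁻ s, g s * winK w s W.1 ∂ρ ≠ ∞ := by
  refine ne_top_of_le_ne_top ?_ (lintegral_mono (g := fun _ =>
    M * ENNReal.ofReal ((Real.sqrt (2 * Real.pi) * w)⁻¹) ^ B) fun s => ?_)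
  · rw [lintegral_const, measure_univ, mul_one]
    exact ENNReal.mul_ne_top hM (ENNReal.pow_ne_top ENNReal.ofReal_ne_top)
  · exact mul_le_mul' (hg s) (winK_le' hw s W.1)

theorem lintegral_fst_xiM {d B k : ℕ} (ρ : Measure (E d)) [IsProbabilityMeasure ρ]
    {f : E d → ℝ≥0∞} (hf : Measurable f) :
    ∫⁻ p, f p.1 ∂(ρ.prod (xiM d B k)) = ∫⁻ s, f s ∂ρ :=
  (measurePreserving_fst (μ := ρ) (ν := xiM d B k)).lintegral_comp hf

/-- lower bound for the logarithm of the score -/
theorem flb_score {d n : ℕ} {V : Type} [Fintype V] (P : V → E d → ℝ≥0∞) (out : V → E d)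
    {ε : ℝ} (hε : 0 < ε) (s : E d) (hs : ‖s‖ = 1) (hε1 : ε ≤ 1)
    (hout : ∀ v, ‖out v‖ = 1) (hP1 : ∑ v, P v s = 1) :
    4 * n * ((Real.log (1 / ε) + Real.log 2) *
      (∑ v, P v s * ({s | ‖out v - s‖ ≤ ε}.indicator (fun _ => 1) s)).toReal - Real.log 2) ≤
    ∑ v, (P v s).toReal *
      Real.log ((((ENNReal.ofReal (max ‖out v - s‖ ε))⁻¹) ^ (4 * n)).toReal) := by
  have hfin : ∀ v, P v s ≠ ∞ := fun v => by
    refine ne_top_of_le_ne_top ENNReal.one_ne_top (hP1 ▸ ?_)
    exact Finset.single_le_sum (f := fun v => P v s) (fun _ _ => zero_le) (Finset.mem_univ v)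
  have hsum1 : ∑ v, (P v s).toReal = 1 := by
    rw [← ENNReal.toReal_sum (fun v _ => hfin v), hP1, ENNReal.toReal_one]
  have hT : (∑ v, P v s * ({s | ‖out v - s‖ ≤ ε}.indicator (fun _ => 1) s)).toReal =
      ∑ v, (P v s).toReal * (if ‖out v - s‖ ≤ ε then 1 else 0) := by
    rw [ENNReal.toReal_sum]
    · refine Finset.sum_congr rfl fun v _ => ?_
      by_cases h : ‖out v - s‖ ≤ ε
      · rw [Set.indicator_of_mem (by exact h), if_pos h]; simp
      · rw [Set.indicator_of_notMem (by exact h), if_neg h]; simp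
    · intro v _
      refine ENNReal.mul_ne_top (hfin v) ?_
      by_cases h : ‖out v - s‖ ≤ ε
      · rw [Set.indicator_of_mem (by exact h)]; simp
      · rw [Set.indicator_of_notMem (by exact h)]; simp
  rw [hT]
  have e1 : 4 * (n : ℝ) * ((Real.log (1 / ε) + Real.log 2) *
      (∑ v, (P v s).toReal * (if ‖out v - s‖ ≤ ε then 1 else 0)) - Real.log 2) =
      ∑ v, (P v s).toReal * (4 * n * ((Real.log (1 / ε) + Real.log 2) *
        (if ‖out v - s‖ ≤ ε then 1 else 0) - Real.log 2)) := by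
    have e2 : ∑ v, (P v s).toReal * (4 * n * ((Real.log (1 / ε) + Real.log 2) *
        (if ‖out v - s‖ ≤ ε then 1 else 0) - Real.log 2)) =
        4 * n * (Real.log (1 / ε) + Real.log 2) *
          (∑ v, (P v s).toReal * (if ‖out v - s‖ ≤ ε then 1 else 0)) -
        4 * n * Real.log 2 * ∑ v, (P v s).toReal := by
      rw [Finset.mul_sum, Finset.mul_sum, ← Finset.sum_sub_distrib]
      refine Finset.sum_congr rfl fun v _ => ?_
      ring
    rw [e2, hsum1]
    ring
  rw [e1]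
  refine Finset.sum_le_sum fun v _ => mul_le_mul_of_nonneg_left ?_ ENNReal.toReal_nonneg
  have hm : 0 < max ‖out v - s‖ ε := lt_max_of_lt_right hε
  have e3 : Real.log ((((ENNReal.ofReal (max ‖out v - s‖ ε))⁻¹) ^ (4 * n)).toReal) =
      4 * n * (-Real.log (max ‖out v - s‖ ε)) := by
    rw [ENNReal.toReal_pow, ENNReal.toReal_inv, ENNReal.toReal_ofReal hm.le, Real.log_pow,
      Real.log_inv]
    push_cast
    ring
  rw [e3]
  refine mul_le_mul_of_nonneg_left ?_ (by positivity)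
  by_cases h : ‖out v - s‖ ≤ ε
  · rw [if_pos h, max_eq_right h, one_div, Real.log_inv]
    linarith
  · rw [if_neg h]
    have h2 : max ‖out v - s‖ ε ≤ 2 := by
      refine max_le ?_ (by linarith)
      calc ‖out v - s‖ ≤ ‖out v‖ + ‖s‖ := norm_sub_le _ _
        _ = 2 := by rw [hout, hs]; norm_num
    have h3 := Real.log_le_log hm h2
    linarith

theorem final_lb : ∃ C : ℝ, 1 ≤ C ∧ ∀ (d n k : ℕ), 1 ≤ n → 128 * n ≤ d →
    ∀ (w ε : ℝ), 0 < w → w ≤ 1 → 0 < ε → ε ≤ 1 →
    ∀ (V : Type) [Fintype V] (P : V → E d → ℝ≥0∞), (∀ v, Measurable (P v)) →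
    (∀ s, ∑ v, P v s = 1) → ∀ (out : V → E d), (∀ v, ‖out v‖ = 1) →
    (ENNReal.ofReal (3 / 5) ≤
      ∫⁻ s, ∑ v, P v s * ({s | ‖out v - s‖ ≤ ε}.indicator (fun _ => 1) s) ∂(unif d)) →
    12 / 5 * n * Real.log (1 / ε) - C * d ≤ relEnt (8 * n) k w (unif d) P := by
  obtain ⟨C, hC1, hU⟩ := flb_U1
  have hlogC : 0 ≤ Real.log C := Real.log_nonneg hC1
  refine ⟨Real.log C + 40, by linarith, ?_⟩
  intro d n k hn hd w ε hw hw1 hε hε1 V _ P hP hP1 out hout hsucc
  have hC0 : 0 < C := by linarith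
  have hCd : 0 < C ^ d := by positivity
  have hd1 : 1 ≤ d := by omega
  have hUd := hU d n hn hd
  -- abbreviations
  let φ : V → E d → ℝ≥0∞ := fun v s => ((ENNReal.ofReal (max ‖out v - s‖ ε))⁻¹) ^ (4 * n)
  have hφm : ∀ v, Measurable (φ v) := fun v => by
    change Measurable fun s => ((ENNReal.ofReal (max ‖out v - s‖ ε))⁻¹) ^ (4 * n)
    fun_prop
  have hφ0 : ∀ v s, φ v s ≠ 0 := fun v s => by
    refine pow_ne_zero _ (ENNReal.inv_ne_zero.2 ENNReal.ofReal_ne_top)
  have hφle : ∀ v s, φ v s ≤ ((ENNReal.ofReal ε)⁻¹) ^ (4 * n) := fun v s => by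
    change ((ENNReal.ofReal (max ‖out v - s‖ ε))⁻¹) ^ (4 * n) ≤ _
    gcongr
    exact le_max_right _ _
  have hMtop : ((ENNReal.ofReal ε)⁻¹) ^ (4 * n) ≠ ∞ :=
    ENNReal.pow_ne_top (ENNReal.inv_ne_top.2 (ENNReal.ofReal_pos.2 hε).ne')
  have hφtop : ∀ v s, φ v s ≠ ∞ := fun v s => ne_top_of_le_ne_top hMtop (hφle v s)
  have hφle2 : ∀ v s, φ v s ≤ ((ENNReal.ofReal ‖out v - s‖)⁻¹) ^ (4 * n) := fun v s => by
    change ((ENNReal.ofReal (max ‖out v - s‖ ε))⁻¹) ^ (4 * n) ≤ _
    gcongr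
    exact le_max_left _ _
  let q : Xi d (8 * n) k → ℝ≥0∞ := fun W => ∫⁻ s, winK w s W.1 ∂(unif d)
  let I : V → Xi d (8 * n) k → ℝ≥0∞ := fun v W => ∫⁻ s, φ v s * winK w s W.1 ∂(unif d)
  have hqm : Measurable q := by
    have := flb_measurable_int (k := k) (B := 8 * n) w (unif d) (g := fun _ => 1) measurable_const
    simpa only [one_mul] using this
  have hIm : ∀ v, Measurable (I v) := fun v => flb_measurable_int w (unif d) (hφm v)
  have hq0 : ∀ W, q W ≠ 0 := fun W h0 => by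
    have h1 : ∫⁻ s, (fun _ => 1) s * winK w s W.1 ∂(unif d) = 0 := by
      simpa only [one_mul] using h0
    have h2 := flb_int_ne_zero hw (unif d) (g := fun _ => 1) measurable_const W h1
    have h3 := h2.exists
    obtain ⟨_, h4⟩ := h3
    exact one_ne_zero h4
  have hqt : ∀ W, q W ≠ ∞ := fun W => by
    have := flb_int_ne_top hw (unif d) (g := fun _ => 1) ENNReal.one_ne_top (fun _ => le_rfl) W
    simpa only [one_mul] using this
  have hI0 : ∀ v W, I v W ≠ 0 := fun v W h0 => by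
    have h2 := flb_int_ne_zero hw (unif d) (hφm v) W h0
    obtain ⟨s, h4⟩ := h2.exists
    exact hφ0 v s h4
  have hIt : ∀ v W, I v W ≠ ∞ := fun v W => flb_int_ne_top hw (unif d) hMtop (hφle v) W
  have hpostφ : ∀ v W, postW w (unif d) (φ v) W = I v W / q W := fun v W => rfl
  have hWm : Measurable fun p : E d × Xi d (8 * n) k => Wm w p.1 p.2 := flb_measurable_Wm w
  -- the four costs
  let g1 : E d × Xi d (8 * n) k → ℝ≥0∞ := fun p =>
    winK 1 (0 : E d) (Wm w p.1 p.2).1 / q (Wm w p.1 p.2)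
  let g2 : E d × Xi d (8 * n) k → ℝ≥0∞ := fun p =>
    ∑ v, P v p.1 * (I v (Wm w p.1 p.2) / (2 * ENNReal.ofReal (C ^ d)))
  let g3 : E d × Xi d (8 * n) k → ℝ≥0∞ := fun p =>
    ∑ v, φ v p.1 * ((postW w (unif d) (φ v) (Wm w p.1 p.2))⁻¹ *
      postW w (unif d) (P v) (Wm w p.1 p.2))
  let g4 : E d × Xi d (8 * n) k → ℝ≥0∞ := fun p =>
    ∑ i, ENNReal.ofReal ((⟪p.2.1.1 i, p.1⟫ + w * p.2.1.2 i) ^ 2 / 2)
  have hg1m : Measurable g1 := ((flb_measurable_winK 1 0).comp hWm).div (hqm.comp hWm)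
  have hg2m : Measurable g2 := by
    refine Finset.measurable_fun_sum _ fun v _ => ?_
    exact ((hP v).comp measurable_fst).mul (((hIm v).comp hWm).div_const _)
  have hg3m : Measurable g3 := by
    refine Finset.measurable_fun_sum _ fun v _ => ?_
    exact ((hφm v).comp measurable_fst).mul
      (((measurable_postW w (unif d) (hφm v)).comp hWm).inv.mul
        ((measurable_postW w (unif d) (hP v)).comp hWm))
  have hg4m : Measurable g4 := by
    refine Finset.measurable_fun_sum _ fun i _ => ?_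
    fun_prop
  have hi1 : ∫⁻ p, g1 p ∂((unif d).prod (xiM d (8 * n) k)) ≤ 1 := by
    rw [lintegral_prod _ hg1m.aemeasurable]
    exact flb_G1 hw (unif d)
  have hi3 : ∫⁻ p, g3 p ∂((unif d).prod (xiM d (8 * n) k)) ≤ 1 := by
    rw [lintegral_prod _ hg3m.aemeasurable]
    exact flb_G3 hw (unif d) P hP hP1 φ hφm
  have hM0 : (2 * ENNReal.ofReal (C ^ d)) ≠ 0 :=
    mul_ne_zero two_ne_zero (ENNReal.ofReal_pos.2 hCd).ne'
  have hMt : (2 * ENNReal.ofReal (C ^ d)) ≠ ∞ :=
    ENNReal.mul_ne_top (by norm_num) ENNReal.ofReal_ne_top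
  have hi2 : ∫⁻ p, g2 p ∂((unif d).prod (xiM d (8 * n) k)) ≤ 1 := by
    rw [lintegral_prod _ hg2m.aemeasurable]
    calc ∫⁻ s, ∫⁻ ξ, g2 (s, ξ) ∂(xiM d (8 * n) k) ∂(unif d)
        ≤ ∫⁻ s, ∑ v, P v s * 1 ∂(unif d) := by
          refine lintegral_mono fun s => ?_
          have hs2 : Measurable fun ξ : Xi d (8 * n) k => Wm w s ξ := by
            have h2 : Measurable fun ξ : Xi d (8 * n) k => (s, ξ) :=
              measurable_const.prodMk measurable_id
            exact hWm.comp h2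
          have hs3 : ∀ v, Measurable fun ξ : Xi d (8 * n) k =>
              I v (Wm w s ξ) / (2 * ENNReal.ofReal (C ^ d)) := fun v =>
            ((hIm v).comp hs2).div_const _
          have e1 : ∫⁻ ξ, g2 (s, ξ) ∂(xiM d (8 * n) k) = ∑ v, P v s *
              ∫⁻ ξ, I v (Wm w s ξ) / (2 * ENNReal.ofReal (C ^ d)) ∂(xiM d (8 * n) k) := by
            change ∫⁻ ξ, ∑ v, P v s * (I v (Wm w s ξ) / (2 * ENNReal.ofReal (C ^ d)))
              ∂(xiM d (8 * n) k) = _
            rw [lintegral_finsetSum _ (fun v _ => (hs3 v).const_mul _)]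
            refine Finset.sum_congr rfl fun v _ => ?_
            exact lintegral_const_mul _ (hs3 v)
          change ∫⁻ ξ, g2 (s, ξ) ∂(xiM d (8 * n) k) ≤ _
          rw [e1]
          refine Finset.sum_le_sum fun v _ => mul_le_mul' le_rfl ?_
          have e2 := flb_G2 (k := k) hw hUd (out v) (hφm v) (hφle2 v) s
          simp only [div_eq_mul_inv]
          have hs4 : Measurable fun ξ : Xi d (8 * n) k => I v (Wm w s ξ) := (hIm v).comp hs2
          rw [lintegral_mul_const _ hs4, ← div_eq_mul_inv]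
          exact ENNReal.div_le_of_le_mul (by rw [one_mul]; exact e2)
      _ = 1 := by simp [hP1]
  have hi4 : ∫⁻ p, g4 p ∂((unif d).prod (xiM d (8 * n) k)) ≤ 16 * n := by
    rw [lintegral_prod _ hg4m.aemeasurable]
    calc ∫⁻ s, ∫⁻ ξ, g4 (s, ξ) ∂(xiM d (8 * n) k) ∂(unif d)
        ≤ ∫⁻ _s, 16 * n ∂(unif d) := by
          refine lintegral_mono_ae ?_
          filter_upwards [unif_norm hd1] with s hs
          change ∫⁻ ξ, ∑ i, ENNReal.ofReal ((⟪ξ.1.1 i, s⟫ + w * ξ.1.2 i) ^ 2 / 2)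
            ∂(xiM d (8 * n) k) ≤ _
          rw [lintegral_finsetSum _ (fun i _ => by fun_prop)]
          calc ∑ i, ∫⁻ ξ, ENNReal.ofReal ((⟪ξ.1.1 i, s⟫ + w * ξ.1.2 i) ^ 2 / 2)
                ∂(xiM d (8 * n) k) ≤ ∑ _i : Fin (8 * n), 2 :=
                Finset.sum_le_sum fun i _ => lintegral_label_sq hw hw1 hs i
            _ = 16 * n := by
                rw [Finset.sum_const, Finset.card_univ, Fintype.card_fin, nsmul_eq_mul]
                push_cast
                ring
      _ = 16 * n := by simp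
  let N : E d × Xi d (8 * n) k → ℝ≥0∞ := fun p => g1 p + g2 p + g3 p + g4 p
  have hNm : Measurable N := ((hg1m.add hg2m).add hg3m).add hg4m
  have hNi : ∫⁻ p, N p ∂((unif d).prod (xiM d (8 * n) k)) ≤ 3 + 16 * n := by
    change ∫⁻ p, (g1 p + g2 p + g3 p + g4 p) ∂((unif d).prod (xiM d (8 * n) k)) ≤ _
    rw [lintegral_add_right _ hg4m, lintegral_add_right _ hg3m, lintegral_add_right _ hg2m]
    refine (add_le_add (add_le_add (add_le_add hi1 hi2) hi3) hi4).trans (le_of_eq ?_)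
    norm_num
  have hNt : ∫⁻ p, N p ∂((unif d).prod (xiM d (8 * n) k)) ≠ ∞ := by
    refine ne_top_of_le_ne_top ?_ hNi
    exact ENNReal.add_ne_top.2 ⟨by norm_num, ENNReal.mul_ne_top (by norm_num)
      (ENNReal.natCast_ne_top n)⟩
  have hNae : ∀ᵐ p ∂((unif d).prod (xiM d (8 * n) k)), N p < ∞ := ae_lt_top hNm hNt
  -- the success probability
  let T : E d → ℝ≥0∞ := fun s =>
    ∑ v, P v s * ({s | ‖out v - s‖ ≤ ε}.indicator (fun _ => 1) s)
  have hTm : Measurable T := by
    refine Finset.measurable_fun_sum _ fun v _ => (hP v).mul ?_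
    refine measurable_const.indicator ?_
    exact measurableSet_le (by fun_prop) measurable_const
  have hT1 : ∀ s, T s ≤ 1 := fun s => by
    rw [← hP1 s]
    refine Finset.sum_le_sum fun v _ => ?_
    calc P v s * ({s | ‖out v - s‖ ≤ ε}.indicator (fun _ => 1) s) ≤ P v s * 1 := by
          gcongr
          exact Set.indicator_le_self' (fun _ _ => zero_le) s
      _ = P v s := mul_one _
  have hTt : ∀ s, T s ≠ ∞ := fun s => ne_top_of_le_ne_top ENNReal.one_ne_top (hT1 s)
  have hTr : ∀ s, (T s).toReal ≤ 1 := fun s => by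
    have := ENNReal.toReal_mono ENNReal.one_ne_top (hT1 s)
    simpa using this
  have hTint : Integrable (fun p : E d × Xi d (8 * n) k => (T p.1).toReal)
      ((unif d).prod (xiM d (8 * n) k)) := by
    refine integrable_toReal_of_lintegral_ne_top (hTm.comp measurable_fst).aemeasurable ?_
    refine ne_top_of_le_ne_top ENNReal.one_ne_top
      ((lintegral_mono (g := fun _ => (1 : ℝ≥0∞))
        fun (p : E d × Xi d (8 * n) k) => hT1 p.1).trans ?_)
    simp
  have hTval : 3 / 5 ≤ ∫ p : E d × Xi d (8 * n) k, (T p.1).toReal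
      ∂((unif d).prod (xiM d (8 * n) k)) := by
    rw [integral_toReal (f := fun p : E d × Xi d (8 * n) k => T p.1)
      (hTm.comp measurable_fst).aemeasurable
      (Filter.Eventually.of_forall fun p => (hTt p.1).lt_top)]
    have e1 := lintegral_fst_xiM (B := 8 * n) (k := k) (unif d) hTm
    rw [e1]
    have e2 : ∫⁻ s, T s ∂(unif d) ≠ ∞ := by
      refine ne_top_of_le_ne_top ENNReal.one_ne_top
        ((lintegral_mono (g := fun _ => (1 : ℝ≥0∞)) fun s => hT1 s).trans ?_)
      simp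
    have e3 := ENNReal.toReal_mono e2 hsucc
    rwa [ENNReal.toReal_ofReal (by norm_num)] at e3
  -- null sets
  have hpos : ∀ᵐ s ∂(unif d), ∀ v, P v s = 0 ∨
      ∀ W : Xi d (8 * n) k, postW w (unif d) (P v) W ≠ 0 := by
    rw [ae_all_iff]
    intro v
    by_cases h : ∀ W : Xi d (8 * n) k, postW w (unif d) (P v) W ≠ 0
    · exact Filter.Eventually.of_forall fun s => Or.inr h
    · push Not at h
      obtain ⟨W, hW⟩ := h
      have h1 : (∫⁻ s, P v s * winK w s W.1 ∂(unif d)) / q W = 0 := hW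
      rcases ENNReal.div_eq_zero_iff.1 h1 with h2 | h2
      · filter_upwards [flb_int_ne_zero hw (unif d) (hP v) W h2] with s hs
        exact Or.inl hs
      · exact absurd h2 (hqt W)
  have hpos' : ∀ᵐ p ∂((unif d).prod (xiM d (8 * n) k)), ∀ v, P v p.1 = 0 ∨
      ∀ W : Xi d (8 * n) k, postW w (unif d) (P v) W ≠ 0 :=
    Measure.quasiMeasurePreserving_fst.ae hpos
  have hnorm' : ∀ᵐ p ∂((unif d).prod (xiM d (8 * n) k)), ‖p.1‖ = 1 :=
    Measure.quasiMeasurePreserving_fst.ae (unif_norm hd1)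
  have hfin : ∀ v s, P v s ≠ ∞ := fun v s => by
    refine ne_top_of_le_ne_top ENNReal.one_ne_top (hP1 s ▸ ?_)
    exact Finset.single_le_sum (f := fun v => P v s) (fun _ _ => zero_le) (Finset.mem_univ v)
  have hPle1 : ∀ v s, P v s ≤ 1 := fun v s => by
    rw [← hP1 s]
    exact Finset.single_le_sum (f := fun v => P v s) (fun _ _ => zero_le) (Finset.mem_univ v)
  set c0 : ℝ := 3 - Real.log (2 * C ^ d) -
    ((8 * n : ℕ) : ℝ) * Real.log (Real.sqrt (2 * Real.pi)) with hc0
  -- pointwise bound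
  have hpt : ∀ᵐ p ∂((unif d).prod (xiM d (8 * n) k)),
      4 * n * ((Real.log (1 / ε) + Real.log 2) * (T p.1).toReal - Real.log 2) + c0 -
        (N p).toReal ≤
      ∑ m, (P m p.1).toReal * (lg (P m p.1) - lg (postW w (unif d) (P m) (Wm w p.1 p.2))) := by
    filter_upwards [hNae, hpos', hnorm'] with p hNp hpp hnp
    set W := Wm w p.1 p.2 with hW
    have hsum1 : ∑ v, (P v p.1).toReal = 1 := by
      rw [← ENNReal.toReal_sum (fun v _ => hfin v _), hP1, ENNReal.toReal_one]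
    have href0 : winK 1 (0 : E d) W.1 ≠ 0 := winK_ne_zero' one_pos _ _
    have hreft : winK 1 (0 : E d) W.1 ≠ ∞ := winK_ne_top' one_pos _ _
    have hpost : ∀ v, postW w (unif d) (P v) W ≠ ∞ := fun v =>
      ne_top_of_le_ne_top ENNReal.one_ne_top (postW_le_one hw (unif d) (hPle1 v) W)
    have key := flb_real (fun v => (P v p.1).toReal) (fun v => (φ v p.1).toReal)
      (fun v => (I v W).toReal) (fun v => (postW w (unif d) (P v) W).toReal) (q W).toReal
      (winK 1 (0 : E d) W.1).toReal (2 * C ^ d) (fun v => ENNReal.toReal_nonneg) hsum1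
      (fun v => ENNReal.toReal_pos (hφ0 v _) (hφtop v _))
      (fun v => ENNReal.toReal_pos (hI0 v W) (hIt v W))
      (ENNReal.toReal_pos (hq0 W) (hqt W)) (ENNReal.toReal_pos href0 hreft) (by positivity)
      (fun v => ENNReal.toReal_nonneg) (fun v => by
        rcases hpp v with h | h
        · left; rw [h]; simp
        · right; exact ENNReal.toReal_pos (h W) (hpost v))
    have hN1 := hNp
    change g1 p + g2 p + g3 p + g4 p < ∞ at hN1
    rw [ENNReal.add_lt_top, ENNReal.add_lt_top, ENNReal.add_lt_top] at hN1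
    obtain ⟨⟨⟨h1, h2⟩, h3⟩, h4⟩ := hN1
    have t1 : (g1 p).toReal = (winK 1 (0 : E d) W.1).toReal / (q W).toReal := ENNReal.toReal_div _ _
    have t2 : (g2 p).toReal = ∑ v, (P v p.1).toReal * ((I v W).toReal / (2 * C ^ d)) := by
      change (∑ v, P v p.1 * (I v W / (2 * ENNReal.ofReal (C ^ d)))).toReal = _
      rw [ENNReal.toReal_sum]
      · refine Finset.sum_congr rfl fun v _ => ?_
        rw [ENNReal.toReal_mul, ENNReal.toReal_div, ENNReal.toReal_mul,
          ENNReal.toReal_ofReal hCd.le]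
        norm_num
      · intro v _
        exact ENNReal.mul_ne_top (hfin v _) (ENNReal.div_ne_top (hIt v W) hM0)
    have t3 : (g3 p).toReal = ∑ v, (φ v p.1).toReal * (((I v W).toReal / (q W).toReal)⁻¹ *
        (postW w (unif d) (P v) W).toReal) := by
      change (∑ v, φ v p.1 * ((postW w (unif d) (φ v) W)⁻¹ * postW w (unif d) (P v) W)).toReal = _
      rw [ENNReal.toReal_sum]
      · refine Finset.sum_congr rfl fun v _ => ?_
        rw [ENNReal.toReal_mul, ENNReal.toReal_mul, ENNReal.toReal_inv, hpostφ,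
          ENNReal.toReal_div]
      · intro v _
        refine ENNReal.mul_ne_top (hφtop v _) (ENNReal.mul_ne_top ?_ (hpost v))
        rw [hpostφ]
        exact ENNReal.inv_ne_top.2 (ENNReal.div_ne_zero.2 ⟨hI0 v W, hqt W⟩)
    have t4 : (g4 p).toReal = ∑ i, W.1.2 i ^ 2 / 2 := by
      change (∑ i, ENNReal.ofReal ((⟪p.2.1.1 i, p.1⟫ + w * p.2.1.2 i) ^ 2 / 2)).toReal = _
      rw [ENNReal.toReal_sum (fun _ _ => ENNReal.ofReal_ne_top)]
      refine Finset.sum_congr rfl fun i _ => ?_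
      rw [ENNReal.toReal_ofReal (by positivity), hW, Wm]
    have tN : (N p).toReal = (g1 p).toReal + (g2 p).toReal + (g3 p).toReal + (g4 p).toReal := by
      change (g1 p + g2 p + g3 p + g4 p).toReal = _
      rw [ENNReal.toReal_add (ENNReal.add_lt_top.2 ⟨ENNReal.add_lt_top.2 ⟨h1, h2⟩, h3⟩).ne h4.ne,
        ENNReal.toReal_add (ENNReal.add_lt_top.2 ⟨h1, h2⟩).ne h3.ne,
        ENNReal.toReal_add h1.ne h2.ne]
    have hsc := flb_score (n := n) P out hε p.1 hnp hε1 hout (hP1 p.1)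
    have hlr := log_ref W
    rw [tN, t1, t2, t3, t4]
    change _ ≤ ∑ m, (P m p.1).toReal * (Real.log (P m p.1).toReal -
      Real.log (postW w (unif d) (P m) W).toReal)
    refine le_trans ?_ key
    rw [hlr, hc0]
    have hsc' : 4 * n * ((Real.log (1 / ε) + Real.log 2) * (T p.1).toReal - Real.log 2) ≤
        ∑ v, (P v p.1).toReal * Real.log (φ v p.1).toReal := hsc
    linarith
  -- integrate
  have hfint : Integrable (fun p : E d × Xi d (8 * n) k => ∑ m, (P m p.1).toReal *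
      (lg (P m p.1) - lg (postW w (unif d) (P m) (Wm w p.1 p.2))))
      ((unif d).prod (xiM d (8 * n) k)) :=
    integrable_finsetSum _ fun v _ => relEnt_integrable hw (unif d) hP (fun s => (hP1 s).le) v
  have hNint : Integrable (fun p => (N p).toReal) ((unif d).prod (xiM d (8 * n) k)) :=
    integrable_toReal_of_lintegral_ne_top hNm.aemeasurable hNt
  have hNval : ∫ p, (N p).toReal ∂((unif d).prod (xiM d (8 * n) k)) ≤ 3 + 16 * n := by
    rw [integral_toReal hNm.aemeasurable hNae]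
    have e1 := ENNReal.toReal_mono (ENNReal.add_ne_top.2 ⟨by norm_num,
      ENNReal.mul_ne_top (by norm_num) (ENNReal.natCast_ne_top n)⟩) hNi
    refine e1.trans (le_of_eq ?_)
    rw [ENNReal.toReal_add (by norm_num) (ENNReal.mul_ne_top (by norm_num)
      (ENNReal.natCast_ne_top n)), ENNReal.toReal_mul]
    norm_num
  have hT2 : Integrable (fun p : E d × Xi d (8 * n) k =>
      (Real.log (1 / ε) + Real.log 2) * (T p.1).toReal - Real.log 2)
      ((unif d).prod (xiM d (8 * n) k)) := (hTint.const_mul _).sub (integrable_const _)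
  have hT3 : Integrable (fun p : E d × Xi d (8 * n) k =>
      4 * n * ((Real.log (1 / ε) + Real.log 2) * (T p.1).toReal - Real.log 2) + c0)
      ((unif d).prod (xiM d (8 * n) k)) := (hT2.const_mul _).add (integrable_const _)
  have hmono := integral_mono_ae (hT3.sub hNint) hfint hpt
  have hval : ∫ p : E d × Xi d (8 * n) k, ((fun p : E d × Xi d (8 * n) k =>
      4 * n * ((Real.log (1 / ε) + Real.log 2) * (T p.1).toReal - Real.log 2) + c0) -
        fun p => (N p).toReal) p ∂((unif d).prod (xiM d (8 * n) k)) =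
      4 * n * ((Real.log (1 / ε) + Real.log 2) *
        (∫ p : E d × Xi d (8 * n) k, (T p.1).toReal ∂((unif d).prod (xiM d (8 * n) k))) -
          Real.log 2) + c0 -
        ∫ p, (N p).toReal ∂((unif d).prod (xiM d (8 * n) k)) := by
    simp only [Pi.sub_apply]
    rw [integral_sub hT3 hNint, integral_add (hT2.const_mul _) (integrable_const _),
      integral_const_mul, integral_sub (hTint.const_mul _) (integrable_const _),
      integral_const_mul]
    simp
  rw [hval] at hmono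
  unfold relEnt
  refine le_trans ?_ hmono
  -- numbers
  have hlog2 : 0 ≤ Real.log 2 := Real.log_nonneg (by norm_num)
  have hlog2' : Real.log 2 ≤ 1 := by
    have := Real.log_two_lt_d9
    linarith
  have hlogε : 0 ≤ Real.log (1 / ε) := Real.log_nonneg (by rw [le_div_iff₀ hε]; linarith)
  have hlogpi : Real.log (Real.sqrt (2 * Real.pi)) ≤ 1 := by
    rw [Real.log_sqrt (by positivity)]
    have h1 : 2 * Real.pi ≤ Real.exp 1 ^ 2 := by
      have h2 := Real.exp_one_gt_d9
      have h3 := Real.pi_lt_d2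
      nlinarith
    have h4 := Real.log_le_log (by positivity) h1
    rw [Real.log_pow, Real.log_exp] at h4
    push_cast at h4
    linarith
  have hn' : (1 : ℝ) ≤ n := by exact_mod_cast hn
  have hnd : 128 * (n : ℝ) ≤ d := by exact_mod_cast hd
  have e1 : 4 * (n : ℝ) * ((Real.log (1 / ε) + Real.log 2) * (3 / 5) - Real.log 2) ≤
      4 * n * ((Real.log (1 / ε) + Real.log 2) *
        (∫ p : E d × Xi d (8 * n) k, (T p.1).toReal ∂((unif d).prod (xiM d (8 * n) k))) -
          Real.log 2) := by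
    refine mul_le_mul_of_nonneg_left ?_ (by positivity)
    have := mul_le_mul_of_nonneg_left hTval (add_nonneg hlogε hlog2)
    linarith
  have e2 : Real.log (2 * C ^ d) = Real.log 2 + d * Real.log C := by
    rw [Real.log_mul (by norm_num) hCd.ne', Real.log_pow]
  have e3 : ((8 * n : ℕ) : ℝ) * Real.log (Real.sqrt (2 * Real.pi)) ≤ 8 * n := by
    push_cast
    have := mul_le_mul_of_nonneg_left hlogpi (by positivity : (0 : ℝ) ≤ 8 * n)
    linarith
  have e4 : (n : ℝ) * Real.log 2 ≤ n * 1 := mul_le_mul_of_nonneg_left hlog2' (by positivity)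
  rw [hc0, e2]
  nlinarith

end

end Vale.Agent.P309
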