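import Vale.Agent.Lib.P309.Gauss

/-!
# P309, module GIBBS: the mollified density `KK`
-/

namespace Vale.Agent.P309

open MeasureTheory ProbabilityTheory
open scoped ENNReal RealInnerProductSpace

namespace GibbsAux

theorem lint_prod : ∀ {n : ℕ} {X : Type} [MeasurableSpace X] (μ : Fin n → Measure X) [∀ i, SigmaFinite (μ i)]
    (f : Fin n → X → ℝ≥0∞), (∀ i, Measurable (f i)) →
    ∫⁻ y, ∏ i, f i (y i) ∂(Measure.pi μ) = ∏ i, ∫⁻ y, f i y ∂(μ i) := by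
  intro n
  induction n with
  | zero =>
    intro X _ μ _ f hf
    simp
  | succ n ih =>
    intro X _ μ _ f hf
    have hmp := (measurePreserving_piFinSuccAbove μ 0).symm
    rw [← hmp.lintegral_comp_emb (MeasurableEquiv.measurableEmbedding _)]
    have e1 : ∀ q : X × (Fin n → X),
        ∏ i, f i ((MeasurableEquiv.piFinSuccAbove (fun _ : Fin (n+1) => X) 0).symm q i) =
          f 0 q.1 * ∏ i : Fin n, f i.succ (q.2 i) := by
      intro q
      rw [Fin.prod_univ_succ]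
      congr 1
    have e2 : ∫⁻ q, ∏ i, f i ((MeasurableEquiv.piFinSuccAbove (fun _ : Fin (n+1) => X) 0).symm q i)
        ∂((μ 0).prod (Measure.pi fun j => μ (Fin.succAbove 0 j))) =
        ∫⁻ q, f 0 q.1 * ∏ i : Fin n, f i.succ (q.2 i)
        ∂((μ 0).prod (Measure.pi fun j => μ (Fin.succAbove 0 j))) := lintegral_congr e1
    rw [e2]
    have hm : Measurable (fun y : Fin n → X => ∏ i : Fin n, f i.succ (y i)) :=
      Finset.measurable_fun_prod _ (fun i _ => (hf i.succ).comp (measurable_pi_apply i))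
    rw [lintegral_prod_mul (hf 0).aemeasurable hm.aemeasurable]
    rw [Fin.prod_univ_succ]
    congr 1
    have := ih (fun j : Fin n => μ (Fin.succAbove 0 j)) (fun j => f j.succ) (fun j => hf j.succ)
    simpa using this

theorem lint_cauchy1 {n : ℕ} (hn : 1 ≤ n) {θ : ℝ} (hθ : 0 < θ) (c : ℝ) :
    ∫⁻ y : ℝ, ENNReal.ofReal ((1 + n * ((c - y) ^ 2 / θ ^ 2))⁻¹) =
      ENNReal.ofReal (Real.pi * θ / Real.sqrt n) := by
  have hn' : (0:ℝ) < n := by exact_mod_cast hn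
  have hs : 0 < Real.sqrt n := Real.sqrt_pos.mpr hn'
  rw [lintegral_sub_left_eq_self (fun z : ℝ => ENNReal.ofReal ((1 + n * (z ^ 2 / θ ^ 2))⁻¹)) c]
  set a : ℝ := Real.sqrt n / θ with ha
  have ha0 : 0 < a := div_pos hs hθ
  have e : ∀ y : ℝ, (1 + n * (y ^ 2 / θ ^ 2))⁻¹ = (fun x => (1 + x ^ 2)⁻¹) (a * y) := by
    intro y
    have : (a * y) ^ 2 = n * (y ^ 2 / θ ^ 2) := by
      rw [ha, mul_pow, div_pow, Real.sq_sqrt hn'.le]; ring
    simp only [this]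
  have hint : Integrable (fun y : ℝ => (1 + n * (y ^ 2 / θ ^ 2))⁻¹) := by
    simp_rw [e]
    exact integrable_inv_one_add_sq.comp_mul_left' ha0.ne'
  rw [← ofReal_integral_eq_lintegral_ofReal hint
    (Filter.Eventually.of_forall (fun y => by positivity))]
  congr 1
  simp_rw [e]
  rw [Measure.integral_comp_mul_left (fun x : ℝ => (1 + x ^ 2)⁻¹) a, integral_univ_inv_one_add_sq,
    abs_of_pos (inv_pos.mpr ha0), smul_eq_mul, ha]
  field_simp

theorem amgm_prod {n : ℕ} (hn : 1 ≤ n) (a : Fin n → ℝ) (ha : ∀ i, 0 ≤ a i) :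
    ∏ i, (1 + n * a i) ≤ (1 + ∑ i, a i) ^ n := by
  have hn' : (0:ℝ) < n := by exact_mod_cast hn
  have h := Real.geom_mean_le_arith_mean_weighted (Finset.univ : Finset (Fin n))
    (fun _ => (n:ℝ)⁻¹) (fun i => 1 + n * a i) (fun i _ => by positivity)
    (by simp [hn'.ne']) (fun i _ => by have := ha i; positivity)
  have h2 : ∑ i : Fin n, (n:ℝ)⁻¹ * (1 + n * a i) = 1 + ∑ i, a i := by
    rw [← Finset.mul_sum, Finset.sum_add_distrib, ← Finset.mul_sum]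
    simp only [Finset.sum_const, Finset.card_univ, Fintype.card_fin, nsmul_eq_mul, mul_one]
    field_simp
  rw [h2] at h
  have h3 : ∏ i : Fin n, (1 + n * a i) = (∏ i : Fin n, (1 + n * a i) ^ ((n:ℝ)⁻¹)) ^ n := by
    rw [← Finset.prod_pow]
    refine Finset.prod_congr rfl (fun i _ => ?_)
    have : 0 ≤ 1 + n * a i := by have := ha i; positivity
    rw [← Real.rpow_natCast, ← Real.rpow_mul this, inv_mul_cancel₀ hn'.ne', Real.rpow_one]
  rw [h3]
  exact pow_le_pow_left₀ (Finset.prod_nonneg (fun i _ => by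
    have : 0 ≤ 1 + n * a i := by have := ha i; positivity
    positivity)) h n


theorem pi_withDensity {n : ℕ} (f : Fin n → ℝ → ℝ≥0∞) (hf : ∀ i, Measurable (f i))
    [∀ i, SigmaFinite ((volume : Measure ℝ).withDensity (f i))] :
    Measure.pi (fun i => (volume : Measure ℝ).withDensity (f i)) =
      (volume : Measure (Fin n → ℝ)).withDensity (fun y => ∏ i, f i (y i)) := by
  refine Measure.pi_eq (fun s hs => ?_)
  rw [withDensity_apply _ (MeasurableSet.univ_pi hs), ← lintegral_indicator (MeasurableSet.univ_pi hs)]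
  have e : ∀ y : Fin n → ℝ, (Set.univ.pi s).indicator (fun y => ∏ i, f i (y i)) y =
      ∏ i, (s i).indicator (f i) (y i) := by
    intro y
    by_cases hy : y ∈ Set.univ.pi s
    · rw [Set.indicator_of_mem hy]
      refine Finset.prod_congr rfl (fun i _ => ?_)
      rw [Set.indicator_of_mem (hy i (Set.mem_univ i))]
    · rw [Set.indicator_of_notMem hy]
      simp only [Set.mem_univ_pi, not_forall] at hy
      obtain ⟨i, hi⟩ := hy
      rw [Finset.prod_eq_zero (Finset.mem_univ i)]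
      rw [Set.indicator_of_notMem hi]
  rw [lintegral_congr e, volume_pi,
    lint_prod (fun _ => volume) (fun i => (s i).indicator (f i)) (fun i => (hf i).indicator (hs i))]
  refine Finset.prod_congr rfl (fun i _ => ?_)
  rw [lintegral_indicator (hs i), withDensity_apply _ (hs i)]

theorem dens_eq {r : ℝ} (hr : 0 < r) (c : ℝ) :
    (volume : Measure ℝ).withDensity (fun y => ENNReal.ofReal (phi r (y - c))) =
      (gaussianReal 0 1).map (fun g => c + r * g) := by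
  have hm : Measurable (fun y => ENNReal.ofReal (phi r (y - c))) :=
    ((measurable_phi r).comp (measurable_id.sub_const c)).ennreal_ofReal
  refine Measure.ext_of_lintegral _ (fun F hF => ?_)
  rw [lintegral_withDensity_eq_lintegral_mul _ hm hF, lintegral_map hF (by fun_prop)]
  exact lintegral_phi hr c hF

theorem lint_winK_fixed {d n : ℕ} {r : ℝ} (hr : 0 < r) (s : E d) (X : Fin n → E d)
    {F : (Fin n → ℝ) → ℝ≥0∞} (hF : Measurable F) :
    ∫⁻ y, winK r s (X, y) * F y = ∫⁻ g, F (fun i => ⟪X i, s⟫ + r * g i) ∂(gs n) := by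
  have hm : ∀ i : Fin n, Measurable (fun y => ENNReal.ofReal (phi r (y - ⟪X i, s⟫))) := fun i =>
    ((measurable_phi r).comp (measurable_id.sub_const _)).ennreal_ofReal
  haveI : ∀ i : Fin n, SigmaFinite ((volume : Measure ℝ).withDensity
      (fun y => ENNReal.ofReal (phi r (y - ⟪X i, s⟫)))) := by
    intro i
    rw [dens_eq hr]
    haveI := Measure.isProbabilityMeasure_map (μ := gaussianReal 0 1)
      (f := fun g : ℝ => ⟪X i, s⟫ + r * g) (by fun_prop)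
    infer_instance
  have h1 := pi_withDensity (fun i : Fin n => fun y => ENNReal.ofReal (phi r (y - ⟪X i, s⟫))) hm
  have hM : Measurable (fun y : Fin n → ℝ => ∏ i, ENNReal.ofReal (phi r (y i - ⟪X i, s⟫))) :=
    Finset.measurable_fun_prod _ (fun i _ => (hm i).comp (measurable_pi_apply i))
  have h2 : ∫⁻ y, winK r s (X, y) * F y =
      ∫⁻ y, F y ∂((volume : Measure (Fin n → ℝ)).withDensity
        (fun y => ∏ i, ENNReal.ofReal (phi r (y i - ⟪X i, s⟫)))) := by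
    rw [lintegral_withDensity_eq_lintegral_mul _ hM hF]
    rfl
  rw [h2, ← h1]
  simp_rw [dens_eq hr]
  haveI : ∀ i : Fin n, SigmaFinite ((gaussianReal 0 1).map (fun g => ⟪X i, s⟫ + r * g)) := by
    intro i
    haveI := Measure.isProbabilityMeasure_map (μ := gaussianReal 0 1)
      (f := fun g : ℝ => ⟪X i, s⟫ + r * g) (by fun_prop)
    infer_instance
  rw [← Measure.pi_map_pi (μ := fun _ : Fin n => gaussianReal 0 1)
    (f := fun i g => ⟪X i, s⟫ + r * g) (fun i => by fun_prop)]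
  rw [lintegral_map hF (by fun_prop)]
  rfl

theorem meas_Xy {d n : ℕ} : Measurable (fun p : Win d n × (Fin n → ℝ) => ((p.1.1, p.2) : Win d n)) := by
  fun_prop

theorem meas_q {d n : ℕ} (r : ℝ) (ρ : Measure (E d)) [IsProbabilityMeasure ρ] :
    Measurable (fun u : Win d n => ∫⁻ s, winK r s u ∂ρ) :=
  Measurable.lintegral_prod_left' (measurable_winK r)

theorem meas_W {d n : ℕ} (c : ℝ) : Measurable (fun p : Win d n × (Fin n → ℝ) =>
    ENNReal.ofReal (((1 + (∑ i, (p.2 i - p.1.2 i) ^ 2) / c)⁻¹) ^ n)) := by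
  fun_prop

theorem meas_int {d n : ℕ} (r : ℝ) (ρ : Measure (E d)) [IsProbabilityMeasure ρ] (c : ℝ) :
    Measurable (fun p : Win d n × (Fin n → ℝ) => (∫⁻ s, winK r s ((p.1.1, p.2) : Win d n) ∂ρ) *
      ENNReal.ofReal (((1 + (∑ i, (p.2 i - p.1.2 i) ^ 2) / c)⁻¹) ^ n)) :=
  ((meas_q r ρ).comp meas_Xy).mul (meas_W c)

theorem meas_q2 {d n : ℕ} (r : ℝ) (ρ : Measure (E d)) [IsProbabilityMeasure ρ]
    (X : Fin n → E d) : Measurable (fun y : Fin n → ℝ => ∫⁻ s, winK r s ((X, y) : Win d n) ∂ρ) := by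
  have h : Measurable (fun y : Fin n → ℝ => ((X, y) : Win d n)) := by fun_prop
  exact (meas_q r ρ).comp h

theorem meas_k3 {d n : ℕ} (r : ℝ) (u : Win d n) : Measurable (fun s : E d => winK r s u) := by
  unfold winK
  refine Finset.measurable_fun_prod _ (fun i _ => ?_)
  refine ENNReal.measurable_ofReal.comp ((measurable_phi r).comp ?_)
  fun_prop

theorem meas_k2 {d n : ℕ} (r : ℝ) (X : Fin n → E d) : Measurable
    (fun p : (Fin n → ℝ) × E d => winK r p.2 ((X, p.1) : Win d n)) := by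
  unfold winK
  refine Finset.measurable_fun_prod _ (fun i _ => ?_)
  refine ENNReal.measurable_ofReal.comp ((measurable_phi r).comp ?_)
  dsimp only
  fun_prop

theorem meas_w2 {n : ℕ} (Y : Fin n → ℝ) (c : ℝ) : Measurable (fun y : Fin n → ℝ =>
    ENNReal.ofReal (((1 + (∑ i, (y i - Y i) ^ 2) / c)⁻¹) ^ n)) := by
  fun_prop

theorem meas_w3 {n : ℕ} (y : Fin n → ℝ) (c : ℝ) : Measurable (fun Y : Fin n → ℝ =>
    ENNReal.ofReal (((1 + (∑ i, (y i - Y i) ^ 2) / c)⁻¹) ^ n)) := by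
  fun_prop

theorem meas_w4 {n : ℕ} (c : ℝ) : Measurable (fun p : (Fin n → ℝ) × (Fin n → ℝ) =>
    ENNReal.ofReal (((1 + (∑ i, (p.2 i - p.1 i) ^ 2) / c)⁻¹) ^ n)) := by
  fun_prop

theorem cpos {n : ℕ} (hn : 1 ≤ n) (k : ℤ) : 0 < (Real.pi * (2 : ℝ) ^ k / Real.sqrt n) ^ n := by
  have hn' : (0:ℝ) < n := by exact_mod_cast hn
  have hs : 0 < Real.sqrt n := Real.sqrt_pos.mpr hn'
  have := Real.pi_pos
  positivity

theorem four_zpow (k : ℤ) : (4 : ℝ) ^ k = ((2:ℝ) ^ k) ^ 2 := by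
  rw [← zpow_natCast, ← zpow_mul, mul_comm, zpow_mul]
  norm_num

end GibbsAux


theorem measurable_KK {d n : ℕ} {r : ℝ} (hr : 0 < r) (ρ : Measure (E d)) [IsProbabilityMeasure ρ] :
    Measurable (KK (d := d) (n := n) r ρ) := by
  unfold KK
  refine Measurable.ennreal_tsum (fun k => ?_)
  refine Measurable.const_mul ?_ _
  refine Measurable.lintegral_prod_right' (f := fun p : Win d n × (Fin n → ℝ) =>
    (∫⁻ s, winK r s (p.1.1, p.2) ∂ρ) *
      ENNReal.ofReal (((1 + (∑ i, (p.2 i - p.1.2 i) ^ 2) / (4 : ℝ) ^ k)⁻¹) ^ n)) ?_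
  exact GibbsAux.meas_int r ρ _

theorem tsum_lam : ∑' k : ℤ, lam k = 1 := by
  have h1 : HasSum (fun n : ℕ => (3 : ℝ)⁻¹ * (2 : ℝ) ^ (-|(n:ℤ)|)) ((3:ℝ)⁻¹ * 2) := by
    refine HasSum.mul_left _ ?_
    have e : (fun n : ℕ => (2 : ℝ) ^ (-|(n:ℤ)|)) = fun n : ℕ => ((1:ℝ) / 2) ^ n := by
      funext n
      rw [abs_of_nonneg (by positivity), zpow_neg, zpow_natCast, one_div, inv_pow]
    rw [e]
    exact hasSum_geometric_two
  have h2 : HasSum (fun n : ℕ => (3 : ℝ)⁻¹ * (2 : ℝ) ^ (-|(-((n:ℤ) + 1))|)) ((3:ℝ)⁻¹ * 1) := by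
    refine HasSum.mul_left _ ?_
    have e : (fun n : ℕ => (2 : ℝ) ^ (-|(-((n:ℤ) + 1))|)) = fun n : ℕ => (1:ℝ) / 2 * ((1:ℝ) / 2) ^ n := by
      funext n
      rw [abs_neg, abs_of_nonneg (by positivity), zpow_neg]
      have : (2:ℝ) ^ ((n:ℤ) + 1) = 2 ^ (n + 1) := by exact_mod_cast rfl
      rw [this, pow_succ, one_div, inv_pow]
      field_simp
    rw [e]
    have := hasSum_geometric_two.mul_left ((1:ℝ) / 2)
    norm_num at this ⊢
    exact this
  have h3 : HasSum (fun k : ℤ => (3 : ℝ)⁻¹ * (2 : ℝ) ^ (-|k|)) ((3:ℝ)⁻¹ * 2 + (3:ℝ)⁻¹ * 1) :=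
    HasSum.of_nat_of_neg_add_one (f := fun k : ℤ => (3 : ℝ)⁻¹ * (2 : ℝ) ^ (-|k|)) h1 h2
  have h4 : ((3:ℝ)⁻¹ * 2 + (3:ℝ)⁻¹ * 1) = 1 := by norm_num
  rw [h4] at h3
  unfold lam
  rw [← ENNReal.ofReal_tsum_of_nonneg (fun k => by positivity) h3.summable, h3.tsum_eq,
    ENNReal.ofReal_one]

theorem lintegral_cauchy {n : ℕ} (hn : 1 ≤ n) {θ : ℝ} (hθ : 0 < θ) (c : Fin n → ℝ) :
    ∫⁻ y : Fin n → ℝ, ENNReal.ofReal (((1 + (∑ i, (c i - y i) ^ 2) / θ ^ 2)⁻¹) ^ n) ≤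
      ENNReal.ofReal ((Real.pi * θ / Real.sqrt n) ^ n) := by
  have hn' : (0:ℝ) < n := by exact_mod_cast hn
  calc ∫⁻ y : Fin n → ℝ, ENNReal.ofReal (((1 + (∑ i, (c i - y i) ^ 2) / θ ^ 2)⁻¹) ^ n)
      ≤ ∫⁻ y : Fin n → ℝ, ∏ i, ENNReal.ofReal ((1 + n * ((c i - y i) ^ 2 / θ ^ 2))⁻¹) := by
        refine lintegral_mono (fun y => ?_)
        rw [← ENNReal.ofReal_prod_of_nonneg (fun i _ => by positivity)]
        refine ENNReal.ofReal_le_ofReal ?_
        rw [Finset.prod_inv_distrib, inv_pow]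
        have hpos : 0 < ∏ i : Fin n, (1 + n * ((c i - y i) ^ 2 / θ ^ 2)) :=
          Finset.prod_pos (fun i _ => by positivity)
        refine inv_anti₀ hpos ?_
        have := GibbsAux.amgm_prod hn (fun i => (c i - y i) ^ 2 / θ ^ 2) (fun i => by positivity)
        rwa [← Finset.sum_div] at this
    _ = ∏ i : Fin n, ∫⁻ y : ℝ, ENNReal.ofReal ((1 + n * ((c i - y) ^ 2 / θ ^ 2))⁻¹) := by
        rw [volume_pi]
        exact GibbsAux.lint_prod (fun _ => volume)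
          (fun i y => ENNReal.ofReal ((1 + n * ((c i - y) ^ 2 / θ ^ 2))⁻¹))
          (fun i => by fun_prop)
    _ = ENNReal.ofReal ((Real.pi * θ / Real.sqrt n) ^ n) := by
        simp_rw [GibbsAux.lint_cauchy1 hn hθ]
        rw [Finset.prod_const, Finset.card_univ, Fintype.card_fin,
          ← ENNReal.ofReal_pow (by positivity)]


namespace GibbsAux

theorem winK_ne_zero {d n : ℕ} {r : ℝ} (hr : 0 < r) (s : E d) (u : Win d n) : winK r s u ≠ 0 := by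
  unfold winK
  refine Finset.prod_ne_zero_iff.mpr (fun i _ => ?_)
  exact (ENNReal.ofReal_pos.mpr (phi_pos hr _)).ne'

theorem q_ne_zero {d n : ℕ} {r : ℝ} (hr : 0 < r) (ρ : Measure (E d)) [IsProbabilityMeasure ρ]
    (u : Win d n) : ∫⁻ s, winK r s u ∂ρ ≠ 0 := by
  intro h
  rw [lintegral_eq_zero_iff (meas_k3 r u)] at h
  obtain ⟨s, hs⟩ := h.exists
  exact winK_ne_zero hr s u hs

theorem lint_q {d n : ℕ} {r : ℝ} (hr : 0 < r) (ρ : Measure (E d)) [IsProbabilityMeasure ρ]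
    (X : Fin n → E d) : ∫⁻ y : Fin n → ℝ, ∫⁻ s, winK r s ((X, y) : Win d n) ∂ρ = 1 := by
  have hm : Measurable (Function.uncurry (fun (y : Fin n → ℝ) (s : E d) => winK r s ((X, y) : Win d n))) :=
    meas_k2 r X
  rw [lintegral_lintegral_swap hm.aemeasurable]
  have : ∀ s : E d, ∫⁻ y : Fin n → ℝ, winK r s ((X, y) : Win d n) = 1 := by
    intro s
    have := lint_winK_fixed hr s X (F := fun _ => 1) measurable_const
    simpa using this
  simp_rw [this]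
  simp

end GibbsAux

theorem lintegral_KK {d n : ℕ} (hn : 1 ≤ n) {r : ℝ} (hr : 0 < r) (ρ : Measure (E d))
    [IsProbabilityMeasure ρ] : ∫⁻ u, KK r ρ u ∂(winM d n) ≤ 1 := by
  have hmJ : ∀ k : ℤ, Measurable (fun u : Win d n => ∫⁻ y : Fin n → ℝ, (∫⁻ s, winK r s (u.1, y) ∂ρ) *
      ENNReal.ofReal (((1 + (∑ i, (y i - u.2 i) ^ 2) / (4 : ℝ) ^ k)⁻¹) ^ n)) := fun k =>
    (GibbsAux.meas_int r ρ ((4:ℝ) ^ k)).lintegral_prod_right'
  unfold KK
  rw [lintegral_tsum (fun k => ((hmJ k).const_mul _).aemeasurable)]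
  rw [← tsum_lam]
  refine ENNReal.tsum_le_tsum (fun k => ?_)
  rw [lintegral_const_mul _ (hmJ k)]
  have key : ∫⁻ u : Win d n, (∫⁻ y : Fin n → ℝ, (∫⁻ s, winK r s (u.1, y) ∂ρ) *
      ENNReal.ofReal (((1 + (∑ i, (y i - u.2 i) ^ 2) / (4 : ℝ) ^ k)⁻¹) ^ n)) ∂(winM d n) ≤
      ENNReal.ofReal ((Real.pi * (2 : ℝ) ^ k / Real.sqrt n) ^ n) := by
    unfold winM
    rw [lintegral_prod _ (hmJ k).aemeasurable]
    have h1 : ∀ X : Fin n → E d, ∫⁻ Y : Fin n → ℝ, (∫⁻ y : Fin n → ℝ,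
        (∫⁻ s, winK r s ((X, y) : Win d n) ∂ρ) *
        ENNReal.ofReal (((1 + (∑ i, (y i - Y i) ^ 2) / (4 : ℝ) ^ k)⁻¹) ^ n)) ≤
        ENNReal.ofReal ((Real.pi * (2 : ℝ) ^ k / Real.sqrt n) ^ n) := by
      intro X
      rw [lintegral_lintegral_swap]
      · calc ∫⁻ y : Fin n → ℝ, (∫⁻ Y : Fin n → ℝ, (∫⁻ s, winK r s ((X, y) : Win d n) ∂ρ) *
            ENNReal.ofReal (((1 + (∑ i, (y i - Y i) ^ 2) / (4 : ℝ) ^ k)⁻¹) ^ n))
            ≤ ∫⁻ y : Fin n → ℝ, (∫⁻ s, winK r s ((X, y) : Win d n) ∂ρ) *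
              ENNReal.ofReal ((Real.pi * (2 : ℝ) ^ k / Real.sqrt n) ^ n) := by
              refine lintegral_mono (fun y => ?_)
              simp only
              rw [lintegral_const_mul _ (GibbsAux.meas_w3 y _)]
              refine mul_le_mul_right ?_ _
              rw [GibbsAux.four_zpow]
              exact lintegral_cauchy hn (by positivity) y
          _ = ENNReal.ofReal ((Real.pi * (2 : ℝ) ^ k / Real.sqrt n) ^ n) := by
              rw [lintegral_mul_const _ (GibbsAux.meas_q2 r ρ X), GibbsAux.lint_q hr, one_mul]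
      · exact (((GibbsAux.meas_q2 r ρ X).comp measurable_snd).mul
          (GibbsAux.meas_w4 ((4:ℝ) ^ k))).aemeasurable
    calc _ ≤ ∫⁻ X : Fin n → E d, ENNReal.ofReal ((Real.pi * (2 : ℝ) ^ k / Real.sqrt n) ^ n)
        ∂(rows d n) := lintegral_mono (fun X => h1 X)
      _ = ENNReal.ofReal ((Real.pi * (2 : ℝ) ^ k / Real.sqrt n) ^ n) := by simp
  refine (mul_le_mul_right key _).trans ?_
  rw [mul_assoc, ENNReal.inv_mul_cancel (ENNReal.ofReal_pos.mpr (GibbsAux.cpos hn k)).ne'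
    ENNReal.ofReal_ne_top, mul_one]

theorem KK_ne_zero {d n : ℕ} (hn : 1 ≤ n) {r : ℝ} (hr : 0 < r) (ρ : Measure (E d))
    [IsProbabilityMeasure ρ] (u : Win d n) : KK r ρ u ≠ 0 := by
  intro h
  unfold KK at h
  rw [ENNReal.tsum_eq_zero] at h
  have h0 := h 0
  have hlam : lam 0 ≠ 0 := by
    unfold lam
    exact (ENNReal.ofReal_pos.mpr (by positivity)).ne'
  rcases mul_eq_zero.mp h0 with h1 | h1
  · rcases mul_eq_zero.mp h1 with h2 | h2
    · exact hlam h2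
    · exact ENNReal.ofReal_ne_top (ENNReal.inv_eq_zero.mp h2)
  · have hm : Measurable (fun y : Fin n → ℝ => (∫⁻ s, winK r s (u.1, y) ∂ρ) *
        ENNReal.ofReal (((1 + (∑ i, (y i - u.2 i) ^ 2) / (4 : ℝ) ^ (0:ℤ))⁻¹) ^ n)) :=
      (GibbsAux.meas_q2 r ρ u.1).mul (GibbsAux.meas_w2 u.2 _)
    rw [lintegral_eq_zero_iff hm] at h1
    obtain ⟨y, hy⟩ := h1.exists
    rcases mul_eq_zero.mp hy with h2 | h2
    · exact GibbsAux.q_ne_zero hr ρ _ h2
    · rw [ENNReal.ofReal_eq_zero] at h2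
      have : 0 < ((1 + (∑ i, (y i - u.2 i) ^ 2) / (4 : ℝ) ^ (0:ℤ))⁻¹) ^ n := by positivity
      linarith

namespace GibbsAux

theorem second_moment {n : ℕ} :
    ∫⁻ g : Fin n → ℝ, ENNReal.ofReal (∑ i, g i ^ 2) ∂(gs n) = n := by
  have h1 : ∫⁻ x, ENNReal.ofReal (x ^ 2) ∂(gaussianReal 0 1) = 1 := by
    have hint : Integrable (fun x : ℝ => x ^ 2) (gaussianReal 0 1) :=
      (memLp_id_gaussianReal (μ := 0) (v := 1) 2).integrable_sq
    rw [← ofReal_integral_eq_lintegral_ofReal hint (Filter.Eventually.of_forall (fun x => sq_nonneg x))]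
    have hv : ∫ x : ℝ, x ^ 2 ∂(gaussianReal 0 1) = 1 := by
      have h := variance_id_gaussianReal (μ := 0) (v := 1)
      rw [variance_of_integral_eq_zero measurable_id.aemeasurable (by simp)] at h
      simpa using h
    rw [hv, ENNReal.ofReal_one]
  have e : ∀ g : Fin n → ℝ, ENNReal.ofReal (∑ i, g i ^ 2) = ∑ i, ENNReal.ofReal (g i ^ 2) := by
    intro g
    exact ENNReal.ofReal_sum_of_nonneg (fun i _ => by positivity)
  simp_rw [e]
  rw [lintegral_finsetSum _ (fun i _ => by fun_prop)]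
  have h2 : ∀ i : Fin n, ∫⁻ g : Fin n → ℝ, ENNReal.ofReal (g i ^ 2) ∂(gs n) = 1 := by
    intro i
    have hmp := measurePreserving_eval (fun _ : Fin n => gaussianReal 0 1) i
    have := hmp.lintegral_comp (f := fun x : ℝ => ENNReal.ofReal (x ^ 2)) (by fun_prop)
    rw [h1] at this
    exact this
  simp [h2]

theorem markov_half {n : ℕ} (hn : 1 ≤ n) :
    ENNReal.ofReal (1 / 2) ≤ (gs n) {g | ∑ i, g i ^ 2 ≤ 2 * n} := by
  have hn' : (0:ℝ) < n := by exact_mod_cast hn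
  have hS : MeasurableSet {g : Fin n → ℝ | ∑ i, g i ^ 2 ≤ 2 * n} := by
    apply measurableSet_le <;> fun_prop
  have hM := mul_meas_ge_le_lintegral (μ := gs n) (f := fun g : Fin n → ℝ => ENNReal.ofReal (∑ i, g i ^ 2))
    (by fun_prop) (ENNReal.ofReal (2 * n))
  rw [second_moment] at hM
  have hsub : {g : Fin n → ℝ | ∑ i, g i ^ 2 ≤ 2 * n}ᶜ ⊆
      {g : Fin n → ℝ | ENNReal.ofReal (2 * n) ≤ ENNReal.ofReal (∑ i, g i ^ 2)} := by
    intro g hg
    simp only [Set.mem_compl_iff, Set.mem_setOf_eq, not_le] at hg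
    exact ENNReal.ofReal_le_ofReal hg.le
  have h1 : ENNReal.ofReal (2 * n) * (gs n) {g : Fin n → ℝ | ∑ i, g i ^ 2 ≤ 2 * n}ᶜ ≤ n :=
    (mul_le_mul_right (measure_mono hsub) _).trans hM
  have h2 : (gs n) {g : Fin n → ℝ | ∑ i, g i ^ 2 ≤ 2 * n}ᶜ ≤ ENNReal.ofReal (1 / 2) := by
    have e : (n : ℝ≥0∞) = ENNReal.ofReal (2 * n) * ENNReal.ofReal (1 / 2) := by
      rw [← ENNReal.ofReal_mul (by positivity)]
      rw [show (2 * (n:ℝ) * (1 / 2)) = n by ring, ENNReal.ofReal_natCast]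
    rw [e] at h1
    exact (ENNReal.mul_le_mul_iff_right (ENNReal.ofReal_pos.mpr (by positivity)).ne'
      ENNReal.ofReal_ne_top).mp h1
  have h3 := prob_add_prob_compl (μ := gs n) hS
  have h4 : (1:ℝ≥0∞) = ENNReal.ofReal (1 / 2) + ENNReal.ofReal (1 / 2) := by
    rw [← ENNReal.ofReal_add (by norm_num) (by norm_num)]; norm_num
  have h5 : ENNReal.ofReal (1 / 2) + ENNReal.ofReal (1 / 2) ≤
      (gs n) {g | ∑ i, g i ^ 2 ≤ 2 * n} + ENNReal.ofReal (1 / 2) := by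
    rw [← h4, ← h3]
    gcongr
  exact (ENNReal.add_le_add_iff_right ENNReal.ofReal_ne_top).mp h5

end GibbsAux

theorem KK_lower {d n : ℕ} (hn : 1 ≤ n) {r : ℝ} (hr : 0 < r) (ρ : Measure (E d))
    [IsProbabilityMeasure ρ] (u : Win d n) (t : E d → ℝ) (ht : Measurable t) (B L : ℝ)
    (hB : 0 ≤ B)
    (hL : ∀ (s : E d) (g : Fin n → ℝ), ∑ i, g i ^ 2 ≤ 2 * n →
      ∑ i, (⟪u.1 i, s⟫ + r * g i - u.2 i) ^ 2 ≤ (L * t s) ^ 2)
    (k k' : ℤ) (hk : L ^ 2 * (4 : ℝ) ^ k ≤ B * (4 : ℝ) ^ k') :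
    ENNReal.ofReal (1 / 2) * lam k' *
        (ENNReal.ofReal ((Real.pi * (2 : ℝ) ^ k' / Real.sqrt n) ^ n))⁻¹ *
        ∫⁻ x, ENNReal.ofReal (((1 + B * t x ^ 2 / (4 : ℝ) ^ k)⁻¹) ^ n) ∂ρ ≤ KK r ρ u := by
  have hterm : lam k' * (ENNReal.ofReal ((Real.pi * (2 : ℝ) ^ k' / Real.sqrt n) ^ n))⁻¹ *
      ∫⁻ y : Fin n → ℝ, (∫⁻ s, winK r s (u.1, y) ∂ρ) *
        ENNReal.ofReal (((1 + (∑ i, (y i - u.2 i) ^ 2) / (4 : ℝ) ^ k')⁻¹) ^ n) ≤ KK r ρ u := by
    unfold KK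
    exact ENNReal.le_tsum k'
  refine le_trans ?_ hterm
  have hsw : ∫⁻ y : Fin n → ℝ, (∫⁻ s, winK r s (u.1, y) ∂ρ) *
        ENNReal.ofReal (((1 + (∑ i, (y i - u.2 i) ^ 2) / (4 : ℝ) ^ k')⁻¹) ^ n) =
      ∫⁻ s, (∫⁻ g : Fin n → ℝ, ENNReal.ofReal
        (((1 + (∑ i, (⟪u.1 i, s⟫ + r * g i - u.2 i) ^ 2) / (4 : ℝ) ^ k')⁻¹) ^ n) ∂(gs n)) ∂ρ := by
    have e1 : ∀ y : Fin n → ℝ, (∫⁻ s, winK r s (u.1, y) ∂ρ) *
        ENNReal.ofReal (((1 + (∑ i, (y i - u.2 i) ^ 2) / (4 : ℝ) ^ k')⁻¹) ^ n) =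
        ∫⁻ s, winK r s (u.1, y) *
        ENNReal.ofReal (((1 + (∑ i, (y i - u.2 i) ^ 2) / (4 : ℝ) ^ k')⁻¹) ^ n) ∂ρ := by
      intro y
      rw [lintegral_mul_const _ (GibbsAux.meas_k3 r (u.1, y))]
    rw [lintegral_congr e1]
    rw [lintegral_lintegral_swap ((GibbsAux.meas_k2 r u.1).mul
      ((GibbsAux.meas_w2 u.2 ((4:ℝ) ^ k')).comp measurable_fst)).aemeasurable]
    refine lintegral_congr (fun s => ?_)
    exact GibbsAux.lint_winK_fixed hr s u.1 (GibbsAux.meas_w2 u.2 ((4:ℝ) ^ k'))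
  rw [hsw]
  have h4 : (0:ℝ) < (4:ℝ) ^ k := by positivity
  have h4' : (0:ℝ) < (4:ℝ) ^ k' := by positivity
  have hpt : ∀ s : E d, ENNReal.ofReal (1 / 2) * ENNReal.ofReal (((1 + B * t s ^ 2 / (4 : ℝ) ^ k)⁻¹) ^ n) ≤
      ∫⁻ g : Fin n → ℝ, ENNReal.ofReal
        (((1 + (∑ i, (⟪u.1 i, s⟫ + r * g i - u.2 i) ^ 2) / (4 : ℝ) ^ k')⁻¹) ^ n) ∂(gs n) := by
    intro s
    have hS : MeasurableSet {g : Fin n → ℝ | ∑ i, g i ^ 2 ≤ 2 * n} := by
      apply measurableSet_le <;> fun_prop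
    calc ENNReal.ofReal (1 / 2) * ENNReal.ofReal (((1 + B * t s ^ 2 / (4 : ℝ) ^ k)⁻¹) ^ n)
        ≤ (gs n) {g | ∑ i, g i ^ 2 ≤ 2 * n} * ENNReal.ofReal (((1 + B * t s ^ 2 / (4 : ℝ) ^ k)⁻¹) ^ n) :=
          mul_le_mul_left (GibbsAux.markov_half hn) _
      _ = ∫⁻ g in {g : Fin n → ℝ | ∑ i, g i ^ 2 ≤ 2 * n},
          ENNReal.ofReal (((1 + B * t s ^ 2 / (4 : ℝ) ^ k)⁻¹) ^ n) ∂(gs n) := by
          rw [setLIntegral_const, mul_comm]
      _ ≤ ∫⁻ g in {g : Fin n → ℝ | ∑ i, g i ^ 2 ≤ 2 * n}, ENNReal.ofReal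
        (((1 + (∑ i, (⟪u.1 i, s⟫ + r * g i - u.2 i) ^ 2) / (4 : ℝ) ^ k')⁻¹) ^ n) ∂(gs n) := by
          refine setLIntegral_mono (by fun_prop) (fun g hg => ?_)
          refine ENNReal.ofReal_le_ofReal ?_
          have h1 := hL s g hg
          have h2 : (∑ i, (⟪u.1 i, s⟫ + r * g i - u.2 i) ^ 2) / (4 : ℝ) ^ k' ≤
              B * t s ^ 2 / (4 : ℝ) ^ k := by
            rw [div_le_div_iff₀ h4' h4]
            calc (∑ i, (⟪u.1 i, s⟫ + r * g i - u.2 i) ^ 2) * (4:ℝ) ^ k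
                ≤ (L * t s) ^ 2 * (4:ℝ) ^ k := mul_le_mul_of_nonneg_right h1 h4.le
              _ = (L ^ 2 * (4:ℝ) ^ k) * t s ^ 2 := by ring
              _ ≤ (B * (4:ℝ) ^ k') * t s ^ 2 := mul_le_mul_of_nonneg_right hk (sq_nonneg _)
              _ = B * t s ^ 2 * (4:ℝ) ^ k' := by ring
          have h3 : 0 ≤ (∑ i, (⟪u.1 i, s⟫ + r * g i - u.2 i) ^ 2) / (4 : ℝ) ^ k' := by positivity
          have h5 : 0 ≤ B * t s ^ 2 / (4 : ℝ) ^ k := by positivity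
          exact pow_le_pow_left₀ (by positivity) (inv_anti₀ (by linarith) (by linarith)) n
      _ ≤ _ := setLIntegral_le_lintegral _ _
  calc ENNReal.ofReal (1 / 2) * lam k' *
        (ENNReal.ofReal ((Real.pi * (2 : ℝ) ^ k' / Real.sqrt n) ^ n))⁻¹ *
        ∫⁻ x, ENNReal.ofReal (((1 + B * t x ^ 2 / (4 : ℝ) ^ k)⁻¹) ^ n) ∂ρ
      = lam k' * (ENNReal.ofReal ((Real.pi * (2 : ℝ) ^ k' / Real.sqrt n) ^ n))⁻¹ *
        (ENNReal.ofReal (1 / 2) * ∫⁻ x, ENNReal.ofReal (((1 + B * t x ^ 2 / (4 : ℝ) ^ k)⁻¹) ^ n) ∂ρ) := by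
        ring
    _ ≤ _ := by
        refine mul_le_mul_right ?_ _
        rw [← lintegral_const_mul _ (by fun_prop)]
        exact lintegral_mono hpt

end Vale.Agent.P309
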