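import Vale.Agent.Lib.P309.Noise

/-!
# P309, module WINDOWS: the noisy run as a chain of windows
-/

namespace Vale.Agent.P309

open MeasureTheory ProbabilityTheory
open scoped ENNReal RealInnerProductSpace

/-- Window map of an automaton: window `l` consists of the samples `l n, ..., l n + n - 1`. -/
def winF {d : ℕ} (n : ℕ) {V : Type} (step : ℕ → V → E d × ℝ → V) (l : ℕ) (v : V)
    (u : Win d n) : V :=
  runN step (l * n) v n (fun i => (u.1 i, u.2 i))

/-- Law of the state after `l` windows given the signal. -/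
noncomputable def Pl {d : ℕ} (n : ℕ) {V : Type} [Fintype V] [DecidableEq V]
    (step : ℕ → V → E d × ℝ → V) (r : ℝ) (v0 : V) : ℕ → V → E d → ℝ≥0∞
  | 0, v, _ => if v = v0 then 1 else 0
  | (l + 1), v', s => ∑ v, Pl n step r v0 l v s * PSr r (winF n step l v) v' s

/-! ### measurability -/

theorem measurable_runN_win {V Z : Type} [Countable V] [MeasurableSpace V]
    [MeasurableSingletonClass V] [MeasurableSpace Z] (step : ℕ → V → Z → V)
    (hstep : ∀ t v, Measurable (step t v)) (t0 : ℕ) (v : V) (k : ℕ) :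
    Measurable (runN step t0 v k) := by
  induction k with
  | zero => exact measurable_const
  | succ k ih =>
    have h1 : Measurable (fun p : Z × V => step (t0 + k) p.2 p.1) :=
      measurable_from_prod_countable_left (fun v => hstep (t0 + k) v)
    have h2 : Measurable (fun z : Fin (k + 1) → Z => (fun i : Fin k => z i.castSucc)) :=
      measurable_pi_iff.mpr fun i => measurable_pi_apply _
    exact h1.comp ((measurable_pi_apply (Fin.last k)).prodMk (ih.comp h2))

theorem measurable_winF {d n : ℕ} {V : Type} [Fintype V] [MeasurableSpace V]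
    [MeasurableSingletonClass V] (step : ℕ → V → E d × ℝ → V)
    (hstep : ∀ t v, Measurable (step t v)) (l : ℕ) (v : V) : Measurable (winF n step l v) := by
  have h2 : Measurable (fun u : Win d n => (fun i : Fin n => (u.1 i, u.2 i))) :=
    measurable_pi_iff.mpr fun i =>
      ((measurable_pi_apply i).comp measurable_fst).prodMk
        ((measurable_pi_apply i).comp measurable_snd)
  exact (measurable_runN_win step hstep (l * n) v n).comp h2

theorem sigmaFinite_winM {d n : ℕ} : SigmaFinite (winM d n) := by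
  unfold winM
  infer_instance

theorem measurable_PSr_win {d n : ℕ} {V : Type} [MeasurableSpace V]
    [MeasurableSingletonClass V] (r : ℝ) {f : Win d n → V} (hf : Measurable f) (m : V) :
    Measurable (PSr r f m) := by
  have : SigmaFinite (winM d n) := sigmaFinite_winM
  have h1 : Measurable (fun p : E d × Win d n =>
      (f ⁻¹' {m}).indicator (fun u => winK r p.1 u) p.2) := by
    have e : (fun p : E d × Win d n => (f ⁻¹' {m}).indicator (fun u => winK r p.1 u) p.2)
        = (Prod.snd ⁻¹' (f ⁻¹' {m})).indicator (Function.uncurry (winK r)) := by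
      funext p
      by_cases hp : p.2 ∈ f ⁻¹' {m}
      · rw [Set.indicator_of_mem hp, Set.indicator_of_mem (by exact hp)]
        rfl
      · rw [Set.indicator_of_notMem hp, Set.indicator_of_notMem (by exact hp)]
    rw [e]
    exact (measurable_winK r).indicator (measurable_snd (hf (measurableSet_singleton m)))
  exact h1.lintegral_prod_right'

theorem measurable_Pl {d n : ℕ} {V : Type} [Fintype V] [DecidableEq V] [MeasurableSpace V]
    [MeasurableSingletonClass V] (step : ℕ → V → E d × ℝ → V)
    (hstep : ∀ t v, Measurable (step t v)) {r : ℝ} (_hr : 0 < r) (v0 : V) (l : ℕ) (v : V) :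
    Measurable (Pl n step r v0 l v) := by
  induction l generalizing v with
  | zero =>
    have e : Pl n step r v0 0 v = fun _ => if v = v0 then 1 else 0 := by
      funext s; rw [Pl]
    rw [e]
    exact measurable_const
  | succ l ih =>
    have e : Pl n step r v0 (l + 1) v
        = fun s => ∑ w, Pl n step r v0 l w s * PSr r (winF n step l w) v s := by
      funext s; rw [Pl]
    rw [e]
    exact Finset.measurable_fun_sum _ fun w _ =>
      (ih w).mul (measurable_PSr_win r (measurable_winF step hstep l w) v)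

theorem sum_PSr_win {d n : ℕ} {V : Type} [Fintype V] [DecidableEq V] [MeasurableSpace V]
    [MeasurableSingletonClass V] {r : ℝ} (hr : 0 < r) {f : Win d n → V} (hf : Measurable f)
    (s : E d) : ∑ m, PSr r f m s = 1 := by
  have hm0 : Measurable (Function.uncurry (winK (d := d) (n := n) r) ∘ Prod.mk s) :=
    (measurable_winK r).comp measurable_prodMk_left
  have hm : Measurable (fun u : Win d n => winK r s u) := hm0
  have hmm : ∀ m ∈ (Finset.univ : Finset V), Measurable (fun u : Win d n =>
      (f ⁻¹' {m}).indicator (fun u => winK r s u) u) := fun m _ =>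
    hm.indicator (hf (measurableSet_singleton m))
  have h0 : ∑ m, PSr r f m s = ∫⁻ u, ∑ m, (f ⁻¹' {m}).indicator (fun u => winK r s u) u
      ∂(winM d n) := (lintegral_finsetSum _ hmm).symm
  rw [h0]
  have e : (fun u : Win d n => ∑ m, (f ⁻¹' {m}).indicator (fun u => winK r s u) u)
      = fun u => winK r s u * 1 := by
    funext u
    rw [Finset.sum_eq_single (f u), Set.indicator_of_mem (by exact rfl), mul_one]
    · intro m _ hne
      apply Set.indicator_of_notMem
      intro h
      exact hne (Eq.symm h)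
    · intro h
      exact absurd (Finset.mem_univ _) h
  rw [e, lintegral_winK hr s (F := fun _ => 1) measurable_const]
  simp

theorem sum_Pl {d n : ℕ} {V : Type} [Fintype V] [DecidableEq V] [MeasurableSpace V]
    [MeasurableSingletonClass V] (step : ℕ → V → E d × ℝ → V)
    (hstep : ∀ t v, Measurable (step t v)) {r : ℝ} (hr : 0 < r) (v0 : V) (l : ℕ) (s : E d) :
    ∑ v, Pl n step r v0 l v s = 1 := by
  induction l with
  | zero => simp [Pl]
  | succ l ih =>
    simp only [Pl]
    rw [Finset.sum_comm]
    have e : ∀ v ∈ (Finset.univ : Finset V),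
        ∑ v', Pl n step r v0 l v s * PSr r (winF n step l v) v' s = Pl n step r v0 l v s := by
      intro v _
      rw [← Finset.mul_sum, sum_PSr_win hr (measurable_winF step hstep l v), mul_one]
    rw [Finset.sum_congr rfl e, ih]

/-! ### transition probabilities over several samples -/

section trans

variable {d : ℕ} {V : Type} [Fintype V] [DecidableEq V] [MeasurableSpace V]
    [MeasurableSingletonClass V] (step : ℕ → V → E d × ℝ → V) (r : ℝ)

/-- noisy samples -/
noncomputable def smpW {d k : ℕ} (r : ℝ) (s : E d) (X : Fin k → E d) (g : Fin k → ℝ) : Fin k → E d × ℝ :=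
  fun i => (X i, ⟪X i, s⟫ + r * g i)

/-- transition probability over `k` samples -/
noncomputable def NN (k t0 : ℕ) (v v' : V) (s : E d) : ℝ≥0∞ :=
  ∫⁻ X, ∫⁻ g, (if runN step t0 v k (smpW r s X g) = v' then 1 else 0) ∂(gs k) ∂(rows d k)

/-- transition probability over one sample -/
noncomputable def kp (t : ℕ) (v v' : V) (s : E d) : ℝ≥0∞ :=
  ∫⁻ x, ∫⁻ g, (if step t v (x, ⟪x, s⟫ + r * g) = v' then 1 else 0)
    ∂(gaussianReal 0 1) ∂(stdGaussian (E d))

theorem measurable_smpW {k : ℕ} : Measurable (fun p : E d × ((Fin k → E d) × (Fin k → ℝ)) =>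
    smpW r p.1 p.2.1 p.2.2) := by
  refine measurable_pi_iff.mpr fun i => ?_
  have h1 : Measurable (fun p : E d × ((Fin k → E d) × (Fin k → ℝ)) => p.2.1 i) :=
    (measurable_pi_apply i).comp (measurable_fst.comp measurable_snd)
  have h2 : Measurable (fun p : E d × ((Fin k → E d) × (Fin k → ℝ)) => p.2.2 i) :=
    (measurable_pi_apply i).comp (measurable_snd.comp measurable_snd)
  exact h1.prodMk ((h1.inner measurable_fst).add (h2.const_mul r))

theorem measurable_ite_run (hstep : ∀ t v, Measurable (step t v)) (k t0 : ℕ) (v v' : V) :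
    Measurable (fun p : E d × ((Fin k → E d) × (Fin k → ℝ)) =>
      (if runN step t0 v k (smpW r p.1 p.2.1 p.2.2) = v' then (1 : ℝ≥0∞) else 0)) := by
  have h1 : Measurable (fun p : E d × ((Fin k → E d) × (Fin k → ℝ)) =>
      runN step t0 v k (smpW r p.1 p.2.1 p.2.2)) :=
    (measurable_runN_win step hstep t0 v k).comp (measurable_smpW r)
  exact Measurable.ite (h1 (measurableSet_singleton v')) measurable_const measurable_const

theorem measurable_ite_run' (hstep : ∀ t v, Measurable (step t v)) (k t0 : ℕ) (v v' : V)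
    (s : E d) : Measurable (fun p : (Fin k → E d) × (Fin k → ℝ) =>
      (if runN step t0 v k (smpW r s p.1 p.2) = v' then (1 : ℝ≥0∞) else 0)) :=
  (measurable_ite_run step r hstep k t0 v v').comp (measurable_const.prodMk measurable_id)

theorem measurable_ite_step (hstep : ∀ t v, Measurable (step t v)) (t : ℕ) (v v' : V)
    (s : E d) : Measurable (fun p : E d × ℝ =>
      (if step t v (p.1, ⟪p.1, s⟫ + r * p.2) = v' then (1 : ℝ≥0∞) else 0)) := by
  have h1 : Measurable (fun p : E d × ℝ => step t v (p.1, ⟪p.1, s⟫ + r * p.2)) := by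
    refine (hstep t v).comp (measurable_fst.prodMk ?_)
    exact (measurable_fst.inner measurable_const).add (measurable_snd.const_mul r)
  exact Measurable.ite (h1 (measurableSet_singleton v')) measurable_const measurable_const

theorem NN_zero (t0 : ℕ) (v v' : V) (s : E d) :
    NN step r 0 t0 v v' s = if v = v' then 1 else 0 := by
  by_cases h : v = v'
  · have e : ∀ (X : Fin 0 → E d) (g : Fin 0 → ℝ),
        (if runN step t0 v 0 (smpW r s X g) = v' then (1 : ℝ≥0∞) else 0) = 1 :=
      fun X g => if_pos h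
    simp only [NN, e, if_pos h]
    simp
  · have e : ∀ (X : Fin 0 → E d) (g : Fin 0 → ℝ),
        (if runN step t0 v 0 (smpW r s X g) = v' then (1 : ℝ≥0∞) else 0) = 0 :=
      fun X g => if_neg h
    simp only [NN, e, if_neg h]
    simp

theorem NN_succ (hstep : ∀ t v, Measurable (step t v)) (k t0 : ℕ) (v v' : V) (s : E d) :
    NN step r (k + 1) t0 v v' s = ∑ w, NN step r k t0 v w s * kp step r (t0 + k) w v' s := by
  let eX := MeasurableEquiv.piFinSuccAbove (fun _ : Fin (k + 1) => E d) (Fin.last k)
  let eG := MeasurableEquiv.piFinSuccAbove (fun _ : Fin (k + 1) => ℝ) (Fin.last k)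
  have hX : MeasurePreserving eX (rows d (k + 1)) ((stdGaussian (E d)).prod (rows d k)) :=
    measurePreserving_piFinSuccAbove (fun _ : Fin (k + 1) => stdGaussian (E d)) (Fin.last k)
  have hG : MeasurePreserving eG (gs (k + 1)) ((gaussianReal 0 1).prod (gs k)) :=
    measurePreserving_piFinSuccAbove (fun _ : Fin (k + 1) => gaussianReal 0 1) (Fin.last k)
  have hXa : ∀ q : E d × (Fin k → E d), ∀ i : Fin k, eX.symm q i.castSucc = q.2 i := by
    intro q i
    have : eX.symm q = (Fin.last k).insertNth q.1 q.2 := rfl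
    rw [this, ← Fin.succAbove_last, Fin.insertNth_apply_succAbove]
  have hXb : ∀ q : E d × (Fin k → E d), eX.symm q (Fin.last k) = q.1 := by
    intro q
    have : eX.symm q = (Fin.last k).insertNth q.1 q.2 := rfl
    rw [this, Fin.insertNth_apply_same]
  have hGa : ∀ q : ℝ × (Fin k → ℝ), ∀ i : Fin k, eG.symm q i.castSucc = q.2 i := by
    intro q i
    have : eG.symm q = (Fin.last k).insertNth q.1 q.2 := rfl
    rw [this, ← Fin.succAbove_last, Fin.insertNth_apply_succAbove]
  have hGb : ∀ q : ℝ × (Fin k → ℝ), eG.symm q (Fin.last k) = q.1 := by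
    intro q
    have : eG.symm q = (Fin.last k).insertNth q.1 q.2 := rfl
    rw [this, Fin.insertNth_apply_same]
  -- the integrand after splitting
  have hF : ∀ (q : E d × (Fin k → E d)) (q' : ℝ × (Fin k → ℝ)),
      (if runN step t0 v (k + 1) (smpW r s (eX.symm q) (eG.symm q')) = v' then (1 : ℝ≥0∞) else 0)
        = ∑ w, (if step (t0 + k) w (q.1, ⟪q.1, s⟫ + r * q'.1) = v' then (1 : ℝ≥0∞) else 0)
          * (if runN step t0 v k (smpW r s q.2 q'.2) = w then (1 : ℝ≥0∞) else 0) := by
    intro q q'
    have e1 : runN step t0 v (k + 1) (smpW r s (eX.symm q) (eG.symm q'))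
        = step (t0 + k) (runN step t0 v k (smpW r s q.2 q'.2)) (q.1, ⟪q.1, s⟫ + r * q'.1) := by
      have e2 : (fun i : Fin k => smpW r s (eX.symm q) (eG.symm q') i.castSucc)
          = smpW r s q.2 q'.2 := by
        funext i
        simp only [smpW, hXa, hGa]
      have e3 : smpW r s (eX.symm q) (eG.symm q') (Fin.last k) = (q.1, ⟪q.1, s⟫ + r * q'.1) := by
        simp only [smpW, hXb, hGb]
      rw [runN, e2, e3]
    rw [e1, Finset.sum_eq_single (runN step t0 v k (smpW r s q.2 q'.2))]
    · simp
    · intro w _ hw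
      rw [if_neg (Ne.symm hw), mul_zero]
    · intro h
      exact absurd (Finset.mem_univ _) h
  have ha : ∀ w, Measurable (fun p : (Fin k → E d) × (Fin k → ℝ) =>
      (if runN step t0 v k (smpW r s p.1 p.2) = w then (1 : ℝ≥0∞) else 0)) := fun w =>
    measurable_ite_run' step r hstep k t0 v w s
  have hb : ∀ w, Measurable (fun p : E d × ℝ =>
      (if step (t0 + k) w (p.1, ⟪p.1, s⟫ + r * p.2) = v' then (1 : ℝ≥0∞) else 0)) := fun w =>
    measurable_ite_step step r hstep (t0 + k) w v' s
  have h1 : NN step r (k + 1) t0 v v' s = ∫⁻ q, ∫⁻ q',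
      (if runN step t0 v (k + 1) (smpW r s (eX.symm q) (eG.symm q')) = v' then (1 : ℝ≥0∞) else 0)
        ∂((gaussianReal 0 1).prod (gs k)) ∂((stdGaussian (E d)).prod (rows d k)) := by
    have hXs := (hX.symm eX).lintegral_comp_emb eX.symm.measurableEmbedding
      (fun X => ∫⁻ g, (if runN step t0 v (k + 1) (smpW r s X g) = v' then (1 : ℝ≥0∞) else 0)
        ∂(gs (k + 1)))
    rw [NN, ← hXs]
    apply lintegral_congr
    intro q
    exact ((hG.symm eG).lintegral_comp_emb eG.symm.measurableEmbedding
      (fun g => (if runN step t0 v (k + 1) (smpW r s (eX.symm q) g) = v'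
        then (1 : ℝ≥0∞) else 0))).symm
  rw [h1]
  simp only [hF]
  have h2 : ∀ q : E d × (Fin k → E d), ∫⁻ q', ∑ w,
      (if step (t0 + k) w (q.1, ⟪q.1, s⟫ + r * q'.1) = v' then (1 : ℝ≥0∞) else 0)
          * (if runN step t0 v k (smpW r s q.2 q'.2) = w then (1 : ℝ≥0∞) else 0)
        ∂((gaussianReal 0 1).prod (gs k))
      = ∑ w, (∫⁻ g', (if step (t0 + k) w (q.1, ⟪q.1, s⟫ + r * g') = v' then (1 : ℝ≥0∞) else 0)
          ∂(gaussianReal 0 1))
        * (∫⁻ g, (if runN step t0 v k (smpW r s q.2 g) = w then (1 : ℝ≥0∞) else 0) ∂(gs k)) := by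
    intro q
    have hm1 : ∀ w, Measurable (fun g' : ℝ =>
        (if step (t0 + k) w (q.1, ⟪q.1, s⟫ + r * g') = v' then (1 : ℝ≥0∞) else 0)) := fun w =>
      (hb w).comp (measurable_const.prodMk measurable_id)
    have hm2 : ∀ w, Measurable (fun g : Fin k → ℝ =>
        (if runN step t0 v k (smpW r s q.2 g) = w then (1 : ℝ≥0∞) else 0)) := fun w =>
      (ha w).comp (measurable_const.prodMk measurable_id)
    have hm3 : ∀ w ∈ (Finset.univ : Finset V), Measurable (fun q' : ℝ × (Fin k → ℝ) =>
        (if step (t0 + k) w (q.1, ⟪q.1, s⟫ + r * q'.1) = v' then (1 : ℝ≥0∞) else 0)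
          * (if runN step t0 v k (smpW r s q.2 q'.2) = w then (1 : ℝ≥0∞) else 0)) := fun w _ =>
      ((hm1 w).comp measurable_fst).mul ((hm2 w).comp measurable_snd)
    rw [lintegral_finsetSum _ hm3]
    apply Finset.sum_congr rfl
    intro w _
    exact lintegral_prod_mul (hm1 w).aemeasurable (hm2 w).aemeasurable
  simp only [h2]
  have hB : ∀ w, Measurable (fun x : E d => ∫⁻ g',
      (if step (t0 + k) w (x, ⟪x, s⟫ + r * g') = v' then (1 : ℝ≥0∞) else 0)
        ∂(gaussianReal 0 1)) := fun w => (hb w).lintegral_prod_right'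
  have hA : ∀ w, Measurable (fun X : Fin k → E d => ∫⁻ g,
      (if runN step t0 v k (smpW r s X g) = w then (1 : ℝ≥0∞) else 0) ∂(gs k)) := fun w =>
    (ha w).lintegral_prod_right'
  have hm4 : ∀ w ∈ (Finset.univ : Finset V), Measurable (fun q : E d × (Fin k → E d) =>
      (∫⁻ g', (if step (t0 + k) w (q.1, ⟪q.1, s⟫ + r * g') = v' then (1 : ℝ≥0∞) else 0)
          ∂(gaussianReal 0 1))
        * (∫⁻ g, (if runN step t0 v k (smpW r s q.2 g) = w then (1 : ℝ≥0∞) else 0) ∂(gs k))) :=
    fun w _ => ((hB w).comp measurable_fst).mul ((hA w).comp measurable_snd)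
  rw [lintegral_finsetSum _ hm4]
  apply Finset.sum_congr rfl
  intro w _
  rw [mul_comm (NN step r k t0 v w s)]
  exact lintegral_prod_mul (hB w).aemeasurable (hA w).aemeasurable

theorem NN_add (hstep : ∀ t v, Measurable (step t v)) (a b t0 : ℕ) (v v' : V) (s : E d) :
    NN step r (a + b) t0 v v' s = ∑ w, NN step r a t0 v w s * NN step r b (t0 + a) w v' s := by
  induction b generalizing v' with
  | zero =>
    simp only [NN_zero, add_zero, mul_ite, mul_one, mul_zero]
    rw [Finset.sum_ite_eq' Finset.univ v' (fun w => NN step r a t0 v w s),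
      if_pos (Finset.mem_univ _)]
  | succ b ih =>
    rw [← add_assoc, NN_succ step r hstep]
    simp only [ih, NN_succ step r hstep b, Finset.sum_mul, Finset.mul_sum]
    rw [Finset.sum_comm]
    apply Finset.sum_congr rfl
    intro x _
    apply Finset.sum_congr rfl
    intro w _
    rw [mul_assoc, add_assoc]

theorem PSr_winF (hstep : ∀ t v, Measurable (step t v)) (hr : 0 < r) (n l : ℕ) (v v' : V)
    (s : E d) : PSr r (winF n step l v) v' s = NN step r n (l * n) v v' s := by
  have hf := measurable_winF (n := n) step hstep l v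
  have e : ∀ u : Win d n, ((winF n step l v) ⁻¹' {v'}).indicator (fun u => winK r s u) u
      = winK r s u * (if winF n step l v u = v' then 1 else 0) := by
    intro u
    by_cases h : winF n step l v u = v'
    · rw [Set.indicator_of_mem (by exact h), if_pos h, mul_one]
    · rw [Set.indicator_of_notMem (by exact h), if_neg h, mul_zero]
  unfold PSr
  simp only [e]
  rw [lintegral_winK hr s (F := fun u => if winF n step l v u = v' then (1 : ℝ≥0∞) else 0)
    (Measurable.ite (hf (measurableSet_singleton v')) measurable_const measurable_const)]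
  rfl

theorem Pl_eq_NN (hstep : ∀ t v, Measurable (step t v)) (hr : 0 < r) (n : ℕ) (v0 : V) (l : ℕ)
    (v : V) (s : E d) : Pl n step r v0 l v s = NN step r (l * n) 0 v0 v s := by
  induction l generalizing v with
  | zero =>
    rw [Nat.zero_mul, NN_zero, Pl]
    by_cases h : v = v0
    · rw [if_pos h, if_pos h.symm]
    · rw [if_neg h, if_neg (Ne.symm h)]
  | succ l ih =>
    rw [Pl, Nat.succ_mul, NN_add step r hstep]
    apply Finset.sum_congr rfl
    intro w _
    rw [ih, PSr_winF step r hstep hr, zero_add]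

end trans

/-- The noisy run after `L` windows has law `Pl`. -/
theorem noisy_eq_Pl {d n : ℕ} {V : Type} [Fintype V] [DecidableEq V] [MeasurableSpace V]
    [MeasurableSingletonClass V] (step : ℕ → V → E d × ℝ → V)
    (hstep : ∀ t v, Measurable (step t v)) {r : ℝ} (hr : 0 < r) (v0 : V) (L : ℕ)
    (G : V → Set (E d)) (hG : ∀ v, MeasurableSet (G v)) :
    ((unif d).prod ((rows d (L * n)).prod (gs (L * n)))) {p | p.1 ∈ G (runN step 0 v0 (L * n)
        (fun i => (p.2.1 i, ⟪p.2.1 i, p.1⟫ + r * p.2.2 i)))} =
      ∫⁻ s, ∑ v, Pl n step r v0 L v s * ((G v).indicator (fun _ => 1) s) ∂(unif d) := by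
  set k : ℕ := L * n with hk
  have hR : Measurable (fun p : E d × ((Fin k → E d) × (Fin k → ℝ)) =>
      runN step 0 v0 k (smpW r p.1 p.2.1 p.2.2)) :=
    (measurable_runN_win step hstep 0 v0 k).comp (measurable_smpW r)
  have hset : {p : E d × ((Fin k → E d) × (Fin k → ℝ)) | p.1 ∈ G (runN step 0 v0 k
      (fun i => (p.2.1 i, ⟪p.2.1 i, p.1⟫ + r * p.2.2 i)))}
      = ⋃ v : V, ((fun p : E d × ((Fin k → E d) × (Fin k → ℝ)) =>
          runN step 0 v0 k (smpW r p.1 p.2.1 p.2.2)) ⁻¹' {v}) ∩ (Prod.fst ⁻¹' (G v)) := by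
    ext p
    simp only [Set.mem_ofPred_eq, Set.mem_iUnion, Set.mem_inter_iff, Set.mem_preimage,
      Set.mem_singleton_iff]
    constructor
    · intro h
      exact ⟨_, rfl, h⟩
    · rintro ⟨v, hv, h⟩
      rw [← hv] at h
      exact h
  have hms : MeasurableSet {p : E d × ((Fin k → E d) × (Fin k → ℝ)) | p.1 ∈ G (runN step 0 v0 k
      (fun i => (p.2.1 i, ⟪p.2.1 i, p.1⟫ + r * p.2.2 i)))} := by
    rw [hset]
    exact MeasurableSet.iUnion fun v =>
      (hR (measurableSet_singleton v)).inter (measurable_fst (hG v))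
  rw [Measure.prod_apply hms]
  apply lintegral_congr
  intro s
  have hms2 : MeasurableSet (Prod.mk s ⁻¹' {p : E d × ((Fin k → E d) × (Fin k → ℝ)) |
      p.1 ∈ G (runN step 0 v0 k
      (fun i => (p.2.1 i, ⟪p.2.1 i, p.1⟫ + r * p.2.2 i)))}) := measurable_prodMk_left hms
  rw [← lintegral_indicator_one hms2]
  have e : ∀ u : (Fin k → E d) × (Fin k → ℝ), (Prod.mk s ⁻¹' {p : E d × ((Fin k → E d) × (Fin k → ℝ)) |
      p.1 ∈ G (runN step 0 v0 k
      (fun i => (p.2.1 i, ⟪p.2.1 i, p.1⟫ + r * p.2.2 i)))}).indicator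
        (1 : (Fin k → E d) × (Fin k → ℝ) → ℝ≥0∞) u
      = ∑ v, (if runN step 0 v0 k (smpW r s u.1 u.2) = v then (1 : ℝ≥0∞) else 0)
          * (G v).indicator (fun _ => 1) s := by
    intro u
    rw [Finset.sum_eq_single (runN step 0 v0 k (smpW r s u.1 u.2))]
    · rw [if_pos rfl, one_mul]
      by_cases h : s ∈ G (runN step 0 v0 k (smpW r s u.1 u.2))
      · rw [Set.indicator_of_mem h, Set.indicator_of_mem (by exact h)]
        rfl
      · rw [Set.indicator_of_notMem h, Set.indicator_of_notMem (by exact h)]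
    · intro w _ hw
      rw [if_neg (Ne.symm hw), zero_mul]
    · intro h
      exact absurd (Finset.mem_univ _) h
  simp only [e]
  rw [lintegral_finsetSum _ (fun v _ => (measurable_ite_run' step r hstep k 0 v0 v s).mul_const _)]
  apply Finset.sum_congr rfl
  intro v _
  rw [lintegral_mul_const _ (measurable_ite_run' step r hstep k 0 v0 v s),
    Pl_eq_NN step r hstep hr n v0 L v s, ← hk, NN,
    lintegral_prod _ (measurable_ite_run' step r hstep k 0 v0 v s).aemeasurable]

end Vale.Agent.P309
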