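import Vale.Agent.Lib.P309.Static
import Vale.Agent.Lib.P309.Chain
import Vale.Agent.Lib.P309.FinalLB
import Vale.Agent.Lib.P309.Windows

/-!
# P309, module MAIN: finite automata with few active states
-/

namespace Vale.Agent.P309

open MeasureTheory ProbabilityTheory
open scoped ENNReal RealInnerProductSpace

theorem mn_runN_absorbing {V Z : Type} (step : ℕ → V → Z → V) (t0 : ℕ) (v : V)
    (h : ∀ t z, step t v z = v) (k : ℕ) (z : Fin k → Z) : runN step t0 v k z = v := by
  induction k with
  | zero => rfl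
  | succ k ih =>
    show step (t0 + k) (runN step t0 v k (fun i => z i.castSucc)) (z (Fin.last k)) = v
    rw [ih]
    exact h _ _

theorem mn_entropy {V : Type} (A : Finset V) (N : ℕ) (hN : 1 ≤ N) (hA : A.card ≤ N)
    (p : V → ℝ) (hp : ∀ v, 0 ≤ p v) (hs : ∑ v ∈ A, p v ≤ 1) :
    ∑ v ∈ A, p v * Real.log (1 / p v) ≤ Real.log N + 1 := by
  have hN0 : (0 : ℝ) < N := by exact_mod_cast hN
  have hlogN : 0 ≤ Real.log N := Real.log_nonneg (by exact_mod_cast hN)
  have h1 : ∀ v ∈ A, p v * Real.log (1 / p v) ≤ p v * Real.log N + (N : ℝ)⁻¹ := by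
    intro v _
    rcases (hp v).eq_or_lt with h0 | h0
    · rw [← h0]
      simp only [zero_mul, zero_add]
      positivity
    · have h2 := Real.log_le_sub_one_of_pos (x := (p v * N)⁻¹) (by positivity)
      rw [Real.log_inv, Real.log_mul h0.ne' hN0.ne'] at h2
      have h3 : p v * (-(Real.log (p v) + Real.log N)) ≤ p v * ((p v * N)⁻¹ - 1) :=
        mul_le_mul_of_nonneg_left h2 h0.le
      have h4 : p v * ((p v * N)⁻¹ - 1) = (N : ℝ)⁻¹ - p v := by
        field_simp
      rw [one_div, Real.log_inv]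
      nlinarith
  refine (Finset.sum_le_sum h1).trans ?_
  rw [Finset.sum_add_distrib, ← Finset.sum_mul, Finset.sum_const, nsmul_eq_mul]
  have h5 : (A.card : ℝ) * (N : ℝ)⁻¹ ≤ 1 := by
    rw [← div_eq_mul_inv, div_le_one hN0]
    exact_mod_cast hA
  nlinarith

theorem mn_prior_le {d : ℕ} (μ : Measure (E d)) {g : E d → ℝ≥0∞}
    (hg1 : ∀ s, g s ≤ 1) : prior μ g ≤ (∫⁻ s, g s ∂μ)⁻¹ • μ := by
  unfold prior
  refine Measure.le_iff.2 fun s hs => ?_
  rw [Measure.smul_apply, Measure.smul_apply, withDensity_apply _ hs, smul_eq_mul, smul_eq_mul]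
  refine mul_le_mul' le_rfl ?_
  calc ∫⁻ a in s, g a ∂μ ≤ ∫⁻ _a in s, 1 ∂μ := lintegral_mono fun a => hg1 a
    _ = μ s := by simp

/-- one window -/
theorem mn_step {d n : ℕ} {r w C D : ℝ} (hr : 0 < r) (hw0 : 0 < w) (hC : 1 ≤ C) (hD : 0 ≤ D)
    (hn : 1 ≤ n) (hd : 1 ≤ d)
    (hstat : ∀ (ρ : Measure (E d)), IsProbabilityMeasure ρ → ∀ (p0 : ℝ), 0 < p0 → p0 ≤ 1 →
      ρ ≤ (ENNReal.ofReal p0)⁻¹ • unif d →
      ∀ (V : Type) [Fintype V] [MeasurableSpace V] [MeasurableSingletonClass V]
        (f : Win d n → V), Measurable f → ∀ (R : Finset V), (∀ u, f u ∈ R) →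
        relEnt (8 * n) (n + 1) w ρ (PSr r f) ≤
          (Real.log R.card + C * Real.log (1 / p0)) / n + C * d + w * D / p0)
    {V : Type} [Fintype V] [DecidableEq V] [MeasurableSpace V] [MeasurableSingletonClass V]
    (step : ℕ → V → E d × ℝ → V) (hstep : ∀ t v, Measurable (step t v)) (v0 : V)
    (Act : Finset V) (N : ℕ) (hN : 1 ≤ N) (hAct : Act.card ≤ N)
    (habs : ∀ v, v ∉ Act → ∀ t z, step t v z = v) (l : ℕ)
    (R : Finset V) (hR : R.card ≤ N * (n + 1))
    (hRl : ∀ v, v ∈ Act → ∀ u : Win d n, winF n step l v u ∈ R) :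
    relEnt (8 * n) (n + 1) w (unif d) (Pl n step r v0 (l + 1)) ≤
      relEnt (8 * n) (n + 1) w (unif d) (Pl n step r v0 l) +
        ((2 * C + 2) * (Real.log N / n + d) + w * D * Fintype.card V) := by
  have hn0 : (0 : ℝ) < n := by exact_mod_cast hn
  have hn1 : (1 : ℝ) ≤ n := by exact_mod_cast hn
  have hd1 : (1 : ℝ) ≤ d := by exact_mod_cast hd
  have hN0 : (0 : ℝ) < N := by exact_mod_cast hN
  have hlogN : 0 ≤ Real.log N := Real.log_nonneg (by exact_mod_cast hN)
  have hC0 : 0 < C := by linarith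
  set P : V → E d → ℝ≥0∞ := Pl n step r v0 l with hP
  have hPm : ∀ v, Measurable (P v) := fun v => measurable_Pl step hstep hr v0 l v
  have hP1 : ∀ s, ∑ v, P v s = 1 := fun s => sum_Pl step hstep hr v0 l s
  have hPle : ∀ v s, P v s ≤ 1 := fun v s => by
    rw [← hP1 s]
    exact Finset.single_le_sum (f := fun v => P v s) (fun _ _ => zero_le) (Finset.mem_univ v)
  have hint : ∀ v, ∫⁻ s, P v s ∂(unif d) ≤ 1 := fun v => by
    calc ∫⁻ s, P v s ∂(unif d) ≤ ∫⁻ _, 1 ∂(unif d) := lintegral_mono fun s => hPle v s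
      _ = 1 := by simp
  have hintt : ∀ v, ∫⁻ s, P v s ∂(unif d) ≠ ∞ := fun v =>
    ne_top_of_le_ne_top ENNReal.one_ne_top (hint v)
  let p : V → ℝ := fun v => (∫⁻ s, P v s ∂(unif d)).toReal
  have hp0 : ∀ v, 0 ≤ p v := fun v => ENNReal.toReal_nonneg
  have hpsum : ∑ v, p v = 1 := by
    show ∑ v, (∫⁻ s, P v s ∂(unif d)).toReal = 1
    rw [← ENNReal.toReal_sum (fun v _ => hintt v), ← lintegral_finsetSum _ (fun v _ => hPm v)]
    simp [hP1]
  let J : V → ℝ := fun v => if v ∈ Act then
    (Real.log R.card + C * Real.log (1 / p v)) / n + C * d + w * D / p v else 0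
  have hJ : ∀ v, (∫⁻ s, P v s ∂(unif d)) ≠ 0 →
      relEnt (8 * n) (n + 1) w (prior (unif d) (P v)) (PSr r (winF n step l v)) ≤ J v := by
    intro v hv
    have hprob := ch_prior_prob (unif d) (hPm v) hv (hintt v)
    by_cases hvA : v ∈ Act
    · have hJv : J v = (Real.log R.card + C * Real.log (1 / p v)) / n + C * d + w * D / p v :=
        if_pos hvA
      rw [hJv]
      have hpv : 0 < p v := ENNReal.toReal_pos hv (hintt v)
      have hpv1 : p v ≤ 1 := by
        have := ENNReal.toReal_mono ENNReal.one_ne_top (hint v)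
        simpa using this
      refine hstat _ hprob (p v) hpv hpv1 ?_ V _ (measurable_winF step hstep l v) R (hRl v hvA)
      have h1 : ENNReal.ofReal (p v) = ∫⁻ s, P v s ∂(unif d) := ENNReal.ofReal_toReal (hintt v)
      rw [h1]
      exact mn_prior_le _ (hPle v)
    · have hJv : J v = 0 := if_neg hvA
      rw [hJv]
      exact relEnt_const hr hw0 _ _ v (fun u => mn_runN_absorbing step _ v (habs v hvA) _ _)
  have hmain := chain_step (B := 8 * n) (k := n + 1) hr hw0 (unif d) P hPm hP1
    (fun v => winF n step l v) (fun v => measurable_winF step hstep l v) J hJ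
  have hPl : Pl n step r v0 (l + 1) =
      fun v' s => ∑ v, P v s * PSr r (winF n step l v) v' s := by
    funext v' s
    rfl
  rw [hPl]
  refine hmain.trans (add_le_add le_rfl ?_)
  show ∑ v, p v * J v ≤ _
  -- the sum
  have hsumA : ∑ v ∈ Act, p v ≤ 1 := by
    rw [← hpsum]
    exact Finset.sum_le_sum_of_subset_of_nonneg (Finset.subset_univ _) (fun v _ _ => hp0 v)
  have hsumA0 : 0 ≤ ∑ v ∈ Act, p v := Finset.sum_nonneg fun v _ => hp0 v
  have hent := mn_entropy Act N hN hAct p hp0 hsumA
  have hlogR : Real.log R.card ≤ Real.log N + n := by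
    rcases Nat.eq_zero_or_pos R.card with h0 | h0
    · rw [h0]
      simp only [Nat.cast_zero, Real.log_zero]
      positivity
    · have h1 : (R.card : ℝ) ≤ N * (n + 1) := by exact_mod_cast hR
      have h2 : Real.log R.card ≤ Real.log (N * (n + 1)) :=
        Real.log_le_log (by exact_mod_cast h0) h1
      rw [Real.log_mul hN0.ne' (by positivity)] at h2
      have h3 := Real.log_le_sub_one_of_pos (x := (n : ℝ) + 1) (by positivity)
      linarith
  have hstepv : ∀ v, p v * J v ≤ if v ∈ Act then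
      (p v * ((Real.log N + n) / n + C * d) + (C / n) * (p v * Real.log (1 / p v))) + w * D
      else w * D := by
    intro v
    have hwD : 0 ≤ w * D := by positivity
    by_cases hvA : v ∈ Act
    · rw [if_pos hvA]
      have hJv : J v = (Real.log R.card + C * Real.log (1 / p v)) / n + C * d + w * D / p v :=
        if_pos hvA
      rw [hJv]
      have h1 : p v * (w * D / p v) ≤ w * D := by
        rcases (hp0 v).eq_or_lt with h0 | h0
        · rw [← h0]
          simpa using hwD
        · rw [mul_div_cancel₀ _ h0.ne']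
      have h2 : p v * (Real.log R.card / n) ≤ p v * ((Real.log N + n) / n) := by
        refine mul_le_mul_of_nonneg_left ?_ (hp0 v)
        exact div_le_div_of_nonneg_right hlogR hn0.le
      have h3 : p v * ((Real.log R.card + C * Real.log (1 / p v)) / n + C * d + w * D / p v) =
          p v * (Real.log R.card / n) + p v * (C * d) + (C / n) * (p v * Real.log (1 / p v)) +
            p v * (w * D / p v) := by ring
      rw [h3]
      nlinarith
    · rw [if_neg hvA]
      have hJv : J v = 0 := if_neg hvA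
      rw [hJv, mul_zero]
      exact hwD
  have hsum : ∑ v, p v * J v ≤ (∑ v ∈ Act, (p v * ((Real.log N + n) / n + C * d) +
      (C / n) * (p v * Real.log (1 / p v)))) + w * D * Fintype.card V := by
    refine (Finset.sum_le_sum fun v _ => hstepv v).trans ?_
    have h1 : ∀ v, (if v ∈ Act then
      (p v * ((Real.log N + n) / n + C * d) + (C / n) * (p v * Real.log (1 / p v))) + w * D
      else w * D) = (if v ∈ Act then
      (p v * ((Real.log N + n) / n + C * d) + (C / n) * (p v * Real.log (1 / p v)))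
      else 0) + w * D := by
      intro v
      split_ifs
      · rfl
      · rw [zero_add]
    simp only [h1]
    rw [Finset.sum_add_distrib, Finset.sum_const, nsmul_eq_mul, Finset.card_univ,
      Finset.sum_ite_mem, Finset.univ_inter, mul_comm (w * D)]
  refine hsum.trans ?_
  rw [Finset.sum_add_distrib, ← Finset.sum_mul, ← Finset.mul_sum]
  have hX : 0 ≤ (Real.log N + n) / n + C * d := by positivity
  have h4 : (∑ v ∈ Act, p v) * ((Real.log N + n) / n + C * d) ≤
      (Real.log N + n) / n + C * d := by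
    calc (∑ v ∈ Act, p v) * ((Real.log N + n) / n + C * d) ≤
        1 * ((Real.log N + n) / n + C * d) := mul_le_mul_of_nonneg_right hsumA hX
      _ = _ := one_mul _
  have h5 : (C / n) * ∑ v ∈ Act, p v * Real.log (1 / p v) ≤ (C / n) * (Real.log N + 1) :=
    mul_le_mul_of_nonneg_left hent (by positivity)
  have h6 : (Real.log N + n) / n = Real.log N / n + 1 := by
    field_simp
  have h7 : (C / n) * (Real.log N + 1) = C * (Real.log N / n) + C / n := by ring
  have h8 : C / n ≤ C := div_le_self hC0.le hn1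
  have h9 : 0 ≤ Real.log N / n := by positivity
  rw [h6] at h4
  rw [h7] at h5
  rw [h6]
  nlinarith

/-- Lower bound for the number of windows. `Act`: active states, at most `N`; inactive states are
absorbing; in each window at most `N (n+1)` states are reached from active states. -/
theorem auto_bound : ∃ C : ℝ, 1 ≤ C ∧ ∀ (d n : ℕ), 2 ≤ n → 128 * n ≤ d → d ≤ 256 * n →
    ∀ (V : Type) [Fintype V] [DecidableEq V] [MeasurableSpace V] [MeasurableSingletonClass V]
      (step : ℕ → V → E d × ℝ → V), (∀ t v, Measurable (step t v)) → ∀ (v0 : V)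
      (Act : Finset V) (N : ℕ), 1 ≤ N → Act.card ≤ N →
      (∀ v, v ∉ Act → ∀ t z, step t v z = v) →
      ∀ (Rl : ℕ → Finset V), (∀ l, (Rl l).card ≤ N * (n + 1)) →
      (∀ l v, v ∈ Act → ∀ u : Win d n, winF n step l v u ∈ Rl l) →
      ∀ (out : V → E d), (∀ v, ‖out v‖ = 1) → ∀ (L : ℕ) (ε : ℝ), 0 < ε → ε ≤ 1 →
      (ENNReal.ofReal (2 / 3) ≤ ((unif d).prod (rows d (L * n))) {p | ‖out (runN step 0 v0 (L * n)
        (fun i => (p.2 i, ⟪p.2 i, p.1⟫))) - p.1‖ ≤ ε}) →
      12 / 5 * n * Real.log (1 / ε) - C * d ≤ L * (C * (Real.log N / n + d)) := by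
  obtain ⟨C1, hC1, hst⟩ := static
  obtain ⟨C2, hC2, hfl⟩ := final_lb
  refine ⟨2 * C1 + 2 + C2, by linarith, ?_⟩
  intro d n hn hdn hdn2 V _ _ _ _ step hstep v0 Act N hN hAct habs Rl hRl hRl2 out hout L ε hε hε1
    hsucc
  obtain ⟨D, hD, hstD⟩ := hst d n hn hdn hdn2
  have hn1 : 1 ≤ n := by omega
  have hd2 : 2 ≤ d := by omega
  have hd1 : 1 ≤ d := by omega
  have hd0 : (0 : ℝ) < d := by exact_mod_cast hd1
  have hn0 : (0 : ℝ) < n := by exact_mod_cast hn1
  have hsq : 0 < Real.sqrt d := Real.sqrt_pos.2 hd0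
  have hlogN : 0 ≤ Real.log N := Real.log_nonneg (by exact_mod_cast hN)
  let G : V → Set (E d) := fun v => {s | ‖out v - s‖ ≤ ε}
  have hG : ∀ v, MeasurableSet (G v) := fun v => by
    have h1 : Measurable (fun s : E d => ‖out v - s‖) := by fun_prop
    exact measurableSet_le h1 measurable_const
  obtain ⟨r0, hr0, hr0'⟩ := noise_limit hd2 step hstep v0 (L * n) G hG (ENNReal.ofReal (2 / 3))
    (ENNReal.ofReal (3 / 5)) ((ENNReal.ofReal_lt_ofReal_iff (by norm_num)).2 (by norm_num)) hsucc
  have key : ∀ r : ℝ, 0 < r → r ≤ r0 → Real.sqrt d * r ≤ 1 →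
      12 / 5 * n * Real.log (1 / ε) - C2 * d ≤
        L * ((2 * C1 + 2) * (Real.log N / n + d)) +
          r * (L * (Real.sqrt d * D * Fintype.card V)) := by
    intro r hr hrr0 hw1
    have hw0 : 0 < Real.sqrt d * r := by positivity
    have h1 := hr0' r hr hrr0
    rw [noisy_eq_Pl step hstep hr v0 L G hG] at h1
    have h2 := hfl d n (n + 1) hn1 hdn (Real.sqrt d * r) ε hw0 hw1 hε hε1 V
      (Pl n step r v0 L) (fun v => measurable_Pl step hstep hr v0 L v)
      (fun s => sum_Pl step hstep hr v0 L s) out hout h1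
    have h3 : ∀ l : ℕ, relEnt (8 * n) (n + 1) (Real.sqrt d * r) (unif d) (Pl n step r v0 l) ≤
        l * ((2 * C1 + 2) * (Real.log N / n + d) + Real.sqrt d * r * D * Fintype.card V) := by
      intro l
      induction l with
      | zero =>
        have h4 : Pl n step r v0 0 = fun v _ => if v = v0 then 1 else 0 := by
          funext v s
          rfl
        rw [h4]
        have := relEnt_init (B := 8 * n) (k := n + 1) hw0 (unif d) v0
        simpa using this
      | succ l ih =>
        have h5 := mn_step hr hw0 hC1 hD hn1 hd1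
          (fun ρ hρ p0 hp0 hp1 hle V _ _ _ f hf R hR =>
            hstD r hr hw1 ρ hρ p0 hp0 hp1 hle V f hf R hR)
          step hstep v0 Act N hN hAct habs l (Rl l) (hRl l) (hRl2 l)
        push_cast
        linarith
    have h6 := h3 L
    have h7 : (L : ℝ) * ((2 * C1 + 2) * (Real.log N / n + d) +
        Real.sqrt d * r * D * Fintype.card V) =
        L * ((2 * C1 + 2) * (Real.log N / n + d)) +
          r * (L * (Real.sqrt d * D * Fintype.card V)) := by ring
    rw [h7] at h6
    linarith
  set K : ℝ := L * (Real.sqrt d * D * Fintype.card V) with hK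
  have hK0 : 0 ≤ K := by positivity
  have hfin : 12 / 5 * n * Real.log (1 / ε) - C2 * d ≤
      L * ((2 * C1 + 2) * (Real.log N / n + d)) := by
    by_contra hcon
    push Not at hcon
    set A := 12 / 5 * n * Real.log (1 / ε) - C2 * d
    set B := (L : ℝ) * ((2 * C1 + 2) * (Real.log N / n + d))
    have hAB : 0 < A - B := by linarith
    let r : ℝ := min (min r0 (1 / Real.sqrt d)) ((A - B) / (2 * (K + 1)))
    have hr : 0 < r := by
      refine lt_min (lt_min hr0 (by positivity)) (by positivity)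
    have hr1 : r ≤ r0 := (min_le_left _ _).trans (min_le_left _ _)
    have hr2 : r ≤ 1 / Real.sqrt d := (min_le_left _ _).trans (min_le_right _ _)
    have hr3 : r ≤ (A - B) / (2 * (K + 1)) := min_le_right _ _
    have h1 := key r hr hr1 (by
      calc Real.sqrt d * r ≤ Real.sqrt d * (1 / Real.sqrt d) :=
            mul_le_mul_of_nonneg_left hr2 hsq.le
        _ = 1 := by field_simp)
    have h2 : r * K ≤ (A - B) / 2 := by
      calc r * K ≤ (A - B) / (2 * (K + 1)) * K := mul_le_mul_of_nonneg_right hr3 hK0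
        _ ≤ (A - B) / (2 * (K + 1)) * (K + 1) :=
            mul_le_mul_of_nonneg_left (by linarith) (by positivity)
        _ = (A - B) / 2 := by field_simp
    linarith
  have hL0 : (0 : ℝ) ≤ L := Nat.cast_nonneg _
  have h8 : 0 ≤ Real.log N / n + d := by positivity
  have h9 : (L : ℝ) * ((2 * C1 + 2) * (Real.log N / n + d)) ≤
      L * ((2 * C1 + 2 + C2) * (Real.log N / n + d)) := by
    refine mul_le_mul_of_nonneg_left ?_ hL0
    refine mul_le_mul_of_nonneg_right ?_ h8
    linarith
  have h10 : (2 * C1 + 2 + C2) * (d : ℝ) ≥ C2 * d := by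
    refine mul_le_mul_of_nonneg_right ?_ hd0.le
    linarith
  linarith

end Vale.Agent.P309
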