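import Mathlib

/-!
# P309: the learning model

`E d` is `ℝ^d`, `rows d T` is the law of `T` independent standard normal rows, `sphereUnif d` the
uniform law on the unit sphere.  A learner has memory `Fin (2 ^ M)` and a random seed.
-/

namespace Vale.Agent.P309

open MeasureTheory ProbabilityTheory
open scoped ENNReal RealInnerProductSpace

/-- `ℝ^d` with its Euclidean norm. -/
abbrev E (d : ℕ) : Type := EuclideanSpace ℝ (Fin d)

/-- `n` independent standard normal rows. -/
noncomputable def rows (d n : ℕ) : Measure (Fin n → E d) :=
  Measure.pi (fun _ => stdGaussian (E d))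

/-- The uniform probability measure on the unit sphere of `ℝ^d`: normalised surface measure. -/
noncomputable def sphereUnif (d : ℕ) : Measure (Metric.sphere (0 : E d) 1) :=
  ((volume : Measure (E d)).toSphere Set.univ)⁻¹ • (volume : Measure (E d)).toSphere

/-- A learner with `M` bits in dimension `d`.  All its randomness is the seed
`ω : Ω`.  `init`: initial state, and whether it stops at once.  `step t`: processing of the sample
of index `t` (the `(t+1)`-st sample): new state, and whether the learner stops now.
`out t`: output if the learner has stopped after `t` samples. -/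
structure Learner (d M : ℕ) (Ω : Type) [MeasurableSpace Ω] where
  init : Ω → Fin (2 ^ M) × Bool
  step : ℕ → Ω → Fin (2 ^ M) → E d → ℝ → Fin (2 ^ M) × Bool
  out : ℕ → Ω → Fin (2 ^ M) → E d
  init_meas : Measurable init
  step_meas : ∀ t v, Measurable (fun p : Ω × E d × ℝ => step t p.1 v p.2.1 p.2.2)
  out_meas : ∀ t v, Measurable (fun ω => out t ω v)
  out_norm : ∀ t ω v, ‖out t ω v‖ = 1

namespace Learner

variable {d M : ℕ} {Ω : Type} [MeasurableSpace Ω]

/-- State after (at most) the first `t` samples; the second component is `some τ` if the learner has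
stopped after `τ` samples.  The label of the row `x i` is `⟪x i, s⟫`. -/
noncomputable def run (A : Learner d M Ω) {T : ℕ} (ω : Ω) (s : E d) (x : Fin T → E d) :
    ℕ → Fin (2 ^ M) × Option ℕ
  | 0 => ((A.init ω).1, if (A.init ω).2 then some 0 else none)
  | (t + 1) =>
    match A.run ω s x t with
    | (v, some τ) => (v, some τ)
    | (v, none) =>
      if h : t < T then
        ((A.step t ω v (x ⟨t, h⟩) ⟪x ⟨t, h⟩, s⟫).1,
          if (A.step t ω v (x ⟨t, h⟩) ⟪x ⟨t, h⟩, s⟫).2 then some (t + 1) else none)
      else (v, none)

/-- The output after at most `T` samples. -/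
noncomputable def estimate (A : Learner d M Ω) {T : ℕ} (ω : Ω) (s : E d) (x : Fin T → E d) : E d :=
  A.out ((A.run ω s x T).2.getD T) ω (A.run ω s x T).1

/-- Success at accuracy `ε` with horizon `T`: with probability at least `2/3` over the seed, the
uniform signal and the `T` independent standard normal rows, the angle between output and signal is
at most `ε`. -/
def Succeeds (A : Learner d M Ω) (T : ℕ) (P : Measure Ω) (ε : ℝ) : Prop :=
  ENNReal.ofReal (2 / 3) ≤ ((P.prod (sphereUnif d)).prod (rows d T))
    {p | Real.arccos ⟪A.estimate p.1.1 (p.1.2 : E d) p.2, (p.1.2 : E d)⟫ ≤ ε}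

end Learner

end Vale.Agent.P309
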