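import Vale.Agent.Lib.P309.Gauss

/-!
# P309, module NOISE: finite automata, and the limit of vanishing label noise
-/

namespace Vale.Agent.P309

open MeasureTheory ProbabilityTheory Filter Set
open scoped ENNReal RealInnerProductSpace Topology symmDiff

/-- Run an automaton on `k` samples, the first having index `t0`. -/
def runN {V Z : Type} (step : ℕ → V → Z → V) (t0 : ℕ) (v : V) : ∀ (k : ℕ), (Fin k → Z) → V
  | 0, _ => v
  | (k + 1), z => step (t0 + k) (runN step t0 v k (fun i => z i.castSucc)) (z (Fin.last k))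

theorem noise_shift_vol {A : Set ℝ} (hA : MeasurableSet A) (hf : volume A ≠ ∞) :
    Tendsto (fun h : ℝ => volume {y : ℝ | ¬ (y ∈ A ↔ y + h ∈ A)}) (𝓝 0) (𝓝 0) := by
  let F : ℝ → C(ℝ, ℝ) := fun h => ⟨fun y => y + h, by fun_prop⟩
  have hF : Tendsto F (𝓝 0) (𝓝 (F 0)) := by
    have : Continuous F := by
      apply ContinuousMap.continuous_of_continuous_uncurry
      show Continuous (fun p : ℝ × ℝ => p.2 + p.1)
      fun_prop
    exact this.tendsto 0
  have h := tendsto_measure_symmDiff_preimage_nhds_zero (μ := volume) (ν := volume)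
    (s := A) hF (Eventually.of_forall fun h => measurePreserving_add_right volume h)
    (measurePreserving_add_right volume 0) hA.nullMeasurableSet hf
  refine h.congr fun a => ?_
  congr 1
  ext y
  simp only [F, mem_symmDiff, mem_preimage, ContinuousMap.coe_mk, add_zero, mem_ofPred_eq]
  tauto

theorem noise_shift {m : Measure ℝ} [IsFiniteMeasure m] (hm : m ≪ volume) {A : Set ℝ}
    (hA : MeasurableSet A) :
    Tendsto (fun h : ℝ => m {y : ℝ | ¬ (y ∈ A ↔ y + h ∈ A)}) (𝓝 0) (𝓝 0) := by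
  rw [ENNReal.tendsto_nhds_zero]
  intro ε hε
  have hε2 : 0 < ε / 2 := ENNReal.half_pos hε.ne'
  -- large ball
  obtain ⟨R, hR⟩ : ∃ R : ℕ, m {y : ℝ | ¬ |y| ≤ R} < ε / 2 := by
    have h1 : Tendsto (fun n : ℕ => m {y : ℝ | ¬ |y| ≤ n}) atTop (𝓝 (m (⋂ n : ℕ, {y : ℝ | ¬ |y| ≤ n}))) := by
      apply tendsto_measure_iInter_atTop
      · intro n
        have e : MeasurableSet {y : ℝ | |y| ≤ (n : ℝ)} := measurableSet_le (by fun_prop) (by fun_prop)
        exact e.compl.nullMeasurableSet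
      · intro a b hab y hy
        simp only [mem_ofPred_eq, not_le] at hy ⊢
        exact lt_of_le_of_lt (by exact_mod_cast hab) hy
      · exact ⟨0, measure_ne_top _ _⟩
    have h2 : (⋂ n : ℕ, {y : ℝ | ¬ |y| ≤ n}) = ∅ := by
      ext y
      simp only [mem_iInter, mem_ofPred_eq, not_le, mem_empty_iff_false, iff_false, not_forall,
        not_lt]
      obtain ⟨n, hn⟩ := exists_nat_ge |y|
      exact ⟨n, hn⟩
    rw [h2, measure_empty] at h1
    exact (h1.eventually (gt_mem_nhds hε2)).exists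
  set A' : Set ℝ := A ∩ {y | |y| ≤ (R : ℝ) + 1} with hA'
  have hA'm : MeasurableSet A' := hA.inter (measurableSet_le (by fun_prop) (by fun_prop))
  have hA'f : volume A' ≠ ∞ := by
    refine ne_top_of_le_ne_top ?_ (measure_mono inter_subset_right)
    have : {y : ℝ | |y| ≤ (R : ℝ) + 1} = Icc (-((R : ℝ) + 1)) ((R : ℝ) + 1) := by
      ext y; simp [abs_le]
    rw [this]
    simp
  have h1 := noise_shift_vol hA'm hA'f
  have h2 : Tendsto (fun h : ℝ => ∫⁻ x in {y : ℝ | ¬ (y ∈ A' ↔ y + h ∈ A')}, m.rnDeriv volume x)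
      (𝓝 0) (𝓝 0) := by
    apply tendsto_setLIntegral_zero _ h1
    exact (Measure.lintegral_rnDeriv_lt_top m volume).ne
  have h3 := (ENNReal.tendsto_nhds_zero.1 h2) (ε / 2) hε2
  have h4 : ∀ᶠ h : ℝ in 𝓝 0, |h| ≤ 1 := by
    have := Metric.closedBall_mem_nhds (0 : ℝ) one_pos
    filter_upwards [this] with h hh
    simpa using hh
  filter_upwards [h3, h4] with h hh3 hh4
  have hms : MeasurableSet {y : ℝ | ¬ (y ∈ A' ↔ y + h ∈ A')} := by
    apply MeasurableSet.compl
    have e1 : MeasurableSet {y : ℝ | y ∈ A'} := hA'm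
    have e2 : MeasurableSet {y : ℝ | y + h ∈ A'} := measurableSet_preimage (by fun_prop) hA'm
    exact e1.iff e2
  rw [Measure.setLIntegral_rnDeriv' hm hms] at hh3
  calc m {y : ℝ | ¬ (y ∈ A ↔ y + h ∈ A)}
      ≤ m ({y : ℝ | ¬ (y ∈ A' ↔ y + h ∈ A')} ∪ {y : ℝ | ¬ |y| ≤ R}) := by
        apply measure_mono
        intro y hy
        simp only [mem_union, mem_ofPred_eq, hA', mem_inter_iff] at hy ⊢
        by_cases hyR : |y| ≤ R
        · left
          have e1 : |y| ≤ (R : ℝ) + 1 := by linarith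
          have e2 : |y + h| ≤ (R : ℝ) + 1 := (abs_add_le _ _).trans (by linarith)
          simpa [e1, e2] using hy
        · right; exact hyR
    _ ≤ m {y : ℝ | ¬ (y ∈ A' ↔ y + h ∈ A')} + m {y : ℝ | ¬ |y| ≤ R} := measure_union_le _ _
    _ ≤ ε / 2 + ε / 2 := by gcongr
    _ = ε := ENNReal.add_halves ε

theorem noise_null_diffeo {A ρ : ℝ} (hA : 0 < A) (hρ : 0 < ρ) {N : Set ℝ} (hN : volume N = 0) :
    volume {g : ℝ | (Real.sqrt (ρ ^ 2 + g ^ 2))⁻¹ * (A * g) ∈ N} = 0 := by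
  have h1 : volume ((fun t : ℝ => ρ * t / Real.sqrt (A ^ 2 - t ^ 2)) '' (N ∩ {t | |t| < A})) = 0 := by
    apply addHaar_image_eq_zero_of_differentiableOn_of_addHaar_eq_zero volume
    · intro t ht
      have h2 : 0 < A ^ 2 - t ^ 2 := by
        have h3 : |t| < A := ht.2
        have := sq_lt_sq' (neg_lt_of_abs_lt h3) (lt_of_abs_lt h3)
        linarith
      apply DifferentiableAt.differentiableWithinAt
      apply DifferentiableAt.div
      · fun_prop
      · apply DifferentiableAt.sqrt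
        · fun_prop
        · exact h2.ne'
      · exact (Real.sqrt_pos.2 h2).ne'
    · exact measure_mono_null inter_subset_left hN
  refine measure_mono_null ?_ h1
  intro g hg
  have hpos : 0 < ρ ^ 2 + g ^ 2 := by positivity
  have hs : 0 < Real.sqrt (ρ ^ 2 + g ^ 2) := Real.sqrt_pos.2 hpos
  have hs2 : Real.sqrt (ρ ^ 2 + g ^ 2) ^ 2 = ρ ^ 2 + g ^ 2 := Real.sq_sqrt hpos.le
  set s := Real.sqrt (ρ ^ 2 + g ^ 2) with hs'
  refine ⟨s⁻¹ * (A * g), ⟨hg, ?_⟩, ?_⟩
  · show |s⁻¹ * (A * g)| < A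
    rw [abs_mul, abs_mul, abs_of_pos hA, abs_of_pos (inv_pos.2 hs), inv_mul_lt_iff₀ hs, mul_comm]
    apply mul_lt_mul_of_pos_right _ hA
    apply abs_lt_of_sq_lt_sq _ hs.le
    rw [hs2]
    nlinarith [sq_pos_of_pos hρ]
  · show ρ * (s⁻¹ * (A * g)) / Real.sqrt (A ^ 2 - (s⁻¹ * (A * g)) ^ 2) = g
    have h3 : A ^ 2 - (s⁻¹ * (A * g)) ^ 2 = (A * ρ / s) ^ 2 := by
      field_simp
      rw [hs2]
      ring
    rw [h3, Real.sqrt_sq (by positivity)]
    field_simp

theorem noise_hyper {H : Type} [NormedAddCommGroup H] [InnerProductSpace ℝ H]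
    [FiniteDimensional ℝ H] [MeasurableSpace H] [BorelSpace H] (w : H) (hw : w ≠ 0) :
    (stdGaussian H) {x | ⟪w, x⟫ = 0} = 0 := by
  set e : Fin 1 → H := fun _ => ‖w‖⁻¹ • w with he
  have hn : ‖w‖ ≠ 0 := norm_ne_zero_iff.2 hw
  have horth : Orthonormal ℝ e := by
    constructor
    · intro i
      simp [he, norm_smul, hn]
    · intro i j hij
      exact absurd (Subsingleton.elim i j) hij
  have h1 := map_orthonormal e horth
  have h2 : {x : H | ⟪w, x⟫ = 0} = (fun ξ : H => fun i => ⟪e i, ξ⟫) ⁻¹' {y : Fin 1 → ℝ | y 0 = 0} := by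
    ext x
    simp only [mem_preimage, mem_ofPred_eq, he, real_inner_smul_left, mul_eq_zero, inv_eq_zero, hn,
      false_or]
  have hms : MeasurableSet {y : Fin 1 → ℝ | y 0 = 0} :=
    measurableSet_eq_fun (by fun_prop) (by fun_prop)
  rw [h2, ← Measure.map_apply (by fun_prop) hms, h1]
  have h3 : {y : Fin 1 → ℝ | y 0 = 0} = Set.pi univ (fun _ => {(0 : ℝ)}) := by
    ext y
    simp
  rw [h3, Measure.pi_pi]
  simp only [Finset.univ_unique, Finset.prod_const, Finset.card_singleton, pow_one]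
  exact gaussianReal_absolutelyContinuous 0 one_ne_zero (by simp)

theorem noise_ac {d : ℕ} (hd : 2 ≤ d) (a : E d) (ha : a ≠ 0) :
    (unif d).map (fun x => ⟪a, x⟫) ≪ volume := by
  apply Measure.AbsolutelyContinuous.mk
  intro N hNm hN
  have hna : 0 < ‖a‖ := norm_pos_iff.2 ha
  set u : E d := ‖a‖⁻¹ • a with hu
  have hau : a = ‖a‖ • u := by
    rw [hu, smul_smul, mul_inv_cancel₀ hna.ne', one_smul]
  have hun : ‖u‖ = 1 := by
    rw [hu, norm_smul, norm_inv, norm_norm, inv_mul_cancel₀ hna.ne']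
  have huu : ⟪u, u⟫ = (1 : ℝ) := by
    rw [real_inner_self_eq_norm_sq, hun]; norm_num
  rw [Measure.map_apply (by fun_prop) hNm]
  unfold unif
  rw [Measure.map_apply (by fun_prop) (measurableSet_preimage (by fun_prop) hNm), ← resample u hun]
  have hS : MeasurableSet ((fun x : E d => ‖x‖⁻¹ • x) ⁻¹' ((fun x : E d => (⟪a, x⟫ : ℝ)) ⁻¹' N)) := by
    apply measurableSet_preimage (by fun_prop)
    exact measurableSet_preimage (by fun_prop) hNm
  have hT : Measurable (fun p : E d × ℝ => p.1 + (p.2 - ⟪p.1, u⟫) • u) := by fun_prop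
  rw [Measure.map_apply hT hS, Measure.prod_apply (hT hS), lintegral_eq_zero_iff
    (measurable_measure_prodMk_left (hT hS))]
  -- a vector orthogonal to `u`
  obtain ⟨w, hw0, hwu⟩ : ∃ w : E d, w ≠ 0 ∧ ⟪u, w⟫ = (0 : ℝ) := by
    have h1 : Module.finrank ℝ (ℝ ∙ u) = 1 := finrank_span_singleton (by
      intro h; rw [h] at hun; simp at hun)
    have h2 : (ℝ ∙ u)ᗮ ≠ ⊥ := by
      intro h
      have h3 := Submodule.finrank_add_finrank_orthogonal (ℝ ∙ u)
      rw [h, h1] at h3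
      simp at h3
      omega
    obtain ⟨w, hw, hw0⟩ := Submodule.exists_mem_ne_zero_of_ne_bot h2
    exact ⟨w, hw0, Submodule.mem_orthogonal_singleton_iff_inner_right.1 hw⟩
  have h5 : ∀ᵐ x ∂(stdGaussian (E d)), ⟪w, x⟫ ≠ (0 : ℝ) := by
    rw [ae_iff]
    simpa using noise_hyper w hw0
  filter_upwards [h5] with x hx
  show (gaussianReal 0 1) (Prod.mk x ⁻¹' _) = 0
  set v : E d := x - ⟪x, u⟫ • u with hv
  have hv0 : v ≠ 0 := by
    intro h
    apply hx
    have h6 : x = ⟪x, u⟫ • u := sub_eq_zero.1 h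
    have h6' : ⟪w, x⟫ = ⟪x, u⟫ * ⟪w, u⟫ := by
      conv_lhs => rw [h6]
      rw [real_inner_smul_right]
    rw [h6', real_inner_comm u w, hwu, mul_zero]
  have hvu : ⟪v, u⟫ = (0 : ℝ) := by
    rw [hv, inner_sub_left, real_inner_smul_left, huu]; ring
  have h7 := noise_null_diffeo hna (norm_pos_iff.2 hv0) hN
  apply gaussianReal_absolutelyContinuous 0 one_ne_zero
  refine measure_mono_null ?_ h7
  intro g hg
  have h8 : x + (g - ⟪x, u⟫) • u = v + g • u := by
    rw [hv, sub_smul]; abel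
  have h9 : ‖v + g • u‖ = Real.sqrt (‖v‖ ^ 2 + g ^ 2) := by
    rw [eq_comm, Real.sqrt_eq_iff_eq_sq (by positivity) (norm_nonneg _), norm_add_sq_real,
      real_inner_smul_right, hvu, norm_smul, hun]
    simp
  have h10 : ⟪a, v + g • u⟫ = ‖a‖ * g := by
    rw [inner_add_right, real_inner_smul_right]
    have e1 : ⟪a, v⟫ = (0 : ℝ) := by
      rw [hau, real_inner_smul_left, real_inner_comm, hvu, mul_zero]
    have e2 : ⟪a, u⟫ = ‖a‖ := by
      conv_lhs => rw [hau]
      rw [real_inner_smul_left, huu, mul_one]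
    rw [e1, e2]; ring
  simp only [mem_preimage] at hg
  rw [h8, real_inner_smul_right, h9, h10] at hg
  exact hg


/-- Shifting the label by a small noise rarely changes membership in a measurable set. -/
theorem noise_key {d : ℕ} (hd : 2 ≤ d) {S : Set (E d × ℝ)} (hS : MeasurableSet S) :
    Tendsto (fun r : ℝ => ((unif d).prod ((stdGaussian (E d)).prod (gaussianReal 0 1)))
      {q : E d × E d × ℝ | ¬ ((q.2.1, (⟪q.2.1, q.1⟫ : ℝ)) ∈ S ↔
        (q.2.1, (⟪q.2.1, q.1⟫ : ℝ) + r * q.2.2) ∈ S)}) (𝓝 0) (𝓝 0) := by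
  have hB : ∀ r : ℝ, MeasurableSet {q : E d × E d × ℝ | ¬ ((q.2.1, (⟪q.2.1, q.1⟫ : ℝ)) ∈ S ↔
      (q.2.1, (⟪q.2.1, q.1⟫ : ℝ) + r * q.2.2) ∈ S)} := by
    intro r
    apply MeasurableSet.compl
    have e1 : MeasurableSet {q : E d × E d × ℝ | (q.2.1, (⟪q.2.1, q.1⟫ : ℝ)) ∈ S} :=
      measurableSet_preimage (by fun_prop) hS
    have e2 : MeasurableSet {q : E d × E d × ℝ | (q.2.1, (⟪q.2.1, q.1⟫ : ℝ) + r * q.2.2) ∈ S} :=
      measurableSet_preimage (by fun_prop) hS
    exact e1.iff e2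
  have h1 : ∀ r : ℝ, ((unif d).prod ((stdGaussian (E d)).prod (gaussianReal 0 1)))
      {q : E d × E d × ℝ | ¬ ((q.2.1, (⟪q.2.1, q.1⟫ : ℝ)) ∈ S ↔
        (q.2.1, (⟪q.2.1, q.1⟫ : ℝ) + r * q.2.2) ∈ S)} =
      ∫⁻ y : E d × ℝ, (unif d) {x | ¬ ((y.1, (⟪y.1, x⟫ : ℝ)) ∈ S ↔
        (y.1, (⟪y.1, x⟫ : ℝ) + r * y.2) ∈ S)} ∂((stdGaussian (E d)).prod (gaussianReal 0 1)) := by
    intro r
    rw [Measure.prod_apply_symm (hB r)]
    rfl
  simp_rw [h1]
  have h0 : ∫⁻ _y : E d × ℝ, (0 : ℝ≥0∞) ∂((stdGaussian (E d)).prod (gaussianReal 0 1)) = 0 := by simp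
  rw [← h0]
  apply tendsto_lintegral_filter_of_dominated_convergence (fun _ => (1 : ℝ≥0∞))
  · exact Eventually.of_forall fun r => measurable_measure_prodMk_right (hB r)
  · exact Eventually.of_forall fun r => Eventually.of_forall fun y => prob_le_one
  · simp
  · have hne : ∀ᵐ y : E d × ℝ ∂((stdGaussian (E d)).prod (gaussianReal 0 1)), y.1 ≠ 0 := by
      have h2 : ∀ᵐ x ∂(stdGaussian (E d)), x ≠ 0 := by
        rw [ae_iff]
        have i0 : Fin d := ⟨0, by omega⟩
        refine measure_mono_null ?_ (noise_hyper (EuclideanSpace.single i0 (1 : ℝ)) (by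
          intro h
          have := congrArg (fun z : E d => z i0) h
          simp at this))
        intro x hx
        simp only [mem_ofPred_eq, not_not] at hx
        simp [hx]
      exact Measure.ae_prod_mem_iff_ae_ae_mem (s := {y : E d × ℝ | y.1 ≠ 0}) (by
        apply MeasurableSet.compl
        exact measurableSet_eq_fun (by fun_prop) (by fun_prop)) |>.2 (by
          filter_upwards [h2] with x hx
          exact Eventually.of_forall fun _ => hx)
    filter_upwards [hne] with y hy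
    have hA : MeasurableSet {t : ℝ | (y.1, t) ∈ S} := measurableSet_preimage (by fun_prop) hS
    have h3 := noise_shift (noise_ac hd y.1 hy) hA
    have h4 : Tendsto (fun r : ℝ => r * y.2) (𝓝 0) (𝓝 0) := by
      have : Tendsto (fun r : ℝ => r * y.2) (𝓝 0) (𝓝 (0 * y.2)) := by
        apply Continuous.tendsto
        fun_prop
      simpa using this
    have h5 := h3.comp h4
    refine h5.congr fun r => ?_
    simp only [Function.comp]
    rw [Measure.map_apply (by fun_prop)]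
    · rfl
    · apply MeasurableSet.compl
      have e2 : MeasurableSet {t : ℝ | t + r * y.2 ∈ {t : ℝ | (y.1, t) ∈ S}} :=
        measurableSet_preimage (by fun_prop) hA
      exact hA.iff e2

theorem runN_measurable {Ω V Z : Type} [Fintype V] [MeasurableSpace V]
    [MeasurableSingletonClass V] [MeasurableSpace Z] [MeasurableSpace Ω] (step : ℕ → V → Z → V)
    (hstep : ∀ t v, Measurable (step t v)) (t0 : ℕ) (v0 : V) :
    ∀ (k : ℕ) (z : Ω → Fin k → Z), Measurable z → Measurable (fun ω => runN step t0 v0 k (z ω))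
  | 0, _, _ => measurable_const
  | (k + 1), z, hz => by
    have h1 : Measurable (fun ω => runN step t0 v0 k (fun i => z ω i.castSucc)) := by
      apply runN_measurable step hstep t0 v0 k
      fun_prop
    have h2 : Measurable (fun p : V × Z => step (t0 + k) p.1 p.2) :=
      measurable_from_prod_countable_right fun v => hstep (t0 + k) v
    exact h2.comp (h1.prodMk ((measurable_pi_apply (Fin.last k)).comp hz))

theorem runN_congr {V Z : Type} (step : ℕ → V → Z → V) (v0 : V) :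
    ∀ (k : ℕ) (z z' : Fin k → Z), (∀ i : Fin k, ∀ v, step i v (z i) = step i v (z' i)) →
      runN step 0 v0 k z = runN step 0 v0 k z'
  | 0, _, _, _ => rfl
  | (k + 1), z, z', h => by
    have h1 := runN_congr step v0 k (fun i => z i.castSucc) (fun i => z' i.castSucc)
      (fun i v => h i.castSucc v)
    have h2 := h (Fin.last k)
    simp only [Fin.val_last] at h2
    simp only [runN, zero_add]
    rw [h1, h2]

/-- For small noise the success probability is almost that of the exact run. -/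
theorem noise_limit {d : ℕ} (hd : 2 ≤ d) {V : Type} [Fintype V] [MeasurableSpace V]
    [MeasurableSingletonClass V] (step : ℕ → V → E d × ℝ → V)
    (hstep : ∀ t v, Measurable (step t v)) (v0 : V) (T : ℕ) (G : V → Set (E d))
    (hG : ∀ v, MeasurableSet (G v)) (c c' : ℝ≥0∞) (hc : c' < c)
    (h : c ≤ ((unif d).prod (rows d T)) {p | p.1 ∈ G (runN step 0 v0 T
      (fun i => (p.2 i, ⟪p.2 i, p.1⟫)))}) :
    ∃ r0 : ℝ, 0 < r0 ∧ ∀ r : ℝ, 0 < r → r ≤ r0 →
      c' ≤ ((unif d).prod ((rows d T).prod (gs T))) {p | p.1 ∈ G (runN step 0 v0 T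
        (fun i => (p.2.1 i, ⟪p.2.1 i, p.1⟫ + r * p.2.2 i)))} := by
  classical
  -- the exact event
  have hE0 : MeasurableSet {p : E d × (Fin T → E d) | p.1 ∈ G (runN step 0 v0 T
      (fun i => (p.2 i, (⟪p.2 i, p.1⟫ : ℝ))))} := by
    have hr : Measurable (fun p : E d × (Fin T → E d) => runN step 0 v0 T
        (fun i => (p.2 i, (⟪p.2 i, p.1⟫ : ℝ)))) := by
      apply runN_measurable step hstep 0 v0 T
        (fun (p : E d × (Fin T → E d)) (i : Fin T) => (p.2 i, (⟪p.2 i, p.1⟫ : ℝ)))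
      fun_prop
    have e : {p : E d × (Fin T → E d) | p.1 ∈ G (runN step 0 v0 T
        (fun i => (p.2 i, (⟪p.2 i, p.1⟫ : ℝ))))} = ⋃ v : V,
        (Prod.fst ⁻¹' (G v)) ∩ ((fun p : E d × (Fin T → E d) => runN step 0 v0 T
        (fun i => (p.2 i, (⟪p.2 i, p.1⟫ : ℝ)))) ⁻¹' {v}) := by
      ext p
      simp only [mem_ofPred_eq, mem_iUnion, mem_inter_iff, mem_preimage, mem_singleton_iff]
      constructor
      · intro hp
        exact ⟨_, hp, rfl⟩
      · rintro ⟨v, h1, h2⟩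
        rw [h2]
        exact h1
    rw [e]
    exact MeasurableSet.iUnion fun v => (measurable_fst (hG v)).inter (hr (measurableSet_singleton v))
  have hmp : MeasurePreserving (Prod.map id Prod.fst : E d × (Fin T → E d) × (Fin T → ℝ) → _)
      ((unif d).prod ((rows d T).prod (gs T))) ((unif d).prod (rows d T)) :=
    (MeasurePreserving.id _).prod measurePreserving_fst
  have hbig : c ≤ ((unif d).prod ((rows d T).prod (gs T))) {p | p.1 ∈ G (runN step 0 v0 T
      (fun i => (p.2.1 i, (⟪p.2.1 i, p.1⟫ : ℝ))))} := by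
    rw [← hmp.measure_preimage hE0.nullMeasurableSet] at h
    exact h
  -- one sample
  have hone : ∀ (i : Fin T) (v w : V), Tendsto (fun r : ℝ =>
      ((unif d).prod ((rows d T).prod (gs T))) {p |
        ¬ ((p.2.1 i, (⟪p.2.1 i, p.1⟫ : ℝ)) ∈ (step i v) ⁻¹' {w} ↔
        (p.2.1 i, (⟪p.2.1 i, p.1⟫ : ℝ) + r * p.2.2 i) ∈ (step i v) ⁻¹' {w})}) (𝓝 0) (𝓝 0) := by
    intro i v w
    have hS : MeasurableSet ((step i v) ⁻¹' {w}) := hstep i v (measurableSet_singleton w)
    refine (noise_key hd hS).congr fun r => ?_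
    have h1 : MeasurePreserving (Function.eval i) (rows d T) (stdGaussian (E d)) :=
      measurePreserving_eval (fun _ : Fin T => stdGaussian (E d)) i
    have h2 : MeasurePreserving (Function.eval i) (gs T) (gaussianReal 0 1) :=
      measurePreserving_eval (fun _ : Fin T => gaussianReal 0 1) i
    have h3 := (MeasurePreserving.id (unif d)).prod (h1.prod h2)
    have hms : MeasurableSet {q : E d × E d × ℝ | ¬ ((q.2.1, (⟪q.2.1, q.1⟫ : ℝ)) ∈
        (step i v) ⁻¹' {w} ↔ (q.2.1, (⟪q.2.1, q.1⟫ : ℝ) + r * q.2.2) ∈ (step i v) ⁻¹' {w})} := by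
      apply MeasurableSet.compl
      have e1 : MeasurableSet {q : E d × E d × ℝ | (q.2.1, (⟪q.2.1, q.1⟫ : ℝ)) ∈
          (step i v) ⁻¹' {w}} := measurableSet_preimage (by fun_prop) hS
      have e2 : MeasurableSet {q : E d × E d × ℝ | (q.2.1, (⟪q.2.1, q.1⟫ : ℝ) + r * q.2.2) ∈
          (step i v) ⁻¹' {w}} := measurableSet_preimage (by fun_prop) hS
      exact e1.iff e2
    exact (h3.measure_preimage hms.nullMeasurableSet).symm
  have hsum : Tendsto (fun r : ℝ => ∑ i : Fin T, ∑ v : V, ∑ w : V,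
      ((unif d).prod ((rows d T).prod (gs T))) {p |
        ¬ ((p.2.1 i, (⟪p.2.1 i, p.1⟫ : ℝ)) ∈ (step i v) ⁻¹' {w} ↔
        (p.2.1 i, (⟪p.2.1 i, p.1⟫ : ℝ) + r * p.2.2 i) ∈ (step i v) ⁻¹' {w})}) (𝓝 0) (𝓝 0) := by
    have := tendsto_finsetSum (Finset.univ : Finset (Fin T)) (fun i _ =>
      tendsto_finsetSum (Finset.univ : Finset V) (fun v _ =>
        tendsto_finsetSum (Finset.univ : Finset V) (fun w _ => hone i v w)))
    simpa using this
  have hev := ENNReal.tendsto_nhds_zero.1 hsum (c - c') (tsub_pos_of_lt hc)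
  obtain ⟨r0, hr0, hball⟩ := Metric.eventually_nhds_iff.1 hev
  refine ⟨r0 / 2, by linarith, fun r hr hr2 => ?_⟩
  have hδ := hball (y := r) (by
    rw [Real.dist_eq, sub_zero, abs_of_pos hr]
    linarith)
  set μ := (unif d).prod ((rows d T).prod (gs T)) with hμ
  set δ := ∑ i : Fin T, ∑ v : V, ∑ w : V, μ {p |
        ¬ ((p.2.1 i, (⟪p.2.1 i, p.1⟫ : ℝ)) ∈ (step i v) ⁻¹' {w} ↔
        (p.2.1 i, (⟪p.2.1 i, p.1⟫ : ℝ) + r * p.2.2 i) ∈ (step i v) ⁻¹' {w})} with hδ'
  have hsub : {p : E d × (Fin T → E d) × (Fin T → ℝ) | p.1 ∈ G (runN step 0 v0 T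
      (fun i => (p.2.1 i, (⟪p.2.1 i, p.1⟫ : ℝ))))} ⊆
      {p | p.1 ∈ G (runN step 0 v0 T (fun i => (p.2.1 i, (⟪p.2.1 i, p.1⟫ : ℝ) + r * p.2.2 i)))} ∪
      ⋃ i : Fin T, ⋃ v : V, ⋃ w : V, {p |
        ¬ ((p.2.1 i, (⟪p.2.1 i, p.1⟫ : ℝ)) ∈ (step i v) ⁻¹' {w} ↔
        (p.2.1 i, (⟪p.2.1 i, p.1⟫ : ℝ) + r * p.2.2 i) ∈ (step i v) ⁻¹' {w})} := by
    intro p hp
    by_cases hb : ∀ i : Fin T, ∀ v, step i v (p.2.1 i, (⟪p.2.1 i, p.1⟫ : ℝ)) =
        step i v (p.2.1 i, (⟪p.2.1 i, p.1⟫ : ℝ) + r * p.2.2 i)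
    · left
      have h4 := runN_congr step v0 T (fun i => (p.2.1 i, (⟪p.2.1 i, p.1⟫ : ℝ)))
        (fun i => (p.2.1 i, (⟪p.2.1 i, p.1⟫ : ℝ) + r * p.2.2 i)) hb
      show p.1 ∈ G _
      rw [← h4]
      exact hp
    · right
      push Not at hb
      obtain ⟨i, v, hiv⟩ := hb
      simp only [mem_iUnion]
      refine ⟨i, v, step i v (p.2.1 i, (⟪p.2.1 i, p.1⟫ : ℝ)), ?_⟩
      show ¬ (_ ↔ _)
      intro h5
      exact hiv ((h5.1 rfl : _ = _).symm)
  have hle : c ≤ μ {p | p.1 ∈ G (runN step 0 v0 T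
      (fun i => (p.2.1 i, (⟪p.2.1 i, p.1⟫ : ℝ) + r * p.2.2 i)))} + δ := by
    refine hbig.trans ((measure_mono hsub).trans ((measure_union_le _ _).trans ?_))
    gcongr
    rw [hδ']
    refine (measure_iUnion_fintype_le _ _).trans (Finset.sum_le_sum fun i _ => ?_)
    refine (measure_iUnion_fintype_le _ _).trans (Finset.sum_le_sum fun v _ => ?_)
    exact measure_iUnion_fintype_le _ _
  have hcf : c ≠ ∞ := ne_top_of_le_ne_top (measure_ne_top μ _) hbig
  have hδf : δ ≠ ∞ := ne_top_of_le_ne_top (ne_top_of_le_ne_top hcf tsub_le_self) hδ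
  have h6 : c' + δ ≤ c := by
    calc c' + δ ≤ c' + (c - c') := by gcongr
      _ = c := add_tsub_cancel_of_le hc.le
  exact (ENNReal.add_le_add_iff_right hδf).1 (h6.trans hle)

end Vale.Agent.P309
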