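import Vale.Agent.Lib.P309.Gauss

/-!
# P309, module OPNORM: operator norm of a Gaussian matrix

Take `N X = 9 log (3^n avg_{u ∈ Ball(0,3/2) ⊆ ℝ^n} exp(|∑ u_i X_i|^2/9))` (or define it by the integral
over the ball divided by the volume of `Ball(0,1/2)`).  For a unit vector `v ∈ ℝ^n`:
`exp(|∑ v_i X_i|^2/9) ≤` average over `u ∈ Ball(v,1/2)` (symmetry `u ↦ 2v-u` and convexity)
`≤ 3^n` avg over `Ball(0,3/2)`.  `E exp(|∑ u_i X_i|^2/9) ≤ 2^d` for `|u| ≤ 3/2`
(`rows_comb`, `lintegral_exp_norm`).  Then `E N ≤ 9 log (3^n 2^d)` (Jensen, or `log x ≤ x/R - 1 + log R`).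
-/

namespace Vale.Agent.P309

open MeasureTheory ProbabilityTheory
open scoped ENNReal RealInnerProductSpace

/-- linear combination of the rows -/
noncomputable def opL {d n : ℕ} (X : Fin n → E d) (u : E n) : E d := ∑ i, u i • X i

/-- the integrand -/
noncomputable def opF {d n : ℕ} (X : Fin n → E d) (u : E n) : ℝ≥0∞ :=
  ENNReal.ofReal (Real.exp (‖opL X u‖ ^ 2 / 9))

/-- the integral over the ball, normalised -/
noncomputable def opQ {d n : ℕ} (X : Fin n → E d) : ℝ≥0∞ :=
  (∫⁻ u in Metric.ball (0 : E n) (3 / 2), opF X u) / volume (Metric.ball (0 : E n) (1 / 2))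

theorem opL_cont {d n : ℕ} :
    Continuous (fun p : (Fin n → E d) × E n => opL p.1 p.2) := by
  unfold opL
  refine continuous_finsetSum _ fun i _ => ?_
  have h1 : Continuous (fun p : (Fin n → E d) × E n => p.2 i) := by
    fun_prop
  have h2 : Continuous (fun p : (Fin n → E d) × E n => p.1 i) := by
    fun_prop
  exact h1.smul h2

theorem opF_meas {d n : ℕ} :
    Measurable (fun p : (Fin n → E d) × E n => opF p.1 p.2) := by
  unfold opF
  refine ENNReal.measurable_ofReal.comp ?_
  refine Real.continuous_exp.measurable.comp ?_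
  exact ((opL_cont.norm.pow 2).div_const 9).measurable

theorem opF_meas' {d n : ℕ} (X : Fin n → E d) : Measurable (opF X) :=
  (opF_meas (d := d) (n := n)).comp (g := fun p : (Fin n → E d) × E n => opF p.1 p.2)
    (f := fun u : E n => (X, u)) measurable_prodMk_left

theorem opQ_meas {d n : ℕ} : Measurable (opQ (d := d) (n := n)) := by
  unfold opQ
  refine Measurable.div ?_ measurable_const
  exact opF_meas.lintegral_prod_right'

theorem ball_vol_pos {n : ℕ} {r : ℝ} (hr : 0 < r) (x : E n) :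
    volume (Metric.ball x r) ≠ 0 := (Metric.measure_ball_pos volume x hr).ne'

theorem ball_vol_lt {n : ℕ} {r : ℝ} (x : E n) :
    volume (Metric.ball x r) ≠ ∞ := measure_ball_lt_top.ne

theorem ball_vol_ratio {n : ℕ} :
    volume (Metric.ball (0 : E n) (3 / 2)) = 3 ^ n * volume (Metric.ball (0 : E n) (1 / 2)) := by
  rw [Measure.addHaar_ball_of_pos volume (0 : E n) (by norm_num : (0:ℝ) < 3/2),
    Measure.addHaar_ball_of_pos volume (0 : E n) (by norm_num : (0:ℝ) < 1/2), ← mul_assoc]
  congr 1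
  rw [show (3:ℝ≥0∞) ^ n = ENNReal.ofReal (3 ^ n) by
    rw [ENNReal.ofReal_pow (by norm_num)]; norm_num]
  rw [← ENNReal.ofReal_mul (by positivity)]
  congr 1
  simp only [finrank_euclideanSpace, Fintype.card_fin]
  rw [← mul_pow]; norm_num

/-- the value at the centre is at most the average -/
theorem opF_center {d n : ℕ} (X : Fin n → E d) (v : E n) :
    opF X v * volume (Metric.ball v (1 / 2)) ≤ ∫⁻ u in Metric.ball v (1 / 2), opF X u := by
  have hmp : MeasurePreserving (fun u : E n => v + v - u) volume volume :=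
    Measure.measurePreserving_sub_left volume (v + v)
  have hpre : (fun u : E n => v + v - u) ⁻¹' (Metric.ball v (1 / 2)) = Metric.ball v (1 / 2) := by
    ext u
    simp only [Set.mem_preimage, Metric.mem_ball, dist_eq_norm]
    rw [show v + v - u - v = -(u - v) by abel, norm_neg]
  have h1 : ∫⁻ u in Metric.ball v (1 / 2), opF X (v + v - u) =
      ∫⁻ u in Metric.ball v (1 / 2), opF X u := by
    have := hmp.setLIntegral_comp_preimage (s := Metric.ball v (1 / 2)) Metric.isOpen_ball.measurableSet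
      (opF_meas' X)
    rwa [hpre] at this
  have h2 : ∀ u : E n, opF X v + opF X v ≤ opF X u + opF X (v + v - u) := by
    intro u
    unfold opF
    rw [← ENNReal.ofReal_add (Real.exp_pos _).le (Real.exp_pos _).le,
      ← ENNReal.ofReal_add (Real.exp_pos _).le (Real.exp_pos _).le]
    apply ENNReal.ofReal_le_ofReal
    have hlin : opL X v + opL X v = opL X u + opL X (v + v - u) := by
      unfold opL
      rw [← Finset.sum_add_distrib, ← Finset.sum_add_distrib]
      refine Finset.sum_congr rfl fun i _ => ?_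
      simp only [PiLp.sub_apply, PiLp.add_apply]
      rw [← add_smul, ← add_smul]
      congr 1; ring
    set a := opL X v
    set b := opL X u
    set c := opL X (v + v - u)
    have hn : 2 * ‖a‖ ≤ ‖b‖ + ‖c‖ := by
      have : ‖a + a‖ = 2 * ‖a‖ := by
        rw [← two_smul ℝ a, norm_smul]; norm_num
      rw [← this, hlin]; exact norm_add_le _ _
    have hs : ‖a‖ ^ 2 / 9 ≤ (‖b‖ ^ 2 / 9 + ‖c‖ ^ 2 / 9) / 2 := by
      nlinarith [norm_nonneg a, norm_nonneg b, norm_nonneg c, sq_nonneg (‖b‖ - ‖c‖)]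
    have hexp : Real.exp (‖a‖ ^ 2 / 9) ≤ Real.exp ((‖b‖ ^ 2 / 9 + ‖c‖ ^ 2 / 9) / 2) :=
      Real.exp_le_exp.mpr hs
    have hm : 2 * Real.exp ((‖b‖ ^ 2 / 9 + ‖c‖ ^ 2 / 9) / 2) ≤
        Real.exp (‖b‖ ^ 2 / 9) + Real.exp (‖c‖ ^ 2 / 9) := by
      have e1 : Real.exp (‖b‖ ^ 2 / 9) = Real.exp (‖b‖ ^ 2 / 9 / 2) ^ 2 := by
        rw [← Real.exp_nat_mul]; congr 1; push_cast; ring
      have e2 : Real.exp (‖c‖ ^ 2 / 9) = Real.exp (‖c‖ ^ 2 / 9 / 2) ^ 2 := by
        rw [← Real.exp_nat_mul]; congr 1; push_cast; ring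
      have e3 : Real.exp ((‖b‖ ^ 2 / 9 + ‖c‖ ^ 2 / 9) / 2) =
          Real.exp (‖b‖ ^ 2 / 9 / 2) * Real.exp (‖c‖ ^ 2 / 9 / 2) := by
        rw [← Real.exp_add]; congr 1; ring
      rw [e1, e2, e3]
      nlinarith [sq_nonneg (Real.exp (‖b‖ ^ 2 / 9 / 2) - Real.exp (‖c‖ ^ 2 / 9 / 2))]
    linarith
  have h3 : ∫⁻ u in Metric.ball v (1 / 2), (opF X v + opF X v) ≤
      ∫⁻ u in Metric.ball v (1 / 2), (opF X u + opF X (v + v - u)) :=
    lintegral_mono fun u => h2 u
  rw [lintegral_add_left (opF_meas' X), h1, lintegral_const, Measure.restrict_apply_univ,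
    add_mul] at h3
  set A := opF X v * volume (Metric.ball v (1 / 2))
  set B := ∫⁻ u in Metric.ball v (1 / 2), opF X u
  by_contra hlt
  push Not at hlt
  have : B + B < A + A := ENNReal.add_lt_add hlt hlt
  exact absurd h3 (not_le.mpr this)

theorem opF_le_opQ {d n : ℕ} (X : Fin n → E d) (v : E n) (hv : ‖v‖ ≤ 1) :
    opF X v ≤ opQ X := by
  unfold opQ
  rw [ENNReal.le_div_iff_mul_le (Or.inl (ball_vol_pos (by norm_num) _))
    (Or.inl (ball_vol_lt _))]
  have hv2 : volume (Metric.ball (0 : E n) (1 / 2)) = volume (Metric.ball v (1 / 2)) :=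
    (Measure.addHaar_ball_center volume v (1 / 2)).symm
  rw [hv2]
  refine (opF_center X v).trans ?_
  refine lintegral_mono_set ?_
  intro u hu
  rw [Metric.mem_ball, dist_eq_norm] at hu ⊢
  rw [sub_zero]
  calc ‖u‖ = ‖(u - v) + v‖ := by rw [sub_add_cancel]
    _ ≤ ‖u - v‖ + ‖v‖ := norm_add_le _ _
    _ < 1 / 2 + 1 := by linarith
    _ = 3 / 2 := by norm_num

theorem opQ_ne_top {d n : ℕ} (X : Fin n → E d) : opQ X ≠ ∞ := by
  unfold opQ
  refine ENNReal.div_ne_top ?_ (ball_vol_pos (by norm_num) _)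
  set R : ℝ := ∑ i, (3 / 2) * ‖X i‖
  have hb : ∀ u ∈ Metric.ball (0 : E n) (3 / 2), opF X u ≤ ENNReal.ofReal (Real.exp (R ^ 2 / 9)) := by
    intro u hu
    unfold opF
    apply ENNReal.ofReal_le_ofReal
    apply Real.exp_le_exp.mpr
    have h1 : ‖opL X u‖ ≤ R := by
      unfold opL
      refine (norm_sum_le _ _).trans ?_
      refine Finset.sum_le_sum fun i _ => ?_
      rw [norm_smul]
      have hu' : ‖u‖ < 3 / 2 := by simpa [dist_eq_norm] using hu
      have : ‖u i‖ ≤ ‖u‖ := PiLp.norm_apply_le u i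
      exact mul_le_mul_of_nonneg_right (by linarith) (norm_nonneg _)
    have h0 := norm_nonneg (opL X u)
    have : ‖opL X u‖ ^ 2 ≤ R ^ 2 := by gcongr
    linarith
  have : ∫⁻ u in Metric.ball (0 : E n) (3 / 2), opF X u ≤
      ∫⁻ u in Metric.ball (0 : E n) (3 / 2), ENNReal.ofReal (Real.exp (R ^ 2 / 9)) :=
    setLIntegral_mono' Metric.isOpen_ball.measurableSet hb
  refine ne_top_of_le_ne_top ?_ this
  rw [lintegral_const, Measure.restrict_apply_univ]
  exact ENNReal.mul_ne_top ENNReal.ofReal_ne_top (ball_vol_lt _)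

theorem lintegral_opF {d n : ℕ} (u : E n) (hu : ‖u‖ ≤ 3 / 2) :
    ∫⁻ X, opF X u ∂(rows d n) ≤ 2 ^ d := by
  have hF : Measurable (fun y : E d => ENNReal.ofReal (Real.exp (‖y‖ ^ 2 / 9))) := by
    fun_prop
  have hL : Measurable (fun X : Fin n → E d => ∑ i, u i • X i) := by
    fun_prop
  have h1 : ∫⁻ X, opF X u ∂(rows d n) =
      ∫⁻ y, ENNReal.ofReal (Real.exp (‖y‖ ^ 2 / 9)) ∂((rows d n).map (fun X => ∑ i, u i • X i)) := by
    rw [lintegral_map hF hL]; rfl
  rw [h1, rows_comb (d := d) (n := n) (fun i => u i), lintegral_map hF (by fun_prop)]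
  refine le_trans (lintegral_mono (g := fun x : E d => ENNReal.ofReal (Real.exp (‖x‖ ^ 2 / 4))) ?_) ?_
  · intro x
    apply ENNReal.ofReal_le_ofReal
    apply Real.exp_le_exp.mpr
    have hs : ∑ i, u i ^ 2 = ‖u‖ ^ 2 := by
      rw [EuclideanSpace.norm_sq_eq]
      exact Finset.sum_congr rfl fun i _ => by rw [Real.norm_eq_abs, sq_abs]
    rw [hs, Real.sqrt_sq (norm_nonneg _), norm_smul, norm_norm]
    have h2 : ‖u‖ ^ 2 ≤ 9 / 4 := by nlinarith [norm_nonneg u]
    have h3 : 0 ≤ ‖x‖ ^ 2 := by positivity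
    nlinarith
  · have := lintegral_exp_norm (H := E d)
    rwa [finrank_euclideanSpace, Fintype.card_fin] at this

theorem lintegral_opQ {d n : ℕ} : ∫⁻ X, opQ X ∂(rows d n) ≤ 3 ^ n * 2 ^ d := by
  have hm : Measurable (fun X : Fin n → E d => ∫⁻ u in Metric.ball (0 : E n) (3 / 2), opF X u) :=
    (opF_meas (d := d) (n := n)).lintegral_prod_right'
  have h0 : ∀ X : Fin n → E d, opQ X = (∫⁻ u in Metric.ball (0 : E n) (3 / 2), opF X u) *
      (volume (Metric.ball (0 : E n) (1 / 2)))⁻¹ := fun X => by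
    unfold opQ; rw [div_eq_mul_inv]
  simp only [h0]
  rw [lintegral_mul_const _ hm]
  rw [← div_eq_mul_inv]
  refine ENNReal.div_le_of_le_mul ?_
  have hsw : ∫⁻ X, (∫⁻ u in Metric.ball (0 : E n) (3 / 2), opF X u) ∂(rows d n) =
      ∫⁻ u in Metric.ball (0 : E n) (3 / 2), ∫⁻ X, opF X u ∂(rows d n) := by
    rw [lintegral_lintegral_swap]
    exact opF_meas.aemeasurable
  rw [hsw]
  calc ∫⁻ u in Metric.ball (0 : E n) (3 / 2), ∫⁻ X, opF X u ∂(rows d n)
      ≤ ∫⁻ u in Metric.ball (0 : E n) (3 / 2), (2 : ℝ≥0∞) ^ d := by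
        refine setLIntegral_mono' Metric.isOpen_ball.measurableSet ?_
        intro u hu
        exact lintegral_opF u (by
          have : ‖u‖ < 3 / 2 := by simpa [dist_eq_norm] using hu
          exact this.le)
    _ = 3 ^ n * 2 ^ d * volume (Metric.ball (0 : E n) (1 / 2)) := by
        rw [lintegral_const, Measure.restrict_apply_univ, ball_vol_ratio]
        ring

theorem exists_op (d n : ℕ) (hn : n ≤ d) : ∃ N : (Fin n → E d) → ℝ, Measurable N ∧
    (∀ X, 0 ≤ N X) ∧ (∀ X (e : E d), ∑ i, ⟪X i, e⟫ ^ 2 ≤ N X * ‖e‖ ^ 2) ∧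
    ∫⁻ X, ENNReal.ofReal (N X) ∂(rows d n) ≤ ENNReal.ofReal (30 * d) := by
  rcases Nat.eq_zero_or_pos d with hd | hd
  · subst hd
    refine ⟨fun _ => 0, measurable_const, fun _ => le_rfl, ?_, by simp⟩
    intro X e
    have : ∀ i, ⟪X i, e⟫ = 0 := by
      intro i
      have : e = 0 := Subsingleton.elim _ _
      rw [this, inner_zero_right]
    simp [this]
  have hQ1 : ∀ X : Fin n → E d, 1 ≤ (opQ X).toReal := by
    intro X
    have h := opF_le_opQ X 0 (by simp)
    have h1 : (1 : ℝ≥0∞) ≤ opQ X := by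
      refine le_trans ?_ h
      unfold opF
      rw [← ENNReal.ofReal_one]
      exact ENNReal.ofReal_le_ofReal (Real.one_le_exp (by positivity))
    have := ENNReal.toReal_mono (opQ_ne_top X) h1
    simpa using this
  refine ⟨fun X => 9 * Real.log (opQ X).toReal, ?_, ?_, ?_, ?_⟩
  · exact (Real.measurable_log.comp opQ_meas.ennreal_toReal).const_mul 9
  · intro X
    exact mul_nonneg (by norm_num) (Real.log_nonneg (hQ1 X))
  · intro X e
    -- the vector of inner products
    set a : E n := WithLp.toLp 2 (fun i => ⟪X i, e⟫) with ha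
    have hsum : ∑ i, ⟪X i, e⟫ ^ 2 = ‖a‖ ^ 2 := by
      rw [EuclideanSpace.norm_sq_eq]
      exact Finset.sum_congr rfl fun i _ => by rw [Real.norm_eq_abs, sq_abs]
    rw [hsum]
    by_cases h0 : a = 0
    · rw [h0, norm_zero]
      have h9 : 0 ≤ 9 * Real.log (opQ X).toReal := mul_nonneg (by norm_num) (Real.log_nonneg (hQ1 X))
      have := mul_nonneg h9 (sq_nonneg ‖e‖)
      simpa using this
    have hpos : 0 < ‖a‖ := norm_pos_iff.mpr h0
    set v : E n := ‖a‖⁻¹ • a with hv
    have hv1 : ‖v‖ = 1 := by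
      rw [hv, norm_smul, norm_inv, norm_norm, inv_mul_cancel₀ hpos.ne']
    have hin : ⟪opL X v, e⟫ = ‖a‖ := by
      unfold opL
      rw [sum_inner]
      have : ∀ i, ⟪v i • X i, e⟫ = ‖a‖⁻¹ * ⟪X i, e⟫ ^ 2 := by
        intro i
        rw [real_inner_smul_left]
        have : v i = ‖a‖⁻¹ * ⟪X i, e⟫ := by
          rw [hv]; simp [ha]
        rw [this]; ring
      simp only [this]
      rw [← Finset.mul_sum, hsum]
      field_simp
    have hcs : ‖a‖ ≤ ‖opL X v‖ * ‖e‖ := by
      rw [← hin]; exact real_inner_le_norm _ _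
    have hF := opF_le_opQ X v hv1.le
    have hlog : ‖opL X v‖ ^ 2 ≤ 9 * Real.log (opQ X).toReal := by
      have h1 := ENNReal.toReal_mono (opQ_ne_top X) hF
      unfold opF at h1
      rw [ENNReal.toReal_ofReal (Real.exp_pos _).le] at h1
      have h2 := Real.log_le_log (Real.exp_pos _) h1
      rw [Real.log_exp] at h2
      linarith
    calc ‖a‖ ^ 2 ≤ (‖opL X v‖ * ‖e‖) ^ 2 := by gcongr
      _ = ‖opL X v‖ ^ 2 * ‖e‖ ^ 2 := by ring
      _ ≤ 9 * Real.log (opQ X).toReal * ‖e‖ ^ 2 :=
        mul_le_mul_of_nonneg_right hlog (by positivity)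
  · -- expectation
    set R : ℝ := 3 ^ n * 2 ^ d with hR
    have hRpos : 0 < R := by positivity
    have hR1 : 1 ≤ R := by
      rw [hR]
      exact one_le_mul_of_one_le_of_one_le (one_le_pow₀ (by norm_num)) (one_le_pow₀ (by norm_num))
    have hRE : ENNReal.ofReal R = 3 ^ n * 2 ^ d := by
      rw [hR, ENNReal.ofReal_mul (by positivity), ENNReal.ofReal_pow (by norm_num),
        ENNReal.ofReal_pow (by norm_num)]
      norm_num
    have hpt : ∀ X : Fin n → E d, ENNReal.ofReal (9 * Real.log (opQ X).toReal) ≤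
        ENNReal.ofReal (9 / R) * opQ X + ENNReal.ofReal (9 * Real.log R) := by
      intro X
      have hq := hQ1 X
      have h1 : Real.log (opQ X).toReal ≤ (opQ X).toReal / R + Real.log R := by
        have h2 : Real.log ((opQ X).toReal / R) ≤ (opQ X).toReal / R - 1 :=
          Real.log_le_sub_one_of_pos (by positivity)
        rw [Real.log_div (by linarith) hRpos.ne'] at h2
        linarith
      have h3 : ENNReal.ofReal (9 / R) * opQ X = ENNReal.ofReal (9 / R * (opQ X).toReal) := by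
        rw [ENNReal.ofReal_mul (by positivity), ENNReal.ofReal_toReal (opQ_ne_top X)]
      rw [h3, ← ENNReal.ofReal_add (by positivity)
        (mul_nonneg (by norm_num) (Real.log_nonneg hR1))]
      apply ENNReal.ofReal_le_ofReal
      have : 9 / R * (opQ X).toReal = 9 * ((opQ X).toReal / R) := by ring
      rw [this]
      linarith
    have hlogR : Real.log R ≤ 2 * d := by
      rw [hR, Real.log_mul (by positivity) (by positivity), Real.log_pow, Real.log_pow]
      have h3 : Real.log 3 ≤ 1.1 := by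
        have := Real.log_three_lt_d9 
        linarith
      have h2 : Real.log 2 ≤ 0.7 := by
        have := Real.log_two_lt_d9
        linarith
      have hn' : (n : ℝ) ≤ d := by exact_mod_cast hn
      have hd' : (0:ℝ) ≤ d := by positivity
      have hn0 : (0:ℝ) ≤ n := by positivity
      nlinarith
    calc ∫⁻ X, ENNReal.ofReal (9 * Real.log (opQ X).toReal) ∂(rows d n)
        ≤ ∫⁻ X, (ENNReal.ofReal (9 / R) * opQ X + ENNReal.ofReal (9 * Real.log R)) ∂(rows d n) :=
          lintegral_mono hpt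
      _ = ENNReal.ofReal (9 / R) * ∫⁻ X, opQ X ∂(rows d n) + ENNReal.ofReal (9 * Real.log R) := by
          rw [lintegral_add_right _ measurable_const, lintegral_const_mul _ opQ_meas,
            lintegral_const, measure_univ, mul_one]
      _ ≤ ENNReal.ofReal (9 / R) * ENNReal.ofReal R + ENNReal.ofReal (9 * Real.log R) := by
          gcongr
          rw [hRE]; exact lintegral_opQ
      _ = ENNReal.ofReal (9 + 9 * Real.log R) := by
          rw [← ENNReal.ofReal_mul (by positivity),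
            ← ENNReal.ofReal_add (by positivity)
            (mul_nonneg (by norm_num) (Real.log_nonneg hR1))]
          congr 1
          field_simp
      _ ≤ ENNReal.ofReal (30 * d) := by
          apply ENNReal.ofReal_le_ofReal
          have : (1:ℝ) ≤ d := by exact_mod_cast hd
          linarith

end Vale.Agent.P309
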