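import Vale.Agent.Lib.P309.LemmaK
import Vale.Agent.Lib.P309.Dist
import Vale.Agent.Lib.P309.Gibbs

/-!
# P309, module POINTWISE: the residual inequality and the cost of one replica
-/

namespace Vale.Agent.P309

open MeasureTheory ProbabilityTheory
open scoped ENNReal RealInnerProductSpace

section
attribute [local irreducible] winK winM Dsq Wm td

/-- Minkowski for three finite families, squared form. -/
theorem pw_mink3 {n : ℕ} (a b c : Fin n → ℝ) (A B C : ℝ) (hA : 0 ≤ A) (hB : 0 ≤ B) (hC : 0 ≤ C)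
    (ha : ∑ i, a i ^ 2 ≤ A ^ 2) (hb : ∑ i, b i ^ 2 ≤ B ^ 2) (hc : ∑ i, c i ^ 2 ≤ C ^ 2) :
    ∑ i, (a i + b i + c i) ^ 2 ≤ (A + B + C) ^ 2 := by
  have key : ∀ (f g : Fin n → ℝ) (F G : ℝ), 0 ≤ F → 0 ≤ G → ∑ i, f i ^ 2 ≤ F ^ 2 →
      ∑ i, g i ^ 2 ≤ G ^ 2 → ∑ i, (f i + g i) ^ 2 ≤ (F + G) ^ 2 := by
    intro f g F G hF hG hf hg
    have h1 : (∑ i, f i * g i) ^ 2 ≤ (∑ i, f i ^ 2) * ∑ i, g i ^ 2 :=
      Finset.sum_mul_sq_le_sq_mul_sq _ _ _
    have h2 : (∑ i, f i * g i) ^ 2 ≤ (F * G) ^ 2 := by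
      calc (∑ i, f i * g i) ^ 2 ≤ (∑ i, f i ^ 2) * ∑ i, g i ^ 2 := h1
        _ ≤ F ^ 2 * G ^ 2 := by
            apply mul_le_mul hf hg (Finset.sum_nonneg fun i _ => sq_nonneg _) (sq_nonneg _)
        _ = (F * G) ^ 2 := by ring
    have h3 : ∑ i, f i * g i ≤ F * G := abs_le_of_sq_le_sq' h2 (mul_nonneg hF hG) |>.2
    have h4 : ∑ i, (f i + g i) ^ 2 = ∑ i, f i ^ 2 + 2 * ∑ i, f i * g i + ∑ i, g i ^ 2 := by
      rw [Finset.mul_sum, ← Finset.sum_add_distrib, ← Finset.sum_add_distrib]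
      apply Finset.sum_congr rfl; intro i _; ring
    rw [h4]; nlinarith
  exact key (fun i => a i + b i) c (A + B) C (add_nonneg hA hB) hC (key a b A B hA hB ha hb) hc

theorem residual {d n k : ℕ} (hd : 1 ≤ d) {r : ℝ} (hr : 0 < r) (X : Fin n → E d) (Y : Fin n → ℝ)
    (N : ℝ) (hN0 : 0 ≤ N) (hN : ∀ e : E d, ∑ i, ⟪X i, e⟫ ^ 2 ≤ N * ‖e‖ ^ 2)
    (A : Finset (Fin k)) (hA : A.Nonempty) (σ : Fin k → E d) (x : E d) (g : Fin n → ℝ)
    (hg : ∑ i, g i ^ 2 ≤ 2 * n) :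
    ∑ i, (⟪X i, x⟫ + r * g i - Y i) ^ 2 ≤
      ((Real.sqrt N + (Real.sqrt (∑ l, ∑ i, ((Y i - ⟪X i, σ l⟫) / r) ^ 2) + Real.sqrt (2 * n)) /
        Real.sqrt d) * td (Real.sqrt d * r) A σ x) ^ 2 := by
  have hd0 : (0:ℝ) < d := by exact_mod_cast hd
  have hsd : 0 < Real.sqrt d := Real.sqrt_pos.2 hd0
  set w : ℝ := Real.sqrt d * r with hw
  have hw0 : 0 < w := mul_pos hsd hr
  obtain ⟨α, hα, y, -, hV⟩ := foot (fun _ : Fin k => w) A hA (fun _ => hw0) σ x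
  set t : ℝ := td w A σ x with ht
  have ht2 : t ^ 2 = ‖x - ∑ l, α l • σ l‖ ^ 2 + ∑ l, (w * α l) ^ 2 + w ^ 2 := by
    rw [ht, td, Real.sq_sqrt (add_nonneg (Vd_nonneg _ _ _ _) (sq_nonneg _)), hV]
  have ht0 : 0 ≤ t := by rw [ht, td]; exact Real.sqrt_nonneg _
  have hsum0 : 0 ≤ ∑ l, (w * α l) ^ 2 := Finset.sum_nonneg fun i _ => sq_nonneg _
  have hrw : r = w / Real.sqrt d := by rw [hw]; field_simp
  have hwt : w ≤ t := by
    apply abs_le_of_sq_le_sq' _ ht0 |>.2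
    rw [ht2]; nlinarith [sq_nonneg ‖x - ∑ l, α l • σ l‖]
  have hrt : r ≤ t / Real.sqrt d := by
    rw [hrw]; exact div_le_div_of_nonneg_right hwt hsd.le
  have het : ‖x - ∑ l, α l • σ l‖ ^ 2 ≤ t ^ 2 := by
    rw [ht2]; nlinarith [sq_nonneg w]
  have hat : r ^ 2 * ∑ l, α l ^ 2 ≤ (t / Real.sqrt d) ^ 2 := by
    have h1 : ∑ l, (w * α l) ^ 2 = w ^ 2 * ∑ l, α l ^ 2 := by
      rw [Finset.mul_sum]; apply Finset.sum_congr rfl; intro i _; ring
    have h2 : w ^ 2 * ∑ l, α l ^ 2 ≤ t ^ 2 := by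
      rw [← h1, ht2]; nlinarith [sq_nonneg ‖x - ∑ l, α l • σ l‖, sq_nonneg w]
    have h3 : r ^ 2 = w ^ 2 / Real.sqrt d ^ 2 := by rw [hrw, div_pow]
    rw [h3, div_pow, div_mul_eq_mul_div]
    exact div_le_div_of_nonneg_right h2 (sq_nonneg _)
  set S : ℝ := ∑ l, ∑ i, ((Y i - ⟪X i, σ l⟫) / r) ^ 2 with hS
  have hS0 : 0 ≤ S := Finset.sum_nonneg fun l _ => Finset.sum_nonneg fun i _ => sq_nonneg _
  -- decomposition
  have hdec : ∀ i, ⟪X i, x⟫ + r * g i - Y i =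
      ⟪X i, x - ∑ l, α l • σ l⟫ + r * g i + -(r * ∑ l, α l * ((Y i - ⟪X i, σ l⟫) / r)) := by
    intro i
    have h1 : r * ∑ l, α l * ((Y i - ⟪X i, σ l⟫) / r) = Y i - ∑ l, α l * ⟪X i, σ l⟫ := by
      rw [Finset.mul_sum]
      have h2 : ∀ l, r * (α l * ((Y i - ⟪X i, σ l⟫) / r)) = α l * Y i - α l * ⟪X i, σ l⟫ := by
        intro l; field_simp
      rw [Finset.sum_congr rfl (fun l _ => h2 l), Finset.sum_sub_distrib, ← Finset.sum_mul, hα.2,
        one_mul]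
    have h3 : ⟪X i, x - ∑ l, α l • σ l⟫ = ⟪X i, x⟫ - ∑ l, α l * ⟪X i, σ l⟫ := by
      rw [inner_sub_right, inner_sum]
      congr 1
      apply Finset.sum_congr rfl; intro l _
      rw [inner_smul_right]
    rw [h1, h3]; ring
  have ha : ∑ i, ⟪X i, x - ∑ l, α l • σ l⟫ ^ 2 ≤ (Real.sqrt N * t) ^ 2 := by
    calc ∑ i, ⟪X i, x - ∑ l, α l • σ l⟫ ^ 2 ≤ N * ‖x - ∑ l, α l • σ l‖ ^ 2 := hN _
      _ ≤ N * t ^ 2 := mul_le_mul_of_nonneg_left het hN0
      _ = (Real.sqrt N * t) ^ 2 := by rw [mul_pow, Real.sq_sqrt hN0]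
  have hb : ∑ i, (r * g i) ^ 2 ≤ (Real.sqrt (2 * n) / Real.sqrt d * t) ^ 2 := by
    calc ∑ i, (r * g i) ^ 2 = r ^ 2 * ∑ i, g i ^ 2 := by
          rw [Finset.mul_sum]; apply Finset.sum_congr rfl; intro i _; ring
      _ ≤ (t / Real.sqrt d) ^ 2 * (2 * n) := by
          apply mul_le_mul (pow_le_pow_left₀ hr.le hrt 2) hg
            (Finset.sum_nonneg fun i _ => sq_nonneg _) (sq_nonneg _)
      _ = (Real.sqrt (2 * n) / Real.sqrt d * t) ^ 2 := by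
          have h5 : (0:ℝ) ≤ 2 * n := by positivity
          rw [mul_pow, div_pow, div_pow, Real.sq_sqrt h5]; ring
  have hc : ∑ i, (-(r * ∑ l, α l * ((Y i - ⟪X i, σ l⟫) / r))) ^ 2 ≤
      (Real.sqrt S / Real.sqrt d * t) ^ 2 := by
    have h1 : ∀ i, (-(r * ∑ l, α l * ((Y i - ⟪X i, σ l⟫) / r))) ^ 2 ≤
        (t / Real.sqrt d) ^ 2 * ∑ l, ((Y i - ⟪X i, σ l⟫) / r) ^ 2 := by
      intro i
      have h2 : (∑ l, α l * ((Y i - ⟪X i, σ l⟫) / r)) ^ 2 ≤
          (∑ l, α l ^ 2) * ∑ l, ((Y i - ⟪X i, σ l⟫) / r) ^ 2 :=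
        Finset.sum_mul_sq_le_sq_mul_sq _ _ _
      have h3 : 0 ≤ ∑ l, ((Y i - ⟪X i, σ l⟫) / r) ^ 2 := Finset.sum_nonneg fun l _ => sq_nonneg _
      calc (-(r * ∑ l, α l * ((Y i - ⟪X i, σ l⟫) / r))) ^ 2
          = r ^ 2 * (∑ l, α l * ((Y i - ⟪X i, σ l⟫) / r)) ^ 2 := by ring
        _ ≤ r ^ 2 * ((∑ l, α l ^ 2) * ∑ l, ((Y i - ⟪X i, σ l⟫) / r) ^ 2) :=
            mul_le_mul_of_nonneg_left h2 (sq_nonneg _)
        _ = (r ^ 2 * ∑ l, α l ^ 2) * ∑ l, ((Y i - ⟪X i, σ l⟫) / r) ^ 2 := by ring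
        _ ≤ _ := mul_le_mul_of_nonneg_right hat h3
    calc ∑ i, (-(r * ∑ l, α l * ((Y i - ⟪X i, σ l⟫) / r))) ^ 2
        ≤ ∑ i, (t / Real.sqrt d) ^ 2 * ∑ l, ((Y i - ⟪X i, σ l⟫) / r) ^ 2 :=
          Finset.sum_le_sum fun i _ => h1 i
      _ = (t / Real.sqrt d) ^ 2 * S := by
          rw [← Finset.mul_sum, hS, Finset.sum_comm]
      _ = (Real.sqrt S / Real.sqrt d * t) ^ 2 := by
          rw [mul_pow, div_pow, div_pow, Real.sq_sqrt hS0]; ring
  have hfin := pw_mink3 _ _ _ _ _ _ (by positivity) (by positivity) (by positivity) ha hb hc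
  rw [Finset.sum_congr rfl (fun i _ => by rw [hdec i])]
  refine hfin.trans (le_of_eq ?_)
  congr 1; ring

theorem Rr_meas {d n : ℕ} {C w : ℝ} (hC : 1 ≤ C) (hw : 0 < w) (ρ : Measure (E d))
    [IsProbabilityMeasure ρ] (j : Fin (n + 1)) :
    Measurable (Function.uncurry (Rr (d := d) (n := n) C w ρ j)) := by
  unfold Function.uncurry Rr
  by_cases hj : j = 0
  · simp only [hj, if_true]; exact measurable_const
  · simp only [hj, if_false]
    apply Measurable.tsum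
    intro κ
    have h1 : Measurable (fun p : Xi d (8 * n) (n + 1) × (Fin (n + 1) → E d) =>
        Dsq w (bef j) p.2 p.1) := (measurable_Dsq w (bef j)).comp measurable_swap
    have h2 : Measurable (fun σ : Fin (n + 1) → E d => Ak w (8 * n) n ρ (bef j) σ κ) := by
      unfold Ak
      have h3 : Measurable (fun p : (Fin (n + 1) → E d) × E d =>
          ENNReal.ofReal (((1 + ((8 * n : ℕ) : ℝ) * td w (bef j) p.1 p.2 ^ 2 / (4 : ℝ) ^ κ)⁻¹) ^ n)) := by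
        apply ENNReal.measurable_ofReal.comp
        apply Measurable.pow_const
        apply Measurable.inv
        exact measurable_const.add (((measurable_td w (bef j)).pow_const 2).const_mul _ |>.div_const _)
      exact h3.lintegral_prod_right'
    apply Measurable.div
    · apply Measurable.const_mul
      apply ENNReal.measurable_ofReal.comp
      apply Measurable.pow_const
      apply Measurable.inv
      exact measurable_const.add (h1.div_const _)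
    · exact (h2.comp measurable_snd).const_mul _

theorem pw_Ak_le_one {d k : ℕ} (w : ℝ) (B n : ℕ) (ρ : Measure (E d)) [IsProbabilityMeasure ρ]
    (A : Finset (Fin k)) (σ : Fin k → E d) (κ : ℤ) : Ak w B n ρ A σ κ ≤ 1 := by
  unfold Ak
  calc ∫⁻ x, ENNReal.ofReal (((1 + B * td w A σ x ^ 2 / (4 : ℝ) ^ κ)⁻¹) ^ n) ∂ρ
      ≤ ∫⁻ _x, 1 ∂ρ := by
        apply lintegral_mono
        intro x
        have h1 : (0:ℝ) ≤ B * td w A σ x ^ 2 / (4 : ℝ) ^ κ := by positivity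
        have h2 : ((1 + B * td w A σ x ^ 2 / (4 : ℝ) ^ κ)⁻¹) ^ n ≤ 1 := by
          apply pow_le_one₀ (by positivity)
          apply inv_le_one_of_one_le₀; linarith
        exact ENNReal.ofReal_le_one.2 h2
    _ = 1 := by simp

theorem pw_meas_ker {α : Type} [MeasurableSpace α] (t : α → ℝ) (ht : Measurable t) (b c : ℝ) (n : ℕ) :
    Measurable (fun x => ENNReal.ofReal (((1 + b * t x ^ 2 / c)⁻¹) ^ n)) := by
  apply ENNReal.measurable_ofReal.comp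
  apply Measurable.pow_const
  apply Measurable.inv
  exact measurable_const.add ((ht.pow_const 2).const_mul _ |>.div_const _)

theorem pw_lintegral_ne_zero_of_pos {α : Type} [MeasurableSpace α] (ρ : Measure α)
    [IsProbabilityMeasure ρ] (f : α → ℝ≥0∞) (hf : Measurable f) (h : ∀ x, f x ≠ 0) :
    ∫⁻ x, f x ∂ρ ≠ 0 := by
  intro h0
  have h1 := (lintegral_eq_zero_iff hf).1 h0
  have h2 : ρ {x | ¬ f x = 0} = 0 := ae_iff.1 h1
  have h3 : {x | ¬ f x = 0} = Set.univ := by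
    ext x; simp [h x]
  rw [h3, measure_univ] at h2
  exact one_ne_zero h2

theorem pw_ker_ne_zero {α : Type} [MeasurableSpace α] (ρ : Measure α)
    [IsProbabilityMeasure ρ] (t : α → ℝ) (ht : Measurable t) (b c : ℝ) (hb : 0 ≤ b) (hc : 0 < c)
    (n : ℕ) : ∫⁻ x, ENNReal.ofReal (((1 + b * t x ^ 2 / c)⁻¹) ^ n) ∂ρ ≠ 0 := by
  apply pw_lintegral_ne_zero_of_pos _ _ (pw_meas_ker t ht b c n)
  intro x
  have h3 : 0 < ((1 + b * t x ^ 2 / c)⁻¹) ^ n := by positivity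
  exact (ENNReal.ofReal_pos.2 h3).ne'

theorem pw_Ak_ne_zero {d k : ℕ} (w : ℝ) (B n : ℕ) (ρ : Measure (E d)) [IsProbabilityMeasure ρ]
    (A : Finset (Fin k)) (σ : Fin k → E d) (κ : ℤ) : Ak w B n ρ A σ κ ≠ 0 := by
  have h5 : Measurable (fun x : E d => td w A σ x) := by
    have h6 := (measurable_td (ι := Fin k) (d := d) w A).comp
      (measurable_prodMk_left (x := σ) (β := E d))
    exact h6
  exact pw_ker_ne_zero ρ (fun x : E d => td w A σ x) h5 (B : ℝ) ((4:ℝ) ^ κ) (Nat.cast_nonneg _)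
    (by positivity) n

theorem pw_lam_ne_zero (κ : ℤ) : lam κ ≠ 0 := by
  unfold lam
  exact (ENNReal.ofReal_pos.2 (by positivity)).ne'

theorem pw_lam_ne_top (κ : ℤ) : lam κ ≠ ∞ := ENNReal.ofReal_ne_top

theorem Rr_ne_zero {d n : ℕ} {C w : ℝ} (hC : 1 ≤ C) (hw : 0 < w) (ρ : Measure (E d))
    [IsProbabilityMeasure ρ] (j : Fin (n + 1)) (W : Xi d (8 * n) (n + 1))
    (σ : Fin (n + 1) → E d) : Rr C w ρ j W σ ≠ 0 := by
  unfold Rr
  split_ifs with hj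
  · exact one_ne_zero
  · intro h
    have h1 := (ENNReal.tsum_eq_zero.1 h) 0
    have hD : 0 ≤ Dsq w (bef j) σ W := Dsq_nonneg _ _ _ _
    have h2 : (0:ℝ) < ((1 + Dsq w (bef j) σ W / (4 : ℝ) ^ (0:ℤ))⁻¹) ^ n := by positivity
    have h3 : ENNReal.ofReal (C ^ n) * Ak w (8 * n) n ρ (bef j) σ 0 ≠ ∞ :=
      ENNReal.mul_ne_top ENNReal.ofReal_ne_top
        (ne_top_of_le_ne_top ENNReal.one_ne_top (pw_Ak_le_one _ _ _ _ _ _ _))
    rw [ENNReal.div_eq_zero_iff] at h1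
    rcases h1 with h1 | h1
    · rcases mul_eq_zero.1 h1 with h4 | h4
      · exact pw_lam_ne_zero _ h4
      · exact (ENNReal.ofReal_pos.2 h2).ne' h4
    · exact h3 h1

theorem pw_td_congr {k d : ℕ} (ρ : ℝ) (A : Finset (Fin k)) {s s' : Fin k → E d}
    (h : ∀ l ∈ A, s l = s' l) (x : E d) : td ρ A s x = td ρ A s' x := by
  unfold td; rw [Vd_congr _ _ h]

theorem Rr_dep {d n : ℕ} {C w : ℝ} (ρ : Measure (E d)) (j : Fin (n + 1))
    (W : Xi d (8 * n) (n + 1)) (σ σ' : Fin (n + 1) → E d) (h : ∀ l, l < j → σ l = σ' l) :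
    Rr C w ρ j W σ = Rr C w ρ j W σ' := by
  have hb : ∀ l ∈ bef j, σ l = σ' l := by
    intro l hl; exact h l (by simpa [bef] using hl)
  unfold Rr
  rw [Dsq_congr w (bef j) hb W]
  have h2 : ∀ κ, Ak w (8 * n) n ρ (bef j) σ κ = Ak w (8 * n) n ρ (bef j) σ' κ := by
    intro κ; unfold Ak
    apply lintegral_congr; intro x
    rw [pw_td_congr w (bef j) hb x]
  simp only [h2]

theorem pw_card_bef {n : ℕ} (j : Fin (n + 1)) : (bef j).card ≤ n := by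
  have h1 : bef j ⊆ Finset.univ.erase j := by
    intro l hl
    simp only [bef, Finset.mem_filter, Finset.mem_univ, true_and] at hl
    simp [ne_of_lt hl]
  have h2 := Finset.card_le_card h1
  rwa [Finset.card_erase_of_mem (Finset.mem_univ j), Finset.card_univ, Fintype.card_fin,
    Nat.add_sub_cancel] at h2

theorem pw_bef_nonempty {n : ℕ} {j : Fin (n + 1)} (hj : j ≠ 0) : (bef j).Nonempty :=
  ⟨0, by simp only [bef, Finset.mem_filter, Finset.mem_univ, true_and]; exact Fin.pos_of_ne_zero hj⟩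

theorem Rr_int : ∃ C : ℝ, 1 ≤ C ∧ ∀ (d n : ℕ) (w : ℝ), 1 ≤ n → 0 < w → ∀ (ρ : Measure (E d)),
    IsProbabilityMeasure ρ → ∀ (j : Fin (n + 1)) (σ : Fin (n + 1) → E d),
      ∫⁻ x, ∫⁻ ξ, Rr C w ρ j (Wm w x ξ) σ ∂(xiM d (8 * n) (n + 1)) ∂ρ ≤ 1 := by
  obtain ⟨C, hC, h⟩ := dist5b
  refine ⟨C, hC, ?_⟩
  intro d n w hn hw ρ hρ j σ
  by_cases hj : j = 0
  · have h1 : ∀ (x : E d) (ξ : Xi d (8 * n) (n + 1)), Rr C w ρ j (Wm w x ξ) σ = 1 := by
      intro x ξ; unfold Rr; simp [hj]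
    simp only [h1, lintegral_one, measure_univ, le_refl]
  · have hA := pw_bef_nonempty hj
    have hmD : Measurable (fun p : E d × Xi d (8 * n) (n + 1) => Dsq w (bef j) σ (Wm w p.1 p.2)) := by
      have h1 := (measurable_Dsq (d := d) (B := 8 * n) (k := n + 1) w (bef j))
      have h2 : Measurable (fun p : E d × Xi d (8 * n) (n + 1) => (σ, Wm w p.1 p.2)) :=
        measurable_const.prodMk (measurable_Wm w)
      exact h1.comp h2
    set den : ℤ → ℝ≥0∞ := fun κ => ENNReal.ofReal (C ^ n) * Ak w (8 * n) n ρ (bef j) σ κ with hden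
    have hmT : ∀ κ : ℤ, Measurable (fun p : E d × Xi d (8 * n) (n + 1) =>
        ENNReal.ofReal (((1 + Dsq w (bef j) σ (Wm w p.1 p.2) / (4 : ℝ) ^ κ)⁻¹) ^ n)) := by
      intro κ
      apply ENNReal.measurable_ofReal.comp
      apply Measurable.pow_const
      apply Measurable.inv
      exact measurable_const.add (hmD.div_const _)
    have hR : ∀ (x : E d) (ξ : Xi d (8 * n) (n + 1)), Rr C w ρ j (Wm w x ξ) σ =
        ∑' κ : ℤ, (lam κ / den κ) *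
          ENNReal.ofReal (((1 + Dsq w (bef j) σ (Wm w x ξ) / (4 : ℝ) ^ κ)⁻¹) ^ n) := by
      intro x ξ; unfold Rr; rw [if_neg hj]
      apply tsum_congr; intro κ
      simp only [hden, div_eq_mul_inv]
      ring
    have hin : ∀ x : E d, ∫⁻ ξ, Rr C w ρ j (Wm w x ξ) σ ∂(xiM d (8 * n) (n + 1)) ≤
        ∑' κ : ℤ, (lam κ / den κ) * (ENNReal.ofReal (C ^ n) *
          ENNReal.ofReal (((1 + ((8 * n : ℕ) : ℝ) * td w (bef j) σ x ^ 2 / (4 : ℝ) ^ κ)⁻¹) ^ n)) := by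
      intro x
      have hmx : ∀ κ : ℤ, Measurable (fun ξ : Xi d (8 * n) (n + 1) =>
          ENNReal.ofReal (((1 + Dsq w (bef j) σ (Wm w x ξ) / (4 : ℝ) ^ κ)⁻¹) ^ n)) := by
        intro κ
        exact (hmT κ).comp (measurable_prodMk_left (x := x) (β := Xi d (8 * n) (n + 1)))
      calc ∫⁻ ξ, Rr C w ρ j (Wm w x ξ) σ ∂(xiM d (8 * n) (n + 1))
          = ∫⁻ ξ, ∑' κ : ℤ, (lam κ / den κ) *
              ENNReal.ofReal (((1 + Dsq w (bef j) σ (Wm w x ξ) / (4 : ℝ) ^ κ)⁻¹) ^ n)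
              ∂(xiM d (8 * n) (n + 1)) := lintegral_congr fun ξ => hR x ξ
        _ = ∑' κ : ℤ, ∫⁻ ξ, (lam κ / den κ) *
              ENNReal.ofReal (((1 + Dsq w (bef j) σ (Wm w x ξ) / (4 : ℝ) ^ κ)⁻¹) ^ n)
              ∂(xiM d (8 * n) (n + 1)) :=
            lintegral_tsum fun κ => ((hmx κ).const_mul _).aemeasurable
        _ ≤ _ := by
            apply ENNReal.tsum_le_tsum
            intro κ
            rw [lintegral_const_mul _ (hmx κ)]
            apply mul_le_mul_right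
            refine (h d n (n + 1) w ((4:ℝ) ^ κ) hn hw (by positivity) (bef j) hA (pw_card_bef j) σ x).trans
              (le_of_eq ?_)
            rw [ENNReal.ofReal_mul (by positivity)]
    have hmA : ∀ κ : ℤ, Measurable (fun x : E d =>
        ENNReal.ofReal (((1 + ((8 * n : ℕ) : ℝ) * td w (bef j) σ x ^ 2 / (4 : ℝ) ^ κ)⁻¹) ^ n)) := by
      intro κ
      have h6 := (measurable_td (ι := Fin (n + 1)) (d := d) w (bef j)).comp
        (measurable_prodMk_left (x := σ) (β := E d))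
      exact pw_meas_ker (fun x : E d => td w (bef j) σ x) h6 _ _ n
    calc ∫⁻ x, ∫⁻ ξ, Rr C w ρ j (Wm w x ξ) σ ∂(xiM d (8 * n) (n + 1)) ∂ρ
        ≤ ∫⁻ x, ∑' κ : ℤ, (lam κ / den κ) * (ENNReal.ofReal (C ^ n) *
          ENNReal.ofReal (((1 + ((8 * n : ℕ) : ℝ) * td w (bef j) σ x ^ 2 / (4 : ℝ) ^ κ)⁻¹) ^ n)) ∂ρ :=
          lintegral_mono hin
      _ = ∑' κ : ℤ, ∫⁻ x, (lam κ / den κ) * (ENNReal.ofReal (C ^ n) *
          ENNReal.ofReal (((1 + ((8 * n : ℕ) : ℝ) * td w (bef j) σ x ^ 2 / (4 : ℝ) ^ κ)⁻¹) ^ n)) ∂ρ :=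
          lintegral_tsum fun κ => (((hmA κ).const_mul _).const_mul _).aemeasurable
      _ = ∑' κ : ℤ, (lam κ / den κ) * den κ := by
          apply tsum_congr; intro κ
          rw [lintegral_const_mul _ ((hmA κ).const_mul _), lintegral_const_mul _ (hmA κ)]
          rfl
      _ ≤ ∑' κ : ℤ, lam κ := by
          apply ENNReal.tsum_le_tsum; intro κ
          exact ENNReal.mul_le_of_le_div le_rfl
      _ = 1 := tsum_lam

theorem pw_lam_toReal (κ : ℤ) : (lam κ).toReal = (3 : ℝ)⁻¹ * (2 : ℝ) ^ (-|κ|) := by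
  unfold lam; exact ENNReal.toReal_ofReal (by positivity)

theorem pw_log_lam (κ : ℤ) : Real.log (lam κ).toReal = -(Real.log 3 + |(κ : ℝ)| * Real.log 2) := by
  rw [pw_lam_toReal, Real.log_mul (by norm_num) (by positivity), Real.log_inv, Real.log_zpow]
  push_cast; ring

/-- one-scale lower bound for the logarithm of `Rr`. -/
theorem pw_lg_Rr_lower {d n : ℕ} {C w : ℝ} (hC : 1 ≤ C) (ρ : Measure (E d))
    [IsProbabilityMeasure ρ] (j : Fin (n + 1)) (hj : j ≠ 0) (W : Xi d (8 * n) (n + 1))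
    (σ : Fin (n + 1) → E d) (hR : Rr C w ρ j W σ ≠ ∞) (κ : ℤ) :
    Real.log (lam κ).toReal - n * Real.log (1 + Dsq w (bef j) σ W / (4 : ℝ) ^ κ) -
      n * Real.log C - Real.log (Ak w (8 * n) n ρ (bef j) σ κ).toReal ≤
      lg (Rr C w ρ j W σ) := by
  have hD : 0 ≤ Dsq w (bef j) σ W := Dsq_nonneg _ _ _ _
  have hA0 : Ak w (8 * n) n ρ (bef j) σ κ ≠ 0 := pw_Ak_ne_zero _ _ _ _ _ _ _
  have hAt : Ak w (8 * n) n ρ (bef j) σ κ ≠ ∞ :=
    ne_top_of_le_ne_top ENNReal.one_ne_top (pw_Ak_le_one _ _ _ _ _ _ _)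
  have hle : lam κ * ENNReal.ofReal (((1 + Dsq w (bef j) σ W / (4 : ℝ) ^ κ)⁻¹) ^ n) /
      (ENNReal.ofReal (C ^ n) * Ak w (8 * n) n ρ (bef j) σ κ) ≤ Rr C w ρ j W σ := by
    unfold Rr; rw [if_neg hj]
    exact ENNReal.le_tsum (f := fun κ : ℤ => lam κ * ENNReal.ofReal (((1 + Dsq w (bef j) σ W /
      (4 : ℝ) ^ κ)⁻¹) ^ n) / (ENNReal.ofReal (C ^ n) * Ak w (8 * n) n ρ (bef j) σ κ)) κ
  have h2 := ENNReal.toReal_mono hR hle
  have hAr : 0 < (Ak w (8 * n) n ρ (bef j) σ κ).toReal := ENNReal.toReal_pos hA0 hAt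
  have hl : 0 < (lam κ).toReal := ENNReal.toReal_pos (pw_lam_ne_zero κ) (pw_lam_ne_top κ)
  have h1D : 0 < 1 + Dsq w (bef j) σ W / (4 : ℝ) ^ κ := by positivity
  have hC0 : 0 < C := by linarith
  rw [ENNReal.toReal_div, ENNReal.toReal_mul, ENNReal.toReal_mul,
    ENNReal.toReal_ofReal (by positivity), ENNReal.toReal_ofReal (by positivity)] at h2
  unfold lg
  refine le_trans (le_of_eq ?_) (Real.log_le_log (by positivity) h2)
  rw [Real.log_div (by positivity) (by positivity), Real.log_mul (by positivity) (by positivity),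
    Real.log_mul (by positivity) (by positivity), Real.log_pow, Real.log_pow, Real.log_inv]
  ring

/-- one-scale lower bound for the logarithm of `KK`. -/
theorem pw_lg_KK_lower {d n : ℕ} (hn : 1 ≤ n) {r : ℝ} (hr : 0 < r) (ρ : Measure (E d))
    [IsProbabilityMeasure ρ] (u : Win d n) (hK : KK r ρ u ≠ ∞) {k : ℕ} (w : ℝ)
    (A : Finset (Fin k)) (σ : Fin k → E d) (L : ℝ)
    (hL : ∀ (s : E d) (g : Fin n → ℝ), ∑ i, g i ^ 2 ≤ 2 * n →
      ∑ i, (⟪u.1 i, s⟫ + r * g i - u.2 i) ^ 2 ≤ (L * td w A σ s) ^ 2)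
    (κ κ' : ℤ) (hk : L ^ 2 * (4 : ℝ) ^ κ ≤ ((8 * n : ℕ) : ℝ) * (4 : ℝ) ^ κ') :
    -Real.log 2 + Real.log (lam κ').toReal - n * Real.log (Real.pi * (2 : ℝ) ^ κ' / Real.sqrt n) +
      Real.log (Ak w (8 * n) n ρ A σ κ).toReal ≤ lg (KK r ρ u) := by
  have hA0 : Ak w (8 * n) n ρ A σ κ ≠ 0 := pw_Ak_ne_zero _ _ _ _ _ _ _
  have hAt : Ak w (8 * n) n ρ A σ κ ≠ ∞ :=
    ne_top_of_le_ne_top ENNReal.one_ne_top (pw_Ak_le_one _ _ _ _ _ _ _)
  have hmt : Measurable (fun x : E d => td w A σ x) := by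
    have h6 := (measurable_td (ι := Fin k) (d := d) w A).comp
      (measurable_prodMk_left (x := σ) (β := E d))
    exact h6
  have hle : ENNReal.ofReal (1 / 2) * lam κ' *
      (ENNReal.ofReal ((Real.pi * (2 : ℝ) ^ κ' / Real.sqrt n) ^ n))⁻¹ *
      Ak w (8 * n) n ρ A σ κ ≤ KK r ρ u :=
    KK_lower hn hr ρ u (fun x => td w A σ x) hmt ((8 * n : ℕ) : ℝ) L (Nat.cast_nonneg _) hL κ κ' hk
  have h2 := ENNReal.toReal_mono hK hle
  have hAr : 0 < (Ak w (8 * n) n ρ A σ κ).toReal := ENNReal.toReal_pos hA0 hAt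
  have hl : 0 < (lam κ').toReal := ENNReal.toReal_pos (pw_lam_ne_zero κ') (pw_lam_ne_top κ')
  have hn0 : (0:ℝ) < n := by exact_mod_cast hn
  have hsn : 0 < Real.sqrt n := Real.sqrt_pos.2 hn0
  have hQ : 0 < Real.pi * (2 : ℝ) ^ κ' / Real.sqrt n := by
    have := Real.pi_pos; positivity
  rw [ENNReal.toReal_mul, ENNReal.toReal_mul, ENNReal.toReal_mul, ENNReal.toReal_inv,
    ENNReal.toReal_ofReal (by norm_num), ENNReal.toReal_ofReal (pow_nonneg hQ.le n)] at h2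
  unfold lg
  refine le_trans (le_of_eq ?_) (Real.log_le_log (by positivity) h2)
  rw [Real.log_mul (by positivity) (by positivity), Real.log_mul (by positivity) (by positivity),
    Real.log_mul (by positivity) (by positivity), Real.log_inv, Real.log_pow, one_div, Real.log_inv]
  ring

/-- choice of a dyadic scale -/
theorem pw_exists_scale {x : ℝ} (hx : 0 < x) : ∃ κ : ℤ, x < (2:ℝ) ^ κ ∧ (2:ℝ) ^ κ ≤ 2 * x := by
  obtain ⟨m, h1, h2⟩ := exists_mem_Ico_zpow hx (by norm_num : (1:ℝ) < 2)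
  refine ⟨m + 1, h2, ?_⟩
  rw [zpow_add_one₀ (by norm_num)]; linarith

theorem pw_abs_scale {x : ℝ} (hx : 0 < x) {κ : ℤ} (h1 : x < (2:ℝ) ^ κ) (h2 : (2:ℝ) ^ κ ≤ 2 * x) :
    |(κ : ℝ)| * Real.log 2 ≤ |Real.log x| + Real.log 2 := by
  have hl2 : 0 < Real.log 2 := Real.log_pos (by norm_num)
  have h3 : |(κ : ℝ)| * Real.log 2 = |Real.log ((2:ℝ) ^ κ)| := by
    rw [Real.log_zpow, abs_mul, abs_of_pos hl2]
  rw [h3]
  have h4 : Real.log x ≤ Real.log ((2:ℝ) ^ κ) := Real.log_le_log hx h1.le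
  have h5 : Real.log ((2:ℝ) ^ κ) ≤ Real.log 2 + Real.log x := by
    rw [← Real.log_mul (by norm_num) hx.ne']
    exact Real.log_le_log (by positivity) h2
  rw [abs_le]
  constructor
  · have := neg_abs_le (Real.log x); linarith
  · have := le_abs_self (Real.log x); linarith

theorem pw_pi_aux (L : ℝ) : 8 * Real.pi ^ 2 * L ^ 2 ≤ 79 * L ^ 2 := by
  have h1 : Real.pi ^ 2 ≤ 3.1416 ^ 2 := pow_le_pow_left₀ Real.pi_pos.le Real.pi_lt_d4.le 2
  have h2 : 8 * Real.pi ^ 2 ≤ 79 := by norm_num at h1; linarith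
  exact mul_le_mul_of_nonneg_right h2 (sq_nonneg L)

/-- main term -/
theorem pw_cost_main {n : ℕ} (hn : 1 ≤ n) {t L : ℝ} (ht : 0 < t) (hL0 : 0 < L) {κ κ' : ℤ}
    (h2 : (2:ℝ) ^ κ ≤ 2 * (t * Real.sqrt (8 * n)))
    (h4 : (2:ℝ) ^ κ' ≤ 2 * (L * (2:ℝ) ^ κ / Real.sqrt (8 * n))) :
    n * Real.log (Real.pi * (2 : ℝ) ^ κ' / Real.sqrt n) ≤
      n * Real.log t + 8 * Real.pi ^ 2 * L ^ 2 := by
  have hn0 : (0:ℝ) < n := by exact_mod_cast hn
  have hs8 : 0 < Real.sqrt (8 * n) := Real.sqrt_pos.2 (by positivity)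
  have hsn : 0 < Real.sqrt n := Real.sqrt_pos.2 hn0
  have hpi0 := Real.pi_pos
  have e1 : (2:ℝ) ^ κ' ≤ 4 * L * t := by
    refine h4.trans ?_
    have e2 : (2:ℝ) ^ κ / Real.sqrt (8 * n) ≤ 2 * t := by
      rw [div_le_iff₀ hs8]; linarith
    calc 2 * (L * (2:ℝ) ^ κ / Real.sqrt (8 * n)) = 2 * L * ((2:ℝ) ^ κ / Real.sqrt (8 * n)) := by
          ring
      _ ≤ 2 * L * (2 * t) := mul_le_mul_of_nonneg_left e2 (by positivity)
      _ = 4 * L * t := by ring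
  have e3 : Real.pi * (2 : ℝ) ^ κ' / Real.sqrt n ≤ t * (4 * Real.pi * L / Real.sqrt n) := by
    rw [mul_div_assoc', div_le_div_iff_of_pos_right hsn]
    calc Real.pi * (2:ℝ) ^ κ' ≤ Real.pi * (4 * L * t) := mul_le_mul_of_nonneg_left e1 hpi0.le
      _ = t * (4 * Real.pi * L) := by ring
  set B : ℝ := Real.log (4 * Real.pi * L / Real.sqrt n) with hB
  have e4 : Real.log (Real.pi * (2 : ℝ) ^ κ' / Real.sqrt n) ≤ Real.log t + B := by
    rw [hB, ← Real.log_mul ht.ne' (by positivity)]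
    exact Real.log_le_log (by positivity) e3
  have e5 : 2 * B ≤ 16 * Real.pi ^ 2 * L ^ 2 / n := by
    have e6 : 2 * B = Real.log ((4 * Real.pi * L / Real.sqrt n) ^ 2) := by
      rw [Real.log_pow]; norm_num [hB]
    have e7 : (4 * Real.pi * L / Real.sqrt n) ^ 2 = 16 * Real.pi ^ 2 * L ^ 2 / n := by
      rw [div_pow, Real.sq_sqrt hn0.le]; ring
    rw [e6, e7]
    have := Real.log_le_sub_one_of_pos (by positivity : (0:ℝ) < 16 * Real.pi ^ 2 * L ^ 2 / n)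
    linarith
  have e8 : n * (2 * B) ≤ 16 * Real.pi ^ 2 * L ^ 2 := by
    calc n * (2 * B) ≤ n * (16 * Real.pi ^ 2 * L ^ 2 / n) :=
          mul_le_mul_of_nonneg_left e5 hn0.le
      _ = 16 * Real.pi ^ 2 * L ^ 2 := by field_simp
  have e9 := mul_le_mul_of_nonneg_left e4 hn0.le
  have e10 : (n:ℝ) * (Real.log t + B) = n * Real.log t + n * (2 * B) / 2 := by ring
  rw [e10] at e9
  linarith

/-- facts on `L` -/
theorem pw_cost_L {d n : ℕ} (hn : 1 ≤ n) (hd : 128 * n ≤ d)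
    (hd2 : d ≤ 256 * n) {N S L : ℝ} (hN : 0 ≤ N) (hS : 0 ≤ S)
    (hLdef : L = Real.sqrt N + (Real.sqrt S + Real.sqrt (2 * n)) / Real.sqrt d) :
    L ^ 2 ≤ 3 * (N + S / d) + 3 / 64 ∧ 1 / 16 ≤ L ∧ |Real.log L| ≤ 3 + L ^ 2 := by
  have hn0 : (0:ℝ) < n := by exact_mod_cast hn
  have hdn : (128:ℝ) * n ≤ d := by exact_mod_cast hd
  have hdn2 : (d:ℝ) ≤ 256 * n := by exact_mod_cast hd2
  have hd0 : (0:ℝ) < d := by linarith
  have hl2 : 0 < Real.log 2 := Real.log_pos (by norm_num)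
  have hl2' : Real.log 2 < 0.6931471808 := Real.log_two_lt_d9
  have hsd : 0 < Real.sqrt d := Real.sqrt_pos.2 hd0
  have hL2 : L ^ 2 ≤ 3 * (N + S / d + 2 * n / d) := by
    set a := Real.sqrt N with ha
    set b := Real.sqrt S / Real.sqrt d with hb
    set c := Real.sqrt (2 * n) / Real.sqrt d with hc
    have e1 : a ^ 2 = N := Real.sq_sqrt hN
    have e2 : b ^ 2 = S / d := by rw [hb, div_pow, Real.sq_sqrt hS, Real.sq_sqrt hd0.le]
    have e3 : c ^ 2 = 2 * n / d := by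
      rw [hc, div_pow, Real.sq_sqrt (by positivity), Real.sq_sqrt hd0.le]
    have e4 : L = a + b + c := by rw [hLdef, ha, hb, hc]; ring
    rw [e4, ← e1, ← e2, ← e3]
    nlinarith [sq_nonneg (a - b), sq_nonneg (b - c), sq_nonneg (a - c)]
  have h2nd : 2 * (n:ℝ) / d ≤ 1 / 64 := by
    rw [div_le_div_iff₀ hd0 (by norm_num)]; linarith
  have hL2' : L ^ 2 ≤ 3 * (N + S / d) + 3 / 64 := by linarith
  have hLlow : 1 / 16 ≤ L := by
    have e1 : 0 ≤ Real.sqrt N := Real.sqrt_nonneg _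
    have e2 : 0 ≤ Real.sqrt S / Real.sqrt d := by positivity
    have e3 : 1 / 16 ≤ Real.sqrt (2 * n) / Real.sqrt d := by
      rw [le_div_iff₀ hsd]
      have : Real.sqrt d ≤ Real.sqrt (256 * n) := Real.sqrt_le_sqrt hdn2
      have e5 : Real.sqrt (256 * n) = 16 * Real.sqrt n := by
        rw [Real.sqrt_mul (by norm_num)]
        congr 1
        rw [show (256:ℝ) = 16 ^ 2 by norm_num, Real.sqrt_sq (by norm_num)]
      have e6 : Real.sqrt n ≤ Real.sqrt (2 * n) := Real.sqrt_le_sqrt (by linarith)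
      linarith
    rw [hLdef, add_div]; linarith
  have hL0 : 0 < L := by linarith
  have hlogL : |Real.log L| ≤ 3 + L ^ 2 := by
    rw [abs_le]
    constructor
    · have e1 : Real.log (1 / 16) ≤ Real.log L := Real.log_le_log (by norm_num) hLlow
      have e2 : Real.log (1 / 16 : ℝ) = -(4 * Real.log 2) := by
        rw [one_div, Real.log_inv, show (16:ℝ) = 2 ^ 4 by norm_num, Real.log_pow]; norm_num
      nlinarith [sq_nonneg L]
    · have := Real.log_le_sub_one_of_pos hL0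
      nlinarith [sq_nonneg (L - 1)]
  exact ⟨hL2', hLlow, hlogL⟩

/-- the numerical part of `cost_le` -/
theorem pw_cost_num (C : ℝ) (hC : 1 ≤ C) {d n : ℕ} (hn : 1 ≤ n) (hd : 128 * n ≤ d)
    (hd2 : d ≤ 256 * n) {t N S D L : ℝ} (ht : 0 < t) (hN : 0 ≤ N) (hS : 0 ≤ S) (hD : 0 ≤ D)
    (hLdef : L = Real.sqrt N + (Real.sqrt S + Real.sqrt (2 * n)) / Real.sqrt d) {κ κ' : ℤ}
    (h1 : t * Real.sqrt (8 * n) < (2:ℝ) ^ κ) (h2 : (2:ℝ) ^ κ ≤ 2 * (t * Real.sqrt (8 * n)))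
    (h3 : L * (2:ℝ) ^ κ / Real.sqrt (8 * n) < (2:ℝ) ^ κ')
    (h4 : (2:ℝ) ^ κ' ≤ 2 * (L * (2:ℝ) ^ κ / Real.sqrt (8 * n))) :
    (Real.log 3 + |(κ : ℝ)| * Real.log 2) + n * Real.log (1 + D / (4:ℝ) ^ κ) + n * Real.log C +
      Real.log 2 + (Real.log 3 + |(κ' : ℝ)| * Real.log 2) +
      n * Real.log (Real.pi * (2 : ℝ) ^ κ' / Real.sqrt n) ≤
    n * Real.log t + (240 + Real.log C) * (d + |Real.log t| + N + S / d + D / t ^ 2) := by
  have hn0 : (0:ℝ) < n := by exact_mod_cast hn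
  have hn1 : (1:ℝ) ≤ n := by exact_mod_cast hn
  have hdn : (128:ℝ) * n ≤ d := by exact_mod_cast hd
  have hdn2 : (d:ℝ) ≤ 256 * n := by exact_mod_cast hd2
  have hd0 : (0:ℝ) < d := by linarith
  have hlC : 0 ≤ Real.log C := Real.log_nonneg hC
  have hl2 : 0 < Real.log 2 := Real.log_pos (by norm_num)
  have hl2' : Real.log 2 < 0.6931471808 := Real.log_two_lt_d9
  have hl3 : Real.log 3 ≤ 2 := by
    have := Real.log_le_sub_one_of_pos (by norm_num : (0:ℝ) < 3); linarith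
  have hsd : 0 < Real.sqrt d := Real.sqrt_pos.2 hd0
  have hs8 : 0 < Real.sqrt (8 * n) := Real.sqrt_pos.2 (by positivity)
  have hsn : 0 < Real.sqrt n := Real.sqrt_pos.2 hn0
  -- facts on L
  obtain ⟨hL2', hLlow, hlogL⟩ := pw_cost_L hn hd hd2 hN hS hLdef
  have hL0 : 0 < L := by linarith
  -- scales
  have hk1 := pw_abs_scale (mul_pos ht hs8) h1 h2
  have hy0 : 0 < L * (2:ℝ) ^ κ / Real.sqrt (8 * n) := by positivity
  have hk2 := pw_abs_scale hy0 h3 h4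
  have hlogx : Real.log (t * Real.sqrt (8 * n)) = Real.log t + Real.log (8 * n) / 2 := by
    rw [Real.log_mul ht.ne' hs8.ne', Real.log_sqrt (by positivity)]
  have hl8 : Real.log (8 * n) ≤ 8 * n := by
    have := Real.log_le_sub_one_of_pos (by positivity : (0:ℝ) < 8 * n); linarith
  have hl8' : 0 ≤ Real.log (8 * n) := Real.log_nonneg (by linarith)
  have hk1' : |(κ : ℝ)| * Real.log 2 ≤ |Real.log t| + 4 * n + Real.log 2 := by
    rw [hlogx] at hk1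
    have := abs_add_le (Real.log t) (Real.log (8 * n) / 2)
    rw [abs_of_nonneg (by linarith : 0 ≤ Real.log (8 * n) / 2)] at this
    linarith
  have hlogy : |Real.log (L * (2:ℝ) ^ κ / Real.sqrt (8 * n))| ≤
      |Real.log L| + |Real.log t| + Real.log 2 := by
    have e1 : L * (2:ℝ) ^ κ / Real.sqrt (8 * n) = L * ((2:ℝ) ^ κ / Real.sqrt (8 * n)) := by ring
    rw [e1, Real.log_mul hL0.ne' (by positivity)]
    have e2 : t ≤ (2:ℝ) ^ κ / Real.sqrt (8 * n) := by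
      rw [le_div_iff₀ hs8]; exact h1.le
    have e3 : (2:ℝ) ^ κ / Real.sqrt (8 * n) ≤ 2 * t := by
      rw [div_le_iff₀ hs8]; linarith
    have e4 := Real.log_le_log ht e2
    have e5 := Real.log_le_log (by positivity) e3
    rw [Real.log_mul (by norm_num) ht.ne'] at e5
    have e6 : |Real.log ((2:ℝ) ^ κ / Real.sqrt (8 * n))| ≤ |Real.log t| + Real.log 2 := by
      rw [abs_le]; constructor
      · have := neg_abs_le (Real.log t); linarith
      · have := le_abs_self (Real.log t); linarith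
    have e7 := abs_add_le (Real.log L) (Real.log ((2:ℝ) ^ κ / Real.sqrt (8 * n)))
    linarith
  have hk2' : |(κ' : ℝ)| * Real.log 2 ≤ 3 + L ^ 2 + |Real.log t| + 2 * Real.log 2 := by
    linarith
  -- the term with D
  have h4k : (4:ℝ) ^ κ = ((2:ℝ) ^ κ) ^ 2 := by
    rw [show (4:ℝ) = 2 * 2 by norm_num, mul_zpow]; ring
  have hD4 : t ^ 2 * (8 * n) ≤ (4:ℝ) ^ κ := by
    rw [h4k]
    calc t ^ 2 * (8 * n) = (t * Real.sqrt (8 * n)) ^ 2 := by
          rw [mul_pow, Real.sq_sqrt (by positivity)]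
      _ ≤ ((2:ℝ) ^ κ) ^ 2 := pow_le_pow_left₀ (by positivity) h1.le 2
  have hDterm : n * Real.log (1 + D / (4:ℝ) ^ κ) ≤ D / t ^ 2 := by
    have e1 : Real.log (1 + D / (4:ℝ) ^ κ) ≤ D / (4:ℝ) ^ κ := by
      have := Real.log_le_sub_one_of_pos (by positivity : (0:ℝ) < 1 + D / (4:ℝ) ^ κ); linarith
    have e2 : D / (4:ℝ) ^ κ ≤ D / (t ^ 2 * (8 * n)) :=
      div_le_div_of_nonneg_left hD (by positivity) hD4
    calc n * Real.log (1 + D / (4:ℝ) ^ κ) ≤ n * (D / (t ^ 2 * (8 * n))) :=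
          mul_le_mul_of_nonneg_left (e1.trans e2) hn0.le
      _ = D / t ^ 2 / 8 := by field_simp
      _ ≤ D / t ^ 2 := div_le_self (by positivity) (by norm_num)
  have hpi : Real.pi ≤ 3.1416 := Real.pi_lt_d4.le
  have hpi0 := Real.pi_pos
  have hmain := pw_cost_main hn ht hL0 h2 h4
  have hpi2 : 8 * Real.pi ^ 2 * L ^ 2 ≤ 79 * L ^ 2 := pw_pi_aux L
  have hSd : 0 ≤ S / d := by positivity
  have hDt : 0 ≤ D / t ^ 2 := by positivity
  have habs : 0 ≤ |Real.log t| := abs_nonneg _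
  have hnd : (n:ℝ) ≤ d := by linarith
  have hC1 : n * Real.log C ≤ Real.log C * d := by
    rw [mul_comm]; exact mul_le_mul_of_nonneg_left hnd hlC
  have hrest : 0 ≤ Real.log C * (|Real.log t| + N + S / d + D / t ^ 2) := by positivity
  have hd1 : (128:ℝ) ≤ d := by linarith
  have hexp : (240 + Real.log C) * (d + |Real.log t| + N + S / d + D / t ^ 2) =
      240 * d + 240 * |Real.log t| + 240 * N + 240 * (S / d) + 240 * (D / t ^ 2) +
        Real.log C * d + Real.log C * (|Real.log t| + N + S / d + D / t ^ 2) := by ring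
  rw [hexp]
  linarith

theorem cost_le (C : ℝ) (hC : 1 ≤ C) : ∃ C' : ℝ, 1 ≤ C' ∧ ∀ (d n : ℕ), 1 ≤ n → 128 * n ≤ d →
    d ≤ 256 * n → ∀ (r : ℝ), 0 < r → ∀ (ρ : Measure (E d)), IsProbabilityMeasure ρ →
    ∀ (j : Fin (n + 1)), j ≠ 0 → ∀ (u : Win d n) (σ : Fin (n + 1) → E d)
      (W : Xi d (8 * n) (n + 1)) (N : ℝ), 0 ≤ N → (∀ e : E d, ∑ i, ⟪u.1 i, e⟫ ^ 2 ≤ N * ‖e‖ ^ 2) →
      Rr C (Real.sqrt d * r) ρ j W σ ≠ ∞ → KK r ρ u ≠ ∞ →
      -lg (Rr C (Real.sqrt d * r) ρ j W σ) - lg (KK r ρ u) ≤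
        n * Real.log (td (Real.sqrt d * r) (bef j) σ (σ j)) +
          C' * (d + |Real.log (td (Real.sqrt d * r) (bef j) σ (σ j))| + N +
            (∑ l, ∑ i, ((u.2 i - ⟪u.1 i, σ l⟫) / r) ^ 2) / d +
            Dsq (Real.sqrt d * r) (bef j) σ W / td (Real.sqrt d * r) (bef j) σ (σ j) ^ 2) := by
  refine ⟨240 + Real.log C, by have := Real.log_nonneg hC; linarith, ?_⟩
  intro d n hn hd hd2 r hr ρ hρ j hj u σ W N hN0 hN hR hK
  have hn0 : (0:ℝ) < n := by exact_mod_cast hn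
  have hd1 : 1 ≤ d := by omega
  have hd0 : (0:ℝ) < d := by exact_mod_cast (by omega : 0 < d)
  have hw : 0 < Real.sqrt d * r := mul_pos (Real.sqrt_pos.2 hd0) hr
  set w : ℝ := Real.sqrt d * r with hwdef
  set t : ℝ := td w (bef j) σ (σ j) with htdef
  have ht : 0 < t := lt_of_lt_of_le hw (le_td hw _ _ _)
  set S : ℝ := ∑ l, ∑ i, ((u.2 i - ⟪u.1 i, σ l⟫) / r) ^ 2 with hS
  have hS0 : 0 ≤ S := Finset.sum_nonneg fun l _ => Finset.sum_nonneg fun i _ => sq_nonneg _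
  have hD : 0 ≤ Dsq w (bef j) σ W := Dsq_nonneg _ _ _ _
  set L : ℝ := Real.sqrt N + (Real.sqrt S + Real.sqrt (2 * n)) / Real.sqrt d with hL
  have hsd : 0 < Real.sqrt d := Real.sqrt_pos.2 hd0
  have hs2n : 0 < Real.sqrt (2 * n) := Real.sqrt_pos.2 (by positivity)
  have hL0 : 0 < L := by
    rw [hL]
    have e1 := Real.sqrt_nonneg N
    have e2 := Real.sqrt_nonneg S
    positivity
  have hs8 : 0 < Real.sqrt (8 * n) := Real.sqrt_pos.2 (by positivity)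
  obtain ⟨κ, h1, h2⟩ := pw_exists_scale (mul_pos ht hs8)
  have hy0 : 0 < L * (2:ℝ) ^ κ / Real.sqrt (8 * n) := by positivity
  obtain ⟨κ', h3, h4⟩ := pw_exists_scale hy0
  have hk : L ^ 2 * (4 : ℝ) ^ κ ≤ ((8 * n : ℕ) : ℝ) * (4 : ℝ) ^ κ' := by
    have e1 : ∀ z : ℤ, (4:ℝ) ^ z = ((2:ℝ) ^ z) ^ 2 := by
      intro z; rw [show (4:ℝ) = 2 * 2 by norm_num, mul_zpow]; ring
    have e2 : L * (2:ℝ) ^ κ ≤ Real.sqrt (8 * n) * (2:ℝ) ^ κ' := by
      rw [div_lt_iff₀ hs8] at h3; linarith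
    have e3 := pow_le_pow_left₀ (by positivity) e2 2
    rw [e1, e1]; push_cast
    calc L ^ 2 * ((2:ℝ) ^ κ) ^ 2 = (L * (2:ℝ) ^ κ) ^ 2 := by ring
      _ ≤ (Real.sqrt (8 * n) * (2:ℝ) ^ κ') ^ 2 := e3
      _ = 8 * n * ((2:ℝ) ^ κ') ^ 2 := by rw [mul_pow, Real.sq_sqrt (by positivity)]
  have hres : ∀ (s : E d) (g : Fin n → ℝ), ∑ i, g i ^ 2 ≤ 2 * n →
      ∑ i, (⟪u.1 i, s⟫ + r * g i - u.2 i) ^ 2 ≤ (L * td w (bef j) σ s) ^ 2 := by
    intro s g hg
    exact residual hd1 hr u.1 u.2 N hN0 hN (bef j) (pw_bef_nonempty hj) σ s g hg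
  have hA := pw_lg_Rr_lower hC ρ j hj W σ hR κ
  have hB := pw_lg_KK_lower hn hr ρ u hK w (bef j) σ L hres κ κ' hk
  rw [pw_log_lam] at hA hB
  have hnum := pw_cost_num C hC hn hd hd2 ht hN0 hS0 hD hL h1 h2 h3 h4
  linarith

end

end Vale.Agent.P309
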