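import Vale.Agent.Lib.P309.Gauss

/-!
# P309, module SPHERE: the uniform measure on the sphere
-/

namespace Vale.Agent.P309

open MeasureTheory ProbabilityTheory
open scoped ENNReal RealInnerProductSpace

theorem sp_nontrivial_E {d : ℕ} (hd : 1 ≤ d) : Nontrivial (E d) := by
  have : Nonempty (Fin d) := ⟨⟨0, hd⟩⟩
  infer_instance

theorem sp_toSphere_univ_ne_zero {d : ℕ} (hd : 1 ≤ d) :
    (volume : Measure (E d)).toSphere Set.univ ≠ 0 := by
  have := sp_nontrivial_E hd
  rw [Ne, Measure.measure_univ_eq_zero]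
  exact Measure.toSphere_ne_zero _

theorem sp_toSphere_univ_ne_top {d : ℕ} :
    (volume : Measure (E d)).toSphere Set.univ ≠ ∞ := measure_ne_top _ _

theorem sphereUnif_prob {d : ℕ} (hd : 1 ≤ d) : IsProbabilityMeasure (sphereUnif d) := by
  constructor
  unfold sphereUnif
  rw [Measure.smul_apply, smul_eq_mul]
  exact ENNReal.inv_mul_cancel (sp_toSphere_univ_ne_zero hd) sp_toSphere_univ_ne_top

/-- Tonelli for product functions on `Fin n → ℝ`. -/
theorem sp_lintegral_pi_prod (μ : Measure ℝ) [SigmaFinite μ] : ∀ (n : ℕ) (f : Fin n → ℝ → ℝ≥0∞),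
    (∀ i, Measurable (f i)) →
    ∫⁻ x, ∏ i, f i (x i) ∂(Measure.pi fun _ : Fin n => μ) = ∏ i, ∫⁻ x, f i x ∂μ
  | 0, f, _ => by
    rw [Measure.pi_of_empty]
    simp
  | n + 1, f, hf => by
    have IH := sp_lintegral_pi_prod μ n (fun i => f i.succ) (fun i => hf _)
    have hmp := (measurePreserving_piFinSuccAbove (fun _ : Fin (n + 1) => μ) 0)
    have hG : Measurable (fun p : ℝ × (Fin n → ℝ) => f 0 p.1 * ∏ i, f i.succ (p.2 i)) := by
      refine ((hf 0).comp measurable_fst).mul ?_
      exact Finset.measurable_prod _ fun i _ =>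
        (hf i.succ).comp ((measurable_pi_apply i).comp measurable_snd)
    have h1 := hmp.lintegral_comp hG
    have h2 : ∀ x : Fin (n + 1) → ℝ, f 0 ((MeasurableEquiv.piFinSuccAbove (fun _ => ℝ) 0) x).1 *
        ∏ i, f (Fin.succ i) (((MeasurableEquiv.piFinSuccAbove (fun _ => ℝ) 0) x).2 i) =
        ∏ i, f i (x i) := by
      intro x
      rw [Fin.prod_univ_succ]
      rfl
    simp only [h2] at h1
    have hg : Measurable (fun y : Fin n → ℝ => ∏ i, f i.succ (y i)) :=
      Finset.measurable_prod _ fun i _ => (hf i.succ).comp (measurable_pi_apply i)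
    have h3 := lintegral_prod_mul (μ := μ) (ν := Measure.pi fun _ : Fin n => μ)
      (f := f 0) (g := fun y : Fin n → ℝ => ∏ i, f i.succ (y i))
      (hf 0).aemeasurable hg.aemeasurable
    rw [h1, h3, IH, Fin.prod_univ_succ]

theorem sp_pi_gaussian_withDensity (n : ℕ) :
    (Measure.pi fun _ : Fin n => gaussianReal 0 1) =
      (volume : Measure (Fin n → ℝ)).withDensity (fun x => ∏ i, gaussianPDF 0 1 (x i)) := by
  refine Measure.pi_eq fun s hs => ?_
  rw [withDensity_apply _ (MeasurableSet.univ_pi hs),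
    ← lintegral_indicator (MeasurableSet.univ_pi hs)]
  have h1 : ∀ x : Fin n → ℝ, (Set.univ.pi s).indicator (fun x => ∏ i, gaussianPDF 0 1 (x i)) x =
      ∏ i, (s i).indicator (gaussianPDF 0 1) (x i) := by
    intro x
    by_cases hx : x ∈ Set.univ.pi s
    · rw [Set.indicator_of_mem hx]
      refine Finset.prod_congr rfl fun i _ => ?_
      rw [Set.indicator_of_mem (hx i (Set.mem_univ i))]
    · rw [Set.indicator_of_notMem hx]
      simp only [Set.mem_pi, Set.mem_univ, true_implies, not_forall] at hx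
      obtain ⟨i, hi⟩ := hx
      rw [Finset.prod_eq_zero (Finset.mem_univ i)]
      rw [Set.indicator_of_notMem hi]
  simp only [h1]
  rw [volume_pi, sp_lintegral_pi_prod volume n _
    (fun i => (measurable_gaussianPDF 0 1).indicator (hs i))]
  refine Finset.prod_congr rfl fun i _ => ?_
  rw [lintegral_indicator (hs i), gaussianReal_of_var_ne_zero _ one_ne_zero,
    withDensity_apply _ (hs i)]

/-- the radial density -/
noncomputable def sp_radD (d : ℕ) (r : ℝ) : ℝ≥0∞ :=
  ENNReal.ofReal ((Real.sqrt (2 * Real.pi))⁻¹ ^ d * Real.exp (-(r ^ 2) / 2))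

theorem sp_radD_meas (d : ℕ) : Measurable (sp_radD d) := by
  unfold sp_radD; fun_prop

theorem sp_stdGaussian_withDensity (d : ℕ) :
    stdGaussian (E d) = (volume : Measure (E d)).withDensity (fun x => sp_radD d ‖x‖) := by
  rw [← map_pi_eq_stdGaussian, sp_pi_gaussian_withDensity]
  have hmp : MeasurePreserving (WithLp.toLp 2 : (Fin d → ℝ) → E d) volume volume :=
    PiLp.volume_preserving_toLp (Fin d)
  have hrm : Measurable (fun x : E d => sp_radD d ‖x‖) := (sp_radD_meas d).comp measurable_norm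
  ext s hs
  rw [Measure.map_apply hmp.measurable hs, withDensity_apply _ (hmp.measurable hs),
    withDensity_apply _ hs, ← hmp.setLIntegral_comp_preimage hs hrm]
  refine lintegral_congr fun x => ?_
  unfold sp_radD
  rw [EuclideanSpace.norm_eq, Real.sq_sqrt (by positivity)]
  unfold gaussianPDF
  rw [← ENNReal.ofReal_prod_of_nonneg (fun i _ => gaussianPDFReal_nonneg 0 1 (x i))]
  congr 1
  unfold gaussianPDFReal
  rw [Finset.prod_mul_distrib, ← Real.exp_sum]
  simp only [NNReal.coe_one, mul_one, sub_zero, Finset.prod_const, Finset.card_univ,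
    Fintype.card_fin, Real.norm_eq_abs, sq_abs]
  congr 2
  rw [← Finset.sum_div, Finset.sum_neg_distrib]

theorem sp_polar {d : ℕ} (hd : 1 ≤ d) {F : E d → ℝ≥0∞} (hF : Measurable F) {ρ : ℝ → ℝ≥0∞}
    (hρ : Measurable ρ) :
    ∫⁻ x : E d, F (‖x‖⁻¹ • x) * ρ ‖x‖ =
      (∫⁻ s : Metric.sphere (0 : E d) 1, F s ∂(volume : Measure (E d)).toSphere) *
        ∫⁻ r : Set.Ioi (0 : ℝ), ρ r ∂(Measure.volumeIoiPow (Module.finrank ℝ (E d) - 1)) := by
  have := sp_nontrivial_E hd
  have h0 : MeasurableSet ({0}ᶜ : Set (E d)) := (measurableSet_singleton _).compl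
  have h1 : ∫⁻ x : E d, F (‖x‖⁻¹ • x) * ρ ‖x‖ =
      ∫⁻ x in ({0}ᶜ : Set (E d)), F (‖x‖⁻¹ • x) * ρ ‖x‖ := by
    rw [← setLIntegral_univ (fun x : E d => F (‖x‖⁻¹ • x) * ρ ‖x‖)]
    apply setLIntegral_congr
    refine (ae_eq_univ.2 ?_).symm
    rw [compl_compl]
    exact measure_singleton 0
  have hG : Measurable (fun p : Metric.sphere (0 : E d) 1 × Set.Ioi (0 : ℝ) =>
      F (p.1 : E d) * ρ (p.2 : ℝ)) := by
    refine (hF.comp (measurable_subtype_coe.comp measurable_fst)).mul ?_
    exact hρ.comp (measurable_subtype_coe.comp measurable_snd)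
  have h2 := ((volume : Measure (E d)).measurePreserving_homeomorphUnitSphereProd).lintegral_comp hG
  have h3 : ∫⁻ x in ({0}ᶜ : Set (E d)), F (‖x‖⁻¹ • x) * ρ ‖x‖ =
      ∫⁻ x : ({0}ᶜ : Set (E d)), F (‖(x : E d)‖⁻¹ • (x : E d)) * ρ ‖(x : E d)‖
        ∂((volume : Measure (E d)).comap (↑)) := by
    rw [lintegral_subtype_comap h0 (fun x : E d => F (‖x‖⁻¹ • x) * ρ ‖x‖)]
  rw [h1, h3]
  have h4 : ∀ x : ({0}ᶜ : Set (E d)),
      F (((homeomorphUnitSphereProd (E d)) x).1 : E d) *
        ρ (((homeomorphUnitSphereProd (E d)) x).2 : ℝ) =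
      F (‖(x : E d)‖⁻¹ • (x : E d)) * ρ ‖(x : E d)‖ := by
    intro x
    rw [homeomorphUnitSphereProd_apply_fst_coe, homeomorphUnitSphereProd_apply_snd_coe]
  simp only [h4] at h2
  rw [h2]
  exact lintegral_prod_mul (hF.comp measurable_subtype_coe).aemeasurable
    (hρ.comp measurable_subtype_coe).aemeasurable

/-- It is the law of `ξ/‖ξ‖` (polar coordinates: `measurePreserving_homeomorphUnitSphereProd`). -/
theorem sphereUnif_map {d : ℕ} (hd : 1 ≤ d) :
    (sphereUnif d).map (fun s : Metric.sphere (0 : E d) 1 => (s : E d)) = unif d := by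
  have hnm : Measurable (fun x : E d => ‖x‖⁻¹ • x) := by fun_prop
  set c := ∫⁻ r : Set.Ioi (0 : ℝ), sp_radD d r
    ∂(Measure.volumeIoiPow (Module.finrank ℝ (E d) - 1)) with hc
  have key : ∀ S : Set (E d), MeasurableSet S → unif d S =
      (volume : Measure (E d)).toSphere ((fun s : Metric.sphere (0 : E d) 1 => (s : E d)) ⁻¹' S) *
        c := by
    intro S hS
    unfold unif
    rw [Measure.map_apply hnm hS, sp_stdGaussian_withDensity,
      withDensity_apply _ (hnm hS), ← lintegral_indicator (hnm hS)]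
    have h1 : ∀ x : E d, ((fun x : E d => ‖x‖⁻¹ • x) ⁻¹' S).indicator (fun x => sp_radD d ‖x‖) x =
        (S.indicator (fun _ => 1) (‖x‖⁻¹ • x)) * sp_radD d ‖x‖ := by
      intro x
      by_cases hx : ‖x‖⁻¹ • x ∈ S
      · rw [Set.indicator_of_mem (by exact hx), Set.indicator_of_mem hx, one_mul]
      · rw [Set.indicator_of_notMem (by exact hx), Set.indicator_of_notMem hx, zero_mul]
    simp only [h1]
    rw [sp_polar hd (measurable_const.indicator hS) (sp_radD_meas d)]
    congr 1
    have h2 : ∀ s : Metric.sphere (0 : E d) 1, S.indicator (fun _ => (1 : ℝ≥0∞)) (s : E d) =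
        ((fun s : Metric.sphere (0 : E d) 1 => (s : E d)) ⁻¹' S).indicator (fun _ => 1) s := by
      intro s; rfl
    simp only [h2]
    rw [lintegral_indicator (measurable_subtype_coe hS)]
    simp
  have hprob : unif d Set.univ = 1 := measure_univ
  have h1 := key Set.univ MeasurableSet.univ
  rw [hprob, Set.preimage_univ] at h1
  have hcv : c = ((volume : Measure (E d)).toSphere Set.univ)⁻¹ := by
    rw [ENNReal.eq_inv_of_mul_eq_one_left (a := c)
      (b := (volume : Measure (E d)).toSphere Set.univ) (by rw [mul_comm]; exact h1.symm)]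
  ext S hS
  rw [Measure.map_apply measurable_subtype_coe hS, key S hS, hcv]
  unfold sphereUnif
  rw [Measure.smul_apply, smul_eq_mul, mul_comm]

end Vale.Agent.P309
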