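import Vale.Agent.Lib.P309.StaticG

/-!
# P309, module STATIC: the static lemma (section 7 of the paper proof)
-/

namespace Vale.Agent.P309

open MeasureTheory ProbabilityTheory
open scoped ENNReal RealInnerProductSpace

section

attribute [local irreducible] Dsq Wm td KK Rr postW winK winM xiM kap relEnt PSr

/-- the inequality with explicit costs -/
theorem static_core {d n : ℕ} {r : ℝ} (hr : 0 < r) (ρ : Measure (E d))
    (hρ : IsProbabilityMeasure ρ) (hd : 1 ≤ d) (hn : 1 ≤ n) (hnd : n ≤ d) {w C5 C' CA D p0 : ℝ}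
    (hw : w = Real.sqrt d * r)
    (hw1 : w ≤ 1) (hC5 : 1 ≤ C5) (hC' : 1 ≤ C') (hCA : 1 ≤ CA) (hD : 0 ≤ D)
    (hp0 : 0 < p0) (hp1 : p0 ≤ 1) (hρ0 : ρ ≤ (ENNReal.ofReal p0)⁻¹ • unif d)
    (hRint : ∀ (j : Fin (n + 1)) (σ : Fin (n + 1) → E d),
      ∫⁻ x, ∫⁻ ξ, Rr C5 w ρ j (Wm w x ξ) σ ∂(xiM d (8 * n) (n + 1)) ∂ρ ≤ 1)
    (hcost : ∀ (j : Fin (n + 1)), j ≠ 0 → ∀ (u : Win d n) (σ : Fin (n + 1) → E d)
      (W : Xi d (8 * n) (n + 1)) (N : ℝ), 0 ≤ N → (∀ e : E d, ∑ i, ⟪u.1 i, e⟫ ^ 2 ≤ N * ‖e‖ ^ 2) →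
      Rr C5 w ρ j W σ ≠ ∞ → KK r ρ u ≠ ∞ →
      -lg (Rr C5 w ρ j W σ) - lg (KK r ρ u) ≤
        n * Real.log (td w (bef j) σ (σ j)) +
          C' * (d + |Real.log (td w (bef j) σ (σ j))| + N +
            (∑ l, ∑ i, ((u.2 i - ⟪u.1 i, σ l⟫) / r) ^ 2) / d +
            Dsq w (bef j) σ W / td w (bef j) σ (σ j) ^ 2))
    (hAP1 : ∫⁻ p, ∑ j ∈ Finset.univ.erase (0 : Fin (n + 1)),
        ENNReal.ofReal (Real.log (3 / td r (bef j) p.1 (p.1 j))) ∂((conc n r hr ρ hρ).rep n) ≤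
        ENNReal.ofReal (CA * (Real.log (1 / p0) + d)))
    (hAP2 : ∀ l : Fin (n + 1),
      ∫⁻ p, ENNReal.ofReal ((td r (Finset.univ.erase l) p.1 (p.1 l))⁻¹)
        ∂((conc n r hr ρ hρ).rep n) ≤ ENNReal.ofReal (D / p0))
    {V : Type} [Fintype V] [MeasurableSpace V] [MeasurableSingletonClass V]
    {f : Win d n → V} (hf : Measurable f) (R : Finset V) (hR : ∀ u, f u ∈ R) :
    (n + 1) * relEnt (8 * n) (n + 1) w ρ (PSr r f) ≤ Real.log R.card +
      ((n * (C' * (d + 2)) + C' * (CA * (Real.log (1 / p0) + d)) + n * C' * (30 * d) +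
        n * C' / d * (n * (n + 1)) + n * w * ((n + 1) * (D / p0))) + C' * (n * (8 * n))) := by
  have hd0 : (0 : ℝ) < d := by exact_mod_cast hd
  have hw0 : 0 < w := by
    rw [hw]
    positivity
  have hlog : 0 ≤ Real.log (1 / p0) := Real.log_nonneg (by
    rw [le_div_iff₀ hp0]; linarith)
  have hC0 : 0 ≤ C' := zero_le_one.trans hC'
  have hCA0 : 0 ≤ CA := zero_le_one.trans hCA
  obtain ⟨Q, hQm, hQi, hQae⟩ := st_replica hr ρ hρ hn hw0 hC5 hRint hf
  obtain ⟨N, hNm, hN0, hN, hNi⟩ := exists_op d n hnd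
  obtain ⟨hgi, hge⟩ := st_g hr ρ hρ hf hw0
  obtain ⟨hhi, hhe⟩ := st_h hr ρ hρ hf R hR hn hQm hQi
  have hΦm : Measurable (fun p : ((Fin (n + 1) → E d) × Win d n) × Xi d (8 * n) (n + 1) =>
      Phi1 C' r w N p.1 + Phi2 C' w p) :=
    ((measurable_Phi1 C' r w hNm).comp measurable_fst).add (measurable_Phi2 C' w)
  have a1 : (0 : ℝ) ≤ n * (C' * (d + 2)) := by positivity
  have a2 : 0 ≤ C' * (CA * (Real.log (1 / p0) + d)) := by positivity
  have a3 : 0 ≤ n * C' * (30 * d) := by positivity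
  have a4 : 0 ≤ n * C' / d * (n * (n + 1)) := by positivity
  have a5 : 0 ≤ n * w * ((n + 1) * (D / p0)) := by positivity
  have a6 : 0 ≤ C' * ((n : ℝ) * (8 * n)) := by positivity
  have hΦi : ∫⁻ p, (Phi1 C' r w N p.1 + Phi2 C' w p)
      ∂(((conc n r hr ρ hρ).rep n).prod (xiM d (8 * n) (n + 1))) ≤
      ENNReal.ofReal ((n * (C' * (d + 2)) + C' * (CA * (Real.log (1 / p0) + d)) +
        n * C' * (30 * d) +
        n * C' / d * (n * (n + 1)) + n * w * ((n + 1) * (D / p0))) + C' * (n * (8 * n))) := by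
    rw [lintegral_add_right _ (measurable_Phi2 C' w), ENNReal.ofReal_add (by positivity) a6]
    refine add_le_add ?_ (lintegral_Phi2 hC0 hw0 _)
    rw [st_lintegral_fst_prob _ _ (measurable_Phi1 C' r w hNm)]
    exact lintegral_Phi1 hd hC0 hCA0 hD hw0 hp0 hp1 hr ρ hρ hNm hNi hAP1 hAP2
  have hsp := (Measure.quasiMeasurePreserving_fst (μ := (conc n r hr ρ hρ).rep n)
    (ν := xiM d (8 * n) (n + 1))).ae (st_ae_sphere hr ρ hρ hd hρ0)
  have hae := (Measure.quasiMeasurePreserving_fst (μ := (conc n r hr ρ hρ).rep n)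
    (ν := xiM d (8 * n) (n + 1))).ae (st_ae_u hr ρ hρ hn)
  have hfin := integral_le_of_pw hgi hhi hΦm (c := (n * (C' * (d + 2)) +
    C' * (CA * (Real.log (1 / p0) + d)) + n * C' * (30 * d) +
        n * C' / d * (n * (n + 1)) + n * w * ((n + 1) * (D / p0))) + C' * (n * (8 * n)))
    (by positivity) hΦi (by
      filter_upwards [hQae, hsp, hae] with p hp1 hp2 hp3
      exact st_pointwise hr ρ hρ hd hn hw hw1 hC' hcost N hN0 hN p (Q p) hp1.1 hp1.2.1
        hp1.2.2.1 hp3 hp2 hp1.2.2.2)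
  rw [hge] at hfin
  linarith

end

/-- the numerical step -/
theorem static_num {d n : ℕ} (hn : 1 ≤ n) (hdn : 128 * n ≤ d) {w C' CA D p0 J lR : ℝ}
    (hw : 0 ≤ w) (hC' : 1 ≤ C') (hCA : 1 ≤ CA) (hD : 0 ≤ D) (hp0 : 0 < p0)
    (hlog : 0 ≤ Real.log (1 / p0)) (hlR : 0 ≤ lR)
    (h : (n + 1) * J ≤ lR +
      ((n * (C' * (d + 2)) + C' * (CA * (Real.log (1 / p0) + d)) + n * C' * (30 * d) +
        n * C' / d * (n * (n + 1)) + n * w * ((n + 1) * (D / p0))) + C' * (n * (8 * n)))) :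
    J ≤ (lR + C' * CA * Real.log (1 / p0)) / n + (C' * (CA + 50)) * d + w * (n * D) / p0 := by
  have hn1 : (1 : ℝ) ≤ n := by exact_mod_cast hn
  have hdn' : 128 * (n : ℝ) ≤ d := by exact_mod_cast hdn
  have hn0 : (0 : ℝ) < n := by linarith
  have hd0 : (0 : ℝ) < d := by linarith
  have hC0 : 0 < C' := by linarith
  have hCA0 : 0 < CA := by linarith
  have hD0 : 0 ≤ D / p0 := div_nonneg hD hp0.le
  have h1 : (n : ℝ) * C' / d * (n * (n + 1)) ≤ C' * n * (n + 1) := by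
    have : (n : ℝ) / d ≤ 1 := by
      rw [div_le_one hd0]
      linarith
    have e : (n : ℝ) * C' / d * (n * (n + 1)) = (n / d) * (C' * n * (n + 1)) := by ring
    rw [e]
    have : 0 ≤ C' * n * ((n : ℝ) + 1) := by positivity
    nlinarith
  have hmain : (n + 1) * J ≤ (n + 1) * ((lR + C' * CA * Real.log (1 / p0)) / n +
      (C' * (CA + 50)) * d + w * (n * D) / p0) := by
    refine h.trans ?_
    have e1 : lR + C' * CA * Real.log (1 / p0) ≤
        (n + 1) * ((lR + C' * CA * Real.log (1 / p0)) / n) := by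
      have hX : 0 ≤ lR + C' * CA * Real.log (1 / p0) := by positivity
      have : (n + 1) * ((lR + C' * CA * Real.log (1 / p0)) / n) =
          (lR + C' * CA * Real.log (1 / p0)) + (lR + C' * CA * Real.log (1 / p0)) / n := by
        field_simp
      rw [this]
      have : 0 ≤ (lR + C' * CA * Real.log (1 / p0)) / n := by positivity
      linarith
    have e2 : n * w * ((n + 1) * (D / p0)) = (n + 1) * (w * (n * D) / p0) := by
      field_simp
    have e3 : n * (C' * (d + 2)) + C' * (CA * d) + n * C' * (30 * d) + C' * n * (n + 1) +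
        C' * (n * (8 * n)) ≤ (n + 1) * ((C' * (CA + 50)) * d) := by
      have k1 : C' * (n * (2 : ℝ)) ≤ C' * ((n + 1) * d) := by
        apply mul_le_mul_of_nonneg_left _ hC0.le
        nlinarith
      have k2 : C' * (n * (n + 1)) ≤ C' * ((n + 1) * d) := by
        apply mul_le_mul_of_nonneg_left _ hC0.le
        nlinarith
      have k3 : C' * (n * (8 * n)) ≤ C' * ((n + 1) * (8 * d)) := by
        apply mul_le_mul_of_nonneg_left _ hC0.le
        nlinarith
      have k4 : C' * (CA * d) ≤ C' * ((n + 1) * (CA * d)) := by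
        apply mul_le_mul_of_nonneg_left _ hC0.le
        have : 0 ≤ CA * d := by positivity
        nlinarith
      have k5 : C' * (n * d) ≤ C' * ((n + 1) * d) := by
        apply mul_le_mul_of_nonneg_left _ hC0.le
        nlinarith
      nlinarith
    nlinarith
  exact le_of_mul_le_mul_left hmain (by linarith)

/-- `f` takes at most `R` values. -/
theorem static : ∃ C : ℝ, 1 ≤ C ∧ ∀ (d n : ℕ), 2 ≤ n → 128 * n ≤ d → d ≤ 256 * n →
    ∃ D : ℝ, 0 ≤ D ∧ ∀ (r : ℝ), 0 < r → Real.sqrt d * r ≤ 1 →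
    ∀ (ρ : Measure (E d)), IsProbabilityMeasure ρ → ∀ (p0 : ℝ), 0 < p0 → p0 ≤ 1 →
    ρ ≤ (ENNReal.ofReal p0)⁻¹ • unif d →
    ∀ (V : Type) [Fintype V] [MeasurableSpace V] [MeasurableSingletonClass V]
      (f : Win d n → V), Measurable f → ∀ (R : Finset V), (∀ u, f u ∈ R) →
      relEnt (8 * n) (n + 1) (Real.sqrt d * r) ρ (PSr r f) ≤
        (Real.log R.card + C * Real.log (1 / p0)) / n + C * d + Real.sqrt d * r * D / p0 := by
  obtain ⟨C5, hC5, hRint⟩ := Rr_int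
  obtain ⟨C', hC', hcost⟩ := cost_le C5 hC5
  obtain ⟨CA, hCA, hAP1⟩ := AP1
  refine ⟨C' * (CA + 50), by nlinarith, ?_⟩
  intro d n hn hdn hdn2
  obtain ⟨D, hD, hAP2⟩ := AP2 d n hn hdn
  refine ⟨n * D, by positivity, ?_⟩
  intro r hr hw1 ρ hρ p0 hp0 hp1 hρ0 V _ _ _ f hf R hR
  have hn1 : 1 ≤ n := by omega
  have hd1 : 1 ≤ d := by omega
  have hd0 : (0 : ℝ) < d := by exact_mod_cast hd1
  have hsq : (1 : ℝ) ≤ Real.sqrt d := by
    rw [Real.one_le_sqrt]
    exact_mod_cast hd1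
  have hr1 : r ≤ 1 := by nlinarith
  have hlog : 0 ≤ Real.log (1 / p0) := Real.log_nonneg (by
    rw [le_div_iff₀ hp0]; linarith)
  have hne : R.Nonempty := ⟨f (0, 0), hR _⟩
  have hlR : 0 ≤ Real.log R.card := Real.log_nonneg (by exact_mod_cast hne.card_pos)
  have hcore := static_core hr ρ hρ hd1 hn1 (by omega) rfl hw1 hC5 hC' hCA hD hp0 hp1 hρ0
    (fun j σ => hRint d n (Real.sqrt d * r) hn1 (by positivity) ρ hρ j σ)
    (fun j hj u σ W N h1 h2 h3 h4 =>
      hcost d n hn1 hdn hdn2 r hr ρ hρ j hj u σ W N h1 h2 h3 h4)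
    (hAP1 d n hn hdn r hr hr1 ρ hρ p0 hp0 hp1 hρ0)
    (hAP2 r hr hr1 ρ hρ p0 hp0 hp1 hρ0) hf R hR
  have hnum := static_num hn1 hdn (by positivity) hC' hCA hD hp0 hlog hlR hcore
  refine hnum.trans ?_
  have hn0 : (0 : ℝ) < n := by exact_mod_cast hn1
  have : (Real.log R.card + C' * CA * Real.log (1 / p0)) / n ≤
      (Real.log R.card + C' * (CA + 50) * Real.log (1 / p0)) / n := by
    apply div_le_div_of_nonneg_right _ hn0.le
    have : 0 ≤ C' * 50 * Real.log (1 / p0) := by positivity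
    nlinarith
  linarith

end Vale.Agent.P309
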