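import Vale.Agent.Lib.P309.AP
import Vale.Agent.Lib.P309.OpNorm
import Vale.Agent.Lib.P309.Pointwise
import Vale.Agent.Lib.P309.RelEnt

/-!
# P309, module STATIC, part A: expectations of the cost terms
-/

namespace Vale.Agent.P309

open MeasureTheory ProbabilityTheory
open scoped ENNReal RealInnerProductSpace

attribute [local irreducible] Dsq Wm td

section

variable {d n : ℕ} {r : ℝ} (hr : 0 < r) (ρ : Measure (E d)) (hρ : IsProbabilityMeasure ρ)

theorem stA1 {N : (Fin n → E d) → ℝ} (hN : Measurable N)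
    (hN2 : ∫⁻ X, ENNReal.ofReal (N X) ∂(rows d n) ≤ ENNReal.ofReal (30 * d)) :
    ∫⁻ p, ENNReal.ofReal (N p.2.1) ∂((conc n r hr ρ hρ).rep n) ≤ ENNReal.ofReal (30 * d) := by
  have h := (conc n r hr ρ hρ).rep_single n 0 (F := fun q => ENNReal.ofReal (N q.2.1))
    (by fun_prop)
  simp only at h
  rw [h]
  have h2 : ∀ s : E d, ∫⁻ u, (conc n r hr ρ hρ).K s u * ENNReal.ofReal (N u.1)
      ∂(conc n r hr ρ hρ).ν = ∫⁻ X, ENNReal.ofReal (N X) ∂(rows d n) := by
    intro s
    have := lintegral_winK (n := n) hr s (F := fun u => ENNReal.ofReal (N u.1)) (by fun_prop)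
    simp only [lintegral_const, measure_univ, mul_one] at this
    exact this
  simp only [h2, lintegral_const]
  have : (conc n r hr ρ hρ).ρ Set.univ = 1 := hρ.measure_univ
  rw [this, mul_one]
  exact hN2

theorem stA2 : ∫⁻ p, ENNReal.ofReal (∑ l, ∑ i, ((p.2.2 i - ⟪p.2.1 i, p.1 l⟫) / r) ^ 2)
      ∂((conc n r hr ρ hρ).rep n) ≤ ENNReal.ofReal (n * (n + 1)) := by
  have hmeas : ∀ l : Fin (n + 1), Measurable (fun p : (Fin (n + 1) → E d) × Win d n =>
      ENNReal.ofReal (∑ i, ((p.2.2 i - ⟪p.2.1 i, p.1 l⟫) / r) ^ 2)) := by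
    intro l
    fun_prop
  have h0 : ∀ p : (Fin (n + 1) → E d) × Win d n,
      ENNReal.ofReal (∑ l, ∑ i, ((p.2.2 i - ⟪p.2.1 i, p.1 l⟫) / r) ^ 2) =
        ∑ l, ENNReal.ofReal (∑ i, ((p.2.2 i - ⟪p.2.1 i, p.1 l⟫) / r) ^ 2) := by
    intro p
    exact ENNReal.ofReal_sum_of_nonneg (fun l _ => Finset.sum_nonneg (fun i _ => sq_nonneg _))
  simp only [h0]
  rw [lintegral_finsetSum _ (fun l _ => hmeas l)]
  have h1 : ∀ l : Fin (n + 1), ∫⁻ p, ENNReal.ofReal (∑ i, ((p.2.2 i - ⟪p.2.1 i, p.1 l⟫) / r) ^ 2)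
      ∂((conc n r hr ρ hρ).rep n) = n := by
    intro l
    have h := (conc n r hr ρ hρ).rep_single n l
      (F := fun q => ENNReal.ofReal (∑ i, ((q.2.2 i - ⟪q.2.1 i, q.1⟫) / r) ^ 2)) (by fun_prop)
    simp only at h
    rw [h]
    have h2 : ∀ s : E d, ∫⁻ u, (conc n r hr ρ hρ).K s u *
        ENNReal.ofReal (∑ i, ((u.2 i - ⟪u.1 i, s⟫) / r) ^ 2) ∂(conc n r hr ρ hρ).ν = n := by
      intro s
      have := lintegral_winK (n := n) hr s
        (F := fun u => ENNReal.ofReal (∑ i, ((u.2 i - ⟪u.1 i, s⟫) / r) ^ 2)) (by fun_prop)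
      have e1 : ∀ (X : Fin n → E d) (g : Fin n → ℝ),
          (∑ i, ((⟪X i, s⟫ + r * g i - ⟪X i, s⟫) / r) ^ 2) = ∑ i, g i ^ 2 := by
        intro X g
        refine Finset.sum_congr rfl (fun i _ => ?_)
        congr 1
        field_simp
        ring
      simp only [e1] at this
      refine this.trans ?_
      simp only [lintegral_const, measure_univ, mul_one]
      have e2 : ∀ g : Fin n → ℝ, ENNReal.ofReal (∑ i, g i ^ 2) = ∑ i, ENNReal.ofReal (g i ^ 2) :=
        fun g => ENNReal.ofReal_sum_of_nonneg (fun i _ => sq_nonneg _)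
      simp only [e2]
      rw [lintegral_finsetSum _ (fun i _ => by fun_prop)]
      have e3 : ∀ i : Fin n, ∫⁻ g : Fin n → ℝ, ENNReal.ofReal (g i ^ 2) ∂(gs n) = 1 := by
        intro i
        have hmp : MeasurePreserving (Function.eval i) (gs n) (gaussianReal 0 1) :=
          measurePreserving_eval (fun _ : Fin n => gaussianReal 0 1) i
        have := hmp.lintegral_comp (f := fun x : ℝ => ENNReal.ofReal (x ^ 2)) (by fun_prop)
        simp only [Function.eval] at this
        rw [this]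
        have hv : ∫ x : ℝ, x ^ 2 ∂(gaussianReal 0 1) = 1 := by
          have h3 : Var[fun x : ℝ => x; gaussianReal 0 1] = 1 := by simp
          have h4 := variance_of_integral_eq_zero (μ := gaussianReal 0 1) (X := fun x : ℝ => x)
            aemeasurable_id (by simp)
          rw [h3] at h4
          exact h4.symm
        rw [← ofReal_integral_eq_lintegral_ofReal]
        · rw [hv]; simp
        · exact (memLp_id_gaussianReal 2).integrable_sq
        · exact Filter.Eventually.of_forall (fun x => sq_nonneg x)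
      simp [e3]
    simp only [h2, lintegral_const]
    have : (conc n r hr ρ hρ).ρ Set.univ = 1 := hρ.measure_univ
    rw [this, mul_one]
  simp only [h1, Finset.sum_const, Finset.card_univ, Fintype.card_fin, nsmul_eq_mul]
  rw [ENNReal.ofReal_mul (by positivity), ENNReal.ofReal_natCast, mul_comm]
  have : ENNReal.ofReal ((n : ℝ) + 1) = ((n + 1 : ℕ) : ℝ≥0∞) := by
    rw [← ENNReal.ofReal_natCast]; push_cast; rfl
  rw [this]

theorem stA3_key {n : ℕ} {w : ℝ} (hw : 0 < w) {j : Fin (n + 1)} (hj : j ≠ 0)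
    (σ : Fin (n + 1) → E d) :
    ∫⁻ ξ, ENNReal.ofReal (Dsq w (bef j) σ (Wm w (σ j) ξ) / td w (bef j) σ (σ j) ^ 2)
        ∂(xiM d (8 * n) (n + 1)) ≤ ENNReal.ofReal (8 * n) := by
  have hA : (bef j).Nonempty := ⟨0, by simp [bef, Fin.pos_iff_ne_zero.2 hj]⟩
  set t := td w (bef j) σ (σ j) with ht
  have htp : 0 < t := lt_of_lt_of_le hw (le_td hw _ _ _)
  have e : ∀ ξ : Xi d (8 * n) (n + 1),
      ENNReal.ofReal (Dsq w (bef j) σ (Wm w (σ j) ξ) / t ^ 2) =
        ENNReal.ofReal ((t ^ 2)⁻¹) * ENNReal.ofReal (Dsq w (bef j) σ (Wm w (σ j) ξ)) := by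
    intro ξ
    rw [← ENNReal.ofReal_mul (by positivity)]
    congr 1
    field_simp
  simp only [e]
  have hm3 : Measurable (fun ξ : Xi d (8 * n) (n + 1) =>
      ENNReal.ofReal (Dsq w (bef j) σ (Wm w (σ j) ξ))) := by
    have h1 : Measurable (fun ξ : Xi d (8 * n) (n + 1) => (σ, Wm w (σ j) ξ)) := by
      refine measurable_const.prodMk ?_
      exact (measurable_Wm w).comp (measurable_const.prodMk measurable_id)
    exact ((measurable_Dsq w (bef j)).comp h1).ennreal_ofReal
  rw [lintegral_const_mul _ hm3]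
  refine (mul_le_mul_right (dist5a hw (bef j) hA σ (σ j)) _).trans ?_
  rw [← ENNReal.ofReal_mul (by positivity)]
  apply ENNReal.ofReal_le_ofReal
  rw [← ht]
  push_cast
  field_simp
  exact le_refl _

theorem stA3_meas {n : ℕ} {w : ℝ} (j : Fin (n + 1)) {U : Type} [MeasurableSpace U] :
    Measurable (fun p : ((Fin (n + 1) → E d) × U) × Xi d (8 * n) (n + 1) =>
      Dsq w (bef j) p.1.1 (Wm w (p.1.1 j) p.2) / td w (bef j) p.1.1 (p.1.1 j) ^ 2) := by
  have hm1 : Measurable (fun p : ((Fin (n + 1) → E d) × U) × Xi d (8 * n) (n + 1) =>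
      Dsq w (bef j) p.1.1 (Wm w (p.1.1 j) p.2)) :=
    (measurable_Dsq w (bef j)).comp ((measurable_fst.comp measurable_fst).prodMk
      ((measurable_Wm w).comp (((measurable_pi_apply j).comp
        (measurable_fst.comp measurable_fst)).prodMk measurable_snd)))
  have hm2 : Measurable (fun p : ((Fin (n + 1) → E d) × U) × Xi d (8 * n) (n + 1) =>
      td w (bef j) p.1.1 (p.1.1 j)) :=
    (measurable_td w (bef j)).comp ((measurable_fst.comp measurable_fst).prodMk
      ((measurable_pi_apply j).comp (measurable_fst.comp measurable_fst)))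
  exact hm1.div (hm2.pow_const 2)

/-- the `D` term -/
theorem stA3 {n : ℕ} {w : ℝ} (hw : 0 < w) {j : Fin (n + 1)} (hj : j ≠ 0) {U : Type}
    [MeasurableSpace U] (μ : Measure ((Fin (n + 1) → E d) × U)) [IsProbabilityMeasure μ] :
    ∫⁻ p, ENNReal.ofReal (Dsq w (bef j) p.1.1 (Wm w (p.1.1 j) p.2) /
        td w (bef j) p.1.1 (p.1.1 j) ^ 2)
      ∂(μ.prod (xiM d (8 * n) (n + 1))) ≤ ENNReal.ofReal (8 * n) := by
  rw [lintegral_prod _ ((stA3_meas j).ennreal_ofReal.aemeasurable)]
  refine (lintegral_mono (fun p : (Fin (n + 1) → E d) × U => stA3_key hw hj p.1)).trans ?_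
  simp

/-- the mollified density -/
theorem stA5 (hn : 1 ≤ n) : ∫⁻ p, KK r ρ p.2 / (conc n r hr ρ hρ).q p.2
      ∂((conc n r hr ρ hρ).rep n) ≤ 1 := by
  have hK := measurable_KK (d := d) (n := n) hr ρ
  have hq := (conc n r hr ρ hρ).measurable_q
  rw [(conc n r hr ρ hρ).rep_obs n (F := fun u => KK r ρ u / (conc n r hr ρ hρ).q u)
    (hK.div hq)]
  refine le_trans (lintegral_mono (fun u => ?_)) (lintegral_KK hn hr ρ)
  exact ENNReal.mul_div_le

/-- the law of the message -/
theorem stA4_obs {V : Type} [Fintype V] [MeasurableSpace V] [MeasurableSingletonClass V]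
    {f : Win d n → V} (hf : Measurable f) (m : V) :
    ((conc n r hr ρ hρ).rep n) {p | f p.2 = m} = (conc n r hr ρ hρ).PM f m := by
  have hS : MeasurableSet (f ⁻¹' {m}) := hf (measurableSet_singleton m)
  have h := (conc n r hr ρ hρ).rep_single n 0
    (F := fun q => (f ⁻¹' {m}).indicator (fun _ => (1 : ℝ≥0∞)) q.2)
    ((measurable_const.indicator hS).comp measurable_snd)
  have e1 : ((conc n r hr ρ hρ).rep n) {p | f p.2 = m} =
      ∫⁻ p, (f ⁻¹' {m}).indicator (fun _ => (1 : ℝ≥0∞)) p.2 ∂((conc n r hr ρ hρ).rep n) := by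
    have hS2 : MeasurableSet {p : (Fin (n + 1) → E d) × Win d n | f p.2 = m} :=
      (hf.comp measurable_snd) (measurableSet_singleton m)
    rw [← lintegral_indicator_one hS2]
    rfl
  rw [e1]
  refine h.trans ?_
  unfold Setup.PM Setup.PS
  refine lintegral_congr (fun s => lintegral_congr (fun u => ?_))
  by_cases hu : u ∈ f ⁻¹' {m}
  · simp [Set.indicator_of_mem hu]
  · simp [Set.indicator_of_notMem hu]

theorem entropy_le {V : Type} [Fintype V] (R : Finset V) (p : V → ℝ) (hp : ∀ m, 0 ≤ p m)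
    (hR : ∀ m, m ∉ R → p m = 0) (hs : ∑ m, p m = 1) :
    ∑ m, p m * (-Real.log (p m)) ≤ Real.log R.card := by
  classical
  have hsR : ∑ m ∈ R, p m = 1 := by
    rw [← hs]
    exact Finset.sum_subset (Finset.subset_univ R) (fun m _ hm => hR m hm)
  have hne : R.Nonempty := by
    by_contra h
    rw [Finset.not_nonempty_iff_eq_empty] at h
    rw [h] at hsR
    simp at hsR
  have hc : (0 : ℝ) < R.card := by exact_mod_cast hne.card_pos
  have h1 : ∑ m, p m * (-Real.log (p m)) = ∑ m ∈ R, p m * (-Real.log (p m)) := by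
    symm
    apply Finset.sum_subset (Finset.subset_univ R)
    intro m _ hm
    rw [hR m hm, zero_mul]
  rw [h1]
  have h2 : ∀ m ∈ R, p m * (-Real.log (p m)) ≤
      p m * Real.log R.card + ((R.card : ℝ)⁻¹ - p m) := by
    intro m _
    rcases (hp m).eq_or_lt with h0 | h0
    · rw [← h0]
      simp
    · have h3 := Real.log_le_sub_one_of_pos (x := (R.card : ℝ)⁻¹ / p m) (by positivity)
      rw [Real.log_div (by positivity) (by positivity), Real.log_inv] at h3
      have h4 := mul_le_mul_of_nonneg_left h3 h0.le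
      have h5 : p m * ((R.card : ℝ)⁻¹ / p m - 1) = (R.card : ℝ)⁻¹ - p m := by
        field_simp
      nlinarith
  refine (Finset.sum_le_sum h2).trans ?_
  rw [Finset.sum_add_distrib, Finset.sum_sub_distrib, ← Finset.sum_mul, hsR]
  simp only [Finset.sum_const, nsmul_eq_mul]
  rw [mul_inv_cancel₀ hc.ne']
  linarith

/-- the entropy of the message -/
theorem stA4 {V : Type} [Fintype V] [MeasurableSpace V] [MeasurableSingletonClass V]
    {f : Win d n → V} (hf : Measurable f) (R : Finset V) (hR : ∀ u, f u ∈ R) :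
    Integrable (fun p : (Fin (n + 1) → E d) × Win d n => lg ((conc n r hr ρ hρ).PM f (f p.2)))
        ((conc n r hr ρ hρ).rep n) ∧
      ∫ p, -lg ((conc n r hr ρ hρ).PM f (f p.2)) ∂((conc n r hr ρ hρ).rep n) ≤
        Real.log R.card := by
  set μ := (conc n r hr ρ hρ).rep n with hμ
  have hg : Measurable (fun p : (Fin (n + 1) → E d) × Win d n => f p.2) :=
    hf.comp measurable_snd
  have hobs : ∀ m, (μ.map (fun p => f p.2)) {m} = (conc n r hr ρ hρ).PM f m := by
    intro m
    rw [Measure.map_apply hg (measurableSet_singleton m)]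
    exact stA4_obs hr ρ hρ hf m
  have hprob : IsProbabilityMeasure (μ.map (fun p => f p.2)) :=
    Measure.isProbabilityMeasure_map hg.aemeasurable
  have hint : ∀ h : V → ℝ, Integrable h (μ.map (fun p => f p.2)) := by
    intro h
    exact Integrable.of_finite
  have hi1 : Integrable (fun p : (Fin (n + 1) → E d) × Win d n =>
      lg ((conc n r hr ρ hρ).PM f (f p.2))) μ :=
    (hint (fun m => lg ((conc n r hr ρ hρ).PM f m))).comp_measurable hg
  refine ⟨hi1, ?_⟩
  have e1 : ∫ p, -lg ((conc n r hr ρ hρ).PM f (f p.2)) ∂μ =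
      ∫ m, -lg ((conc n r hr ρ hρ).PM f m) ∂(μ.map (fun p => f p.2)) := by
    rw [integral_map hg.aemeasurable]
    exact ((hint (fun m => -lg ((conc n r hr ρ hρ).PM f m)))).aestronglyMeasurable
  rw [e1, integral_fintype (hint _)]
  have e2 : ∀ m, (μ.map (fun p => f p.2)).real {m} = ((conc n r hr ρ hρ).PM f m).toReal := by
    intro m
    rw [measureReal_def, hobs]
  simp only [e2, smul_eq_mul]
  apply entropy_le R (fun m => ((conc n r hr ρ hρ).PM f m).toReal)
  · intro m
    exact ENNReal.toReal_nonneg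
  · intro m hm
    have : (conc n r hr ρ hρ).PM f m = 0 := by
      rw [← stA4_obs hr ρ hρ hf m]
      have : {p : (Fin (n + 1) → E d) × Win d n | f p.2 = m} = ∅ := by
        ext p
        simp only [Set.mem_ofPred_eq, Set.mem_empty_iff_false, iff_false]
        intro h
        exact hm (h ▸ hR p.2)
      rw [this, measure_empty]
    simp [this]
  · have h1 : ∑ m, (μ.map (fun p => f p.2)).real {m} = 1 := by
      rw [sum_measureReal_singleton]
      simp
    simp only [e2] at h1
    exact h1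

end

end Vale.Agent.P309
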