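import Vale.Agent.Lib.P309.StaticA
import Vale.Agent.Lib.P309.PSrFacts

/-!
# P309, module STATIC, part B: the pointwise inequality
-/

namespace Vale.Agent.P309

open MeasureTheory ProbabilityTheory
open scoped ENNReal RealInnerProductSpace

/-- Combination of the pointwise inequalities (real numbers only). -/
theorem combine {n : ℕ} (a b c T : Fin (n + 1) → ℝ) (lP lq lκ lk lK Q z w τ : ℝ) (hQ : 0 < Q)
    (h1 : lP + ∑ j, a j + ∑ j, b j + n * lq - lκ ≤ (n + 2) * Real.log (Q / (n + 2)))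
    (h2 : lκ = n * lk)
    (h2' : lk ≤ -∑ j ∈ Finset.univ.erase (0 : Fin (n + 1)), T j + w * τ)
    (h3 : b 0 = 0) (h3' : ∀ j, j ≠ 0 → -b j - lK ≤ n * T j + c j) (h4 : lK - lq ≤ z - 1) :
    ∑ j, a j ≤ -lP + ∑ j ∈ Finset.univ.erase (0 : Fin (n + 1)), c j + n * (w * τ) +
      (Q - (n + 2)) + n * (z - 1) := by
  have hn : (0 : ℝ) ≤ n := Nat.cast_nonneg n
  have hlog : (n + 2) * Real.log (Q / (n + 2)) ≤ Q - (n + 2) := by
    have h := Real.log_le_sub_one_of_pos (x := Q / ((n : ℝ) + 2)) (by positivity)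
    have h' := mul_le_mul_of_nonneg_left h (by positivity : (0 : ℝ) ≤ (n : ℝ) + 2)
    have e : ((n : ℝ) + 2) * (Q / ((n : ℝ) + 2) - 1) = Q - (n + 2) := by
      field_simp
    linarith
  have hb : ∑ j, b j = ∑ j ∈ Finset.univ.erase (0 : Fin (n + 1)), b j := by
    rw [← Finset.add_sum_erase Finset.univ b (Finset.mem_univ 0), h3, zero_add]
  have hcard : ((Finset.univ.erase (0 : Fin (n + 1))).card : ℝ) = n := by
    rw [Finset.card_erase_of_mem (Finset.mem_univ _)]
    simp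
  have hsum : -∑ j ∈ Finset.univ.erase (0 : Fin (n + 1)), b j - n * lK ≤
      n * ∑ j ∈ Finset.univ.erase (0 : Fin (n + 1)), T j +
        ∑ j ∈ Finset.univ.erase (0 : Fin (n + 1)), c j := by
    have h := Finset.sum_le_sum (s := Finset.univ.erase (0 : Fin (n + 1)))
      (f := fun j => -b j - lK) (g := fun j => n * T j + c j)
      (fun j hj => h3' j (Finset.ne_of_mem_erase hj))
    rw [Finset.sum_sub_distrib, Finset.sum_neg_distrib, Finset.sum_add_distrib,
      Finset.sum_const, nsmul_eq_mul, hcard, ← Finset.mul_sum] at h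
    exact h
  have h2m := mul_le_mul_of_nonneg_left h2' hn
  have h4m := mul_le_mul_of_nonneg_left h4 hn
  rw [hb] at h1
  rw [h2] at h1
  nlinarith

/-- Integration of a pointwise inequality `g ≤ h + Φ`, `Φ ≥ 0` with small integral. -/
theorem integral_le_of_pw {X : Type} [MeasurableSpace X] {μ : Measure X} {g h : X → ℝ}
    {Φ : X → ℝ≥0∞} (hg : Integrable g μ) (hh : Integrable h μ) (hΦ : Measurable Φ) {c : ℝ}
    (hc : 0 ≤ c) (hΦc : ∫⁻ x, Φ x ∂μ ≤ ENNReal.ofReal c)
    (hpw : ∀ᵐ x ∂μ, g x ≤ h x + (Φ x).toReal) : ∫ x, g x ∂μ ≤ ∫ x, h x ∂μ + c := by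
  have hfin : ∫⁻ x, Φ x ∂μ ≠ ∞ := (hΦc.trans_lt ENNReal.ofReal_lt_top).ne
  have hint : Integrable (fun x => (Φ x).toReal) μ :=
    integrable_toReal_of_lintegral_ne_top hΦ.aemeasurable hfin
  have h1 : ∫ x, g x ∂μ ≤ ∫ x, (h x + (Φ x).toReal) ∂μ :=
    integral_mono_ae hg (hh.add hint) hpw
  rw [integral_add hh hint] at h1
  have h2 : ∫ x, (Φ x).toReal ∂μ ≤ c := by
    rw [integral_toReal hΦ.aemeasurable (ae_lt_top hΦ hfin)]
    calc (∫⁻ x, Φ x ∂μ).toReal ≤ (ENNReal.ofReal c).toReal :=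
          ENNReal.toReal_mono ENNReal.ofReal_ne_top hΦc
      _ = c := ENNReal.toReal_ofReal hc
  linarith

/-- the logarithm of the distance on the sphere -/
theorem abs_log_td {k d : ℕ} {r w : ℝ} (hr : 0 < r) (hrw : r ≤ w) (hw : w ≤ 1)
    (A : Finset (Fin k)) (hA : A.Nonempty) (s : Fin k → E d) (x : E d) (hs : ∀ l, ‖s l‖ = 1)
    (hx : ‖x‖ = 1) :
    |Real.log (td w A s x)| ≤ 2 + Real.log (3 / td r A s x) := by
  have hw0 : 0 < w := lt_of_lt_of_le hr hrw
  have h1 : 0 < td r A s x := lt_of_lt_of_le hr (le_td hr A s x)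
  have h2 : td r A s x ≤ td w A s x := td_mono hr.le hrw A s x
  have h3 : td w A s x ≤ 3 := td_le_three hw0 hw A hA s x hs hx
  have h4 : 0 < td w A s x := lt_of_lt_of_le h1 h2
  have hlog3 : Real.log 3 ≤ 2 := by
    have := Real.log_le_sub_one_of_pos (show (0 : ℝ) < 3 by norm_num)
    linarith
  have hlog3' : 0 ≤ Real.log 3 := Real.log_nonneg (by norm_num)
  rw [Real.log_div (by norm_num) h1.ne']
  have h5 : Real.log (td r A s x) ≤ Real.log (td w A s x) := Real.log_le_log h1 h2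
  have h6 : Real.log (td w A s x) ≤ Real.log 3 := Real.log_le_log h4 h3
  rw [abs_le]
  constructor
  · linarith
  · linarith

end Vale.Agent.P309
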