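import Vale.Agent.Lib.P309.StaticB

/-!
# P309, module STATIC, part C: integral of the cost
-/

namespace Vale.Agent.P309

open MeasureTheory ProbabilityTheory
open scoped ENNReal RealInnerProductSpace

attribute [local irreducible] Dsq Wm td KK Rr

theorem st_lintegral_fst_prob {X Y : Type} [MeasurableSpace X] [MeasurableSpace Y] (μ : Measure X)
    [SFinite μ] (ν : Measure Y) [IsProbabilityMeasure ν] {F : X → ℝ≥0∞} (hF : Measurable F) :
    ∫⁻ p, F p.1 ∂(μ.prod ν) = ∫⁻ x, F x ∂μ := by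
  rw [lintegral_prod (fun p : X × Y => F p.1) (hF.comp measurable_fst).aemeasurable]
  simp

theorem st_ofReal_sum_le {ι : Type} (s : Finset ι) (f : ι → ℝ) :
    ENNReal.ofReal (∑ i ∈ s, f i) ≤ ∑ i ∈ s, ENNReal.ofReal (f i) := by
  classical
  induction s using Finset.induction_on with
  | empty => simp
  | insert a s ha ih =>
    rw [Finset.sum_insert ha, Finset.sum_insert ha]
    exact ENNReal.ofReal_add_le.trans (add_le_add le_rfl ih)

/-- the cost not depending on `ξ` -/
noncomputable def Phi1 {d n : ℕ} (C r w : ℝ) (N : (Fin n → E d) → ℝ)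
    (p : (Fin (n + 1) → E d) × Win d n) : ℝ≥0∞ :=
  ENNReal.ofReal (n * (C * (d + 2))) +
    ENNReal.ofReal C * ∑ j ∈ Finset.univ.erase (0 : Fin (n + 1)),
      ENNReal.ofReal (Real.log (3 / td r (bef j) p.1 (p.1 j))) +
    ENNReal.ofReal (n * C) * ENNReal.ofReal (N p.2.1) +
    ENNReal.ofReal (n * C / d) *
      ENNReal.ofReal (∑ l, ∑ i, ((p.2.2 i - ⟪p.2.1 i, p.1 l⟫) / r) ^ 2) +
    ENNReal.ofReal (n * w) * ∑ l, ENNReal.ofReal ((td r (Finset.univ.erase l) p.1 (p.1 l))⁻¹)

/-- the cost depending on `ξ` -/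
noncomputable def Phi2 {d n : ℕ} (C w : ℝ)
    (p : ((Fin (n + 1) → E d) × Win d n) × Xi d (8 * n) (n + 1)) : ℝ≥0∞ :=
  ENNReal.ofReal C * ∑ j ∈ Finset.univ.erase (0 : Fin (n + 1)),
    ENNReal.ofReal (Dsq w (bef j) p.1.1 (Wm w (p.1.1 j) p.2) / td w (bef j) p.1.1 (p.1.1 j) ^ 2)

theorem measurable_td_coord {d k : ℕ} (ρ : ℝ) (A : Finset (Fin k)) (j : Fin k) {U : Type}
    [MeasurableSpace U] : Measurable (fun p : (Fin k → E d) × U => td ρ A p.1 (p.1 j)) := by
  have h : Measurable (fun p : (Fin k → E d) × U => ((p.1, p.1 j) : (Fin k → E d) × E d)) :=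
    measurable_fst.prodMk ((measurable_pi_apply j).comp measurable_fst)
  exact (measurable_td ρ A).comp h

theorem measurable_Phi1 {d n : ℕ} (C r w : ℝ) {N : (Fin n → E d) → ℝ} (hN : Measurable N) :
    Measurable (Phi1 (d := d) C r w N) := by
  unfold Phi1
  have h1 : ∀ j : Fin (n + 1), Measurable (fun p : (Fin (n + 1) → E d) × Win d n =>
      ENNReal.ofReal (Real.log (3 / td r (bef j) p.1 (p.1 j)))) := fun j =>
    (Real.measurable_log.comp (measurable_const.div
      (measurable_td_coord r (bef j) j))).ennreal_ofReal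
  have h2 : ∀ l : Fin (n + 1), Measurable (fun p : (Fin (n + 1) → E d) × Win d n =>
      ENNReal.ofReal ((td r (Finset.univ.erase l) p.1 (p.1 l))⁻¹)) := fun l =>
    (measurable_td_coord r (Finset.univ.erase l) l).inv.ennreal_ofReal
  have h3 : Measurable (fun p : (Fin (n + 1) → E d) × Win d n => ENNReal.ofReal (N p.2.1)) :=
    (hN.comp (measurable_fst.comp measurable_snd)).ennreal_ofReal
  have h4 : Measurable (fun p : (Fin (n + 1) → E d) × Win d n =>
      ENNReal.ofReal (∑ l, ∑ i, ((p.2.2 i - ⟪p.2.1 i, p.1 l⟫) / r) ^ 2)) := by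
    fun_prop
  have h1' := Finset.measurable_sum (Finset.univ.erase (0 : Fin (n + 1))) (fun j _ => h1 j)
  have h2' := Finset.measurable_sum (Finset.univ : Finset (Fin (n + 1))) (fun l _ => h2 l)
  exact ((((measurable_const.add (h1'.const_mul _)).add (h3.const_mul _)).add
    (h4.const_mul _)).add (h2'.const_mul _))

theorem measurable_Phi2 {d n : ℕ} (C w : ℝ) : Measurable (Phi2 (d := d) (n := n) C w) := by
  unfold Phi2
  have h := Finset.measurable_sum (Finset.univ.erase (0 : Fin (n + 1)))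
    (fun j _ => (stA3_meas (d := d) (n := n) (w := w) j (U := Win d n)).ennreal_ofReal)
  exact h.const_mul _

theorem lintegral_Phi1 {d n : ℕ} (hd : 1 ≤ d) {C CA D r w p0 : ℝ} (hC : 0 ≤ C) (hCA : 0 ≤ CA)
    (hD : 0 ≤ D) (hw : 0 < w) (hp0 : 0 < p0) (hp1 : p0 ≤ 1) (hr : 0 < r) (ρ : Measure (E d))
    (hρ : IsProbabilityMeasure ρ) {N : (Fin n → E d) → ℝ} (hN : Measurable N)
    (hN2 : ∫⁻ X, ENNReal.ofReal (N X) ∂(rows d n) ≤ ENNReal.ofReal (30 * d))
    (hAP1 : ∫⁻ p, ∑ j ∈ Finset.univ.erase (0 : Fin (n + 1)),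
        ENNReal.ofReal (Real.log (3 / td r (bef j) p.1 (p.1 j))) ∂((conc n r hr ρ hρ).rep n) ≤
        ENNReal.ofReal (CA * (Real.log (1 / p0) + d)))
    (hAP2 : ∀ l : Fin (n + 1),
      ∫⁻ p, ENNReal.ofReal ((td r (Finset.univ.erase l) p.1 (p.1 l))⁻¹)
        ∂((conc n r hr ρ hρ).rep n) ≤ ENNReal.ofReal (D / p0)) :
    ∫⁻ p, Phi1 C r w N p ∂((conc n r hr ρ hρ).rep n) ≤
      ENNReal.ofReal (n * (C * (d + 2)) + C * (CA * (Real.log (1 / p0) + d)) + n * C * (30 * d) +
        n * C / d * (n * (n + 1)) + n * w * ((n + 1) * (D / p0))) := by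
  set μ := (conc n r hr ρ hρ).rep n with hμ
  have hlog : 0 ≤ Real.log (1 / p0) := Real.log_nonneg (by
    rw [le_div_iff₀ hp0]; linarith)
  have hd0 : (0 : ℝ) < d := by exact_mod_cast hd
  have h1 : ∀ j : Fin (n + 1), Measurable (fun p : (Fin (n + 1) → E d) × Win d n =>
      ENNReal.ofReal (Real.log (3 / td r (bef j) p.1 (p.1 j)))) := fun j =>
    (Real.measurable_log.comp (measurable_const.div
      (measurable_td_coord r (bef j) j))).ennreal_ofReal
  have h2 : ∀ l : Fin (n + 1), Measurable (fun p : (Fin (n + 1) → E d) × Win d n =>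
      ENNReal.ofReal ((td r (Finset.univ.erase l) p.1 (p.1 l))⁻¹)) := fun l =>
    (measurable_td_coord r (Finset.univ.erase l) l).inv.ennreal_ofReal
  have h3 : Measurable (fun p : (Fin (n + 1) → E d) × Win d n => ENNReal.ofReal (N p.2.1)) :=
    (hN.comp (measurable_fst.comp measurable_snd)).ennreal_ofReal
  have h4 : Measurable (fun p : (Fin (n + 1) → E d) × Win d n =>
      ENNReal.ofReal (∑ l, ∑ i, ((p.2.2 i - ⟪p.2.1 i, p.1 l⟫) / r) ^ 2)) := by
    fun_prop
  have h1' := Finset.measurable_sum (Finset.univ.erase (0 : Fin (n + 1))) (fun j _ => h1 j)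
  have h2' := Finset.measurable_sum (Finset.univ : Finset (Fin (n + 1))) (fun l _ => h2 l)
  unfold Phi1
  rw [lintegral_add_right _ (h2'.const_mul _), lintegral_add_right _ (h4.const_mul _),
    lintegral_add_right _ (h3.const_mul _), lintegral_add_right _ (h1'.const_mul _),
    lintegral_const, measure_univ, mul_one, lintegral_const_mul _ h1', lintegral_const_mul _ h3,
    lintegral_const_mul _ h4, lintegral_const_mul _ h2', lintegral_finsetSum _ (fun l _ => h2 l)]
  have e5 : ∑ l : Fin (n + 1), ∫⁻ p, ENNReal.ofReal ((td r (Finset.univ.erase l) p.1 (p.1 l))⁻¹) ∂μ ≤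
      ENNReal.ofReal ((n + 1) * (D / p0)) := by
    refine (Finset.sum_le_sum (fun l _ => hAP2 l)).trans ?_
    rw [Finset.sum_const, Finset.card_univ, Fintype.card_fin, nsmul_eq_mul,
      ENNReal.ofReal_mul (by positivity)]
    have : ENNReal.ofReal ((n : ℝ) + 1) = ((n + 1 : ℕ) : ℝ≥0∞) := by
      rw [← ENNReal.ofReal_natCast]; push_cast; rfl
    rw [this]
  have e3 := stA1 (n := n) hr ρ hρ hN hN2
  have e4 := stA2 (n := n) hr ρ hρ
  have a1 : (0 : ℝ) ≤ n * (C * (d + 2)) := by positivity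
  have a2 : 0 ≤ C * (CA * (Real.log (1 / p0) + d)) := by positivity
  have a3 : 0 ≤ n * C * (30 * d) := by positivity
  have a4 : 0 ≤ n * C / d * (n * (n + 1)) := by positivity
  have a5 : 0 ≤ n * w * ((n + 1) * (D / p0)) := by positivity
  rw [ENNReal.ofReal_add (by positivity) a5, ENNReal.ofReal_add (by positivity) a4,
    ENNReal.ofReal_add (by positivity) a3, ENNReal.ofReal_add a1 a2]
  refine add_le_add (add_le_add (add_le_add (add_le_add le_rfl ?_) ?_) ?_) ?_
  · rw [ENNReal.ofReal_mul hC]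
    exact mul_le_mul_right hAP1 _
  · rw [ENNReal.ofReal_mul (p := (n : ℝ) * C) (q := 30 * (d : ℝ)) (by positivity)]
    exact mul_le_mul_right e3 _
  · rw [ENNReal.ofReal_mul (p := (n : ℝ) * C / d) (q := (n : ℝ) * (n + 1)) (by positivity)]
    exact mul_le_mul_right e4 _
  · rw [ENNReal.ofReal_mul (p := (n : ℝ) * w) (q := ((n : ℝ) + 1) * (D / p0)) (by positivity)]
    exact mul_le_mul_right e5 _

theorem lintegral_Phi2 {d n : ℕ} {C w : ℝ} (hC : 0 ≤ C) (hw : 0 < w)
    (μ : Measure ((Fin (n + 1) → E d) × Win d n)) [IsProbabilityMeasure μ] :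
    ∫⁻ p, Phi2 C w p ∂(μ.prod (xiM d (8 * n) (n + 1))) ≤ ENNReal.ofReal (C * (n * (8 * n))) := by
  unfold Phi2
  have hm := fun j : Fin (n + 1) =>
    (stA3_meas (d := d) (n := n) (w := w) j (U := Win d n)).ennreal_ofReal
  rw [lintegral_const_mul _ (Finset.measurable_sum _ (fun j _ => hm j)),
    lintegral_finsetSum _ (fun j _ => hm j), ENNReal.ofReal_mul hC]
  refine mul_le_mul_right ?_ _
  have h := Finset.sum_le_sum (s := Finset.univ.erase (0 : Fin (n + 1)))
    (fun j hj => stA3 (d := d) (n := n) hw (Finset.ne_of_mem_erase hj) (U := Win d n) μ)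
  refine h.trans ?_
  rw [Finset.sum_const, Finset.card_erase_of_mem (Finset.mem_univ _), Finset.card_univ,
    Fintype.card_fin, nsmul_eq_mul, ENNReal.ofReal_mul (by positivity), ENNReal.ofReal_natCast]
  simp

end Vale.Agent.P309
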