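import Vale.Agent.Lib.P309.StaticC

/-!
# P309, module STATIC, part D: the pointwise inequality under the replica law
-/

namespace Vale.Agent.P309

open MeasureTheory ProbabilityTheory
open scoped ENNReal RealInnerProductSpace

attribute [local irreducible] Dsq Wm td KK Rr postW winK

theorem st_lg_one : lg 1 = 0 := by simp [lg]

theorem st_lg_pow (x : ℝ≥0∞) (n : ℕ) : lg (x ^ n) = n * lg x := by
  simp [lg, ENNReal.toReal_pow, Real.log_pow]

theorem st_lg_div {x y : ℝ≥0∞} (hx : x ≠ 0) (hxt : x ≠ ∞) (hy : y ≠ 0) (hyt : y ≠ ∞) :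
    lg x - lg y ≤ (x / y).toReal - 1 := by
  have hx' : 0 < x.toReal := ENNReal.toReal_pos hx hxt
  have hy' : 0 < y.toReal := ENNReal.toReal_pos hy hyt
  rw [lg, lg, ← Real.log_div hx'.ne' hy'.ne', ENNReal.toReal_div]
  exact Real.log_le_sub_one_of_pos (by positivity)

/-- the sum of the costs is bounded by `Phi1 + Phi2` -/
theorem cost_sum_le {d n : ℕ} (hd : 1 ≤ d) {C r w : ℝ} (hC : 0 ≤ C) (hr : 0 < r)
    (hrw : r ≤ w) (hw : w ≤ 1) (N : (Fin n → E d) → ℝ) (hN : ∀ X, 0 ≤ N X)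
    (p : ((Fin (n + 1) → E d) × Win d n) × Xi d (8 * n) (n + 1)) (hs : ∀ l, ‖p.1.1 l‖ = 1) :
    ENNReal.ofReal (∑ j ∈ Finset.univ.erase (0 : Fin (n + 1)),
        C * (d + |Real.log (td w (bef j) p.1.1 (p.1.1 j))| + N p.1.2.1 +
            (∑ l, ∑ i, ((p.1.2.2 i - ⟪p.1.2.1 i, p.1.1 l⟫) / r) ^ 2) / d +
            Dsq w (bef j) p.1.1 (Wm w (p.1.1 j) p.2) / td w (bef j) p.1.1 (p.1.1 j) ^ 2) +
        n * (w * ∑ l, (td r (Finset.univ.erase l) p.1.1 (p.1.1 l))⁻¹)) ≤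
      Phi1 C r w N p.1 + Phi2 C w p := by
  have hw0 : 0 < w := lt_of_lt_of_le hr hrw
  have hd0 : (0 : ℝ) < d := by exact_mod_cast hd
  set G : ℝ := ∑ l, ∑ i, ((p.1.2.2 i - ⟪p.1.2.1 i, p.1.1 l⟫) / r) ^ 2 with hG
  have hcard : ((Finset.univ.erase (0 : Fin (n + 1))).card : ℝ) = n := by
    rw [Finset.card_erase_of_mem (Finset.mem_univ _)]
    simp
  have h1 : ∑ j ∈ Finset.univ.erase (0 : Fin (n + 1)),
        C * (d + |Real.log (td w (bef j) p.1.1 (p.1.1 j))| + N p.1.2.1 + G / d +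
            Dsq w (bef j) p.1.1 (Wm w (p.1.1 j) p.2) / td w (bef j) p.1.1 (p.1.1 j) ^ 2) ≤
      n * (C * (d + 2)) + C * ∑ j ∈ Finset.univ.erase (0 : Fin (n + 1)),
          Real.log (3 / td r (bef j) p.1.1 (p.1.1 j)) + n * C * N p.1.2.1 + n * C / d * G +
        C * ∑ j ∈ Finset.univ.erase (0 : Fin (n + 1)),
          Dsq w (bef j) p.1.1 (Wm w (p.1.1 j) p.2) / td w (bef j) p.1.1 (p.1.1 j) ^ 2 := by
    have h := Finset.sum_le_sum (s := Finset.univ.erase (0 : Fin (n + 1)))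
      (f := fun j => C * (d + |Real.log (td w (bef j) p.1.1 (p.1.1 j))| + N p.1.2.1 + G / d +
            Dsq w (bef j) p.1.1 (Wm w (p.1.1 j) p.2) / td w (bef j) p.1.1 (p.1.1 j) ^ 2))
      (g := fun j => C * (d + 2) + C * Real.log (3 / td r (bef j) p.1.1 (p.1.1 j)) +
        C * N p.1.2.1 + C / d * G +
        C * (Dsq w (bef j) p.1.1 (Wm w (p.1.1 j) p.2) / td w (bef j) p.1.1 (p.1.1 j) ^ 2))
      (fun j hj => by
        have hj0 : j ≠ 0 := Finset.ne_of_mem_erase hj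
        have hA : (bef j).Nonempty := ⟨0, by simp [bef, Fin.pos_iff_ne_zero.2 hj0]⟩
        have h3 := abs_log_td hr hrw hw (bef j) hA p.1.1 (p.1.1 j) hs (hs j)
        have h4 := mul_le_mul_of_nonneg_left h3 hC
        have e : C / d * G = C * (G / d) := by ring
        rw [e]
        nlinarith)
    refine h.trans (le_of_eq ?_)
    rw [Finset.sum_add_distrib, Finset.sum_add_distrib, Finset.sum_add_distrib,
      Finset.sum_add_distrib, Finset.sum_const, Finset.sum_const, Finset.sum_const,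
      nsmul_eq_mul, nsmul_eq_mul, nsmul_eq_mul, hcard, ← Finset.mul_sum, ← Finset.mul_sum]
    ring
  refine (ENNReal.ofReal_le_ofReal (add_le_add_left h1 _)).trans ?_
  unfold Phi1 Phi2
  have f1 : ENNReal.ofReal (C * ∑ j ∈ Finset.univ.erase (0 : Fin (n + 1)),
      Real.log (3 / td r (bef j) p.1.1 (p.1.1 j))) ≤ ENNReal.ofReal C *
        ∑ j ∈ Finset.univ.erase (0 : Fin (n + 1)),
          ENNReal.ofReal (Real.log (3 / td r (bef j) p.1.1 (p.1.1 j))) := by
    rw [ENNReal.ofReal_mul hC]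
    exact mul_le_mul_right (st_ofReal_sum_le _ _) _
  have f2 : ENNReal.ofReal (C * ∑ j ∈ Finset.univ.erase (0 : Fin (n + 1)),
      Dsq w (bef j) p.1.1 (Wm w (p.1.1 j) p.2) / td w (bef j) p.1.1 (p.1.1 j) ^ 2) ≤
        ENNReal.ofReal C * ∑ j ∈ Finset.univ.erase (0 : Fin (n + 1)),
          ENNReal.ofReal (Dsq w (bef j) p.1.1 (Wm w (p.1.1 j) p.2) /
            td w (bef j) p.1.1 (p.1.1 j) ^ 2) := by
    rw [ENNReal.ofReal_mul hC]
    exact mul_le_mul_right (st_ofReal_sum_le _ _) _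
  have f3 : ENNReal.ofReal (n * (w * ∑ l, (td r (Finset.univ.erase l) p.1.1 (p.1.1 l))⁻¹)) ≤
      ENNReal.ofReal (n * w) *
        ∑ l, ENNReal.ofReal ((td r (Finset.univ.erase l) p.1.1 (p.1.1 l))⁻¹) := by
    rw [← mul_assoc, ENNReal.ofReal_mul (p := (n : ℝ) * w) (by positivity)]
    exact mul_le_mul_right (st_ofReal_sum_le _ _) _
  have f4 : ENNReal.ofReal (n * C * N p.1.2.1) ≤
      ENNReal.ofReal (n * C) * ENNReal.ofReal (N p.1.2.1) := by
    rw [ENNReal.ofReal_mul (p := (n : ℝ) * C) (by positivity)]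
  have f5 : ENNReal.ofReal (n * C / d * G) ≤ ENNReal.ofReal (n * C / d) * ENNReal.ofReal G := by
    rw [ENNReal.ofReal_mul (p := (n : ℝ) * C / d) (by positivity)]
  set a1 := n * (C * (d + 2))
  set a2 := C * ∑ j ∈ Finset.univ.erase (0 : Fin (n + 1)),
      Real.log (3 / td r (bef j) p.1.1 (p.1.1 j))
  set a3 := n * C * N p.1.2.1
  set a4 := n * C / d * G
  set a5 := C * ∑ j ∈ Finset.univ.erase (0 : Fin (n + 1)),
      Dsq w (bef j) p.1.1 (Wm w (p.1.1 j) p.2) / td w (bef j) p.1.1 (p.1.1 j) ^ 2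
  set a6 := n * (w * ∑ l, (td r (Finset.univ.erase l) p.1.1 (p.1.1 l))⁻¹)
  calc ENNReal.ofReal (a1 + a2 + a3 + a4 + a5 + a6)
      ≤ ENNReal.ofReal a1 + ENNReal.ofReal a2 + ENNReal.ofReal a3 + ENNReal.ofReal a4 +
          ENNReal.ofReal a5 + ENNReal.ofReal a6 :=
        ENNReal.ofReal_add_le.trans (add_le_add_left (ENNReal.ofReal_add_le.trans
          (add_le_add_left (ENNReal.ofReal_add_le.trans (add_le_add_left
            (ENNReal.ofReal_add_le.trans (add_le_add_left ENNReal.ofReal_add_le _)) _)) _)) _)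
    _ = ENNReal.ofReal a1 + ENNReal.ofReal a2 + ENNReal.ofReal a3 + ENNReal.ofReal a4 +
          ENNReal.ofReal a6 + ENNReal.ofReal a5 := by ring
    _ ≤ _ := add_le_add (add_le_add (add_le_add (add_le_add (add_le_add le_rfl f1) f4) f5) f3) f2

end Vale.Agent.P309
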