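import Vale.Agent.Lib.P309.StaticD

/-!
# P309, module STATIC, part E: the inequality for `(n+1) * relEnt`
-/

namespace Vale.Agent.P309

open MeasureTheory ProbabilityTheory
open scoped ENNReal RealInnerProductSpace

attribute [local irreducible] Dsq Wm td KK Rr postW winK winM xiM kap

section

variable {d n : ℕ} {r : ℝ} (hr : 0 < r) (ρ : Measure (E d)) (hρ : IsProbabilityMeasure ρ)

/-- the observation-dependent facts which hold almost surely under the replica law -/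
theorem st_ae_u (hn : 1 ≤ n) :
    ∀ᵐ p ∂((conc n r hr ρ hρ).rep n), KK r ρ p.2 / (conc n r hr ρ hρ).q p.2 ≠ ∞ := by
  have hK := measurable_KK (d := d) (n := n) hr ρ
  have hq := (conc n r hr ρ hρ).measurable_q
  have hm : Measurable (fun p : (Fin (n + 1) → E d) × Win d n =>
      KK r ρ p.2 / (conc n r hr ρ hρ).q p.2) := (hK.div hq).comp measurable_snd
  have h := ae_lt_top hm ((stA5 hr ρ hρ hn).trans_lt ENNReal.one_lt_top).ne
  filter_upwards [h] with p hp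
  exact hp.ne

/-- the sphere -/
theorem st_ae_sphere (hd : 1 ≤ d) {c : ℝ≥0∞} (hc : ρ ≤ c • unif d) :
    ∀ᵐ p ∂((conc n r hr ρ hρ).rep n), ∀ l, ‖p.1 l‖ = 1 := by
  apply (conc n r hr ρ hρ).rep_ae n (p := fun s => ‖s‖ = 1)
  have h1 : ∀ᵐ s ∂(c • unif d), ‖s‖ = 1 := by
    have := unif_norm hd
    exact Measure.ae_smul_measure this c
  exact (Measure.absolutelyContinuous_of_le hc).ae_le h1

/-- The replica inequality, specialised. -/
theorem st_replica (hn : 1 ≤ n) {w C5 : ℝ} (hw : 0 < w) (hC5 : 1 ≤ C5)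
    (hRint : ∀ (j : Fin (n + 1)) (σ : Fin (n + 1) → E d),
      ∫⁻ x, ∫⁻ ξ, Rr C5 w ρ j (Wm w x ξ) σ ∂(xiM d (8 * n) (n + 1)) ∂ρ ≤ 1)
    {V : Type} [Fintype V] [MeasurableSpace V] [MeasurableSingletonClass V]
    {f : Win d n → V} (hf : Measurable f) :
    ∃ Q : ((Fin (n + 1) → E d) × Win d n) × Xi d (8 * n) (n + 1) → ℝ≥0∞, Measurable Q ∧
      ∫⁻ p, Q p ∂(((conc n r hr ρ hρ).rep n).prod (xiM d (8 * n) (n + 1))) ≤ n + 2 ∧
      ∀ᵐ p ∂(((conc n r hr ρ hρ).rep n).prod (xiM d (8 * n) (n + 1))), Q p ≠ ∞ ∧ Q p ≠ 0 ∧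
        (∀ j, Rr C5 w ρ j (Wm w (p.1.1 j) p.2) p.1.1 ≠ ∞) ∧
        lg ((conc n r hr ρ hρ).PM f (f p.1.2)) +
            ∑ j, (lg (PSr r f (f p.1.2) (p.1.1 j)) -
              lg (postW w ρ (PSr r f (f p.1.2)) (Wm w (p.1.1 j) p.2))) +
            ∑ j, lg (Rr C5 w ρ j (Wm w (p.1.1 j) p.2) p.1.1) +
            n * lg ((conc n r hr ρ hρ).q p.1.2) -
            lg (kap (fun _ => r) Finset.univ p.1.1 ^ n) ≤
          (n + 2) * Real.log ((Q p).toReal / (n + 2)) := by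
  have hprop : ∀ m, ∀ h : Xi d (8 * n) (n + 1) → ℝ≥0∞, Measurable h →
      ∫⁻ s, (conc n r hr ρ hρ).PS f m s * ∫⁻ ξ, h (Wm w s ξ) ∂(xiM d (8 * n) (n + 1))
          ∂(conc n r hr ρ hρ).ρ =
        ∫⁻ s, ∫⁻ ξ, postW w ρ (PSr r f m) (Wm w s ξ) * h (Wm w s ξ)
          ∂(xiM d (8 * n) (n + 1)) ∂(conc n r hr ρ hρ).ρ := by
    intro m h hh
    exact postW_prop hw ρ (measurable_PSr hf m) hh
  have hκm : Measurable (fun σ : Fin (n + 1) → E d => kap (fun _ => r) Finset.univ σ ^ n) :=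
    (measurable_kap (fun _ : Fin (n + 1) => r) Finset.univ).pow_const n
  have hκ0 : ∀ σ : Fin (n + 1) → E d, kap (fun _ => r) Finset.univ σ ^ n ≠ 0 := fun σ =>
    pow_ne_zero _ (kap_ne_zero (fun _ => r) (fun _ => hr) Finset.univ ⟨0, Finset.mem_univ _⟩ σ)
  have hκt : ∀ σ : Fin (n + 1) → E d, kap (fun _ => r) Finset.univ σ ^ n ≠ ∞ := fun σ =>
    ENNReal.pow_ne_top
      (kap_ne_top (fun _ => r) (fun _ => hr) Finset.univ ⟨0, Finset.mem_univ _⟩ σ)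
  have hκ1 : ∀ σ : Fin (n + 1) → E d, ∫⁻ u, ∏ l, (conc n r hr ρ hρ).K (σ l) u
      ∂(conc n r hr ρ hρ).ν ≤ kap (fun _ => r) Finset.univ σ ^ n := fun σ =>
    (lintegral_prod_winK hr σ).le
  exact replica (conc n r hr ρ hρ) n f hf (xiM d (8 * n) (n + 1)) (Wm w) (measurable_Wm w)
    (fun m W => postW w ρ (PSr r f m) W)
    (fun m => measurable_postW w ρ (measurable_PSr hf m))
    (fun m W => postW_le_one hw ρ (PSr_le_one hr f m) W) hprop
    (Rr C5 w ρ) (fun j => Rr_meas hC5 hw ρ j) (fun j W σ => Rr_ne_zero hC5 hw ρ j W σ)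
    (fun j W σ σ' h => Rr_dep ρ j W σ σ' h) hRint
    (fun σ => kap (fun _ => r) Finset.univ σ ^ n) hκm hκ0 hκt hκ1

end

end Vale.Agent.P309
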