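import Vale.Agent.Lib.P309.StaticE

/-!
# P309, module STATIC, part F: the pointwise inequality almost everywhere
-/

namespace Vale.Agent.P309

open MeasureTheory ProbabilityTheory
open scoped ENNReal RealInnerProductSpace

attribute [local irreducible] Dsq Wm td KK Rr postW winK winM xiM kap

theorem Rr_zero {d n : ℕ} (C w : ℝ) (ρ : Measure (E d)) (W : Xi d (8 * n) (n + 1))
    (σ : Fin (n + 1) → E d) : Rr C w ρ 0 W σ = 1 := by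
  simp [Rr]

theorem Phi1_ne_top {d n : ℕ} (C r w : ℝ) (N : (Fin n → E d) → ℝ)
    (p : (Fin (n + 1) → E d) × Win d n) : Phi1 C r w N p ≠ ∞ := by
  unfold Phi1
  refine ENNReal.add_ne_top.2 ⟨ENNReal.add_ne_top.2 ⟨ENNReal.add_ne_top.2
    ⟨ENNReal.add_ne_top.2 ⟨ENNReal.ofReal_ne_top, ?_⟩, ?_⟩, ?_⟩, ?_⟩
  · exact ENNReal.mul_ne_top ENNReal.ofReal_ne_top
      (ENNReal.sum_ne_top.2 (fun j _ => ENNReal.ofReal_ne_top))
  · exact ENNReal.mul_ne_top ENNReal.ofReal_ne_top ENNReal.ofReal_ne_top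
  · exact ENNReal.mul_ne_top ENNReal.ofReal_ne_top ENNReal.ofReal_ne_top
  · exact ENNReal.mul_ne_top ENNReal.ofReal_ne_top
      (ENNReal.sum_ne_top.2 (fun j _ => ENNReal.ofReal_ne_top))

theorem Phi2_ne_top {d n : ℕ} (C w : ℝ)
    (p : ((Fin (n + 1) → E d) × Win d n) × Xi d (8 * n) (n + 1)) : Phi2 C w p ≠ ∞ := by
  unfold Phi2
  exact ENNReal.mul_ne_top ENNReal.ofReal_ne_top
    (ENNReal.sum_ne_top.2 (fun j _ => ENNReal.ofReal_ne_top))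

section

variable {d n : ℕ} {r : ℝ} (hr : 0 < r) (ρ : Measure (E d)) (hρ : IsProbabilityMeasure ρ)

/-- The pointwise inequality at a good point. -/
theorem st_pointwise (hd : 1 ≤ d) (hn : 1 ≤ n) {w C5 C' : ℝ} (hw : w = Real.sqrt d * r)
    (hw1 : w ≤ 1) (hC' : 1 ≤ C')
    (hcost : ∀ (j : Fin (n + 1)), j ≠ 0 → ∀ (u : Win d n) (σ : Fin (n + 1) → E d)
      (W : Xi d (8 * n) (n + 1)) (N : ℝ), 0 ≤ N → (∀ e : E d, ∑ i, ⟪u.1 i, e⟫ ^ 2 ≤ N * ‖e‖ ^ 2) →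
      Rr C5 w ρ j W σ ≠ ∞ → KK r ρ u ≠ ∞ →
      -lg (Rr C5 w ρ j W σ) - lg (KK r ρ u) ≤
        n * Real.log (td w (bef j) σ (σ j)) +
          C' * (d + |Real.log (td w (bef j) σ (σ j))| + N +
            (∑ l, ∑ i, ((u.2 i - ⟪u.1 i, σ l⟫) / r) ^ 2) / d +
            Dsq w (bef j) σ W / td w (bef j) σ (σ j) ^ 2))
    {V : Type} [Fintype V] [MeasurableSpace V] [MeasurableSingletonClass V] {f : Win d n → V}
    (N : (Fin n → E d) → ℝ) (hN0 : ∀ X, 0 ≤ N X)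
    (hN : ∀ X (e : E d), ∑ i, ⟪X i, e⟫ ^ 2 ≤ N X * ‖e‖ ^ 2)
    (p : ((Fin (n + 1) → E d) × Win d n) × Xi d (8 * n) (n + 1)) (Q : ℝ≥0∞) (hQt : Q ≠ ∞)
    (hQ0 : Q ≠ 0) (hRt : ∀ j, Rr C5 w ρ j (Wm w (p.1.1 j) p.2) p.1.1 ≠ ∞)
    (hz : KK r ρ p.1.2 / (conc n r hr ρ hρ).q p.1.2 ≠ ∞) (hs : ∀ l, ‖p.1.1 l‖ = 1)
    (hin : lg ((conc n r hr ρ hρ).PM f (f p.1.2)) +
            ∑ j, (lg (PSr r f (f p.1.2) (p.1.1 j)) -
              lg (postW w ρ (PSr r f (f p.1.2)) (Wm w (p.1.1 j) p.2))) +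
            ∑ j, lg (Rr C5 w ρ j (Wm w (p.1.1 j) p.2) p.1.1) +
            n * lg ((conc n r hr ρ hρ).q p.1.2) -
            lg (kap (fun _ => r) Finset.univ p.1.1 ^ n) ≤
          (n + 2) * Real.log (Q.toReal / (n + 2))) :
    ∑ j, (lg (PSr r f (f p.1.2) (p.1.1 j)) -
        lg (postW w ρ (PSr r f (f p.1.2)) (Wm w (p.1.1 j) p.2))) ≤
      (-lg ((conc n r hr ρ hρ).PM f (f p.1.2)) + (Q.toReal - (n + 2)) +
        n * ((KK r ρ p.1.2 / (conc n r hr ρ hρ).q p.1.2).toReal - 1)) +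
      (Phi1 C' r w N p.1 + Phi2 C' w p).toReal := by
  have hd1 : (1 : ℝ) ≤ Real.sqrt d := by
    rw [Real.one_le_sqrt]
    exact_mod_cast hd
  have hrw : r ≤ w := by
    rw [hw]
    nlinarith
  have hq0 : (conc n r hr ρ hρ).q p.1.2 ≠ 0 := (conc n r hr ρ hρ).q_ne_zero p.1.2
  have hqt : (conc n r hr ρ hρ).q p.1.2 ≠ ∞ := (conc n r hr ρ hρ).hq p.1.2
  have hK0 : KK r ρ p.1.2 ≠ 0 := KK_ne_zero hn hr ρ p.1.2
  have hKt : KK r ρ p.1.2 ≠ ∞ := by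
    intro h
    rw [h, ENNReal.top_div_of_ne_top hqt] at hz
    exact hz rfl
  have hQpos : 0 < Q.toReal := ENNReal.toReal_pos hQ0 hQt
  have h := combine (n := n)
    (fun j => lg (PSr r f (f p.1.2) (p.1.1 j)) -
      lg (postW w ρ (PSr r f (f p.1.2)) (Wm w (p.1.1 j) p.2)))
    (fun j => lg (Rr C5 w ρ j (Wm w (p.1.1 j) p.2) p.1.1))
    (fun j => C' * (d + |Real.log (td w (bef j) p.1.1 (p.1.1 j))| + N p.1.2.1 +
            (∑ l, ∑ i, ((p.1.2.2 i - ⟪p.1.2.1 i, p.1.1 l⟫) / r) ^ 2) / d +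
            Dsq w (bef j) p.1.1 (Wm w (p.1.1 j) p.2) / td w (bef j) p.1.1 (p.1.1 j) ^ 2))
    (fun j => Real.log (td w (bef j) p.1.1 (p.1.1 j)))
    (lg ((conc n r hr ρ hρ).PM f (f p.1.2))) (lg ((conc n r hr ρ hρ).q p.1.2))
    (lg (kap (fun _ => r) Finset.univ p.1.1 ^ n)) (lg (kap (fun _ => r) Finset.univ p.1.1))
    (lg (KK r ρ p.1.2)) Q.toReal
    ((KK r ρ p.1.2 / (conc n r hr ρ hρ).q p.1.2).toReal) w
    (∑ l, (td r (Finset.univ.erase l) p.1.1 (p.1.1 l))⁻¹) hQpos hin (st_lg_pow _ n)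
    (lg_kap_le hn hr hrw p.1.1) (by simp only [Rr_zero]; exact st_lg_one)
    (fun j hj => hcost j hj p.1.2 p.1.1 (Wm w (p.1.1 j) p.2) (N p.1.2.1) (hN0 _)
      (fun e => hN _ e) (hRt j) hKt)
    (st_lg_div hK0 hKt hq0 hqt)
  have hc := cost_sum_le hd (zero_le_one.trans hC') hr hrw hw1 N hN0 p hs
  rw [ENNReal.ofReal_le_iff_le_toReal
    (ENNReal.add_ne_top.2 ⟨Phi1_ne_top _ _ _ _ _, Phi2_ne_top _ _ _⟩)] at hc
  linarith

end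

end Vale.Agent.P309
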