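import Vale.Agent.Lib.P309.StaticF

/-!
# P309, module STATIC, part G: integration of the pointwise inequality
-/

namespace Vale.Agent.P309

open MeasureTheory ProbabilityTheory
open scoped ENNReal RealInnerProductSpace

attribute [local irreducible] Dsq Wm td KK Rr postW winK winM xiM kap relEnt PSr

section

variable {d n : ℕ} {r : ℝ} (hr : 0 < r) (ρ : Measure (E d)) (hρ : IsProbabilityMeasure ρ)

/-- the right-hand side is integrable with small integral -/
theorem st_h {V : Type} [Fintype V] [MeasurableSpace V] [MeasurableSingletonClass V]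
    {f : Win d n → V} (hf : Measurable f) (R : Finset V) (hR : ∀ u, f u ∈ R) (hn : 1 ≤ n)
    {Q : ((Fin (n + 1) → E d) × Win d n) × Xi d (8 * n) (n + 1) → ℝ≥0∞} (hQ : Measurable Q)
    (hQi : ∫⁻ p, Q p ∂(((conc n r hr ρ hρ).rep n).prod (xiM d (8 * n) (n + 1))) ≤ n + 2) :
    Integrable (fun p : ((Fin (n + 1) → E d) × Win d n) × Xi d (8 * n) (n + 1) =>
        (-lg ((conc n r hr ρ hρ).PM f (f p.1.2)) + ((Q p).toReal - (n + 2)) +
        n * ((KK r ρ p.1.2 / (conc n r hr ρ hρ).q p.1.2).toReal - 1)))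
        (((conc n r hr ρ hρ).rep n).prod (xiM d (8 * n) (n + 1))) ∧
      ∫ p, (-lg ((conc n r hr ρ hρ).PM f (f p.1.2)) + ((Q p).toReal - (n + 2)) +
        n * ((KK r ρ p.1.2 / (conc n r hr ρ hρ).q p.1.2).toReal - 1))
        ∂(((conc n r hr ρ hρ).rep n).prod (xiM d (8 * n) (n + 1))) ≤ Real.log R.card := by
  set μ := (conc n r hr ρ hρ).rep n with hμ
  set μ' := μ.prod (xiM d (8 * n) (n + 1)) with hμ'
  obtain ⟨hi4, hb4⟩ := stA4 (n := n) hr ρ hρ hf R hR
  rw [← hμ] at hi4 hb4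
  have hfin : ∫⁻ p, Q p ∂μ' ≠ ∞ := by
    refine (hQi.trans_lt ?_).ne
    exact ENNReal.add_lt_top.2 ⟨ENNReal.natCast_lt_top n, by simp⟩
  have hQint : Integrable (fun p => (Q p).toReal) μ' :=
    integrable_toReal_of_lintegral_ne_top hQ.aemeasurable hfin
  have hzm : Measurable (fun p : (Fin (n + 1) → E d) × Win d n =>
      KK r ρ p.2 / (conc n r hr ρ hρ).q p.2) :=
    ((measurable_KK (d := d) (n := n) hr ρ).div (conc n r hr ρ hρ).measurable_q).comp
      measurable_snd
  have hz5 := stA5 (n := n) hr ρ hρ hn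
  rw [← hμ] at hz5
  have hzfin : ∫⁻ p, KK r ρ p.2 / (conc n r hr ρ hρ).q p.2 ∂μ ≠ ∞ :=
    (hz5.trans_lt ENNReal.one_lt_top).ne
  have hzint : Integrable (fun p : (Fin (n + 1) → E d) × Win d n =>
      (KK r ρ p.2 / (conc n r hr ρ hρ).q p.2).toReal) μ :=
    integrable_toReal_of_lintegral_ne_top hzm.aemeasurable hzfin
  have hi4' : Integrable (fun p : ((Fin (n + 1) → E d) × Win d n) × Xi d (8 * n) (n + 1) =>
      -lg ((conc n r hr ρ hρ).PM f (f p.1.2))) μ' := hi4.neg.comp_fst _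
  have hzint' : Integrable (fun p : ((Fin (n + 1) → E d) × Win d n) × Xi d (8 * n) (n + 1) =>
      (KK r ρ p.1.2 / (conc n r hr ρ hρ).q p.1.2).toReal) μ' := hzint.comp_fst _
  have hQ1 : Integrable (fun p => (Q p).toReal - ((n : ℝ) + 2)) μ' :=
    hQint.sub (integrable_const _)
  have hz1 : Integrable (fun p : ((Fin (n + 1) → E d) × Win d n) × Xi d (8 * n) (n + 1) =>
      (n : ℝ) * ((KK r ρ p.1.2 / (conc n r hr ρ hρ).q p.1.2).toReal - 1)) μ' :=
    (hzint'.sub (integrable_const _)).const_mul _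
  have hAB : Integrable (fun p : ((Fin (n + 1) → E d) × Win d n) × Xi d (8 * n) (n + 1) =>
      -lg ((conc n r hr ρ hρ).PM f (f p.1.2)) + ((Q p).toReal - ((n : ℝ) + 2))) μ' :=
    hi4'.add hQ1
  refine ⟨hAB.add hz1, ?_⟩
  rw [integral_add hAB hz1, integral_add hi4' hQ1, integral_sub hQint
    (integrable_const _), integral_const_mul, integral_sub hzint' (integrable_const _)]
  have e1 : ∫ p : ((Fin (n + 1) → E d) × Win d n) × Xi d (8 * n) (n + 1),
      -lg ((conc n r hr ρ hρ).PM f (f p.1.2)) ∂μ' ≤ Real.log R.card := by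
    have := integral_fun_fst (μ := μ) (ν := xiM d (8 * n) (n + 1))
      (fun p : (Fin (n + 1) → E d) × Win d n => -lg ((conc n r hr ρ hρ).PM f (f p.2)))
    rw [← hμ'] at this
    rw [this]
    simpa using hb4
  have e2 : ∫ p, (Q p).toReal ∂μ' ≤ (n : ℝ) + 2 := by
    rw [integral_toReal hQ.aemeasurable (ae_lt_top hQ hfin)]
    have := ENNReal.toReal_mono (ENNReal.add_ne_top.2 ⟨ENNReal.natCast_ne_top n, by simp⟩) hQi
    rw [ENNReal.toReal_add (ENNReal.natCast_ne_top n) (by simp)] at this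
    simpa using this
  have e3 : ∫ p : ((Fin (n + 1) → E d) × Win d n) × Xi d (8 * n) (n + 1),
      (KK r ρ p.1.2 / (conc n r hr ρ hρ).q p.1.2).toReal ∂μ' ≤ 1 := by
    have := integral_fun_fst (μ := μ) (ν := xiM d (8 * n) (n + 1))
      (fun p : (Fin (n + 1) → E d) × Win d n =>
        (KK r ρ p.2 / (conc n r hr ρ hρ).q p.2).toReal)
    rw [← hμ'] at this
    rw [this, integral_toReal hzm.aemeasurable (ae_lt_top hzm hzfin)]
    have h2 := ENNReal.toReal_mono ENNReal.one_ne_top hz5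
    simpa using h2
  have hn0 : (0 : ℝ) ≤ n := Nat.cast_nonneg n
  simp only [integral_const, probReal_univ, smul_eq_mul, one_mul, mul_one]
  nlinarith

/-- integral of the sum of the log-likelihood ratios -/
theorem st_g {V : Type} [Fintype V] [MeasurableSpace V] [MeasurableSingletonClass V]
    {f : Win d n → V} (hf : Measurable f) {w : ℝ} (hw : 0 < w) :
    Integrable (fun p : ((Fin (n + 1) → E d) × Win d n) × Xi d (8 * n) (n + 1) =>
        ∑ j, (lg (PSr r f (f p.1.2) (p.1.1 j)) -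
          lg (postW w ρ (PSr r f (f p.1.2)) (Wm w (p.1.1 j) p.2))))
        (((conc n r hr ρ hρ).rep n).prod (xiM d (8 * n) (n + 1))) ∧
      ∫ p, ∑ j, (lg (PSr r f (f p.1.2) (p.1.1 j)) -
          lg (postW w ρ (PSr r f (f p.1.2)) (Wm w (p.1.1 j) p.2)))
        ∂(((conc n r hr ρ hρ).rep n).prod (xiM d (8 * n) (n + 1))) =
        (n + 1) * relEnt (8 * n) (n + 1) w ρ (PSr r f) := by
  have h := fun l : Fin (n + 1) =>
    relEnt_rep (B := 8 * n) (k := n + 1) (n := n) hw hr ρ hρ hf l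
  refine ⟨integrable_finsetSum _ (fun l _ => (h l).1), ?_⟩
  rw [integral_finsetSum _ (fun l _ => (h l).1)]
  simp only [(h _).2]
  rw [Finset.sum_const, Finset.card_univ, Fintype.card_fin, nsmul_eq_mul]
  push_cast
  ring

end

end Vale.Agent.P309
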