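import Vale.Agent.Lib.P309.Gauss

/-!
# P309, module U1: negative moments of the distance of a uniform point of the sphere to a subspace

Proof: `s = ξ/‖ξ‖`, `dist(s,F) = dist(ξ,F)/‖ξ‖`, and `dist(ξ,F)^2 ≥ ∑_{i<m} ζ_i^2` with
`ζ_i = <e_i, ξ>`, `e_i` orthonormal in `Fᗮ`, `m = d-(n+1) ≥ d/2`.
`(‖ξ‖^2/(4d))^β ≤ exp(‖ξ‖^2/4)` (`β ≤ d`), `(∑ ζ_i^2/d)^{-β} ≤ 2^β ∏ |ζ_i|^{-2β/m}` (AM-GM),
`2β/m ≤ 1/2`, `mom_neg_half`, and `x y ≤ (x^2+y^2)/2` for the product of the two factors (apply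
the two bounds with `2β` in place of `β`... or Cauchy-Schwarz).
Exponents: `dist^{-β} = (‖ξ‖/√d)^β (dist(ξ,F)/√d)^{-β} ≤ ((‖ξ‖^2/d)^β + (dist(ξ,F)^2/d)^{-β})/2`.
-/

namespace Vale.Agent.P309

open MeasureTheory ProbabilityTheory
open scoped ENNReal RealInnerProductSpace

/-- Bessel: lower bound for the distance to a subspace. -/
theorem sqrt_sum_le_infDist {d m : ℕ} (F : Submodule ℝ (E d)) (e : Fin m → E d)
    (he : Orthonormal ℝ e) (heF : ∀ i, e i ∈ Fᗮ) (x : E d) :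
    Real.sqrt (∑ i, ⟪e i, x⟫ ^ 2) ≤ Metric.infDist x (F : Set (E d)) := by
  rw [Metric.le_infDist ⟨0, F.zero_mem⟩]
  intro y hy
  rw [dist_eq_norm]
  refine Real.sqrt_le_iff.2 ⟨norm_nonneg _, ?_⟩
  have h1 : ∀ i, ⟪e i, x⟫ = ⟪e i, x - y⟫ := by
    intro i
    have : ⟪e i, y⟫ = 0 := by
      rw [real_inner_comm]
      exact (Submodule.mem_orthogonal F _).1 (heF i) y hy
    rw [inner_sub_right, this, sub_zero]
  have h2 := he.sum_inner_products_le (s := Finset.univ) (x - y)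
  calc ∑ i, ⟪e i, x⟫ ^ 2 = ∑ i, ‖⟪e i, x - y⟫‖ ^ 2 := by
        refine Finset.sum_congr rfl fun i _ => ?_
        rw [h1 i, Real.norm_eq_abs, sq_abs]
    _ ≤ ‖x - y‖ ^ 2 := h2

/-- AM-GM bound for negative powers. -/
theorem neg_pow_sum_le {m : ℕ} (hm : 0 < m) (β : ℕ) (hβ : 4 * β ≤ m) (z : Fin m → ℝ)
    (hz : ∀ i, z i ≠ 0) :
    ((∑ i, z i ^ 2) / m)⁻¹ ^ β ≤ ∏ i, max 1 (|z i| ^ (-(1 / 2) : ℝ)) := by
  have hm' : (0 : ℝ) < m := by exact_mod_cast hm
  have hβm : 4 * (β : ℝ) ≤ m := by exact_mod_cast hβ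
  have hamgm := Real.geom_mean_le_arith_mean_weighted Finset.univ (fun _ : Fin m => (m : ℝ)⁻¹)
    (fun i => z i ^ 2) (fun i _ => by positivity)
    (by rw [Finset.sum_const, Finset.card_univ, Fintype.card_fin, nsmul_eq_mul,
      mul_inv_cancel₀ hm'.ne']) (fun i _ => sq_nonneg _)
  rw [← Finset.mul_sum, inv_mul_eq_div] at hamgm
  have hzpos : ∀ i, 0 < z i ^ 2 := fun i => by have := hz i; positivity
  have hP : 0 < ∏ i, (z i ^ 2) ^ (m : ℝ)⁻¹ :=
    Finset.prod_pos fun i _ => Real.rpow_pos_of_pos (hzpos i) _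
  have h1 : ((∑ i, z i ^ 2) / m)⁻¹ ^ β ≤ (∏ i, (z i ^ 2) ^ (m : ℝ)⁻¹)⁻¹ ^ β :=
    pow_le_pow_left₀ (inv_nonneg.2 (hP.le.trans hamgm)) (inv_anti₀ hP hamgm) β
  refine h1.trans ?_
  rw [← Finset.prod_inv_distrib, ← Finset.prod_pow]
  refine Finset.prod_le_prod (fun i _ => ?_) fun i _ => ?_
  · exact pow_nonneg (inv_nonneg.2 (Real.rpow_nonneg (sq_nonneg _) _)) _
  · have ha : 0 < |z i| := abs_pos.2 (hz i)
    have e : ((z i ^ 2) ^ (m : ℝ)⁻¹)⁻¹ ^ β = |z i| ^ (-(2 * β / m) : ℝ) := by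
      rw [← sq_abs, ← Real.rpow_natCast (|z i|) 2, ← Real.rpow_mul ha.le,
        ← Real.rpow_neg ha.le, ← Real.rpow_natCast, ← Real.rpow_mul ha.le]
      congr 1
      push_cast
      field_simp
    rw [e]
    have hb0 : 0 ≤ 2 * (β : ℝ) / m := by positivity
    have hb1 : 2 * (β : ℝ) / m ≤ 1 / 2 := by
      rw [div_le_iff₀ hm']; linarith
    rcases le_total 1 (|z i|) with h | h
    · refine le_trans ?_ (le_max_left _ _)
      exact Real.rpow_le_one_of_one_le_of_nonpos h (by linarith)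
    · refine le_trans ?_ (le_max_right _ _)
      exact Real.rpow_le_rpow_of_exponent_ge ha h (by linarith)

/-- elementary: `(x/d)^β ≤ e^x` -/
theorem div_pow_le_exp {d β : ℕ} (hd : 0 < d) (hβ : β ≤ d) (x : ℝ) (hx : 0 ≤ x) :
    (x / d) ^ β ≤ Real.exp x := by
  have hd' : (0 : ℝ) < d := by exact_mod_cast hd
  rcases le_total (x / d) 1 with h | h
  · exact (pow_le_one₀ (by positivity) h).trans (Real.one_le_exp hx)
  · calc (x / d) ^ β ≤ (x / d) ^ d := pow_le_pow_right₀ h hβ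
      _ ≤ (Real.exp (x / d)) ^ d := by
          refine pow_le_pow_left₀ (by positivity) ?_ d
          have := Real.add_one_le_exp (x / d)
          linarith
      _ = Real.exp x := by
          rw [← Real.exp_nat_mul]
          congr 1
          field_simp

/-- the factor of one coordinate -/
noncomputable def hfac (x : ℝ) : ℝ≥0∞ := max 1 (((ENNReal.ofReal |x|)⁻¹) ^ (1 / 2 : ℝ))

theorem measurable_hfac : Measurable hfac := by
  unfold hfac
  fun_prop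

theorem hfac_zero : hfac 0 = ∞ := by
  simp [hfac]

theorem one_le_hfac (x : ℝ) : 1 ≤ hfac x := le_max_left _ _

theorem hfac_of_ne {x : ℝ} (hx : x ≠ 0) :
    hfac x = ENNReal.ofReal (max 1 (|x| ^ (-(1 / 2) : ℝ))) := by
  have ha : 0 < |x| := abs_pos.2 hx
  unfold hfac
  rw [← ENNReal.ofReal_inv_of_pos ha, ENNReal.ofReal_rpow_of_pos (inv_pos.2 ha),
    Real.inv_rpow ha.le, ← Real.rpow_neg ha.le, ENNReal.ofReal_max, ENNReal.ofReal_one]

theorem lintegral_hfac : ∫⁻ x, hfac x ∂(gaussianReal 0 1) ≤ 4 := by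
  have h0 : ∀ᵐ x ∂(gaussianReal 0 1), x ≠ 0 := by
    have : NullSingletonClass (gaussianReal 0 1) := nullSingletonClass_gaussianReal one_ne_zero
    exact compl_mem_ae_iff.2 (measure_singleton 0)
  calc ∫⁻ x, hfac x ∂(gaussianReal 0 1)
      ≤ ∫⁻ x, (1 + ENNReal.ofReal (|x| ^ (-(1 / 2) : ℝ))) ∂(gaussianReal 0 1) := by
        refine lintegral_mono_ae ?_
        filter_upwards [h0] with x hx
        rw [hfac_of_ne hx, ← ENNReal.ofReal_one, ← ENNReal.ofReal_add zero_le_one (by positivity)]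
        refine ENNReal.ofReal_le_ofReal (max_le ?_ ?_)
        · have : 0 ≤ |x| ^ (-(1 / 2) : ℝ) := by positivity
          linarith
        · linarith
    _ = 1 + ∫⁻ x, ENNReal.ofReal (|x| ^ (-(1 / 2) : ℝ)) ∂(gaussianReal 0 1) := by
        rw [lintegral_add_left measurable_const]
        simp
    _ ≤ 1 + 3 := by gcongr; exact mom_neg_half
    _ = 4 := by norm_num

theorem U1 : ∃ C : ℝ, 1 ≤ C ∧ ∀ d n β : ℕ, 1 ≤ n → 128 * n ≤ d → β ≤ 12 * n →
    ∀ F : Submodule ℝ (E d), Module.finrank ℝ F ≤ n + 1 →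
      ∫⁻ s, ((ENNReal.ofReal (Metric.infDist s (F : Set (E d))))⁻¹) ^ β ∂(unif d) ≤
        ENNReal.ofReal (C ^ d) := by
  refine ⟨16, by norm_num, ?_⟩
  intro d n β hn hd hβ F hF
  have hd0 : 0 < d := by omega
  have hd0' : (0 : ℝ) < d := by exact_mod_cast hd0
  -- orthonormal basis of the orthogonal complement
  have hfin := F.finrank_add_finrank_orthogonal
  rw [finrank_euclideanSpace_fin] at hfin
  set m := Module.finrank ℝ Fᗮ with hm
  have hm1 : 0 < m := by omega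
  have hm2 : d ≤ 2 * m := by omega
  have hm3 : 4 * β ≤ m := by omega
  have hm4 : m ≤ d := by omega
  have hβd : β ≤ d := by omega
  have hm1' : (0 : ℝ) < m := by exact_mod_cast hm1
  have hm2' : (d : ℝ) ≤ 2 * m := by exact_mod_cast hm2
  set e : Fin m → E d := fun i => ((stdOrthonormalBasis ℝ Fᗮ) i : E d) with he
  have heo : Orthonormal ℝ e :=
    (stdOrthonormalBasis ℝ Fᗮ).orthonormal.comp_linearIsometry (Fᗮ).subtypeₗᵢ
  have heF : ∀ i, e i ∈ Fᗮ := fun i => ((stdOrthonormalBasis ℝ Fᗮ) i).2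
  -- the integral over the Gaussian
  have hmeas : Measurable fun s : E d =>
      ((ENNReal.ofReal (Metric.infDist s (F : Set (E d))))⁻¹) ^ β := by
    have : Measurable fun s : E d => Metric.infDist s (F : Set (E d)) :=
      (Metric.continuous_infDist_pt _).measurable
    fun_prop
  have hnorm : Measurable fun x : E d => ‖x‖⁻¹ • x := by fun_prop
  unfold unif
  rw [lintegral_map hmeas hnorm]
  -- pointwise bound
  have hpt : ∀ ξ : E d, ((ENNReal.ofReal (Metric.infDist (‖ξ‖⁻¹ • ξ) (F : Set (E d))))⁻¹) ^ β ≤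
      ENNReal.ofReal (4 ^ d) * ENNReal.ofReal (Real.exp (‖ξ‖ ^ 2 / 4)) +
        ENNReal.ofReal (2 ^ d) * ∏ i, hfac ⟪e i, ξ⟫ := by
    intro ξ
    by_cases hz : ∃ i, ⟪e i, ξ⟫ = 0
    · obtain ⟨i, hi⟩ := hz
      have h1 : ∏ i, hfac ⟪e i, ξ⟫ = ∞ := by
        refine ENNReal.eq_top_of_forall_nnreal_le fun r => ?_
        have h2 : hfac ⟪e i, ξ⟫ ≤ ∏ i, hfac ⟪e i, ξ⟫ :=
          Finset.single_le_prod' (f := fun i => hfac ⟪e i, ξ⟫) (fun j _ => one_le_hfac _)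
            (Finset.mem_univ i)
        rw [hi, hfac_zero] at h2
        exact le_top.trans h2
      rw [h1, ENNReal.mul_top (by simp), add_top]
      exact le_top
    · push Not at hz
      have hξ : ξ ≠ 0 := by
        rintro rfl
        exact hz ⟨0, hm1⟩ (inner_zero_right _)
      have hξ0 : 0 < ‖ξ‖ := norm_pos_iff.2 hξ
      set Sz : ℝ := ∑ i, ⟪e i, ξ⟫ ^ 2 with hS
      have hS0 : 0 < Sz := by
        refine Finset.sum_pos (fun i _ => ?_) ⟨⟨0, hm1⟩, Finset.mem_univ _⟩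
        have := hz i
        positivity
      have hD := sqrt_sum_le_infDist F e heo heF (‖ξ‖⁻¹ • ξ)
      have e1 : ∑ i, ⟪e i, ‖ξ‖⁻¹ • ξ⟫ ^ 2 = Sz / ‖ξ‖ ^ 2 := by
        rw [hS, Finset.sum_div]
        refine Finset.sum_congr rfl fun i _ => ?_
        rw [inner_smul_right]
        field_simp
      rw [e1] at hD
      set D := Metric.infDist (‖ξ‖⁻¹ • ξ) (F : Set (E d)) with hDdef
      have hq : 0 < Sz / ‖ξ‖ ^ 2 := by positivity
      have hD0 : 0 < D := lt_of_lt_of_le (Real.sqrt_pos.2 hq) hD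
      rw [← ENNReal.ofReal_inv_of_pos hD0, ← ENNReal.ofReal_pow (by positivity)]
      have hprod : ∏ i, hfac ⟪e i, ξ⟫ =
          ENNReal.ofReal (∏ i, max 1 (|⟪e i, ξ⟫| ^ (-(1 / 2) : ℝ))) := by
        rw [ENNReal.ofReal_prod_of_nonneg (fun i _ => by positivity)]
        exact Finset.prod_congr rfl fun i _ => hfac_of_ne (hz i)
      rw [hprod, ← ENNReal.ofReal_mul (by positivity), ← ENNReal.ofReal_mul (by positivity),
        ← ENNReal.ofReal_add (by positivity)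
          (mul_nonneg (by positivity) (Finset.prod_nonneg fun i _ => by positivity))]
      refine ENNReal.ofReal_le_ofReal ?_
      -- real inequality
      have hDi : D⁻¹ ≤ (Real.sqrt (Sz / ‖ξ‖ ^ 2))⁻¹ := inv_anti₀ (Real.sqrt_pos.2 hq) hD
      have hsplit : (Real.sqrt (Sz / ‖ξ‖ ^ 2))⁻¹ =
          Real.sqrt (‖ξ‖ ^ 2 / d) * Real.sqrt ((Sz / d)⁻¹) := by
        rw [← Real.sqrt_inv, ← Real.sqrt_mul (by positivity)]
        congr 1
        field_simp
      have h1 : D⁻¹ ^ β ≤ (‖ξ‖ ^ 2 / d) ^ β + (Sz / d)⁻¹ ^ β := by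
        calc D⁻¹ ^ β ≤ (Real.sqrt (‖ξ‖ ^ 2 / d) * Real.sqrt ((Sz / d)⁻¹)) ^ β := by
              rw [← hsplit]; exact pow_le_pow_left₀ (by positivity) hDi β
          _ = (Real.sqrt (‖ξ‖ ^ 2 / d)) ^ β * (Real.sqrt ((Sz / d)⁻¹)) ^ β := mul_pow _ _ _
          _ ≤ ((Real.sqrt (‖ξ‖ ^ 2 / d)) ^ β) ^ 2 + ((Real.sqrt ((Sz / d)⁻¹)) ^ β) ^ 2 := by
              nlinarith [sq_nonneg ((Real.sqrt (‖ξ‖ ^ 2 / d)) ^ β - (Real.sqrt ((Sz / d)⁻¹)) ^ β),
                sq_nonneg ((Real.sqrt (‖ξ‖ ^ 2 / d)) ^ β), sq_nonneg ((Real.sqrt ((Sz / d)⁻¹)) ^ β)]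
          _ = _ := by
              rw [← pow_mul, ← pow_mul, mul_comm β 2, pow_mul, pow_mul,
                Real.sq_sqrt (by positivity), Real.sq_sqrt (by positivity)]
      have h2 : (‖ξ‖ ^ 2 / d) ^ β ≤ 4 ^ d * Real.exp (‖ξ‖ ^ 2 / 4) := by
        have h3 := div_pow_le_exp hd0 hβd (‖ξ‖ ^ 2 / 4) (by positivity)
        have h4 : (‖ξ‖ ^ 2 / d) ^ β = 4 ^ β * (‖ξ‖ ^ 2 / 4 / d) ^ β := by
          rw [← mul_pow]
          congr 1
          field_simp
        rw [h4]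
        exact mul_le_mul (pow_le_pow_right₀ (by norm_num) hβd) h3 (by positivity) (by positivity)
      have h5 : (Sz / d)⁻¹ ^ β ≤ 2 ^ d * ∏ i, max 1 (|⟪e i, ξ⟫| ^ (-(1 / 2) : ℝ)) := by
        have h6 := neg_pow_sum_le hm1 β hm3 (fun i => ⟪e i, ξ⟫) hz
        have h7 : (Sz / d)⁻¹ ≤ 2 * (Sz / m)⁻¹ := by
          rw [inv_div, inv_div, ← mul_div_assoc]
          exact div_le_div_of_nonneg_right hm2' hS0.le
        calc (Sz / d)⁻¹ ^ β ≤ (2 * (Sz / m)⁻¹) ^ β :=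
              pow_le_pow_left₀ (by positivity) h7 β
          _ = 2 ^ β * (Sz / m)⁻¹ ^ β := mul_pow _ _ _
          _ ≤ 2 ^ d * ∏ i, max 1 (|⟪e i, ξ⟫| ^ (-(1 / 2) : ℝ)) :=
              mul_le_mul (pow_le_pow_right₀ (by norm_num) hβd) h6 (by positivity) (by positivity)
      linarith
  refine (lintegral_mono hpt).trans ?_
  have hexpm : Measurable fun ξ : E d => ENNReal.ofReal (Real.exp (‖ξ‖ ^ 2 / 4)) := by fun_prop
  rw [lintegral_add_left (hexpm.const_mul _), lintegral_const_mul _ hexpm]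
  have hprodm : Measurable fun ξ : E d => ∏ i, hfac ⟪e i, ξ⟫ := by
    refine Finset.measurable_prod _ fun i _ => ?_
    exact measurable_hfac.comp (by fun_prop)
  rw [lintegral_const_mul _ hprodm,
    lintegral_orthonormal e heo (fun _ => hfac) (fun _ => measurable_hfac)]
  have hA := lintegral_exp_norm (H := E d)
  rw [finrank_euclideanSpace_fin] at hA
  have hB : ∏ _i : Fin m, ∫⁻ x, hfac x ∂(gaussianReal 0 1) ≤ 4 ^ d := by
    calc ∏ _i : Fin m, ∫⁻ x, hfac x ∂(gaussianReal 0 1) ≤ ∏ _i : Fin m, (4 : ℝ≥0∞) :=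
          Finset.prod_le_prod' fun i _ => lintegral_hfac
      _ = 4 ^ m := by simp
      _ ≤ 4 ^ d := pow_le_pow_right₀ (by norm_num) hm4
  calc ENNReal.ofReal (4 ^ d) * ∫⁻ ξ, ENNReal.ofReal (Real.exp (‖ξ‖ ^ 2 / 4)) ∂(stdGaussian (E d)) +
        ENNReal.ofReal (2 ^ d) * ∏ _i : Fin m, ∫⁻ x, hfac x ∂(gaussianReal 0 1)
      ≤ ENNReal.ofReal (4 ^ d) * 2 ^ d + ENNReal.ofReal (2 ^ d) * 4 ^ d := by gcongr
    _ = ENNReal.ofReal (8 ^ d + 8 ^ d) := by
        rw [ENNReal.ofReal_add (by positivity) (by positivity)]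
        have e2 : (2 : ℝ≥0∞) ^ d = ENNReal.ofReal (2 ^ d) := by
          rw [ENNReal.ofReal_pow (by norm_num)]; norm_num
        have e4 : (4 : ℝ≥0∞) ^ d = ENNReal.ofReal (4 ^ d) := by
          rw [ENNReal.ofReal_pow (by norm_num)]; norm_num
        rw [e2, e4, ← ENNReal.ofReal_mul (by positivity), ← ENNReal.ofReal_mul (by positivity),
          ← mul_pow, ← mul_pow]
        norm_num
    _ ≤ ENNReal.ofReal (16 ^ d) := by
        refine ENNReal.ofReal_le_ofReal ?_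
        have h1 : (16 : ℝ) ^ d = 2 ^ d * 8 ^ d := by rw [← mul_pow]; norm_num
        have h2 : (2 : ℝ) ≤ 2 ^ d := by
          calc (2 : ℝ) = 2 ^ 1 := (pow_one _).symm
            _ ≤ 2 ^ d := pow_le_pow_right₀ (by norm_num) hd0
        have h3 : (0 : ℝ) < 8 ^ d := by positivity
        rw [h1]
        nlinarith

end Vale.Agent.P309
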