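import Vale.Agent.Lib.P309.Gauss

/-!
# P309, module UPCODE: a finite code for the unit ball
-/

namespace Vale.Agent.P309

open MeasureTheory ProbabilityTheory
open scoped ENNReal RealInnerProductSpace

/-- Rounding of the points of the unit ball to `2^M` code words (grid of mesh `2δ/√d`),
preceded by the projection on the unit ball: for every point `s` of the unit ball,
`‖code (rnd x) - s‖ ≤ ‖x - s‖ + δ`. -/
theorem exists_code {d : ℕ} (hd : 1 ≤ d) {δ : ℝ} (hδ : 0 < δ) (hδ1 : δ ≤ 1) (M : ℕ)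
    (hM : (2 * Real.sqrt d / δ + 2) ^ d ≤ (2 : ℝ) ^ M) :
    ∃ (code : Fin (2 ^ M) → E d) (rnd : E d → Fin (2 ^ M)), Measurable rnd ∧
      ∀ x s : E d, ‖s‖ ≤ 1 → ‖code (rnd x) - s‖ ≤ ‖x - s‖ + δ := by
  sorry

end Vale.Agent.P309
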