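import Vale.Agent.Lib.P309.Gauss

/-!
# P309, module UPKAC: one Kaczmarz step
-/

namespace Vale.Agent.P309

open MeasureTheory ProbabilityTheory
open scoped ENNReal RealInnerProductSpace

/-- Kaczmarz update of `z` with the pair `(x,y)`. -/
noncomputable def kstep {d : ℕ} (z x : E d) (y : ℝ) : E d := z + ((y - ⟪x, z⟫) / ‖x‖ ^ 2) • x

theorem kac_ae_ne {d : ℕ} (hd : 1 ≤ d) : ∀ᵐ x ∂(stdGaussian (E d)), x ≠ 0 := by
  have h0 : (stdGaussian (E d)) {0} = 0 := by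
    have i0 : Fin d := ⟨0, hd⟩
    have : NullSingletonClass (stdGaussian (E d)) := by
      apply IsGaussian.nullSingletonClass
      intro x hx
      have h1 := variance_dual_stdGaussian
        (InnerProductSpace.toDual ℝ (E d) (EuclideanSpace.single i0 (1 : ℝ)))
      rw [hx] at h1
      simp at h1
    exact measure_singleton _
  rw [ae_iff]
  simpa using h0

/-- `E <x,e>^2/‖x‖^2 = ‖e‖^2/d` (rotation invariance; sum over an orthonormal basis). -/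
theorem kac_expect {d : ℕ} (hd : 1 ≤ d) (e : E d) :
    ∫⁻ x, ENNReal.ofReal (⟪x, e⟫ ^ 2 / ‖x‖ ^ 2) ∂(stdGaussian (E d)) =
      ENNReal.ofReal (‖e‖ ^ 2 / d) := by
  have hm : ∀ e : E d, Measurable fun x : E d => ENNReal.ofReal (⟪x, e⟫ ^ 2 / ‖x‖ ^ 2) := by
    intro e
    fun_prop
  have hrot : ∀ e e' : E d, ‖e‖ = ‖e'‖ →
      ∫⁻ x, ENNReal.ofReal (⟪x, e⟫ ^ 2 / ‖x‖ ^ 2) ∂(stdGaussian (E d)) =
        ∫⁻ x, ENNReal.ofReal (⟪x, e'⟫ ^ 2 / ‖x‖ ^ 2) ∂(stdGaussian (E d)) := by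
    intro e e' hee
    set R : E d ≃ₗᵢ[ℝ] E d := (ℝ ∙ (e - e'))ᗮ.reflection with hR
    have hRe : R e = e' := Submodule.reflection_sub hee
    have h1 : ∫⁻ x, ENNReal.ofReal (⟪x, e'⟫ ^ 2 / ‖x‖ ^ 2) ∂(stdGaussian (E d)) =
        ∫⁻ x, ENNReal.ofReal (⟪R x, e'⟫ ^ 2 / ‖R x‖ ^ 2) ∂(stdGaussian (E d)) := by
      conv_lhs => rw [← stdGaussian_map R]
      rw [lintegral_map (hm e') R.continuous.measurable]
    rw [h1]
    refine lintegral_congr fun x => ?_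
    rw [← hRe, R.inner_map_map, R.norm_map]
  set b : OrthonormalBasis (Fin d) ℝ (E d) := EuclideanSpace.basisFun (Fin d) ℝ with hb
  have hnb : ∀ i, ‖b i‖ = 1 := fun i => b.orthonormal.1 i
  have hsum : ∑ i, ∫⁻ x, ENNReal.ofReal (⟪x, b i⟫ ^ 2 / ‖x‖ ^ 2) ∂(stdGaussian (E d)) = 1 := by
    rw [← lintegral_finsetSum _ fun i _ => hm (b i)]
    have h1 : ∫⁻ x, ∑ i, ENNReal.ofReal (⟪x, b i⟫ ^ 2 / ‖x‖ ^ 2) ∂(stdGaussian (E d)) =
        ∫⁻ _, 1 ∂(stdGaussian (E d)) := by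
      apply lintegral_congr_ae
      filter_upwards [kac_ae_ne hd] with x hx
      rw [← ENNReal.ofReal_sum_of_nonneg fun i _ => by positivity, ← Finset.sum_div,
        b.sum_sq_inner_left, div_self, ENNReal.ofReal_one]
      exact pow_ne_zero 2 (norm_ne_zero_iff.2 hx)
    rw [h1]
    simp
  have hd0 : (0 : ℝ) < d := by exact_mod_cast hd
  have hunit : ∀ u : E d, ‖u‖ = 1 →
      ∫⁻ x, ENNReal.ofReal (⟪x, u⟫ ^ 2 / ‖x‖ ^ 2) ∂(stdGaussian (E d)) =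
        ENNReal.ofReal (1 / d) := by
    intro u hu
    have h2 : ∀ i, ∫⁻ x, ENNReal.ofReal (⟪x, b i⟫ ^ 2 / ‖x‖ ^ 2) ∂(stdGaussian (E d)) =
        ∫⁻ x, ENNReal.ofReal (⟪x, u⟫ ^ 2 / ‖x‖ ^ 2) ∂(stdGaussian (E d)) := by
      intro i
      apply hrot
      rw [hnb, hu]
    rw [Finset.sum_congr rfl fun i _ => h2 i, Finset.sum_const, Finset.card_univ,
      Fintype.card_fin, nsmul_eq_mul] at hsum
    rw [one_div, ENNReal.ofReal_inv_of_pos hd0, ENNReal.ofReal_natCast]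
    exact ENNReal.eq_inv_of_mul_eq_one_left (by rw [mul_comm]; exact hsum)
  by_cases he : e = 0
  · subst he
    simp
  · have hne : 0 < ‖e‖ := norm_pos_iff.2 he
    have h3 := hunit (‖e‖⁻¹ • e) (by rw [norm_smul, norm_inv, norm_norm, inv_mul_cancel₀ hne.ne'])
    have h4 : ∀ x : E d, ENNReal.ofReal (⟪x, e⟫ ^ 2 / ‖x‖ ^ 2) =
        ENNReal.ofReal (‖e‖ ^ 2) * ENNReal.ofReal (⟪x, ‖e‖⁻¹ • e⟫ ^ 2 / ‖x‖ ^ 2) := by
      intro x
      rw [← ENNReal.ofReal_mul (by positivity), real_inner_smul_right]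
      congr 1
      field_simp
    rw [lintegral_congr h4, lintegral_const_mul _ (hm _), h3, ← ENNReal.ofReal_mul (by positivity)]
    congr 1
    ring

theorem measurable_kstep {d : ℕ} :
    Measurable (fun p : E d × E d × ℝ => kstep p.1 p.2.1 p.2.2) := by
  unfold kstep
  fun_prop

/-- One exact Kaczmarz step contracts the expected squared error by `1 - 1/d`. -/
theorem kac_step {d : ℕ} (hd : 1 ≤ d) (z s : E d) :
    ∫⁻ x, ENNReal.ofReal (‖kstep z x ⟪x, s⟫ - s‖ ^ 2) ∂(stdGaussian (E d)) =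
      ENNReal.ofReal ((1 - 1 / d) * ‖z - s‖ ^ 2) := by
  have hd0 : (0 : ℝ) < d := by exact_mod_cast hd
  have hd1 : (1 : ℝ) ≤ d := by exact_mod_cast hd
  have hm1 : Measurable fun x : E d => ENNReal.ofReal (‖kstep z x ⟪x, s⟫ - s‖ ^ 2) := by
    unfold kstep
    fun_prop
  have hm : Measurable fun x : E d => ENNReal.ofReal (⟪x, z - s⟫ ^ 2 / ‖x‖ ^ 2) := by
    fun_prop
  have hkey : ∀ x : E d, x ≠ 0 → ‖kstep z x ⟪x, s⟫ - s‖ ^ 2 + ⟪x, z - s⟫ ^ 2 / ‖x‖ ^ 2 =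
      ‖z - s‖ ^ 2 := by
    intro x hx
    have hx' : ‖x‖ ≠ 0 := norm_ne_zero_iff.2 hx
    have h1 : kstep z x ⟪x, s⟫ - s = (z - s) - (⟪x, z - s⟫ / ‖x‖ ^ 2) • x := by
      unfold kstep
      rw [inner_sub_right]
      module
    rw [h1, norm_sub_sq_real, real_inner_smul_right, norm_smul, Real.norm_eq_abs, mul_pow,
      sq_abs, real_inner_comm]
    field_simp
    ring
  have h1 : ∫⁻ x, ENNReal.ofReal (‖kstep z x ⟪x, s⟫ - s‖ ^ 2) ∂(stdGaussian (E d)) +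
      ∫⁻ x, ENNReal.ofReal (⟪x, z - s⟫ ^ 2 / ‖x‖ ^ 2) ∂(stdGaussian (E d)) =
        ENNReal.ofReal (‖z - s‖ ^ 2) := by
    rw [← lintegral_add_left hm1]
    have h2 : ∫⁻ x, (ENNReal.ofReal (‖kstep z x ⟪x, s⟫ - s‖ ^ 2) +
        ENNReal.ofReal (⟪x, z - s⟫ ^ 2 / ‖x‖ ^ 2)) ∂(stdGaussian (E d)) =
        ∫⁻ _, ENNReal.ofReal (‖z - s‖ ^ 2) ∂(stdGaussian (E d)) := by
      apply lintegral_congr_ae
      filter_upwards [kac_ae_ne hd] with x hx
      rw [← ENNReal.ofReal_add (by positivity) (by positivity), hkey x hx]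
    rw [h2]
    simp
  rw [kac_expect hd] at h1
  have h3 : ENNReal.ofReal ((1 - 1 / d) * ‖z - s‖ ^ 2) + ENNReal.ofReal (‖z - s‖ ^ 2 / d) =
      ENNReal.ofReal (‖z - s‖ ^ 2) := by
    have h4 : (0 : ℝ) ≤ (1 - 1 / d) := by
      rw [sub_nonneg, div_le_one hd0]
      exact hd1
    rw [← ENNReal.ofReal_add (by positivity) (by positivity)]
    congr 1
    ring
  rw [← h3] at h1
  exact (ENNReal.add_left_inj ENNReal.ofReal_ne_top).1 h1

end Vale.Agent.P309
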