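import Vale.Agent.Lib.P309.UpKac
import Vale.Agent.Lib.P309.UpCode
import Vale.Agent.Lib.P309.Model

/-!
# P309, module UPPER: the rounded Kaczmarz learner

`z_{t+1} = code (rnd (kstep z_t x_t y_t))`, `δ = ε/(50 d)`; `|z'-s|^2 ≤ (1+1/(2d))|k-s|^2 + (1+2d)δ^2`,
`e_{t+1} ≤ (1-1/(2d)) e_t + 3dδ^2`, `e_T ≤ 4 exp(-T/(2d)) + 6d^2δ^2 ≤ ε^2/300`; Markov at
`|z_T - s| > ε/4`; output `z/‖z‖` (`|z/‖z‖ - s| ≤ 2|z-s|`, angle ≤ (π/2) chord).  The learner never
stops early; for indices `t ≥ T` nothing happens.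
-/

namespace Vale.Agent.P309

open MeasureTheory ProbabilityTheory
open scoped ENNReal RealInnerProductSpace

/-- normalisation with a default value -/
noncomputable def upr_nrm {d : ℕ} (e z : E d) : E d := if z = 0 then e else ‖z‖⁻¹ • z

theorem upr_nrm_norm {d : ℕ} (e z : E d) (he : ‖e‖ = 1) : ‖upr_nrm e z‖ = 1 := by
  unfold upr_nrm
  split_ifs with h
  · exact he
  · have : ‖z‖ ≠ 0 := norm_ne_zero_iff.2 h
    rw [norm_smul, norm_inv, norm_norm, inv_mul_cancel₀ this]

/-- the rounded Kaczmarz learner -/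
noncomputable def upr_learner {d M : ℕ} (code : Fin (2 ^ M) → E d) (rnd : E d → Fin (2 ^ M))
    (hr : Measurable rnd) (e : E d) (he : ‖e‖ = 1) : Learner d M Unit where
  init := fun _ => (rnd 0, false)
  step := fun _ _ v x y => (rnd (kstep (code v) x y), false)
  out := fun _ _ v => upr_nrm e (code v)
  init_meas := measurable_const
  step_meas := by
    intro t v
    refine Measurable.prodMk ?_ measurable_const
    refine hr.comp ?_
    have h := measurable_kstep (d := d)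
    exact h.comp (measurable_const.prodMk ((measurable_fst.comp measurable_snd).prodMk
      (measurable_snd.comp measurable_snd)))
  out_meas := fun _ _ => measurable_const
  out_norm := fun _ _ v => upr_nrm_norm e (code v) he

section
variable {d M : ℕ} (code : Fin (2 ^ M) → E d) (rnd : E d → Fin (2 ^ M))

/-- the state after `t` samples -/
noncomputable def upr_st {T : ℕ} (s : E d) (x : Fin T → E d) : ℕ → Fin (2 ^ M)
  | 0 => rnd 0
  | (t + 1) => if h : t < T then
      rnd (kstep (code (upr_st s x t)) (x ⟨t, h⟩) ⟪x ⟨t, h⟩, s⟫) else upr_st s x t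

theorem upr_run (hr : Measurable rnd) (e : E d) (he : ‖e‖ = 1) {T : ℕ} (ω : Unit) (s : E d)
    (x : Fin T → E d) (t : ℕ) :
    (upr_learner code rnd hr e he).run ω s x t = (upr_st code rnd s x t, none) := by
  induction t with
  | zero => simp [Learner.run, upr_learner, upr_st]
  | succ t ih =>
    rw [Learner.run, ih]
    simp only [upr_st]
    by_cases h : t < T
    · rw [dif_pos h, dif_pos h]
      simp [upr_learner]
    · rw [dif_neg h, dif_neg h]

theorem upr_estimate (hr : Measurable rnd) (e : E d) (he : ‖e‖ = 1) {T : ℕ} (ω : Unit) (s : E d)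
    (x : Fin T → E d) :
    (upr_learner code rnd hr e he).estimate ω s x = upr_nrm e (code (upr_st code rnd s x T)) := by
  unfold Learner.estimate
  rw [upr_run]
  rfl

theorem upr_st_init {T : ℕ} (s : E d) (x : Fin (T + 1) → E d) (t : ℕ) (ht : t ≤ T) :
    upr_st code rnd s x t = upr_st code rnd s (Fin.init x) t := by
  induction t with
  | zero => rfl
  | succ t ih =>
    have h1 : t < T + 1 := by omega
    have h2 : t < T := by omega
    simp only [upr_st]
    rw [dif_pos h1, dif_pos h2, ih (by omega)]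
    rfl

theorem upr_meas (hr : Measurable rnd) {T : ℕ} (t : ℕ) :
    Measurable (fun p : E d × (Fin T → E d) => upr_st code rnd p.1 p.2 t) := by
  induction t with
  | zero => exact measurable_const
  | succ t ih =>
    simp only [upr_st]
    by_cases h : t < T
    · simp only [dif_pos h]
      refine hr.comp ?_
      have h1 : Measurable (fun p : E d × (Fin T → E d) => code (upr_st code rnd p.1 p.2 t)) :=
        (measurable_of_finite code).comp ih
      have h2 : Measurable (fun p : E d × (Fin T → E d) => p.2 ⟨t, h⟩) :=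
        (measurable_pi_apply _).comp measurable_snd
      have h3 : Measurable (fun p : E d × (Fin T → E d) => (⟪p.2 ⟨t, h⟩, p.1⟫ : ℝ)) :=
        h2.inner measurable_fst
      exact (measurable_kstep (d := d)).comp (h1.prodMk (h2.prodMk h3))
    · simp only [dif_neg h]
      exact ih

/-- one step -/
theorem upr_step (hd : 1 ≤ d) {δ : ℝ} (hδ : 0 < δ)
    (hcode : ∀ x s : E d, ‖s‖ ≤ 1 → ‖code (rnd x) - s‖ ≤ ‖x - s‖ + δ)
    (z s : E d) (hs : ‖s‖ ≤ 1) :
    ∫⁻ x, ENNReal.ofReal (‖code (rnd (kstep z x ⟪x, s⟫)) - s‖ ^ 2) ∂(stdGaussian (E d)) ≤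
      ENNReal.ofReal ((1 - 1 / (2 * d)) * ‖z - s‖ ^ 2 + 3 * d * δ ^ 2) := by
  have hd' : (1:ℝ) ≤ d := by exact_mod_cast hd
  have hd0 : (0:ℝ) < d := by linarith
  have hpt : ∀ x : E d, ENNReal.ofReal (‖code (rnd (kstep z x ⟪x, s⟫)) - s‖ ^ 2) ≤
      ENNReal.ofReal (1 + 1 / (2 * d)) * ENNReal.ofReal (‖kstep z x ⟪x, s⟫ - s‖ ^ 2) +
        ENNReal.ofReal (3 * d * δ ^ 2) := by
    intro x
    rw [← ENNReal.ofReal_mul (by positivity), ← ENNReal.ofReal_add (by positivity) (by positivity)]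
    apply ENNReal.ofReal_le_ofReal
    have h1 := hcode (kstep z x ⟪x, s⟫) s hs
    set a := ‖kstep z x ⟪x, s⟫ - s‖ with ha
    have ha0 : 0 ≤ a := norm_nonneg _
    have h2 : ‖code (rnd (kstep z x ⟪x, s⟫)) - s‖ ^ 2 ≤ (a + δ) ^ 2 :=
      pow_le_pow_left₀ (norm_nonneg _) h1 2
    have h3 : (a + δ) ^ 2 ≤ (1 + 1 / (2 * d)) * a ^ 2 + (1 + 2 * d) * δ ^ 2 := by
      have h4 : 2 * (a * δ) ≤ 1 / (2 * d) * a ^ 2 + 2 * d * δ ^ 2 := by
        have h5 : 0 ≤ 1 / (2 * (d:ℝ)) * (a - 2 * d * δ) ^ 2 := by positivity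
        have h6 : 1 / (2 * (d:ℝ)) * (a - 2 * d * δ) ^ 2 =
            1 / (2 * d) * a ^ 2 + 2 * d * δ ^ 2 - 2 * (a * δ) := by
          field_simp
          ring
        linarith
      nlinarith
    have h7 : (1 + 2 * (d:ℝ)) * δ ^ 2 ≤ 3 * d * δ ^ 2 := by
      apply mul_le_mul_of_nonneg_right _ (by positivity)
      linarith
    linarith
  calc ∫⁻ x, ENNReal.ofReal (‖code (rnd (kstep z x ⟪x, s⟫)) - s‖ ^ 2) ∂(stdGaussian (E d))
      ≤ ∫⁻ x, (ENNReal.ofReal (1 + 1 / (2 * d)) * ENNReal.ofReal (‖kstep z x ⟪x, s⟫ - s‖ ^ 2) +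
        ENNReal.ofReal (3 * d * δ ^ 2)) ∂(stdGaussian (E d)) := lintegral_mono hpt
    _ = ENNReal.ofReal (1 + 1 / (2 * d)) * ENNReal.ofReal ((1 - 1 / d) * ‖z - s‖ ^ 2) +
        ENNReal.ofReal (3 * d * δ ^ 2) := by
        rw [lintegral_add_right _ measurable_const, lintegral_const_mul', kac_step hd,
          lintegral_const, measure_univ, mul_one]
        exact ENNReal.ofReal_ne_top
    _ = ENNReal.ofReal ((1 + 1 / (2 * d)) * ((1 - 1 / d) * ‖z - s‖ ^ 2) + 3 * d * δ ^ 2) := by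
        have h1 : (0:ℝ) ≤ 1 - 1 / d := by
          rw [sub_nonneg, div_le_one hd0]; exact hd'
        rw [← ENNReal.ofReal_mul (by positivity), ← ENNReal.ofReal_add (by positivity)
          (by positivity)]
    _ ≤ _ := by
        apply ENNReal.ofReal_le_ofReal
        have h1 : (1 + 1 / (2 * (d:ℝ))) * (1 - 1 / d) ≤ 1 - 1 / (2 * d) := by
          have h2 : (1 + 1 / (2 * (d:ℝ))) * (1 - 1 / d) =
              1 - 1 / (2 * d) - 1 / (2 * d ^ 2) := by
            field_simp
            ring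
          rw [h2]
          have : (0:ℝ) ≤ 1 / (2 * d ^ 2) := by positivity
          linarith
        have h3 := mul_le_mul_of_nonneg_right h1 (sq_nonneg ‖z - s‖)
        linarith

/-- the expected squared error -/
theorem upr_err (hd : 1 ≤ d) {δ : ℝ} (hδ : 0 < δ) (hδ1 : δ ≤ 1) (hr : Measurable rnd)
    (hcode : ∀ x s : E d, ‖s‖ ≤ 1 → ‖code (rnd x) - s‖ ≤ ‖x - s‖ + δ)
    (s : E d) (hs : ‖s‖ ≤ 1) (T : ℕ) :
    ∫⁻ x, ENNReal.ofReal (‖code (upr_st code rnd s x T) - s‖ ^ 2) ∂(rows d T) ≤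
      ENNReal.ofReal (4 * (1 - 1 / (2 * d)) ^ T + 6 * d ^ 2 * δ ^ 2) := by
  have hd' : (1:ℝ) ≤ d := by exact_mod_cast hd
  have hd0 : (0:ℝ) < d := by linarith
  have ha0 : (0:ℝ) ≤ 1 - 1 / (2 * d) := by
    rw [sub_nonneg, div_le_one (by positivity)]; linarith
  induction T with
  | zero =>
    have h1 : ∀ x : Fin 0 → E d, ENNReal.ofReal (‖code (upr_st code rnd s x 0) - s‖ ^ 2) ≤
        ENNReal.ofReal 4 := by
      intro x
      apply ENNReal.ofReal_le_ofReal
      simp only [upr_st]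
      have h2 := hcode 0 s hs
      rw [zero_sub, norm_neg] at h2
      have h3 : ‖code (rnd 0) - s‖ ≤ 2 := by linarith
      calc ‖code (rnd 0) - s‖ ^ 2 ≤ 2 ^ 2 := pow_le_pow_left₀ (norm_nonneg _) h3 2
        _ = 4 := by norm_num
    calc ∫⁻ x, ENNReal.ofReal (‖code (upr_st code rnd s x 0) - s‖ ^ 2) ∂(rows d 0)
        ≤ ∫⁻ _x, ENNReal.ofReal 4 ∂(rows d 0) := lintegral_mono h1
      _ = ENNReal.ofReal 4 := by
          unfold rows
          rw [lintegral_const, measure_univ, mul_one]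
      _ ≤ _ := by
          apply ENNReal.ofReal_le_ofReal
          have : (0:ℝ) ≤ 6 * d ^ 2 * δ ^ 2 := by positivity
          linarith
  | succ n ih =>
    have hmp := (measurePreserving_piFinSuccAbove (fun _ : Fin (n + 1) => stdGaussian (E d))
      (Fin.last n)).symm
    have hmeas : Measurable (fun x : Fin (n + 1) → E d =>
        ENNReal.ofReal (‖code (upr_st code rnd s x (n + 1)) - s‖ ^ 2)) := by
      have h1 : Measurable (fun x : Fin (n + 1) → E d => code (upr_st code rnd s x (n + 1))) :=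
        (measurable_of_finite code).comp ((upr_meas code rnd hr (n + 1)).comp
          (measurable_const.prodMk measurable_id))
      exact ((h1.sub measurable_const).norm.pow_const 2).ennreal_ofReal
    have hkey : ∀ (x0 : E d) (x' : Fin n → E d),
        upr_st code rnd s ((MeasurableEquiv.piFinSuccAbove (fun _ : Fin (n + 1) => E d)
          (Fin.last n)).symm (x0, x')) (n + 1) =
        rnd (kstep (code (upr_st code rnd s x' n)) x0 ⟪x0, s⟫) := by
      intro x0 x'
      set y := (MeasurableEquiv.piFinSuccAbove (fun _ : Fin (n + 1) => E d)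
          (Fin.last n)).symm (x0, x') with hy
      have hlast : y (Fin.last n) = x0 := by
        rw [hy]
        simp [MeasurableEquiv.piFinSuccAbove, Fin.insertNthEquiv]
      have hinit : Fin.init y = x' := by
        funext i
        rw [hy]
        unfold Fin.init
        have := Fin.insertNth_apply_succAbove (α := fun _ => E d) (Fin.last n) x0 x' i
        rw [Fin.succAbove_last] at this
        exact this
      have h1 : n < n + 1 := by omega
      have h2 : upr_st code rnd s y (n + 1) =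
          rnd (kstep (code (upr_st code rnd s y n)) (y ⟨n, h1⟩) ⟪y ⟨n, h1⟩, s⟫) := by
        conv_lhs => rw [upr_st]
        rw [dif_pos h1]
      rw [h2, upr_st_init code rnd s y n le_rfl, hinit]
      have h3 : y ⟨n, h1⟩ = x0 := hlast
      rw [h3]
    have h1 : ∫⁻ x, ENNReal.ofReal (‖code (upr_st code rnd s x (n + 1)) - s‖ ^ 2)
        ∂(rows d (n + 1)) =
        ∫⁻ p, ENNReal.ofReal (‖code (rnd (kstep (code (upr_st code rnd s p.2 n)) p.1
          ⟪p.1, s⟫)) - s‖ ^ 2) ∂((stdGaussian (E d)).prod (rows d n)) := by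
      unfold rows
      rw [← hmp.lintegral_comp hmeas]
      apply lintegral_congr
      rintro ⟨x0, x'⟩
      rw [hkey]
    have hmeas2 : Measurable (fun p : E d × (Fin n → E d) =>
        ENNReal.ofReal (‖code (rnd (kstep (code (upr_st code rnd s p.2 n)) p.1
          ⟪p.1, s⟫)) - s‖ ^ 2)) := by
      have h1 : Measurable (fun p : E d × (Fin n → E d) => code (upr_st code rnd s p.2 n)) :=
        (measurable_of_finite code).comp ((upr_meas code rnd hr n).comp
          (measurable_const.prodMk measurable_snd))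
      have h3 : Measurable (fun p : E d × (Fin n → E d) => (⟪p.1, s⟫ : ℝ)) :=
        measurable_fst.inner measurable_const
      have h4 := (measurable_of_finite code).comp (hr.comp ((measurable_kstep (d := d)).comp
        (h1.prodMk (measurable_fst.prodMk h3))))
      exact ((h4.sub measurable_const).norm.pow_const 2).ennreal_ofReal
    rw [h1, lintegral_prod_symm _ hmeas2.aemeasurable]
    calc ∫⁻ x', ∫⁻ x0, ENNReal.ofReal (‖code (rnd (kstep (code (upr_st code rnd s x' n)) x0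
          ⟪x0, s⟫)) - s‖ ^ 2) ∂(stdGaussian (E d)) ∂(rows d n)
        ≤ ∫⁻ x', (ENNReal.ofReal (1 - 1 / (2 * d)) *
            ENNReal.ofReal (‖code (upr_st code rnd s x' n) - s‖ ^ 2) +
            ENNReal.ofReal (3 * d * δ ^ 2)) ∂(rows d n) := by
          apply lintegral_mono
          intro x'
          refine (upr_step code rnd hd hδ hcode _ s hs).trans (le_of_eq ?_)
          beta_reduce
          rw [← ENNReal.ofReal_mul ha0, ← ENNReal.ofReal_add (by positivity) (by positivity)]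
      _ = ENNReal.ofReal (1 - 1 / (2 * d)) *
            ∫⁻ x', ENNReal.ofReal (‖code (upr_st code rnd s x' n) - s‖ ^ 2) ∂(rows d n) +
            ENNReal.ofReal (3 * d * δ ^ 2) := by
          rw [lintegral_add_right _ measurable_const, lintegral_const_mul' _ _
            ENNReal.ofReal_ne_top, lintegral_const]
          congr 1
          unfold rows
          rw [measure_univ, mul_one]
      _ ≤ ENNReal.ofReal (1 - 1 / (2 * d)) *
            ENNReal.ofReal (4 * (1 - 1 / (2 * d)) ^ n + 6 * d ^ 2 * δ ^ 2) +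
            ENNReal.ofReal (3 * d * δ ^ 2) := by gcongr
      _ = ENNReal.ofReal ((1 - 1 / (2 * d)) *
            (4 * (1 - 1 / (2 * d)) ^ n + 6 * d ^ 2 * δ ^ 2) + 3 * d * δ ^ 2) := by
          rw [← ENNReal.ofReal_mul ha0, ← ENNReal.ofReal_add (by positivity) (by positivity)]
      _ = _ := by
          congr 1
          have h2 : (1 - 1 / (2 * (d:ℝ))) * (6 * d ^ 2 * δ ^ 2) + 3 * d * δ ^ 2 =
              6 * d ^ 2 * δ ^ 2 := by
            field_simp
            ring
          rw [pow_succ]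
          generalize (1 - 1 / (2 * (d:ℝ))) = a at h2 ⊢
          linear_combination h2

end

/-- angle estimate -/
theorem upr_angle {d : ℕ} (e z s : E d) (ε : ℝ) (hε : 0 < ε) (hε2 : ε ≤ 1 / 2) (hs : ‖s‖ = 1)
    (hz : ‖z - s‖ ≤ ε / 4) : Real.arccos ⟪upr_nrm e z, s⟫ ≤ ε := by
  have h1 : ‖s‖ ≤ ‖z‖ + ‖z - s‖ := by
    calc ‖s‖ = ‖z - (z - s)‖ := by rw [sub_sub_cancel]
      _ ≤ ‖z‖ + ‖z - s‖ := norm_sub_le _ _
  have hz0 : z ≠ 0 := by
    rintro rfl
    rw [norm_zero, hs] at h1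
    linarith
  have hzn : 0 < ‖z‖ := norm_pos_iff.2 hz0
  unfold upr_nrm
  rw [if_neg hz0]
  set u := ‖z‖⁻¹ • z with hu
  have hun : ‖u‖ = 1 := by
    rw [hu, norm_smul, norm_inv, norm_norm, inv_mul_cancel₀ hzn.ne']
  have huz : ‖u - z‖ = |1 - ‖z‖| := by
    have h2 : u - z = (1 - ‖z‖) • u := by
      rw [sub_smul, one_smul, hu, smul_smul, mul_inv_cancel₀ hzn.ne', one_smul]
    rw [h2, norm_smul, hun, mul_one, Real.norm_eq_abs]
  have h3 : |1 - ‖z‖| ≤ ‖z - s‖ := by
    rw [← hs]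
    rw [norm_sub_rev z s]
    exact abs_norm_sub_norm_le s z
  have h4 : ‖u - s‖ ≤ ε / 2 := by
    calc ‖u - s‖ = ‖(u - z) + (z - s)‖ := by rw [sub_add_sub_cancel]
      _ ≤ ‖u - z‖ + ‖z - s‖ := norm_add_le _ _
      _ ≤ ε / 4 + ε / 4 := by rw [huz]; linarith
      _ = ε / 2 := by ring
  have h5 : ‖u - s‖ ^ 2 = 2 - 2 * ⟪u, s⟫ := by
    rw [norm_sub_sq_real, hun, hs]; ring
  have h6 : ‖u - s‖ ^ 2 ≤ (ε / 2) ^ 2 := pow_le_pow_left₀ (norm_nonneg _) h4 2
  have h7 : 1 - ε ^ 2 / 8 ≤ ⟪u, s⟫ := by nlinarith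
  have h8 := Real.cos_bound (x := ε) (by rw [abs_of_pos hε]; linarith)
  rw [abs_of_pos hε] at h8
  have h9 := (abs_le.1 h8).2
  have h10 : Real.cos ε ≤ ⟪u, s⟫ := by
    have h11 : ε ^ 4 ≤ ε ^ 2 := by
      calc ε ^ 4 = ε ^ 2 * ε ^ 2 := by ring
        _ ≤ ε ^ 2 * 1 := by
          apply mul_le_mul_of_nonneg_left _ (by positivity)
          nlinarith
        _ = ε ^ 2 := mul_one _
    nlinarith [sq_nonneg ε]
  calc Real.arccos ⟪u, s⟫ ≤ Real.arccos (Real.cos ε) := Real.arccos_le_arccos h10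
    _ = ε := Real.arccos_cos hε.le (by linarith [Real.pi_gt_three])

theorem upr_memory (d M : ℕ) (ε : ℝ) (hd : 2 ≤ d) (hε : 0 < ε) (hε2 : ε ≤ 1 / 2)
    (hM : 100 * d * Real.log (d / ε) ≤ M) :
    (2 * Real.sqrt d / (ε / (50 * d)) + 2) ^ d ≤ (2 : ℝ) ^ M := by
  have hd2 : (2:ℝ) ≤ d := by exact_mod_cast hd
  have hd0 : (0:ℝ) < d := by linarith
  set q : ℝ := d / ε with hq
  have hq4 : 4 ≤ q := by
    rw [hq, le_div_iff₀ hε]; linarith
  have hq0 : 0 < q := by linarith
  have hsq : Real.sqrt d ≤ d := by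
    rw [Real.sqrt_le_left hd0.le]
    nlinarith
  have h1 : 2 * Real.sqrt d / (ε / (50 * d)) + 2 ≤ q ^ 6 := by
    have h2 : 2 * Real.sqrt d / (ε / (50 * d)) = 100 * (Real.sqrt d * d) / ε := by
      field_simp
      ring
    have h3 : 100 * (Real.sqrt d * d) / ε ≤ 100 * q ^ 2 := by
      rw [hq, div_pow, div_le_iff₀ hε]
      have h4 : 100 * ((d:ℝ) ^ 2 / ε ^ 2) * ε = 100 * (d ^ 2 / ε) := by
        field_simp
      rw [h4]
      have h5 : (d:ℝ) ^ 2 ≤ d ^ 2 / ε := by
        rw [le_div_iff₀ hε]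
        nlinarith [sq_nonneg (d:ℝ)]
      have h6 : Real.sqrt d * d ≤ d ^ 2 := by nlinarith
      linarith
    have h7 : (16:ℝ) ≤ q ^ 2 := by nlinarith
    have h8 : q ^ 6 = q ^ 2 * q ^ 2 * q ^ 2 := by ring
    rw [h2, h8]
    have h9 : (256:ℝ) ≤ q ^ 2 * q ^ 2 := by nlinarith
    have h10 : 256 * q ^ 2 ≤ q ^ 2 * q ^ 2 * q ^ 2 :=
      mul_le_mul_of_nonneg_right h9 (by positivity)
    linarith
  have h2 : (0:ℝ) ≤ 2 * Real.sqrt d / (ε / (50 * d)) + 2 := by positivity
  have hlogq : 0 ≤ Real.log q := Real.log_nonneg (by linarith)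
  have hlog2 : (1:ℝ) / 2 ≤ Real.log 2 := by
    have := Real.log_two_gt_d9
    linarith
  calc (2 * Real.sqrt d / (ε / (50 * d)) + 2) ^ d ≤ (q ^ 6) ^ d := pow_le_pow_left₀ h2 h1 d
    _ = (Real.exp (Real.log q)) ^ (6 * d) := by rw [Real.exp_log hq0, pow_mul]
    _ = Real.exp ((6 * d : ℕ) * Real.log q) := by rw [← Real.exp_nat_mul]
    _ ≤ Real.exp (M * Real.log 2) := by
        apply Real.exp_le_exp.2
        push_cast
        have h3 : (M:ℝ) * (1 / 2) ≤ M * Real.log 2 :=
          mul_le_mul_of_nonneg_left hlog2 (Nat.cast_nonneg M)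
        have h4 : 0 ≤ (d:ℝ) * Real.log q := by positivity
        nlinarith
    _ = 2 ^ M := by
        rw [Real.exp_nat_mul, Real.exp_log (by norm_num)]

theorem upr_decay (d T : ℕ) (ε : ℝ) (hd : 2 ≤ d) (hε : 0 < ε) (hε2 : ε ≤ 1 / 2)
    (hT : 100 * d * Real.log (1 / ε) ≤ T) :
    4 * (1 - 1 / (2 * (d:ℝ))) ^ T + 6 * d ^ 2 * (ε / (50 * d)) ^ 2 ≤ ε ^ 2 / 16 * (1 / 3) := by
  have hd2 : (2:ℝ) ≤ d := by exact_mod_cast hd
  have hd0 : (0:ℝ) < d := by linarith
  have ha0 : (0:ℝ) ≤ 1 - 1 / (2 * d) := by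
    rw [sub_nonneg, div_le_one (by positivity)]; linarith
  have h1 : (1 - 1 / (2 * (d:ℝ))) ^ T ≤ ε ^ 50 := by
    calc (1 - 1 / (2 * (d:ℝ))) ^ T ≤ (Real.exp (-(1 / (2 * d)))) ^ T := by
          apply pow_le_pow_left₀ ha0
          have := Real.add_one_le_exp (-(1 / (2 * (d:ℝ))))
          linarith
      _ = Real.exp (T * (-(1 / (2 * d)))) := by rw [← Real.exp_nat_mul]
      _ ≤ Real.exp ((50:ℕ) * Real.log ε) := by
          apply Real.exp_le_exp.2
          have h2 : Real.log (1 / ε) = - Real.log ε := by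
            rw [one_div, Real.log_inv]
          rw [h2] at hT
          have h3 : (T:ℝ) * (-(1 / (2 * d))) = -(T / (2 * d)) := by ring
          have h4 : 50 * (-Real.log ε) ≤ T / (2 * d) := by
            rw [le_div_iff₀ (by positivity)]
            nlinarith
          rw [h3]
          push_cast
          linarith
      _ = ε ^ 50 := by rw [Real.exp_nat_mul, Real.exp_log hε]
  have h2 : 6 * (d:ℝ) ^ 2 * (ε / (50 * d)) ^ 2 = 6 / 2500 * ε ^ 2 := by
    field_simp
    norm_num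
  have h3 : ε ^ 50 ≤ ε ^ 2 * (1 / 2) ^ 48 := by
    calc ε ^ 50 = ε ^ 2 * ε ^ 48 := by ring
      _ ≤ ε ^ 2 * (1 / 2) ^ 48 := by
        apply mul_le_mul_of_nonneg_left _ (by positivity)
        exact pow_le_pow_left₀ hε.le hε2 48
  have h4 : (1 / 2 : ℝ) ^ 48 ≤ 1 / 1000 := by norm_num
  have h5 : ε ^ 2 * (1 / 2) ^ 48 ≤ ε ^ 2 * (1 / 1000) :=
    mul_le_mul_of_nonneg_left h4 (by positivity)
  rw [h2]
  have h6 : 0 < ε ^ 2 := by positivity
  linarith

theorem upper : ∃ C : ℝ, 0 < C ∧ ∀ (d M T : ℕ) (ε : ℝ), 2 ≤ d → 0 < ε → ε ≤ 1 / 2 →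
    C * d * Real.log (d / ε) ≤ M → C * d * Real.log (1 / ε) ≤ T →
    ∃ A : Learner d M Unit, A.Succeeds T (Measure.dirac ()) ε := by
  refine ⟨100, by norm_num, ?_⟩
  intro d M T ε hd hε hε2 hM hT
  have hd1 : 1 ≤ d := by omega
  have hd2 : (2:ℝ) ≤ d := by exact_mod_cast hd
  have hd0 : (0:ℝ) < d := by linarith
  set δ : ℝ := ε / (50 * d) with hδdef
  have hδ : 0 < δ := by rw [hδdef]; positivity
  have hδ1 : δ ≤ 1 := by
    rw [hδdef, div_le_one (by positivity)]
    linarith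
  obtain ⟨code, rnd, hr, hcode⟩ := exists_code hd1 hδ hδ1 M (upr_memory d M ε hd hε hε2 hM)
  set e : E d := EuclideanSpace.single (⟨0, by omega⟩ : Fin d) (1:ℝ) with he_def
  have he : ‖e‖ = 1 := by
    rw [he_def, EuclideanSpace.norm_single, norm_one]
  refine ⟨upr_learner code rnd hr e he, ?_⟩
  have := sphereUnif_prob hd1
  have hrp : IsProbabilityMeasure (rows d T) := by unfold rows; infer_instance
  unfold Learner.Succeeds
  set μ := (((Measure.dirac ()).prod (sphereUnif d)).prod (rows d T)) with hμ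
  set f : (Unit × Metric.sphere (0 : E d) 1) × (Fin T → E d) → ℝ≥0∞ :=
    fun p => ENNReal.ofReal (‖code (upr_st code rnd (p.1.2 : E d) p.2 T) - (p.1.2 : E d)‖ ^ 2)
    with hf
  have hfm : Measurable f := by
    have h1 : Measurable (fun p : (Unit × Metric.sphere (0 : E d) 1) × (Fin T → E d) =>
        ((p.1.2 : E d), p.2)) :=
      (measurable_subtype_coe.comp (measurable_snd.comp measurable_fst)).prodMk measurable_snd
    have h2 := (measurable_of_finite code).comp ((upr_meas code rnd hr (T := T) T).comp h1)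
    have h3 : Measurable (fun p : (Unit × Metric.sphere (0 : E d) 1) × (Fin T → E d) =>
        (p.1.2 : E d)) := measurable_subtype_coe.comp (measurable_snd.comp measurable_fst)
    exact ((h2.sub h3).norm.pow_const 2).ennreal_ofReal
  set B : ℝ := 4 * (1 - 1 / (2 * (d:ℝ))) ^ T + 6 * d ^ 2 * δ ^ 2 with hB
  have hint : ∫⁻ p, f p ∂μ ≤ ENNReal.ofReal B := by
    rw [hμ, lintegral_prod _ hfm.aemeasurable]
    calc ∫⁻ q, ∫⁻ x, f (q, x) ∂(rows d T) ∂((Measure.dirac ()).prod (sphereUnif d))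
        ≤ ∫⁻ _q, ENNReal.ofReal B ∂((Measure.dirac ()).prod (sphereUnif d)) := by
          apply lintegral_mono
          intro q
          have hq : ‖(q.2 : E d)‖ ≤ 1 := by
            have := q.2.2
            rw [mem_sphere_zero_iff_norm] at this
            exact this.le
          exact upr_err code rnd hd1 hδ hδ1 hr hcode (q.2 : E d) hq T
      _ = ENNReal.ofReal B := by
          rw [lintegral_const, measure_univ, mul_one]
  have hBle : B ≤ ε ^ 2 / 16 * (1 / 3) := upr_decay d T ε hd hε hε2 hT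
  have hmarkov : μ {p | ENNReal.ofReal (ε ^ 2 / 16) ≤ f p} ≤ ENNReal.ofReal (1 / 3) := by
    have h1 := mul_meas_ge_le_lintegral₀ (μ := μ) hfm.aemeasurable (ENNReal.ofReal (ε ^ 2 / 16))
    have h2 : ENNReal.ofReal (ε ^ 2 / 16) * μ {p | ENNReal.ofReal (ε ^ 2 / 16) ≤ f p} ≤
        ENNReal.ofReal (ε ^ 2 / 16) * ENNReal.ofReal (1 / 3) := by
      rw [← ENNReal.ofReal_mul (by positivity)]
      exact h1.trans (hint.trans (ENNReal.ofReal_le_ofReal hBle))
    have h3 : ENNReal.ofReal (ε ^ 2 / 16) ≠ 0 := by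
      rw [Ne, ENNReal.ofReal_eq_zero, not_le]; positivity
    exact (ENNReal.mul_le_mul_iff_right h3 ENNReal.ofReal_ne_top).1 h2
  set S : Set ((Unit × Metric.sphere (0 : E d) 1) × (Fin T → E d)) :=
    {p | Real.arccos ⟪(upr_learner code rnd hr e he).estimate p.1.1 (p.1.2 : E d) p.2,
      (p.1.2 : E d)⟫ ≤ ε} with hS
  have hcover : (Set.univ : Set ((Unit × Metric.sphere (0 : E d) 1) × (Fin T → E d))) ⊆
      S ∪ {p | ENNReal.ofReal (ε ^ 2 / 16) ≤ f p} := by
    intro p _
    by_cases hp : ‖code (upr_st code rnd (p.1.2 : E d) p.2 T) - (p.1.2 : E d)‖ ≤ ε / 4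
    · left
      rw [hS, Set.mem_setOf_eq, upr_estimate]
      have hq : ‖(p.1.2 : E d)‖ = 1 := by
        have := p.1.2.2
        rwa [mem_sphere_zero_iff_norm] at this
      exact upr_angle e _ _ ε hε hε2 hq hp
    · right
      rw [Set.mem_setOf_eq, hf]
      apply ENNReal.ofReal_le_ofReal
      have h1 : ε / 4 ≤ ‖code (upr_st code rnd (p.1.2 : E d) p.2 T) - (p.1.2 : E d)‖ :=
        (not_le.1 hp).le
      calc ε ^ 2 / 16 = (ε / 4) ^ 2 := by ring
        _ ≤ _ := pow_le_pow_left₀ (by positivity) h1 2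
  have h1 : (1 : ℝ≥0∞) ≤ μ S + ENNReal.ofReal (1 / 3) := by
    calc (1 : ℝ≥0∞) = μ Set.univ := (measure_univ).symm
      _ ≤ μ (S ∪ {p | ENNReal.ofReal (ε ^ 2 / 16) ≤ f p}) := measure_mono hcover
      _ ≤ μ S + μ {p | ENNReal.ofReal (ε ^ 2 / 16) ≤ f p} := measure_union_le _ _
      _ ≤ μ S + ENNReal.ofReal (1 / 3) := by gcongr
  have h2 : (1 : ℝ≥0∞) = ENNReal.ofReal (2 / 3) + ENNReal.ofReal (1 / 3) := by
    rw [← ENNReal.ofReal_add (by norm_num) (by norm_num)]
    norm_num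
  rw [h2] at h1
  exact (ENNReal.add_le_add_iff_right ENNReal.ofReal_ne_top).1 h1

end Vale.Agent.P309
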